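import Mathlib

/-! Row 186 (Tachikawa / Auslander–Reiten): interface. Everything is in characteristic two. -/

set_option autoImplicit false

noncomputable section
namespace Crest.Agent.H6.Tk
open MulOpposite Finsupp

section
variable {R : Type} [Ring R] (V : Type) [AddCommGroup V] [Module R V] [Module Rᵐᵒᵖ V]
  [SMulCommClass R Rᵐᵒᵖ V] {I J L : Type}

/-- `V ⊗ g` for a bimodule `V` -/
def tens (g : (I →₀ R) →ₗ[R] (J →₀ R)) : (I →₀ V) →ₗ[R] (J →₀ V) :=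
  Finsupp.lsum ℕ fun i =>
    { toFun := fun v => (g (single i 1)).mapRange (fun r => op r • v) (by simp)
      map_add' := fun v w => by ext j; simp
      map_smul' := fun a v => by ext j; simp [smul_comm a] }

@[simp] lemma tens_single (g : (I →₀ R) →ₗ[R] (J →₀ R)) (i : I) (v : V) (j : J) :
    tens V g (single i v) j = op (g (single i 1) j) • v := by simp [tens]

lemma tens_self (g : (I →₀ R) →ₗ[R] (J →₀ R)) : tens R g = g := by
  refine Finsupp.lhom_ext fun i v => ?_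
  ext j
  have : (single i v : I →₀ R) = v • single i 1 := by simp
  rw [tens_single, this, map_smul]; simp

lemma tens_add (g g' : (I →₀ R) →ₗ[R] (J →₀ R)) : tens V (g + g') = tens V g + tens V g' := by
  refine Finsupp.lhom_ext fun i v => ?_
  ext j; simp [add_smul]

lemma tens_zero : tens V (0 : (I →₀ R) →ₗ[R] (J →₀ R)) = 0 := by
  refine Finsupp.lhom_ext fun i v => ?_
  ext j; simp

lemma tens_mapRange (g : (I →₀ R) →ₗ[R] (J →₀ R)) (x : I →₀ R) (v : V) :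
    tens V g (x.mapRange (fun r => op r • v) (by simp)) =
      (g x).mapRange (fun r => op r • v) (by simp) := by
  induction x using Finsupp.induction_linear with
  | zero => simp
  | add x y hx hy =>
    rw [mapRange_add (by simp [add_smul]), map_add, hx, hy, map_add, mapRange_add (by simp [add_smul])]
  | single i r =>
    ext j
    have : (single i r : I →₀ R) = r • single i 1 := by simp
    rw [mapRange_single, tens_single, this, map_smul]
    simp [mul_smul]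

lemma tens_comp (g : (I →₀ R) →ₗ[R] (J →₀ R)) (g' : (J →₀ R) →ₗ[R] (L →₀ R)) :
    tens V (g' ∘ₗ g) = tens V g' ∘ₗ tens V g := by
  refine Finsupp.lhom_ext fun i v => ?_
  have : tens V g (single i v) = (g (single i 1)).mapRange (fun r => op r • v) (by simp) := by
    ext j; simp
  rw [LinearMap.comp_apply, this, tens_mapRange]
  ext j; simp

/-- degree and idempotent condition on a matrix with entries in `V` -/
def IsM (dI : I → ℤ) (eI : I → R) (dJ : J → ℤ) (eJ : J → R) (n : ℤ) (Φ : (I →₀ R) →ₗ[R] (J →₀ V)) :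
    Prop :=
  ∀ i j, (dJ j ≠ dI i + n → Φ (single i 1) j = 0) ∧ eI i • Φ (single i 1) j = Φ (single i 1) j ∧
    op (eJ j) • Φ (single i 1) j = Φ (single i 1) j
end

/-- a complex of finitely generated projective left modules `⊕ R ε i` -/
structure Cx (R : Type) [Ring R] where
  I : Type
  deg : I → ℤ
  fin : ∀ n, {i | deg i = n}.Finite
  ε : I → R
  idem : ∀ i, ε i * ε i = ε i
  d : (I →₀ R) →ₗ[R] (I →₀ R)
  d_isM : IsM R deg ε deg ε 1 d
  dd : d ∘ₗ d = 0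

section
variable {R : Type} [Ring R]

def pt (R : Type) [Ring R] : Cx R where
  I := Unit
  deg _ := 0
  fin _ := Set.toFinite _
  ε _ := 1
  idem _ := one_mul _
  d := 0
  d_isM i j := by simp
  dd := by simp

variable (P P' : Cx R) (V : Type) [AddCommGroup V] [Module R V] [Module Rᵐᵒᵖ V]
  [SMulCommClass R Rᵐᵒᵖ V]

abbrev Ch := (P.I →₀ R) →ₗ[R] (P'.I →₀ V)
/-- cochains of degree `n` of `Hom (P, V ⊗ P')` -/
def IsC (n : ℤ) (Φ : Ch P P' V) : Prop := IsM V P.deg P.ε P'.deg P'.ε n Φ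
def δ (Φ : Ch P P' V) : Ch P P' V := Φ ∘ₗ P.d + tens V P'.d ∘ₗ Φ
/-- coboundary of degree `n` -/
def Bd (n : ℤ) (Φ : Ch P P' V) : Prop := ∃ Ψ, IsC P P' V (n - 1) Ψ ∧ δ P P' V Ψ = Φ
/-- cocycle of degree `n` -/
def Cy (n : ℤ) (Φ : Ch P P' V) : Prop := IsC P P' V n Φ ∧ δ P P' V Φ = 0
def Van (n : ℤ) : Prop := ∀ Φ, Cy P P' V n Φ → Bd P P' V n Φ
/-- `V ⊗ P` is exact -/
def Row : Prop := ∀ n, Van (pt R) P V n
/-- `Hom (P, V)` is exact -/
def Col : Prop := ∀ n, Van P (pt R) V n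
/-- the identity of `P` -/
def Cx.one : Ch P P R := Finsupp.lsum ℕ fun i => Finsupp.lsingle i ∘ₗ LinearMap.toSpanSingleton R R (P.ε i)
/-- the row vector `ε i` at `i` -/
def Cx.row (i : P.I) : Ch (pt R) P R :=
  Finsupp.lsum ℕ fun _ => Finsupp.lsingle i ∘ₗ LinearMap.toSpanSingleton R R (P.ε i)
/-- the column vector `ε i` at `i` -/
def Cx.col (i : P.I) : Ch P (pt R) R := Finsupp.lsingle () ∘ₗ Finsupp.lapply i ∘ₗ P.one
end

/-- split basic with simples `ι`, nilpotent radical of nonzero fourth power -/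
def Split (k A ι : Type) [Field k] [Ring A] [Algebra k A] : Prop :=
  ∃ π : A →ₐ[k] (ι → k), Function.Surjective π ∧ (∃ N : ℕ, RingHom.ker π ^ N = ⊥)

def Four (k A ι : Type) [Field k] [Ring A] [Algebra k A] : Prop :=
  ∃ π : A →ₐ[k] (ι → k), Function.Surjective π ∧ (∃ N : ℕ, RingHom.ker π ^ N = ⊥) ∧
    RingHom.ker π ^ 4 ≠ ⊥

/-- the one-dimensional module `χ` is exceptional and `RHom (χ, B)` is `χ` in degree `m` -/
structure BD (k : Type) [Field k] (B : Type) [Ring B] [Algebra k B] (m : ℕ) where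
  fd : FiniteDimensional k B
  χ : B →ₐ[k] k
  f : B
  ff : f * f = f
  χf : χ f = 1
  tr : ∀ c : B, LinearMap.trace k B (LinearMap.mulLeft k f ∘ₗ LinearMap.mulRight k c) = 0
  Qp : Cx B
  Qm : Cx B
  ip : Qp.I
  im : Qm.I
  degp : ∀ i, Qp.deg i ≤ 0
  degm : ∀ i, -(m : ℤ) ≤ Qm.deg i
  deg_ip : Qp.deg ip = 0
  deg_im : Qm.deg im = -(m : ℤ)
  χ_ip : χ (Qp.ε ip) = 1
  χ_im : χ (Qm.ε im) = 1
  χp : ∀ i, i ≠ ip → χ (Qp.ε i) = 0
  χm : ∀ i, i ≠ im → χ (Qm.ε i) = 0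
  φ : Ch Qp Qm B
  φ_cy : Cy Qp Qm B 0 φ
  rowp : ∀ n v, Cy (pt B) Qp B n v → χ (v (single () 1) ip) = 0 → Bd (pt B) Qp B n v
  rowm : ∀ n v, Cy (pt B) Qm B n v → (n ≠ 0 → Bd (pt B) Qm B n v) ∧
    ∃ c : k, Bd (pt B) Qm B n (v + c • (φ ∘ₗ Qp.row ip))
  rowm' : ¬ Bd (pt B) Qm B 0 (φ ∘ₗ Qp.row ip)
  colm : ∀ n w, Cy Qm (pt B) B n w → χ (w (single im 1) ()) = 0 → Bd Qm (pt B) B n w
  colp : ∀ n w, Cy Qp (pt B) B n w → (n ≠ m → Bd Qp (pt B) B n w) ∧
    ∃ c : k, Bd Qp (pt B) B n (w + c • (Qm.col im ∘ₗ φ))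
  colp' : ¬ Bd Qp (pt B) B m (Qm.col im ∘ₗ φ)

/-- M1: the ten-dimensional algebra -/
def CStmt : Prop := ∀ (k : Type) [Field k] [CharP k 2] (q : k), q ≠ 0 → (∀ n : ℕ, 0 < n → q ^ n ≠ 1) →
  ∃ (C : Type) (_ : Ring C) (_ : Algebra k C) (_ : BD k C 2) (π : C →ₐ[k] (Fin 2 → k)),
    Function.Surjective π ∧ (∃ N : ℕ, RingHom.ker π ^ N = ⊥) ∧
    ∃ x y, π x = 0 ∧ π y = 0 ∧ x * y ≠ 0

/-- M2: Künneth -/
def TensStmt : Prop := ∀ (k : Type) [Field k] [CharP k 2] (B B' : Type) [Ring B] [Algebra k B] [Ring B']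
  [Algebra k B'] (a b : ℕ), BD k B a → BD k B' b → Nonempty (BD k (TensorProduct k B B') (a + b))

open DualNumber TrivSqZeroExt in
/-- the complete resolution of `χ` over the dual numbers -/
structure PD {k : Type} [Field k] {B : Type} [Ring B] [Algebra k B] {m : ℕ} (X : BD k B m) where
  P : Cx (DualNumber B)
  e : (ℕ × X.Qp.I) ⊕ (ℕ × X.Qm.I) ≃ P.I
  deg_l : ∀ w i, P.deg (e (.inl (w, i))) = X.Qp.deg i - w
  deg_r : ∀ w i, P.deg (e (.inr (w, i))) = X.Qm.deg i + w + 1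
  ε_l : ∀ w i, P.ε (e (.inl (w, i))) = inl (X.Qp.ε i)
  ε_r : ∀ w i, P.ε (e (.inr (w, i))) = inl (X.Qm.ε i)
  d_l0 : ∀ i, P.d (single (e (.inl (0, i))) 1) =
    (X.Qp.d (single i 1)).sum (fun j b => single (e (.inl (0, j))) (inl b)) +
      (X.φ (single i 1)).sum (fun j b => single (e (.inr (0, j))) (inr b))
  d_l : ∀ w i, P.d (single (e (.inl (w + 1, i))) 1) =
    (X.Qp.d (single i 1)).sum (fun j b => single (e (.inl (w + 1, j))) (inl b)) +
      single (e (.inl (w, i))) (inr (X.Qp.ε i))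
  d_r : ∀ w i, P.d (single (e (.inr (w, i))) 1) =
    (X.Qm.d (single i 1)).sum (fun j b => single (e (.inr (w, j))) (inl b)) +
      single (e (.inr (w + 1, i))) (inr (X.Qm.ε i))

/-- weight of a generator -/
def PD.wt {k : Type} [Field k] {B : Type} [Ring B] [Algebra k B] {m : ℕ} {X : BD k B m} (Y : PD X)
    (i : Y.P.I) : ℤ := Sum.elim (fun x => (x.1 : ℤ)) (fun x => -1 - (x.1 : ℤ)) (Y.e.symm i)

/-- the twist `z ↦ q z` -/
def σ {k : Type} [Field k] {B : Type} [Ring B] [Algebra k B] (q : k) (a : DualNumber B) : DualNumber B :=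
  TrivSqZeroExt.inl a.fst + TrivSqZeroExt.inr (q • a.snd)

/-- conjugation by the twist -/
def PD.cj {k : Type} [Field k] {B : Type} [Ring B] [Algebra k B] {m : ℕ} {X : BD k B m} (Y : PD X) (q : k)
    (u : Ch Y.P Y.P (DualNumber B)) : Ch Y.P Y.P (DualNumber B) :=
  Finsupp.linearCombination (DualNumber B) fun i =>
    (u (single i 1)).sum fun j a => single j (q ^ (Y.wt j - Y.wt i) • σ q a)

/-- M3a -/
def PStmt : Prop := ∀ (k : Type) [Field k] [CharP k 2] (B : Type) [Ring B] [Algebra k B] (m : ℕ)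
  (X : BD k B m), ∃ Y : PD X, Row Y.P (DualNumber B) ∧ Col Y.P (DualNumber B)

/-- properties of a twist -/
structure Tw (k : Type) [Field k] {E : Type} [Ring E] [Algebra k E] (P : Cx E) (c : Ch P P E → Ch P P E) :
    Prop where
  add : ∀ u v, c (u + v) = c u + c v
  isC : ∀ n u, IsC P P E n u → IsC P P E n (c u)
  comm : ∀ u, c (δ P P E u) = δ P P E (c u)
  one : c P.one = P.one
  inj : ∀ n u, n ≠ 0 → Cy P P E n u → Bd P P E n (u + c u) → Bd P P E n u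
  surj : ∀ n u, Cy P P E n u → ∃ (a : k) (v : Ch P P E), (n ≠ 0 → a = 0) ∧ Cy P P E n v ∧
    Bd P P E n (u + a • P.one + v + c v)

/-- M3b -/
def TwStmt : Prop := ∀ (k : Type) [Field k] [CharP k 2] (q : k), q ≠ 0 → (∀ n : ℕ, 0 < n → q ^ n ≠ 1) →
  ∀ (B : Type) [Ring B] [Algebra k B] (m : ℕ) (X : BD k B m) (Y : PD X), Tw k Y.P (Y.cj q)

/-- gluing data -/
structure GD (k : Type) [Field k] {E : Type} [Ring E] [Algebra k E] (P : Cx E) (c : Ch P P E → Ch P P E)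
    (D F : Type) [AddCommGroup D] [Module E D] [Module Eᵐᵒᵖ D] [SMulCommClass E Eᵐᵒᵖ D]
    [AddCommGroup F] [Module E F] [Module Eᵐᵒᵖ F] [SMulCommClass E Eᵐᵒᵖ F] where
  θ : D →ₗ[E] F
  θ_op : ∀ (a : Eᵐᵒᵖ) x, θ (a • x) = a • θ x
  θ_surj : Function.Surjective θ
  g1 : Ch P P D
  g2 : Ch P P D
  cy1 : Cy P P D 0 g1
  cy2 : Cy P P D 0 g2
  θ1 : mapRange.linearMap θ ∘ₗ g1 = 0
  θ2 : mapRange.linearMap θ ∘ₗ g2 = 0
  c1 : ∀ n u, IsC P P E n u → g1 ∘ₗ u = tens D u ∘ₗ g1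
  c2 : ∀ n u, IsC P P E n u → g2 ∘ₗ c u = tens D u ∘ₗ g2
  ex : ∀ n Φ, IsC P P D n Φ → mapRange.linearMap θ ∘ₗ Φ = 0 →
    ∃ u v, IsC P P E n u ∧ IsC P P E n v ∧ Φ = g1 ∘ₗ u + g2 ∘ₗ v
  uniq : ∀ n u v, IsC P P E n u → IsC P P E n v → g1 ∘ₗ u + g2 ∘ₗ v = 0 → u = 0 ∧ v = 0
  hom : Bd P P D 0 (g1 + g2)
  ne : ¬ Bd P P D 0 g1
  van : ∀ n, n ≠ 0 → n ≠ -2 → n ≠ -3 → Van P P D n
  zero : ∀ Φ, Cy P P D 0 Φ → ∃ a : k, Bd P P D 0 (Φ + g1 ∘ₗ (a • P.one))
  row : Row P F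
  col : Col P F

/-- the core statement -/
def Core (k : Type) [Field k] : Prop :=
  ∃ (Λ : Type) (_ : Ring Λ) (_ : Algebra k Λ) (P : Cx Λ), FiniteDimensional k Λ ∧ Four k Λ (Fin 8) ∧
    Row P Λ ∧ Col P Λ ∧ (∀ n, n ≠ 0 → n ≠ -1 → Van P P Λ n) ∧ ¬ Bd P P Λ 0 P.one

/-- M6: gluing -/
def GlueStmt : Prop := ∀ (k : Type) [Field k] [CharP k 2] (E : Type) [Ring E] [Algebra k E]
  [FiniteDimensional k E] (P : Cx E) (c : Ch P P E → Ch P P E)
  (D F : Type) [AddCommGroup D] [Module E D] [Module Eᵐᵒᵖ D] [SMulCommClass E Eᵐᵒᵖ D]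
  [AddCommGroup F] [Module E F] [Module Eᵐᵒᵖ F] [SMulCommClass E Eᵐᵒᵖ F] [Module k F]
  [IsScalarTower k E F] [IsScalarTower k Eᵐᵒᵖ F] [FiniteDimensional k F],
  Four k E (Fin 4) → Row P E → Col P E → Tw k P c → GD k P c D F → Core k

/-- M7: trivial extension -/
def SymStmt : Prop := ∀ (k : Type) [Field k] [CharP k 2], Core k →
  ∃ (A : Type) (_ : Ring A) (_ : Algebra k A), FiniteDimensional k A ∧ Four k A (Fin 8) ∧
    (∃ φ : A ≃ₗ[k] Module.Dual k A, ∀ a x b y : A, φ (a * x * b) y = φ x (b * y * a)) ∧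
    ∃ M : ModuleCat.{0} A, Module.Finite A M ∧ ¬ Module.Projective A M ∧
      ∀ i : ℕ, 0 < i → Subsingleton (CategoryTheory.Abelian.Ext M M i)

/-- M8 -/
def FourStmt : Prop := ∀ (k : Type) [Field k] (C : Type) [Ring C] [Algebra k C] (π : C →ₐ[k] (Fin 2 → k)),
  Function.Surjective π → (∃ N : ℕ, RingHom.ker π ^ N = ⊥) → (∃ x y, π x = 0 ∧ π y = 0 ∧ x * y ≠ 0) →
  Four k (DualNumber (TensorProduct k C C)) (Fin 4)

/-- M0: maps out of a bounded above complex / into a bounded below complex -/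
def KStmt : Prop := ∀ (R : Type) [Ring R], (2 : R) = 0 → ∀ (P P' : Cx R) (V : Type) [AddCommGroup V] [Module R V]
  [Module Rᵐᵒᵖ V] [SMulCommClass R Rᵐᵒᵖ V] (n : ℤ),
  ((∃ a, ∀ i, P.deg i ≤ a) → (∀ i v, Cy (pt R) P' V (P.deg i + n) v →
      P.ε i • v (single () 1) = v (single () 1) → Bd (pt R) P' V (P.deg i + n) v) → Van P P' V n) ∧
  ((∃ a, ∀ j, a ≤ P'.deg j) → (∀ j w, Cy P (pt R) V (n - P'.deg j) w →
      (∀ i, op (P'.ε j) • w (single i 1) () = w (single i 1) ()) → Bd P (pt R) V (n - P'.deg j) w) →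
    Van P P' V n)

end Crest.Agent.H6.Tk
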