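import Crest.Agent.H6.TkI

/-! Row 186: the gluing bimodules. -/

set_option autoImplicit false

noncomputable section
namespace Crest.Agent.H6.Tk
open MulOpposite Finsupp

section
variable {R : Type} [Ring R] {V : Type} [AddCommGroup V] [Module R V] [Module Rᵐᵒᵖ V]
  [SMulCommClass R Rᵐᵒᵖ V]

variable (R V) in
/-- sub-bimodules -/
structure SubBi where
  N : Submodule R V
  op_mem : ∀ (a : Rᵐᵒᵖ) x, x ∈ N → a • x ∈ N

namespace SubBi
variable (S : SubBi R V)
def Sub : Type := S.N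
instance : AddCommGroup S.Sub := inferInstanceAs (AddCommGroup S.N)
instance : Module R S.Sub := inferInstanceAs (Module R S.N)
def val : S.Sub →ₗ[R] V := S.N.subtype
lemma val_inj : Function.Injective S.val := Subtype.val_injective
lemma val_mem (x : S.Sub) : S.val x ∈ S.N := Subtype.property x
def mk' (x : V) (h : x ∈ S.N) : S.Sub := Subtype.mk x h
@[simp] lemma val_mk' (x : V) (h : x ∈ S.N) : S.val (S.mk' x h) = x := rfl
instance : SMul Rᵐᵒᵖ S.Sub := ⟨fun a x => S.mk' (a • S.val x) (S.op_mem a _ (S.val_mem x))⟩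
@[simp] lemma val_op (a : Rᵐᵒᵖ) (x : S.Sub) : S.val (a • x) = a • S.val x := rfl
instance : Module Rᵐᵒᵖ S.Sub := S.val_inj.module Rᵐᵒᵖ S.val.toAddMonoidHom S.val_op
instance : SMulCommClass R Rᵐᵒᵖ S.Sub := ⟨fun a b x => S.val_inj (by simp [smul_comm a b])⟩

def Quo : Type := V ⧸ S.N
instance : AddCommGroup S.Quo := inferInstanceAs (AddCommGroup (V ⧸ S.N))
instance : Module R S.Quo := inferInstanceAs (Module R (V ⧸ S.N))
def mkQ : V →ₗ[R] S.Quo := S.N.mkQ
lemma mkQ_surj : Function.Surjective S.mkQ := S.N.mkQ_surjective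
lemma mkQ_eq_zero (x : V) : S.mkQ x = 0 ↔ x ∈ S.N := Submodule.Quotient.mk_eq_zero S.N
def opL (a : Rᵐᵒᵖ) : V →ₗ[R] V where
  toFun x := a • x
  map_add' := smul_add a
  map_smul' r x := (smul_comm r a x).symm
instance : SMul Rᵐᵒᵖ S.Quo := ⟨fun a x => S.N.mapQ S.N (opL a) (fun y hy => S.op_mem a y hy) x⟩
@[simp] lemma mkQ_op (a : Rᵐᵒᵖ) (x : V) : S.mkQ (a • x) = a • S.mkQ x := rfl
instance : Module Rᵐᵒᵖ S.Quo := S.mkQ_surj.module Rᵐᵒᵖ S.mkQ.toAddMonoidHom S.mkQ_op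
instance : SMulCommClass R Rᵐᵒᵖ S.Quo := ⟨fun a b x => by
  obtain ⟨y, rfl⟩ := S.mkQ_surj x
  rw [← mkQ_op, ← map_smul, ← map_smul, ← mkQ_op, smul_comm]⟩
end SubBi
end

/-- `End_k E` as a bimodule: `(a • φ • b) x = φ (x a) b` -/
def Om (k E : Type) [Field k] [Ring E] [Algebra k E] : Type := E →ₗ[k] E

namespace Om
variable {k E : Type} [Field k] [Ring E] [Algebra k E]
instance : AddCommGroup (Om k E) := inferInstanceAs (AddCommGroup (E →ₗ[k] E))
def toL : Om k E ≃+ (E →ₗ[k] E) := AddEquiv.refl _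
def ofL : (E →ₗ[k] E) ≃+ Om k E := AddEquiv.refl _
@[simp] lemma toL_ofL (φ : E →ₗ[k] E) : toL (ofL φ) = φ := rfl
@[simp] lemma ofL_toL (φ : Om k E) : ofL (toL φ) = φ := rfl
@[ext] lemma ext' {φ ψ : Om k E} (h : ∀ x, toL φ x = toL ψ x) : φ = ψ := LinearMap.ext h
instance : SMul E (Om k E) := ⟨fun a φ => ofL (toL φ ∘ₗ LinearMap.mulRight k a)⟩
instance : SMul Eᵐᵒᵖ (Om k E) := ⟨fun a φ => ofL (LinearMap.mulRight k a.unop ∘ₗ toL φ)⟩
lemma toL_smul (a : E) (φ : Om k E) : toL (a • φ) = toL φ ∘ₗ LinearMap.mulRight k a := rfl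
lemma toL_op (a : Eᵐᵒᵖ) (φ : Om k E) : toL (a • φ) = LinearMap.mulRight k a.unop ∘ₗ toL φ := rfl
@[simp] lemma smul_apply (a : E) (φ : Om k E) (x : E) : toL (a • φ) x = toL φ (x * a) := rfl
@[simp] lemma op_apply (a : Eᵐᵒᵖ) (φ : Om k E) (x : E) : toL (a • φ) x = toL φ x * a.unop := rfl
instance : Module E (Om k E) where
  one_smul φ := by ext x; simp
  mul_smul a b φ := by ext x; simp [mul_assoc]
  smul_zero a := by ext x; simp
  smul_add a φ ψ := by ext x; simp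
  add_smul a b φ := by ext x; simp [mul_add]
  zero_smul φ := by ext x; simp
instance : Module Eᵐᵒᵖ (Om k E) where
  one_smul φ := by ext x; simp
  mul_smul a b φ := by ext x; simp [mul_assoc]
  smul_zero a := by ext x; simp
  smul_add a φ ψ := by ext x; simp [add_mul]
  add_smul a b φ := by ext x; simp [mul_add]
  zero_smul φ := by ext x; simp
instance : SMulCommClass E Eᵐᵒᵖ (Om k E) := ⟨fun a b φ => by ext x; simp⟩
end Om

section
variable (k B : Type) [Field k] [Ring B] [Algebra k B]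
open TrivSqZeroExt

/-- left `B`-linear endomorphisms of the dual numbers over `B` -/
def BLin (ψ : DualNumber B →ₗ[k] DualNumber B) : Prop := ∀ (b : B) x, ψ (inl b * x) = inl b * ψ x

/-- the annihilator of `End_B E` -/
def KK : SubBi (DualNumber B) (Om k (DualNumber B)) where
  N :=
    { carrier := {φ | ∀ ψ, BLin k B ψ → LinearMap.trace k _ (Om.toL φ ∘ₗ ψ) = 0}
      add_mem' := fun {a b} ha hb ψ h => by
        rw [map_add, LinearMap.add_comp, map_add, ha ψ h, hb ψ h, add_zero]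
      zero_mem' := fun ψ h => by rw [map_zero, LinearMap.zero_comp, map_zero]
      smul_mem' := fun a φ hφ ψ h => by
        rw [Om.toL_smul, LinearMap.comp_assoc]
        exact hφ _ fun b x => by simp [h b x, mul_assoc] }
  op_mem a φ hφ ψ h := by
    rw [Om.toL_op, LinearMap.comp_assoc]
    change LinearMap.trace k _ (_ * (Om.toL φ * ψ)) = 0
    rw [LinearMap.trace_mul_comm, mul_assoc]
    exact hφ _ fun b x => by simp [← h b, mul_assoc]

abbrev DD : Type := (KK k B).Sub × Om k (DualNumber B) × Om k (DualNumber B)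

variable {k B}
/-- the twist as a linear map -/
def σL (q : k) : DualNumber B →ₗ[k] DualNumber B where
  toFun := σ q
  map_add' a b := by ext <;> simp [σ]
  map_smul' c a := by ext <;> simp [σ, smul_comm c q]

variable {m : ℕ} (X : BD k B m)

/-- `left multiplication by f` composed with a `B`-linear map lies in `KK` -/
def FStmt : Prop := ∀ ψ, BLin k B ψ → Om.ofL (LinearMap.mulLeft k (inl X.f : DualNumber B) ∘ₗ ψ) ∈ (KK k B).N

lemma bLin_id : BLin k B LinearMap.id := fun _ _ => rfl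
lemma bLin_σ (q : k) : BLin k B (σL q) := fun b x => by
  ext <;> simp [σL, σ]

def κ1 (h : FStmt X) : DD k B := ((KK k B).mk' _ (h _ bLin_id), Om.ofL LinearMap.id, 0)
def κ2 (h : FStmt X) (q : k) : DD k B := ((KK k B).mk' _ (h _ (bLin_σ q⁻¹)), 0, Om.ofL (σL q⁻¹))

variable {X} (Y : PD X)
def g1 (h : FStmt X) : Ch Y.P Y.P (DD k B) :=
  Finsupp.linearCombination (DualNumber B) fun i => single i (Y.P.ε i • κ1 X h)
def g2 (h : FStmt X) (q : k) : Ch Y.P Y.P (DD k B) :=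
  Finsupp.linearCombination (DualNumber B) fun i => single i ((q ^ (-Y.wt i) • Y.P.ε i) • κ2 X h q)
end

/-- M4a: `End_k E` is acyclic -/
def OmStmt : Prop := ∀ (k : Type) [Field k] [CharP k 2] (E : Type) [Ring E] [Algebra k E]
  [FiniteDimensional k E] (P P' : Cx E), Row P E ∨ Row P' E → ∀ n, Van P P' (Om k E) n

/-- M4b: the trace conditions -/
def TrStmt : Prop := ∀ (k : Type) [Field k] [CharP k 2] (q : k), q ≠ 0 →
  ∀ (B : Type) [Ring B] [Algebra k B] (m : ℕ) (X : BD k B m), ∃ h : FStmt X, ∀ (Y : PD X),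
    Row Y.P (DualNumber B) → ¬ Bd Y.P Y.P (DD k B) 0 (g1 Y h)

/-- M4c: the homotopy -/
def HoStmt : Prop := ∀ (k : Type) [Field k] [CharP k 2] (q : k), q ≠ 0 →
  ∀ (B : Type) [Ring B] [Algebra k B] (m : ℕ) (X : BD k B m) (h : FStmt X) (Y : PD X),
    Row Y.P (DualNumber B) → Bd Y.P Y.P (DD k B) 0 (g1 Y h + g2 Y h q)

/-- M5a: the quotient `End_k E / K` is acyclic on rows and columns -/
def QRStmt : Prop := ∀ (k : Type) [Field k] [CharP k 2] (B : Type) [Ring B] [Algebra k B] (m : ℕ)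
  (X : BD k B m) (Y : PD X), Row Y.P (DualNumber B) → Col Y.P (DualNumber B) →
    Row Y.P (KK k B).Quo ∧ Col Y.P (KK k B).Quo

/-- M5b: cohomology with values in `End_k E / K` -/
def QStmt : Prop := ∀ (k : Type) [Field k] [CharP k 2] (B : Type) [Ring B] [Algebra k B] (m : ℕ), 2 ≤ m →
  ∀ (X : BD k B m) (Y : PD X), Row Y.P (DualNumber B) → Col Y.P (DualNumber B) →
    (∀ n, n ≠ -1 → n ≠ -(m : ℤ) → Van Y.P Y.P (KK k B).Quo n) ∧
    ∃ ω, Cy Y.P Y.P (KK k B).Quo (-1) ω ∧ ∀ Φ, Cy Y.P Y.P (KK k B).Quo (-1) Φ →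
      ∃ a : k, Bd Y.P Y.P (KK k B).Quo (-1) (Φ + ω ∘ₗ (a • Y.P.one))

/-- the dual bimodule -/
def Du (k B : Type) [Field k] [Ring B] [Algebra k B] : Type := B →ₗ[k] k

namespace Du
variable {k B : Type} [Field k] [Ring B] [Algebra k B]
instance : AddCommGroup (Du k B) := inferInstanceAs (AddCommGroup (B →ₗ[k] k))
def toL : Du k B ≃+ (B →ₗ[k] k) := AddEquiv.refl _
def ofL : (B →ₗ[k] k) ≃+ Du k B := AddEquiv.refl _
@[simp] lemma toL_ofL (φ : B →ₗ[k] k) : toL (ofL φ) = φ := rfl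
@[simp] lemma ofL_toL (φ : Du k B) : ofL (toL φ) = φ := rfl
@[ext] lemma ext' {φ ψ : Du k B} (h : ∀ x, toL φ x = toL ψ x) : φ = ψ := LinearMap.ext h
instance : SMul B (Du k B) := ⟨fun a φ => ofL (toL φ ∘ₗ LinearMap.mulRight k a)⟩
instance : SMul Bᵐᵒᵖ (Du k B) := ⟨fun a φ => ofL (toL φ ∘ₗ LinearMap.mulLeft k a.unop)⟩
@[simp] lemma smul_apply (a : B) (φ : Du k B) (x : B) : toL (a • φ) x = toL φ (x * a) := rfl
@[simp] lemma op_apply (a : Bᵐᵒᵖ) (φ : Du k B) (x : B) : toL (a • φ) x = toL φ (a.unop * x) := rfl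
instance : Module B (Du k B) where
  one_smul φ := by ext x; simp
  mul_smul a b φ := by ext x; simp [mul_assoc]
  smul_zero a := by ext x; simp
  smul_add a φ ψ := by ext x; simp
  add_smul a b φ := by ext x; simp [mul_add]
  zero_smul φ := by ext x; simp
instance : Module Bᵐᵒᵖ (Du k B) where
  one_smul φ := by ext x; simp
  mul_smul a b φ := by ext x; simp [mul_assoc]
  smul_zero a := by ext x; simp
  smul_add a φ ψ := by ext x; simp
  add_smul a b φ := by ext x; simp [add_mul]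
  zero_smul φ := by ext x; simp
instance : SMulCommClass B Bᵐᵒᵖ (Du k B) := ⟨fun a b φ => by ext x; simp [mul_assoc]⟩
end Du

/-- the cone of `φ` -/
structure HD {k : Type} [Field k] {B : Type} [Ring B] [Algebra k B] {m : ℕ} (X : BD k B m) where
  H : Cx B
  e : X.Qp.I ⊕ X.Qm.I ≃ H.I
  deg_l : ∀ i, H.deg (e (.inl i)) = X.Qp.deg i
  deg_r : ∀ i, H.deg (e (.inr i)) = X.Qm.deg i + 1
  ε_l : ∀ i, H.ε (e (.inl i)) = X.Qp.ε i
  ε_r : ∀ i, H.ε (e (.inr i)) = X.Qm.ε i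
  d_l : ∀ i, H.d (single (e (.inl i)) 1) =
    (X.Qp.d (single i 1)).mapDomain (fun j => e (.inl j)) + (X.φ (single i 1)).mapDomain (fun j => e (.inr j))
  d_r : ∀ i, H.d (single (e (.inr i)) 1) = (X.Qm.d (single i 1)).mapDomain (fun j => e (.inr j))

/-- cohomology in degrees `-1` (at most a line) and `-m` only -/
def Two (k : Type) [Field k] {R : Type} [Ring R] [Algebra k R] (P : Cx R) (V : Type) [AddCommGroup V]
    [Module R V] [Module Rᵐᵒᵖ V] [SMulCommClass R Rᵐᵒᵖ V] (m : ℕ) : Prop :=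
  (∀ n, n ≠ -1 → n ≠ -(m : ℤ) → Van P P V n) ∧
    ∃ ω, Cy P P V (-1) ω ∧ ∀ Φ, Cy P P V (-1) Φ → ∃ a : k, Bd P P V (-1) (Φ + ω ∘ₗ (a • P.one))

/-- M5c -/
def HStmt : Prop := ∀ (k : Type) [Field k] [CharP k 2] (B : Type) [Ring B] [Algebra k B] (m : ℕ)
  (X : BD k B m), ∃ H : HD X, Row H.H B ∧ Col H.H B

/-- M5d -/
def QBStmt : Prop := ∀ (k : Type) [Field k] [CharP k 2] (B : Type) [Ring B] [Algebra k B] (m : ℕ), 2 ≤ m →
  ∀ (X : BD k B m) (H : HD X), Row H.H B → Col H.H B → Two k H.H (Du k B) m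

/-- M5e -/
def TransStmt : Prop := ∀ (k : Type) [Field k] [CharP k 2] (B : Type) [Ring B] [Algebra k B] (m : ℕ)
  (X : BD k B m) (H : HD X) (Y : PD X), Two k H.H (Du k B) m → Two k Y.P (KK k B).Quo m

lemma qStmt_of (h1 : HStmt) (h2 : QBStmt) (h3 : TransStmt) : QStmt := fun k _ _ B _ _ m hm X Y _ _ => by
  obtain ⟨H, hr, hc⟩ := h1 k B m X
  exact h3 k B m X H Y (h2 k B m hm X H hr hc)

end Crest.Agent.H6.Tk
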