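import Mathlib

/-! Orientation of the Schreier graph of a free action of the free group on two generators. -/

namespace Crest.Agent.H6.Cost

variable {Ω : Type}

/-- The point `ω` has trivial stabiliser in the free group. -/
def FreeAt (s : Bool → Equiv.Perm Ω) (ω : Ω) : Prop :=
  ∀ w : FreeGroup Bool, FreeGroup.lift s w ω = ω → w = 1

theorem exists_orient (s : Bool → Equiv.Perm Ω) :
    ∃ (τ : Ω → Option (Bool × Bool)) (ht : Ω → ℕ), ∀ ω, FreeAt s ω → ∀ i,
      (τ (s i ω) = some (i, true) ∧ ht (s i ω) = ht ω + 1) ∨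
        (τ ω = some (i, false) ∧ ht ω = ht (s i ω) + 1) := by
  classical
  let R : Setoid Ω :=
    { r := fun x y => ∃ w, FreeGroup.lift s w x = y
      iseqv := ⟨fun x => ⟨1, by simp⟩, fun {x y} ⟨w, h⟩ => ⟨w⁻¹, by simp [← h]⟩,
        fun {x y z} ⟨w, h⟩ ⟨w', h'⟩ => ⟨w' * w, by simp [h, h']⟩⟩ }
  have : ∀ ω, ∃ w, FreeGroup.lift s w (Quotient.mk R ω).out = ω := fun ω => Quotient.mk_out ω
  choose wd hwd using this
  refine ⟨fun ω => (wd ω).toWord.head?, fun ω => (wd ω).toWord.length, fun ω hω i => ?_⟩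
  have h1 : Quotient.mk R (s i ω) = Quotient.mk R ω :=
    (Quotient.sound (s := R) ⟨FreeGroup.of i, by simp⟩).symm
  have h2 : wd (s i ω) = FreeGroup.of i * wd ω := by
    have h3 := hwd (s i ω)
    rw [h1] at h3
    have h4 := hω ((FreeGroup.of i)⁻¹ * wd (s i ω) * (wd ω)⁻¹) (by
      have h5 : (FreeGroup.lift s (wd ω))⁻¹ ω = (Quotient.mk R ω).out := by
        rw [Equiv.Perm.inv_eq_iff_eq, hwd]
      simp only [map_mul, map_inv, Equiv.Perm.mul_apply, h5, h3, FreeGroup.lift_apply_of]
      simp)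
    rw [mul_inv_eq_one, inv_mul_eq_iff_eq_mul] at h4
    exact h4
  simp only [h2, FreeGroup.toWord_mul, FreeGroup.toWord_of, List.singleton_append,
    FreeGroup.reduce.cons, FreeGroup.reduce_toWord]
  rcases (wd ω).toWord with _ | ⟨⟨j, ε⟩, l⟩
  · simp
  · by_cases h : i = j ∧ true = !ε
    · right
      obtain ⟨rfl, h⟩ := h
      cases ε <;> simp_all
    · left
      simp only [h, if_false]
      simp

theorem eq_zero_of_cycle {s : Bool → Equiv.Perm Ω} (hs : ∀ ω, FreeAt s ω)
    (u : Bool → Ω → ZMod 2) (hfin : ∀ i, (Function.support (u i)).Finite)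
    (h : ∀ x, ∑ i, (u i x + u i ((s i)⁻¹ x)) = 0) : u = 0 := by
  classical
  obtain ⟨τ, ht, hτ⟩ := exists_orient s
  by_contra hne
  have hT : {q : Bool × Ω | u q.1 q.2 ≠ 0}.Finite := by
    refine ((Set.toFinite Set.univ).prod ((hfin true).union (hfin false))).subset ?_
    rintro ⟨i, x⟩ hq
    cases i
    · exact ⟨trivial, Or.inr hq⟩
    · exact ⟨trivial, Or.inl hq⟩
  have hne' : {q : Bool × Ω | u q.1 q.2 ≠ 0}.Nonempty := by
    by_contra! h'
    refine hne (funext fun i => funext fun x => ?_)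
    by_contra h''
    exact (Set.eq_empty_iff_forall_notMem.1 h') (i, x) h''
  obtain ⟨⟨i, x⟩, hix, hmax⟩ := hT.exists_maximalFor (fun q => max (ht q.2) (ht (s q.1 q.2))) _ hne'
  have hmax' : ∀ j y, u j y ≠ 0 → max (ht y) (ht (s j y)) ≤ max (ht x) (ht (s i x)) := by
    intro j y hy
    by_contra! h'
    exact absurd (hmax (j := (j, y)) hy h'.le) (not_le.2 h')
  have key : ∀ p, ht p = max (ht x) (ht (s i x)) → ∀ ε : Bool,
      (if ε then u i ((s i)⁻¹ p) else u i p) ≠ 0 → False := by
    intro p hp ε hε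
    have h1 : ∀ q : Bool × Bool, (if q.2 then u q.1 ((s q.1)⁻¹ p) else u q.1 p) ≠ 0 →
        τ p = some q := by
      rintro ⟨j, δ⟩ hq
      cases δ
      · have h2 := hmax' j p (by simpa using hq)
        rcases hτ p (hs p) j with h3 | h3
        · omega
        · exact h3.1
      · have h2 := hmax' j _ (by simpa using hq)
        rcases hτ ((s j)⁻¹ p) (hs _) j with h3 | h3
        · simpa using h3.1
        · simp only [Equiv.Perm.coe_inv, Equiv.apply_symm_apply] at h2 h3
          omega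
    have h2 := Finset.sum_eq_single (s := Finset.univ)
      (f := fun q : Bool × Bool => if q.2 then u q.1 ((s q.1)⁻¹ p) else u q.1 p) (i, ε)
      (fun q _ hq => by
        by_contra h3
        exact hq (Option.some.inj ((h1 q h3).symm.trans (h1 (i, ε) hε)))) (by simp)
    refine hε (h2.symm.trans ?_)
    rw [← h p, Fintype.sum_prod_type]
    exact Finset.sum_congr rfl fun j _ => by simp [add_comm]
  rcases le_total (ht x) (ht (s i x)) with h1 | h1
  · exact key (s i x) (by omega) true (by simpa using hix)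
  · exact key x (by omega) false (by simpa using hix)

theorem spectral_bound {s : Bool → Equiv.Perm Ω} (φ : Ω →₀ ℝ)
    (hs : ∀ ω ∈ φ.support, FreeAt s ω) :
    ∑ i, ∑ ω ∈ φ.support, φ ω * φ (s i ω) ≤ 7 / 4 * ∑ ω ∈ φ.support, φ ω ^ 2 := by
  classical
  obtain ⟨τ, ht, hτ⟩ := exists_orient s
  let A : Bool → Bool → Ω → ℝ := fun i ε ω => (if τ ω = some (i, ε) then 1 else 1 / 4) * φ ω ^ 2
  have hA : ∀ i ε ω, 1 / 4 * φ ω ^ 2 ≤ A i ε ω := fun i ε ω => by
    refine mul_le_mul_of_nonneg_right ?_ (sq_nonneg _)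
    split_ifs <;> norm_num
  have h1 : ∀ i, ∑ ω ∈ φ.support, φ ω * φ (s i ω) ≤
      ∑ ω ∈ φ.support, A i false ω + ∑ ω ∈ φ.support, A i true ω := by
    intro i
    have h2 : ∑ ω ∈ φ.support, A i true (s i ω) ≤ ∑ ω ∈ φ.support, A i true ω := by
      rw [← Finset.sum_image (s := φ.support) (g := s i) (f := A i true)
        (fun a _ b _ h => (s i).injective h)]
      rw [← Finset.sum_filter_ne_zero]
      refine Finset.sum_le_sum_of_subset_of_nonneg ?_ ?_
      · intro ω hω
        by_contra h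
        exact (Finset.mem_filter.1 hω).2 (by simp [A, Finsupp.notMem_support_iff.1 h])
      · intro ω _ _
        exact le_trans (by positivity) (hA _ _ _)
    refine le_trans ?_ (add_le_add_right h2 _)
    rw [← Finset.sum_add_distrib]
    refine Finset.sum_le_sum fun ω hω => ?_
    rcases hτ ω (hs ω hω) i with h3 | h3
    · have := hA i false ω
      simp only [A, h3.1, if_true] at this ⊢
      nlinarith [sq_nonneg (φ ω / 2 - φ (s i ω))]
    · have := hA i true (s i ω)
      simp only [A, h3.1, if_true] at this ⊢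
      nlinarith [sq_nonneg (φ ω - φ (s i ω) / 2)]
  refine (Finset.sum_le_sum fun i _ => h1 i).trans ?_
  simp only [← Finset.sum_add_distrib]
  rw [Finset.sum_comm, Finset.mul_sum]
  refine Finset.sum_le_sum fun ω _ => ?_
  simp only [A, Fintype.sum_bool]
  have := sq_nonneg (φ ω)
  rcases τ ω with _ | ⟨i, ε⟩
  · simp; nlinarith
  · cases i <;> cases ε <;> simp <;> nlinarith

end Crest.Agent.H6.Cost
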