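import Mathlib
import Crest.Agent.H6.CostForest

/-! Linear algebra over the field with two elements used in the folding argument. -/

namespace Crest.Agent.H6.Cost

open Module

/-- The field with two elements. -/
abbrev F2 := ZMod 2

section Generic

variable {V W : Type} [AddCommGroup V] [Module F2 V] [AddCommGroup W] [Module F2 W]

theorem finrank_split [FiniteDimensional F2 V] (U : Submodule F2 V) (f : V →ₗ[F2] W) :
    finrank F2 U = finrank F2 (U ⊓ LinearMap.ker f : Submodule F2 V) +
      finrank F2 (U.map f) := by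
  have h := (f.domRestrict U).finrank_range_add_finrank_ker
  rw [LinearMap.range_domRestrict, LinearMap.ker_domRestrict] at h
  have h2 : finrank F2 (Submodule.comap U.subtype (LinearMap.ker f)) =
      finrank F2 (U ⊓ LinearMap.ker f : Submodule F2 V) := by
    rw [← Submodule.finrank_map_subtype_eq U, Submodule.map_comap_subtype]
  omega

theorem finrank_filtration [FiniteDimensional F2 V] {L A : Type} [LinearOrder A]
    (f : L → V →ₗ[F2] W) (lev : L → A) (T : Finset L) (hinj : Set.InjOn lev T) :
    finrank F2 V = finrank F2 (⨅ l ∈ T, LinearMap.ker (f l) : Submodule F2 V) +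
      ∑ l ∈ T, finrank F2 ((⨅ l' ∈ {l' | l' ∈ T ∧ lev l < lev l'},
        LinearMap.ker (f l') : Submodule F2 V).map (f l)) := by
  classical
  induction T using Finset.induction_on_min_value lev with
  | empty =>
    have : (⨅ l ∈ (∅ : Finset L), LinearMap.ker (f l) : Submodule F2 V) = ⊤ := by simp
    rw [this]; simp
  | insert a s ha hmin ih =>
    have ih' := ih (hinj.mono (by simp))
    rw [Finset.sum_insert ha]
    have h1 : (⨅ l ∈ insert a s, LinearMap.ker (f l) : Submodule F2 V) =
        (⨅ l ∈ s, LinearMap.ker (f l)) ⊓ LinearMap.ker (f a) := by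
      rw [Finset.iInf_insert, inf_comm]
    have h2 : {l' | l' ∈ insert a s ∧ lev a < lev l'} = (s : Set L) := by
      ext l'
      simp only [Finset.mem_insert, Set.mem_ofPred_eq, SetLike.mem_coe]
      constructor
      · rintro ⟨rfl | h, h'⟩
        · exact absurd h' (lt_irrefl _)
        · exact h
      · intro h
        refine ⟨Or.inr h, lt_of_le_of_ne (hmin _ h) fun e => ha ?_⟩
        rw [hinj (by simp) (by simp [h]) e]; exact h
    have h3 : ∀ l ∈ s, {l' | l' ∈ insert a s ∧ lev l < lev l'} = {l' | l' ∈ s ∧ lev l < lev l'} := by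
      intro l hl
      ext l'
      simp only [Finset.mem_insert, Set.mem_ofPred_eq]
      constructor
      · rintro ⟨rfl | h, h'⟩
        · exact absurd h' (not_lt.2 (hmin _ hl))
        · exact ⟨h, h'⟩
      · exact fun h => ⟨Or.inr h.1, h.2⟩
    rw [h1, h2, Finset.sum_congr rfl fun l hl => by rw [h3 l hl]]
    have h4 := finrank_split (⨅ l ∈ s, LinearMap.ker (f l)) (f a)
    have h5 : (⨅ l ∈ (s : Set L), LinearMap.ker (f l) : Submodule F2 V) =
      ⨅ l ∈ s, LinearMap.ker (f l) := rfl
    rw [h5]
    omega

theorem finrank_finsupp_submodule [FiniteDimensional F2 W] {X : Type} (S : X → Submodule F2 W)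
    (Z : Finset X) (hZ : ∀ x, x ∉ Z → S x = ⊥) :
    FiniteDimensional F2 (Finsupp.submodule S) ∧
      finrank F2 (Finsupp.submodule S) = ∑ x ∈ Z, finrank F2 (S x) := by
  classical
  let φ : Finsupp.submodule S →ₗ[F2] ((x : Z) → S x) :=
    { toFun := fun f x => ⟨f.1 x, f.2 x⟩
      map_add' := fun f g => by ext; simp
      map_smul' := fun c f => by ext; simp }
  have hb : Function.Bijective φ := by
    constructor
    · intro f g h
      ext x
      by_cases hx : x ∈ Z
      · exact congrArg Subtype.val (congrFun h ⟨x, hx⟩)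
      · have h1 := f.2 x
        have h2 := g.2 x
        rw [hZ x hx] at h1 h2
        rw [(Submodule.mem_bot _).1 h1, (Submodule.mem_bot _).1 h2]
    · intro t
      refine ⟨⟨Finsupp.onFinset Z (fun x => if h : x ∈ Z then (t ⟨x, h⟩ : W) else 0)
        (fun x hx => by by_contra h; simp [h] at hx), fun x => ?_⟩, ?_⟩
      · simp only [Finsupp.onFinset_apply]
        split_ifs with h
        · exact (t ⟨x, h⟩).2
        · exact Submodule.zero_mem _
      · ext x
        simp [φ]
  have e := LinearEquiv.ofBijective φ hb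
  refine ⟨e.symm.finiteDimensional, ?_⟩
  rw [e.finrank_eq, finrank_pi_fintype, Finset.sum_coe_sort Z fun x => finrank F2 (S x)]

end Generic

section Link

variable {Γ X : Type} [Group Γ] [MulAction Γ X]

/-- Positions of the four edges of a polygon. -/
def gpos (a c d : Γ) : Fin 4 → Γ := ![1, c, d, a * d]

/-- The corner at the start (`true`) or end (`false`) of an edge of a polygon. -/
def kap (i : Fin 4) : Bool → Fin 4
  | true => ![0, 0, 2, 2] i
  | false => ![3, 1, 1, 3] i

/-- The two free generators as permutations. -/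
def gens (X : Type) [MulAction Γ X] (a c : Γ) : Bool → Equiv.Perm X :=
  fun i => MulAction.toPerm (if i then a else c)

/-- The boundary map of the link graphs. -/
noncomputable def bd (X : Type) [MulAction Γ X] (g : Fin 4 → Γ) :
    (X →₀ (Fin 4 → F2)) →ₗ[F2] (X →₀ (Bool → F2)) :=
  ∑ i, Finsupp.lmapDomain _ F2 (g i • ·) ∘ₗ
    Finsupp.mapRange.linearMap (LinearMap.funLeft F2 F2 (kap i))

theorem bd_apply (g : Fin 4 → Γ) (t : X →₀ (Fin 4 → F2)) (x : X) :
    bd X g t x = ∑ i, fun σ => t ((g i)⁻¹ • x) (kap i σ) := by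
  simp only [bd, LinearMap.sum_apply, LinearMap.comp_apply, Finsupp.lmapDomain_apply,
    Finsupp.finset_sum_apply]
  refine Finset.sum_congr rfl fun i _ => ?_
  conv_lhs => rw [← smul_inv_smul (g i) x]
  rw [Finsupp.mapDomain_apply (MulAction.injective (g i))]
  rfl

/-- The augmentation. -/
noncomputable def aug (X : Type) : (X →₀ (Bool → F2)) →ₗ[F2] F2 :=
  Finsupp.lsum F2 fun _ => (LinearMap.proj true : (Bool → F2) →ₗ[F2] F2) + LinearMap.proj false

theorem aug_bd (g : Fin 4 → Γ) (t : X →₀ (Fin 4 → F2)) : aug X (bd X g t) = 0 := by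
  have : aug X ∘ₗ bd X g = 0 := by
    refine Finsupp.lhom_ext fun y v => ?_
    simp only [bd, aug, LinearMap.comp_apply, LinearMap.sum_apply, Finsupp.lmapDomain_apply,
      Finsupp.mapRange.linearMap_apply, Finsupp.mapRange_single, Finsupp.mapDomain_single, map_sum,
      Finsupp.lsum_single, LinearMap.add_apply, LinearMap.proj_apply, LinearMap.funLeft_apply,
      Fin.sum_univ_four, kap, LinearMap.zero_apply, map_add]
    change v 0 + v 3 + (v 0 + v 1) + (v 2 + v 1) + (v 2 + v 3) = 0
    generalize v 0 = a; generalize v 1 = b; generalize v 2 = c; generalize v 3 = d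
    revert a b c d; decide
  exact LinearMap.congr_fun this t

theorem gens_inv (a c : Γ) (i : Bool) (x : X) :
    (gens X a c i)⁻¹ x = (if i then a else c)⁻¹ • x := rfl

theorem bd_injective {a b c d : Γ} (hr1 : a * (b * d) = b * c) (hr2 : b * (a * d) = c * b)
    (hfree : ∀ x, FreeAt (gens X a c) x) : Function.Injective (bd X (gpos a c d)) := by
  rw [← LinearMap.ker_eq_bot, LinearMap.ker_eq_bot']
  intro t ht
  have hfin : ∀ (h : Γ) (κ : Fin 4), (Function.support fun x : X => t (h • x) κ).Finite := by
    intro h κ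
    refine (t.support.finite_toSet.preimage (MulAction.injective h).injOn).subset fun x hx => ?_
    simp only [Set.mem_preimage, Finset.mem_coe, Finsupp.mem_support_iff]
    intro h0
    exact hx (by simp [h0])
  have h1 := eq_zero_of_cycle hfree
    (fun i x => if i then t (d⁻¹ • x) 2 else t ((1 : Γ) • x) 0)
    (fun i => by cases i; exacts [hfin _ _, hfin _ _]) (fun x => by
      have := congrFun (DFunLike.congr_fun ht x) true
      rw [bd_apply] at this
      simp only [Fin.sum_univ_four, Pi.add_apply, gpos, kap] at this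
      simp only [Matrix.cons_val_zero, Matrix.cons_val_one, Matrix.cons_val, inv_one, one_smul,
        Finsupp.coe_zero, Pi.zero_apply, mul_inv_rev a, mul_smul] at this
      simp only [Fintype.sum_bool, gens_inv, if_true, Bool.false_eq_true, if_false, one_smul]
      rw [← this]; ring)
  have h2 := eq_zero_of_cycle hfree
    (fun i x => if i then t ((b * d)⁻¹ • x) 1 else t (b⁻¹ • x) 3)
    (fun i => by cases i; exacts [hfin _ _, hfin _ _]) (fun x => by
      have := congrFun (DFunLike.congr_fun ht (b⁻¹ • x)) false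
      rw [bd_apply] at this
      simp only [Fin.sum_univ_four, Pi.add_apply, gpos, kap] at this
      simp only [Matrix.cons_val_zero, Matrix.cons_val_one, Matrix.cons_val, inv_one,
        Finsupp.coe_zero, Pi.zero_apply, smul_smul, ← mul_inv_rev, hr2, one_mul] at this
      simp only [Fintype.sum_bool, gens_inv, if_true, Bool.false_eq_true, if_false, smul_smul,
        ← mul_inv_rev, hr1]
      rw [← this]; ring)
  ext y κ
  fin_cases κ
  · simpa using congrFun (congrFun h1 false) y
  · have := congrFun (congrFun h2 true) ((b * d) • y)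
    simp only [if_true, inv_smul_smul] at this
    exact this
  · simpa using congrFun (congrFun h1 true) (d • y)
  · simpa using congrFun (congrFun h2 false) (b • y)

theorem link_lemma {a b c d : Γ} (hr1 : a * (b * d) = b * c) (hr2 : b * (a * d) = c * b)
    (hfree : ∀ x, FreeAt (gens X a c) x) (SP : X → Submodule F2 (Fin 4 → F2))
    (SE : X → Submodule F2 (Bool → F2)) (Z : Finset X) (hP : ∀ x, x ∉ Z → SP x = ⊥)
    (hE : ∀ x, x ∉ Z → SE x = ⊥)
    (hc : ∀ y, ∀ t ∈ SP y, ∀ i, (fun σ => t (kap i σ)) ∈ SE (gpos a c d i • y)) :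
    ∑ x ∈ Z, finrank F2 (SP x) ≤ ∑ x ∈ Z, finrank F2 (SE x) ∧
      ((∃ x, ∃ τ ∈ SE x, τ true + τ false ≠ 0) →
        ∑ x ∈ Z, finrank F2 (SP x) + 1 ≤ ∑ x ∈ Z, finrank F2 (SE x)) := by
  classical
  obtain ⟨_, h1⟩ := finrank_finsupp_submodule SP Z hP
  obtain ⟨_, h2⟩ := finrank_finsupp_submodule SE Z hE
  have hle : (Finsupp.submodule SP).map (bd X (gpos a c d)) ≤ Finsupp.submodule SE := by
    rintro _ ⟨t, ht, rfl⟩ x
    rw [bd_apply]
    refine Submodule.sum_mem _ fun i _ => ?_
    have := hc _ _ (ht ((gpos a c d i)⁻¹ • x)) i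
    rwa [smul_inv_smul] at this
  have h3 : finrank F2 ((Finsupp.submodule SP).map (bd X (gpos a c d))) =
      finrank F2 (Finsupp.submodule SP) :=
    (Submodule.equivMapOfInjective _ (bd_injective hr1 hr2 hfree) _).finrank_eq.symm
  rw [← h1, ← h2, ← h3]
  refine ⟨Submodule.finrank_mono hle, fun ⟨x, τ, hτ, hτ'⟩ => ?_⟩
  refine Submodule.finrank_lt_finrank_of_lt (lt_of_le_of_ne hle fun h => hτ' ?_)
  have : Finsupp.single x τ ∈ Finsupp.submodule SE := fun y => by
    by_cases hy : x = y
    · subst hy; simpa using hτ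
    · simp [Finsupp.single_eq_of_ne' hy]
  rw [← h] at this
  obtain ⟨t, -, ht⟩ := this
  have h4 := aug_bd (gpos a c d) t
  rw [ht] at h4
  simpa [aug] using h4

end Link

section Defect

variable {C S L : Type} [Fintype C]

open Classical in
/-- Sums of coefficients over the cells selected by a predicate. -/
noncomputable def dfp (pr : C → S → Prop) : (C → F2) →ₗ[F2] (S → F2) where
  toFun α σ := ∑ c, if pr c σ then α c else 0
  map_add' α β := by
    ext σ
    simp only [Pi.add_apply, ← Finset.sum_add_distrib]
    exact Finset.sum_congr rfl fun c _ => by split_ifs <;> simp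
  map_smul' r α := by
    ext σ
    simp only [Pi.smul_apply, smul_eq_mul, RingHom.id_apply, Finset.mul_sum]
    exact Finset.sum_congr rfl fun c _ => by split_ifs <;> simp

open Classical in
theorem dfp_apply (pr : C → S → Prop) (α : C → F2) (σ : S) :
    dfp pr α σ = ∑ c, if pr c σ then α c else 0 := rfl

open Classical in
theorem dfp_single [DecidableEq C] (pr : C → S → Prop) (c : C) (σ : S) :
    dfp pr (Pi.single c 1) σ = if pr c σ then 1 else 0 := by
  rw [dfp_apply, Finset.sum_eq_single c]
  · simp
  · intro b _ hb; simp [hb]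
  · simp

/-- The defect of a chain at the label `l`. -/
noncomputable def dfc (pres : C → Prop) (lab : C → S → L) (l : L) : (C → F2) →ₗ[F2] (S → F2) :=
  dfp fun c σ => pres c ∧ lab c σ = l

/-- Chains with no defect at labels in `H`. -/
noncomputable def cons (pres : C → Prop) (lab : C → S → L) (H : Set L) : Submodule F2 (C → F2) :=
  ⨅ l ∈ H, LinearMap.ker (dfc pres lab l)

theorem mem_cons {pres : C → Prop} {lab : C → S → L} {H : Set L} {α : C → F2} :
    α ∈ cons pres lab H ↔ ∀ l ∈ H, dfc pres lab l α = 0 := by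
  simp [cons, Submodule.mem_iInf]

theorem dfc_eq_zero {pres : C → Prop} {lab : C → S → L} {l : L} (h : ∀ c σ, lab c σ ≠ l) :
    dfc pres lab l = 0 := by
  ext α σ
  simp [dfc, dfp_apply, h]

theorem cons_congr {pres : C → Prop} {lab : C → S → L} {H H' : Set L}
    (h : ∀ c σ, lab c σ ∈ H ↔ lab c σ ∈ H') : cons pres lab H = cons pres lab H' := by
  have key : ∀ H H' : Set L, (∀ c σ, lab c σ ∈ H' → lab c σ ∈ H) →
      cons pres lab H ≤ cons pres lab H' := by
    intro H H' h α hα
    rw [mem_cons] at hα ⊢
    intro l hl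
    by_cases h' : ∃ c σ, lab c σ = l
    · obtain ⟨c, σ, rfl⟩ := h'
      exact hα _ (h c σ hl)
    · push Not at h'
      rw [dfc_eq_zero h']; rfl
  exact le_antisymm (key _ _ fun c σ => (h c σ).2) (key _ _ fun c σ => (h c σ).1)

/-- The dimension of the space of defects at `l` of chains without defect in `H`. -/
noncomputable def dS (pres : C → Prop) (lab : C → S → L) (H : Set L) (l : L) : ℕ :=
  finrank F2 ((cons pres lab H).map (dfc pres lab l))

/-- The dimension of the space of cycles. -/
noncomputable def dZ (pres : C → Prop) (lab : C → S → L) : ℕ :=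
  finrank F2 (cons pres lab Set.univ)

/-- `cons` in terms of Boolean data. -/
noncomputable def consD (d : (C → S → Prop) × (C → S → C → S → Prop)) : Submodule F2 (C → F2) :=
  ⨅ (c : C) (σ : S) (_ : d.1 c σ), LinearMap.ker (dfp (d.2 c σ))

theorem cons_eq_consD (pres : C → Prop) (lab : C → S → L) (H : Set L) :
    cons pres lab H = consD (fun c σ => lab c σ ∈ H,
      fun c σ c' σ' => pres c' ∧ lab c' σ' = lab c σ) := by
  ext α
  simp only [mem_cons, consD, Submodule.mem_iInf, LinearMap.mem_ker]
  constructor
  · intro h c σ hc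
    exact h _ hc
  · intro h l hl
    by_cases h' : ∃ c σ, lab c σ = l
    · obtain ⟨c, σ, rfl⟩ := h'
      exact h c σ hl
    · push Not at h'
      rw [dfc_eq_zero h']; rfl

theorem dS_le [Fintype S] (pres : C → Prop) (lab : C → S → L) (H : Set L) (l : L) :
    dS pres lab H l ≤ Fintype.card S :=
  (Submodule.finrank_le _).trans (by simp)

theorem dZ_le (pres : C → Prop) (lab : C → S → L) : dZ pres lab ≤ Fintype.card C :=
  (Submodule.finrank_le _).trans (by simp)

open Classical in
theorem dfc_merge (pres : C → Prop) (lab : C → S → L) {lp lq : L} (h : lp ≠ lq) (l : L) :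
    dfc pres (fun c σ => if lab c σ = lp then lq else lab c σ) l =
      if l = lp then 0 else if l = lq then dfc pres lab lp + dfc pres lab lq
        else dfc pres lab l := by
  refine LinearMap.ext fun α => funext fun σ => ?_
  split_ifs with h1 h2
  · simp only [dfc, dfp_apply, LinearMap.zero_apply, Pi.zero_apply]
    refine Finset.sum_eq_zero fun c _ => if_neg ?_
    split_ifs <;> grind
  · simp only [dfc, dfp_apply, LinearMap.add_apply, Pi.add_apply, ← Finset.sum_add_distrib]
    refine Finset.sum_congr rfl fun c _ => ?_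
    by_cases h3 : lab c σ = lp <;> by_cases h4 : lab c σ = lq <;> simp_all
  · simp only [dfc, dfp_apply]
    refine Finset.sum_congr rfl fun c _ => ?_
    by_cases h3 : lab c σ = lp <;> simp_all [Ne.symm h1, Ne.symm h2]

open Classical in
theorem dZ_merge (pres : C → Prop) (lab : C → S → L) {lp lq : L} (h : lp ≠ lq) :
    dZ pres (fun c σ => if lab c σ = lp then lq else lab c σ) = dZ pres lab +
      finrank F2 ((cons pres (fun c σ => if lab c σ = lp then lq else lab c σ) Set.univ).map
        (dfc pres lab lp)) := by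
  rw [dZ, finrank_split _ (dfc pres lab lp), dZ]
  congr 1
  refine congrArg (fun U : Submodule F2 (C → F2) => finrank F2 U) (Submodule.ext fun α => ?_)
  simp only [Submodule.mem_inf, mem_cons, Set.mem_univ, true_implies, LinearMap.mem_ker,
    dfc_merge pres lab h]
  constructor
  · rintro ⟨h1, h2⟩ l
    have := h1 l
    split_ifs at this with h3 h4
    · rw [h3, h2]
    · rw [h4]; simpa [h2] using this
    · exact this
  · intro h1
    refine ⟨fun l => ?_, h1 lp⟩
    split_ifs <;> simp [h1]

theorem dZ_filtration {A : Type} [LinearOrder A] (pres : C → Prop) (lab : C → S → L)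
    (lev : L → A) (T : Finset L) (hinj : Set.InjOn lev T) (hT : ∀ c σ, lab c σ ∈ T) :
    Fintype.card C = dZ pres lab + ∑ l ∈ T, dS pres lab {l' | lev l < lev l'} l := by
  have := finrank_filtration (dfc pres lab) lev T hinj
  rw [finrank_pi] at this
  rw [this, dZ, cons_congr (H := Set.univ) (H' := T) (by simp [hT])]
  congr 1
  refine Finset.sum_congr rfl fun l _ => ?_
  rw [dS, cons_congr (H' := {l' | l' ∈ T ∧ lev l < lev l'}) (by simp [hT])]
  rfl

open Classical in
theorem sum_dfc (pres : C → Prop) (lab : C → S → L) (T : Finset L) (hT : ∀ c σ, lab c σ ∈ T)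
    (α : C → F2) (σ : S) : ∑ l ∈ T, dfc pres lab l α σ = ∑ c, if pres c then α c else 0 := by
  simp only [dfc, dfp_apply]
  rw [Finset.sum_comm]
  refine Finset.sum_congr rfl fun c _ => ?_
  rw [Finset.sum_eq_single_of_mem (lab c σ) (hT c σ)]
  · simp
  · intro l _ hl; simp [Ne.symm hl]

/-- A chain without defects away from `l` has constant defect at `l`. -/
theorem dfc_const [Finite S] (pres : C → Prop) (lab : C → S → L) (l : L) {α : C → F2}
    (hα : α ∈ cons pres lab {l' | l' ≠ l}) (σ σ' : S) :
    dfc pres lab l α σ = dfc pres lab l α σ' := by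
  classical
  haveI := Fintype.ofFinite S
  let T : Finset L := insert l (Finset.univ.image fun q : C × S => lab q.1 q.2)
  have hT : ∀ c σ, lab c σ ∈ T := fun c σ =>
    Finset.mem_insert_of_mem (Finset.mem_image.2 ⟨(c, σ), Finset.mem_univ _, rfl⟩)
  have key : ∀ σ, ∑ l' ∈ T, dfc pres lab l' α σ = dfc pres lab l α σ := fun σ =>
    Finset.sum_eq_single_of_mem l (Finset.mem_insert_self _ _) fun l' _ hl' => by
      rw [mem_cons.1 hα l' hl']; rfl
  rw [← key, ← key, sum_dfc pres lab T hT, sum_dfc pres lab T hT]

end Defect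

end Crest.Agent.H6.Cost
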