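import Mathlib
import Crest.Agent.H6.CostLin

/-! Orbit-measurable label maps, mass transport and separated covers. -/

namespace Crest.Agent.H6.Cost

open MeasureTheory Module
open scoped ENNReal Pointwise

section Basic

variable {Γ X V : Type} [Group Γ] [MulAction Γ X]

/-- The vertex with offset `q` seen from `y`. -/
def vx (q : Γ × V) (y : X) : X × V := (q.1 • y, q.2)

/-- The label with offset `t` seen from `y`. -/
def rel (y : X) (t : Option (Γ × V)) : Option (X × V) := t.map fun q => vx q y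

@[simp] theorem rel_none (y : X) : rel y (none : Option (Γ × V)) = none := rfl

@[simp] theorem rel_some (y : X) (q : Γ × V) : rel y (some q) = some (vx q y) := rfl

theorem vx_smul (q : Γ × V) (g : Γ) (y : X) : vx q (g • y) = vx (q.1 * g, q.2) y := by
  simp [vx, mul_smul]

theorem vx_one (v : V) (y : X) : vx ((1 : Γ), v) y = (y, v) := by simp [vx]

theorem rel_smul (t : Option (Γ × V)) (g : Γ) (y : X) :
    rel (g • y) t = rel y (t.map fun q => (q.1 * g, q.2)) := by
  cases t <;> simp [vx_smul]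

theorem vx_injective [IsCancelSMul Γ X] (y : X) :
    Function.Injective fun q : Γ × V => vx q y := by
  rintro ⟨g, v⟩ ⟨h, w⟩ e
  simp only [vx, Prod.mk.injEq] at e
  rw [IsCancelSMul.right_cancel _ _ _ e.1, e.2]

theorem rel_injective [IsCancelSMul Γ X] (y : X) :
    Function.Injective (rel y : Option (Γ × V) → Option (X × V)) :=
  Option.map_injective (vx_injective y)

/-- Balls for a proper length function. -/
structure Balls (Γ : Type) [Group Γ] where
  /-- the balls -/
  B : ℕ → Set Γ
  fin : ∀ k, (B k).Finite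
  one : ∀ k, 1 ∈ B k
  mul : ∀ {k l g h}, g ∈ B k → h ∈ B l → g * h ∈ B (k + l)
  inv : ∀ {k g}, g ∈ B k → g⁻¹ ∈ B k

theorem exists_balls {S : Set Γ} (hS : S.Finite) : ∃ β : Balls Γ, S ⊆ β.B 1 := by
  let T : Set Γ := insert 1 (S ∪ S⁻¹)
  have hT : T.Finite := (hS.union hS.inv).insert _
  have hT' : T⁻¹ = T := by
    ext g; simp only [T, Set.mem_inv, Set.mem_insert_iff, Set.mem_union, inv_inv, inv_eq_one]
    tauto
  have hfin : ∀ k, (T ^ k).Finite := fun k => by
    induction k with
    | zero => simp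
    | succ k ih => rw [pow_succ]; exact ih.mul hT
  refine ⟨⟨fun k => T ^ k, hfin, fun k => Set.one_mem_pow (Set.mem_insert _ _),
    fun hg hh => ?_, fun {k g} hg => ?_⟩, fun g hg => by simp [T, hg]⟩
  · rw [pow_add]; exact Set.mul_mem_mul hg hh
  · rw [← hT', inv_pow]; exact Set.inv_mem_inv.2 hg

/-- `y` is at distance at most `k` from `x`. -/
def Balls.Near (β : Balls Γ) (k : ℕ) (x y : X) : Prop := ∃ g ∈ β.B k, y = g • x

theorem Balls.Near.refl (β : Balls Γ) (k : ℕ) (x : X) : β.Near k x x :=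
  ⟨1, β.one k, (one_smul _ _).symm⟩

theorem Balls.Near.symm {β : Balls Γ} {k : ℕ} {x y : X} (h : β.Near k x y) : β.Near k y x := by
  obtain ⟨g, hg, rfl⟩ := h
  exact ⟨g⁻¹, β.inv hg, by simp⟩

theorem Balls.Near.trans {β : Balls Γ} {k l : ℕ} {x y z : X} (h : β.Near k x y)
    (h' : β.Near l y z) : β.Near (k + l) x z := by
  obtain ⟨g, hg, rfl⟩ := h
  obtain ⟨g', hg', rfl⟩ := h'
  exact ⟨g' * g, add_comm k l ▸ β.mul hg' hg, by rw [mul_smul]⟩

theorem Balls.Near.mono {β : Balls Γ} {k l : ℕ} {x y : X} (h : β.Near k x y) (hkl : k ≤ l) :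
    β.Near l x y := by
  obtain ⟨m, rfl⟩ := Nat.exists_eq_add_of_le hkl
  exact h.trans (Balls.Near.refl β m y)

theorem Balls.Near.orb {β : Balls Γ} {k : ℕ} {x y : X} (h : β.Near k x y) :
    ∃ g : Γ, y = g • x := let ⟨g, _, e⟩ := h; ⟨g, e⟩

end Basic

section Meas

variable {Γ X V : Type} [Group Γ] [MulAction Γ X] [MeasurableSpace X]

variable (Γ) in
/-- Orbit-measurable label valued functions. -/
def OM (f : X → Option (X × V)) : Prop :=
  (∀ x, ∃ t : Option (Γ × V), f x = rel x t) ∧
    ∀ t : Option (Γ × V), Measurable fun x => f x = rel x t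

theorem OM.meas [Countable Γ] [Countable V] {f : X → Option (X × V)} (hf : OM Γ f) {β : Type}
    [MeasurableSpace β] {G : X → Option (X × V) → β}
    (hG : ∀ t : Option (Γ × V), Measurable fun x => G x (rel x t)) :
    Measurable fun x => G x (f x) := by
  intro B hB
  have : (fun x => G x (f x)) ⁻¹' B =
      ⋃ t : Option (Γ × V), {x | f x = rel x t} ∩ (fun x => G x (rel x t)) ⁻¹' B := by
    ext x
    simp only [Set.mem_preimage, Set.mem_iUnion, Set.mem_inter_iff, Set.mem_ofPred_eq]
    constructor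
    · intro h
      obtain ⟨t, ht⟩ := hf.1 x
      exact ⟨t, ht, ht ▸ h⟩
    · rintro ⟨t, ht, h⟩
      exact ht ▸ h
  rw [this]
  exact MeasurableSet.iUnion fun t => (hf.2 t).setOf.inter (hG t hB)

theorem OM.eq [Countable Γ] [Countable V] {f g : X → Option (X × V)} (hf : OM Γ f)
    (hg : OM Γ g) : Measurable fun x => f x = g x :=
  hg.meas (G := fun x l => f x = l) hf.2

theorem OM.ne [Countable Γ] [Countable V] {f g : X → Option (X × V)} (hf : OM Γ f)
    (hg : OM Γ g) : Measurable fun x => f x ≠ g x := (hf.eq hg).not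

theorem OM.rel [IsCancelSMul Γ X] (t : Option (Γ × V)) : OM Γ fun x : X => rel x t :=
  ⟨fun _ => ⟨t, rfl⟩, fun t' => by
    simp only [(rel_injective _).eq_iff]; exact measurable_const⟩

theorem OM.none [IsCancelSMul Γ X] : OM Γ fun _ : X => (none : Option (X × V)) :=
  OM.rel Option.none

theorem OM.some [IsCancelSMul Γ X] (q : Γ × V) : OM Γ fun x : X => some (vx q x) :=
  OM.rel (Option.some q)

theorem OM.shift [MeasurableConstSMul Γ X] {f : X → Option (X × V)} (hf : OM Γ f) (g : Γ) :
    OM Γ fun x => f (g • x) := by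
  refine ⟨fun x => ?_, fun t => ?_⟩
  · obtain ⟨t, ht⟩ := hf.1 (g • x)
    exact ⟨_, ht.trans (rel_smul _ _ _)⟩
  · have := (hf.2 (t.map fun q => (q.1 * g⁻¹, q.2))).comp (measurable_const_smul g)
    convert this using 2 with x
    simp only [Function.comp, rel_smul]
    cases t <;> simp

theorem OM.ite {f g : X → Option (X × V)} (hf : OM Γ f) (hg : OM Γ g) {p : X → Prop}
    {_ : DecidablePred p} (hp : Measurable p) : OM Γ fun x => if p x then f x else g x := by
  refine ⟨fun x => ?_, fun t => ?_⟩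
  · by_cases h : p x
    · simpa [h] using hf.1 x
    · simpa [h] using hg.1 x
  · convert (hp.and (hf.2 t)).or (hp.not.and (hg.2 t)) using 2 with x
    by_cases h : p x <;> simp [h]

theorem OM.vx [MeasurableConstSMul Γ X] {ld : X × V → Option (X × V)}
    (h : ∀ v, OM Γ fun x => ld (x, v)) (q : Γ × V) : OM Γ fun x => ld (vx q x) :=
  (h q.2).shift q.1

theorem measurable_cls [Countable Γ] [Countable V] [IsCancelSMul Γ X] [MeasurableConstSMul Γ X]
    {ld : X × V → Option (X × V)} (h : ∀ v, OM Γ fun x => ld (x, v))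
    {f : X → Option (X × V)} (hf : OM Γ f) :
    Measurable fun x => {u | ld u = f x}.ncard := by
  refine hf.meas (G := fun _ l => {u | ld u = l}.ncard) fun t => ?_
  cases t with
  | none => simp only [rel_none]; exact measurable_const
  | some q =>
    have : ∀ x : X, {u | ld u = rel x (some q)}.ncard =
        {q' : Γ × V | ld (vx q' x) = some (vx q x)}.ncard := by
      intro x
      rw [← Set.ncard_image_of_injective _ (vx_injective (Γ := Γ) x)]
      congr 1
      ext ⟨y, v⟩
      simp only [rel_some, Set.mem_ofPred_eq, Set.mem_image]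
      constructor
      · intro hu
        obtain ⟨t, ht⟩ := (h v).1 y
        cases t with
        | none => simp [hu] at ht
        | some q' =>
          have h1 : q.1 • x = q'.1 • y := by
            exact congrArg Prod.fst (Option.some.inj (hu.symm.trans ht))
          have h2 : vx (q'.1⁻¹ * q.1, v) x = (y, v) := by
            simp [Cost.vx, mul_smul, h1]
          exact ⟨_, h2 ▸ hu, h2⟩
      · rintro ⟨q', h1, h2⟩
        exact h2 ▸ h1
    simp only [this]
    exact measurable_ncard.comp (measurable_set_iff.2 fun q' => (OM.vx h q').eq (OM.some q))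

theorem measurable_finrank_cons {C S L : Type} [Fintype C] [Finite S] (pr : X → C → Prop)
    (lab lab0 : X → C → S → L) (H : X → Set L) (l : X → L)
    (h1 : ∀ c σ, Measurable fun x => lab x c σ ∈ H x)
    (h2 : ∀ c σ c' σ', Measurable fun x => pr x c' ∧ lab x c' σ' = lab x c σ)
    (h3 : ∀ c σ, Measurable fun x => pr x c ∧ lab0 x c σ = l x) :
    Measurable fun x => finrank F2 ((cons (pr x) (lab x) (H x)).map (dfc (pr x) (lab0 x) (l x))) := by
  have := (Measurable.of_discrete (f := fun d : ((C → S → Prop) × (C → S → C → S → Prop)) ×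
    (C → S → Prop) => finrank F2 ((consD d.1).map (dfp d.2)))).comp
    (Measurable.prodMk (Measurable.prodMk
      (measurable_pi_iff.2 fun c => measurable_pi_iff.2 fun σ => h1 c σ)
      (measurable_pi_iff.2 fun c => measurable_pi_iff.2 fun σ => measurable_pi_iff.2 fun c' =>
        measurable_pi_iff.2 fun σ' => h2 c σ c' σ'))
      (measurable_pi_iff.2 fun c => measurable_pi_iff.2 fun σ => h3 c σ))
  convert this using 2 with x
  rw [cons_eq_consD]; rfl

theorem measurable_dZ {C S L : Type} [Fintype C] [Finite S] (pr : X → C → Prop)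
    (lab : X → C → S → L)
    (h2 : ∀ c σ c' σ', Measurable fun x => pr x c' ∧ lab x c' σ' = lab x c σ) :
    Measurable fun x => dZ (pr x) (lab x) := by
  have := (Measurable.of_discrete (f := fun d : (C → S → Prop) × (C → S → C → S → Prop) =>
    finrank F2 (consD d))).comp
    (Measurable.prodMk (f := fun x c σ => lab x c σ ∈ Set.univ)
      (measurable_pi_iff.2 fun c => measurable_pi_iff.2 fun σ => measurable_const)
      (measurable_pi_iff.2 fun c => measurable_pi_iff.2 fun σ => measurable_pi_iff.2 fun c' =>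
        measurable_pi_iff.2 fun σ' => h2 c σ c' σ'))
  convert this using 2 with x
  rw [dZ, cons_eq_consD]; rfl

/-- A kernel supported on orbits, with measurable slices. -/
structure Ker (Γ : Type) {X : Type} [Group Γ] [MulAction Γ X] [MeasurableSpace X]
    (f : X → X → ℝ≥0∞) : Prop where
  orb : ∀ x y, f x y ≠ 0 → ∃ g : Γ, y = g • x
  meas : ∀ g : Γ, Measurable fun x => f x (g • x)

theorem Ker.swap [MeasurableConstSMul Γ X] {f : X → X → ℝ≥0∞} (hf : Ker Γ f) :
    Ker Γ fun x y => f y x :=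
  ⟨fun x y h => by
    obtain ⟨g, rfl⟩ := hf.orb _ _ h
    exact ⟨g⁻¹, by simp⟩, fun g => by
    simpa [Function.comp_def] using (hf.meas g⁻¹).comp (measurable_const_smul g)⟩

theorem Ker.tsum_eq [IsCancelSMul Γ X] {f : X → X → ℝ≥0∞} (hf : Ker Γ f) (x : X) :
    ∑' y, f x y = ∑' g : Γ, f x (g • x) := by
  refine (Function.Injective.tsum_eq (g := fun g : Γ => g • x)
    (fun g h e => IsCancelSMul.right_cancel _ _ _ e) fun y hy => ?_).symm
  obtain ⟨g, rfl⟩ := hf.orb _ _ hy
  exact ⟨g, rfl⟩

theorem Ker.measurable [Countable Γ] [IsCancelSMul Γ X] {f : X → X → ℝ≥0∞} (hf : Ker Γ f) :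
    Measurable fun x => ∑' y, f x y := by
  simp only [hf.tsum_eq]
  exact Measurable.ennreal_tsum hf.meas

/-- The mass transport principle. -/
theorem Ker.mtp [Countable Γ] [IsCancelSMul Γ X] [MeasurableConstSMul Γ X] (μ : Measure X)
    [SMulInvariantMeasure Γ X μ] {f : X → X → ℝ≥0∞} (hf : Ker Γ f) :
    ∫⁻ x, ∑' y, f x y ∂μ = ∫⁻ y, ∑' x, f x y ∂μ := by
  simp only [hf.tsum_eq, hf.swap.tsum_eq]
  rw [lintegral_tsum fun g => (hf.meas g).aemeasurable,
    lintegral_tsum fun g => (hf.swap.meas g).aemeasurable, ← (Equiv.inv Γ).tsum_eq]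
  refine tsum_congr fun g => ?_
  rw [← (measurePreserving_smul g μ).lintegral_comp (hf.meas _)]
  simp

theorem exists_separated_cover [Countable Γ] [IsCancelSMul Γ X] [MeasurableConstSMul Γ X]
    [StandardBorelSpace X] {O : Set Γ} (hO : O.Finite) :
    ∃ U : ℕ → Set X, (∀ n, MeasurableSet (U n)) ∧ (∀ x, ∃ n, x ∈ U n) ∧
      ∀ n, ∀ g ∈ O, ∀ x ∈ U n, g • x ∈ U n → g = 1 := by
  obtain ⟨A, hA, hsep⟩ := exists_seq_separating X (p := MeasurableSet) MeasurableSet.univ Set.univ
  haveI := hO.to_subtype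
  obtain ⟨φ, hφ⟩ := exists_surjective_nat (O → ℕ × Prop)
  refine ⟨fun n => {x | ∀ g : O, g.1 = 1 ∨ ((x ∈ A (φ n g).1 ↔ (φ n g).2) ∧
    ¬(g.1 • x ∈ A (φ n g).1 ↔ (φ n g).2))}, fun n => ?_, fun x => ?_, fun n g hg x hx hgx => ?_⟩
  · refine Measurable.setOf (Measurable.forall fun g => measurable_const.or
      (((hA _).mem.iff measurable_const).and (Measurable.iff ?_ measurable_const).not))
    exact (hA _).mem.comp (measurable_const_smul g.1)
  · have : ∀ g : O, ∃ d : ℕ × Prop, g.1 = 1 ∨ ((x ∈ A d.1 ↔ d.2) ∧ ¬(g.1 • x ∈ A d.1 ↔ d.2)) := by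
      intro g
      by_cases hg : g.1 = 1
      · exact ⟨(0, True), Or.inl hg⟩
      · have : ¬ ∀ n, x ∈ A n ↔ g.1 • x ∈ A n := fun h =>
          hg (IsCancelSMul.eq_one_of_smul (hsep x trivial _ trivial h).symm)
        push Not at this
        obtain ⟨n, hn⟩ := this
        exact ⟨(n, x ∈ A n), Or.inr ⟨Iff.rfl, by tauto⟩⟩
    choose d hd using this
    obtain ⟨n, rfl⟩ := hφ d
    exact ⟨n, hd⟩
  · rcases hx ⟨g, hg⟩ with h | h
    · exact h
    · rcases hgx ⟨g, hg⟩ with h' | h'
      · exact h'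
      · exact absurd h'.1 h.2

theorem measure_separated_le [MeasurableConstSMul Γ X] (μ : Measure X) [IsProbabilityMeasure μ]
    [SMulInvariantMeasure Γ X μ] (T : Finset Γ) {U : Set X} (hU : MeasurableSet U)
    (h : ∀ g ∈ T, ∀ g' ∈ T, ∀ x ∈ U, (g' * g⁻¹) • x ∈ U → g' * g⁻¹ = 1) :
    T.card * μ U ≤ 1 := by
  have h1 := measure_biUnion_finset (μ := μ) (s := T) (f := fun g : Γ => (g • ·) ⁻¹' U)
    (fun g hg g' hg' hne => Set.disjoint_left.2 fun x hx hx' => hne
      (mul_inv_eq_one.1 (h g hg g' hg' _ hx (by simpa [mul_smul] using hx'))).symm)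
    fun g _ => measurable_const_smul g hU
  simp only [measure_preimage_smul, Finset.sum_const, nsmul_eq_mul] at h1
  rw [← h1]
  exact prob_le_one

end Meas

theorem exists_schedule (I : Type) [Countable I] [Nonempty I] :
    ∃ sch : ℕ → I, ∀ i n, ∃ m, n ≤ m ∧ sch m = i := by
  obtain ⟨φ, hφ⟩ := exists_surjective_nat I
  refine ⟨fun m => φ (Nat.unpair m).1, fun i n => ?_⟩
  obtain ⟨k, rfl⟩ := hφ i
  exact ⟨Nat.pair k n, Nat.right_le_pair _ _, by simp⟩

end Crest.Agent.H6.Cost
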