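import Mathlib
import Crest.Agent.H6.CostOM

/-! Cell systems over a free action. -/

namespace Crest.Agent.H6.Cost

open MeasureTheory Module
open scoped ENNReal

section Cells

variable {Γ X V : Type} [Group Γ] [MulAction Γ X] {C S L : Type} [Fintype C]

/-- Labels of the corners of the cells at position `y`. -/
def lab (ld : X × V → L) (cv : C → S → Γ × V) (y : X) : C → S → L :=
  fun c σ => ld (vx (cv c σ) y)

/-- Space of defects. -/
noncomputable def SS (pr : X → C → Prop) (cv : C → S → Γ × V) (ld ld0 : X × V → L) (H : Set L)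
    (l : L) (y : X) : Submodule F2 (S → F2) :=
  (cons (pr y) (lab ld cv y) H).map (dfc (pr y) (lab ld0 cv y) l)

theorem SS_eq_bot {pr : X → C → Prop} {cv : C → S → Γ × V} {ld ld0 : X × V → L} {H : Set L}
    {l : L} {y : X} (h : ∀ c σ, ld0 (vx (cv c σ) y) ≠ l) : SS pr cv ld ld0 H l y = ⊥ := by
  rw [SS, dfc_eq_zero (lab := lab ld0 cv y) h, Submodule.map_zero]

theorem exists_of_finrank_SS {pr : X → C → Prop} {cv : C → S → Γ × V} {ld ld0 : X × V → L}
    {H : Set L} {l : L} {y : X} (h : finrank F2 (SS pr cv ld ld0 H l y) ≠ 0) :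
    ∃ c σ, ld0 (vx (cv c σ) y) = l := by
  by_contra h'
  push Not at h'
  exact h (by rw [SS_eq_bot h', finrank_bot])

theorem finite_pos [Finite S] (cv : C → S → Γ × V) {ld0 : X × V → L} {l : L}
    (h : {u | ld0 u = l}.Finite) : {y : X | ∃ c σ, ld0 (vx (cv c σ) y) = l}.Finite := by
  refine (Set.finite_iUnion fun c => Set.finite_iUnion fun σ =>
    h.image fun u => (cv c σ).1⁻¹ • u.1).subset ?_
  rintro y ⟨c, σ, hy⟩
  exact Set.mem_iUnion.2 ⟨c, Set.mem_iUnion.2 ⟨σ, _, hy, by simp [vx]⟩⟩

open Classical in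
/-- Replace the label `l` by `l'`. -/
noncomputable def mrg (ld : X × V → L) (l l' : L) (u : X × V) : L := if ld u = l then l' else ld u

open Classical in
theorem dZ_step (pr : X → C → Prop) (cv : C → S → Γ × V) (ld ld' : X × V → L) (act : X → Prop)
    (fr tg : X → L) (hne : ∀ x, act x → fr x ≠ tg x) (y : X)
    (h1 : ∀ x u, act x → fr x = ld u → ld' u = tg x)
    (h2 : ∀ u, (∀ x, act x → fr x ≠ ld u) → ld' u = ld u)
    (huniq : ∀ x x' c σ c' σ', act x → act x' → fr x = ld (vx (cv c σ) y) →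
      fr x' = ld (vx (cv c' σ') y) → x = x') :
    (dZ (pr y) (lab ld' cv y) : ℝ≥0∞) = dZ (pr y) (lab ld cv y) +
      ∑' x, if act x then (finrank F2 (SS pr cv (mrg ld (fr x) (tg x)) ld
        Set.univ (fr x) y) : ℝ≥0∞) else 0 := by
  by_cases h : ∃ x c σ, act x ∧ fr x = ld (vx (cv c σ) y)
  · obtain ⟨x, c, σ, hx, hx'⟩ := h
    rw [tsum_eq_single x, if_pos hx]
    · have : lab ld' cv y = fun c σ => if lab ld cv y c σ = fr x then tg x else lab ld cv y c σ := by
        funext c' σ'
        simp only [lab]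
        split_ifs with h3
        · exact h1 _ _ hx h3.symm
        · exact h2 _ fun x' hx'' e => h3 (by rw [huniq _ _ _ _ _ _ hx hx'' hx' e, e])
      rw [this, dZ_merge _ _ (hne x hx)]
      push_cast
      rfl
    · intro x' hxx'
      split_ifs with h3
      · rw [SS_eq_bot fun c' σ' e => hxx' (huniq _ _ _ _ _ _ h3 hx e.symm hx')]; simp
      · rfl
  · push Not at h
    have : lab ld' cv y = lab ld cv y := by
      funext c σ
      exact h2 _ fun x hx => h x c σ hx
    rw [this, ENNReal.tsum_eq_zero.2, add_zero]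
    intro x
    split_ifs with hx
    · rw [SS_eq_bot fun c σ e => h x c σ hx e.symm]; simp
    · rfl

theorem tsum_option {α : Type} (f : Option α → ℝ≥0∞) :
    ∑' l, f l = f none + ∑' u, f (some u) := by
  classical
  rw [ENNReal.tsum_eq_add_tsum_ite none]
  congr 1
  rw [← (Option.some_injective α).tsum_eq]
  · simp
  · rintro (_ | u) h
    · simp at h
    · simp

theorem filtration_tsum [Finite S] {A : Type} [LinearOrder A] [Fintype V] (pr : X → C → Prop)
    (cv : C → S → Γ × V) (ld : X × V → Option (X × V)) (lev : Option (X × V) → A)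
    (hlev : Function.Injective lev) (y : X) :
    (Fintype.card C : ℝ≥0∞) = dZ (pr y) (lab ld cv y) +
      (finrank F2 (SS pr cv ld ld {l | lev none < lev l} none y) : ℝ≥0∞) +
      ∑' x, ∑ v, (finrank F2 (SS pr cv ld ld {l | lev (some (x, v)) < lev l} (some (x, v)) y) :
        ℝ≥0∞) := by
  classical
  haveI := Fintype.ofFinite S
  let T : Finset (Option (X × V)) := Finset.univ.image fun q : C × S => lab ld cv y q.1 q.2
  have hT : ∀ c σ, lab ld cv y c σ ∈ T := fun c σ =>
    Finset.mem_image.2 ⟨(c, σ), Finset.mem_univ _, rfl⟩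
  rw [dZ_filtration (pr y) (lab ld cv y) lev T hlev.injOn hT]
  push_cast
  rw [add_assoc, ← tsum_eq_sum (L := .unconditional _), tsum_option, ENNReal.tsum_prod']
  · simp only [tsum_fintype]; rfl
  · intro l hl
    rw [Nat.cast_eq_zero]
    by_contra h
    obtain ⟨c, σ, e⟩ := exists_of_finrank_SS (pr := pr) (cv := cv) (ld := ld) (ld0 := ld) h
    exact hl (e ▸ hT c σ)

open Classical in
theorem card_le_dZ (pres : C → Prop) (lb : C → S → L) :
    Fintype.card C ≤ dZ pres lb + ∑ c, if pres c then 1 else 0 := by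
  let f : (C → F2) →ₗ[F2] ({c // pres c} → F2) := LinearMap.funLeft F2 F2 Subtype.val
  have h1 := f.finrank_range_add_finrank_ker
  have h2 : finrank F2 (LinearMap.range f) ≤ Fintype.card {c // pres c} :=
    (Submodule.finrank_le _).trans (by simp)
  have h3 : finrank F2 (LinearMap.ker f) ≤ dZ pres lb := by
    refine Submodule.finrank_mono fun α hα => mem_cons.2 fun l _ => funext fun σ => ?_
    refine Finset.sum_eq_zero fun c _ => ?_
    split_ifs with h
    · exact congrFun hα ⟨c, h.1⟩
    · rfl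
  rw [finrank_pi] at h1
  rw [Finset.sum_boole, Nat.cast_id, ← Fintype.card_subtype]
  omega

theorem dZ_eq_zero (lb : C → S → L) (σ : S) (h : Function.Injective fun c => lb c σ) :
    dZ (fun _ => True) lb = 0 := by
  classical
  rw [dZ, Submodule.finrank_eq_zero, eq_bot_iff]
  intro α hα
  funext c
  have := congrFun (mem_cons.1 hα (lb c σ) trivial) σ
  rw [dfc, dfp_apply, Finset.sum_eq_single c] at this
  · simpa using this
  · intro c' _ hc'
    exact if_neg fun e => hc' (h e.2)
  · simp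

end Cells

/-- A complex with finitely many templates of vertices, edges and polygons. -/
structure Cx (X V E P : Type) {Γ : Type} [Group Γ] [MulAction Γ X] (a c d : Γ) where
  /-- presence of edges -/
  pres : X → E → Prop
  /-- end points of edges -/
  ev : E → Bool → Γ × V
  /-- edges of polygons -/
  ed : P → Fin 4 → E
  /-- corners of polygons -/
  pv : P → Fin 4 → Γ × V
  pres_ed : ∀ p i y, pres (gpos a c d i • y) (ed p i)
  ev_ed : ∀ p i σ (y : X), vx (ev (ed p i) σ) (gpos a c d i • y) = vx (pv p (kap i σ)) y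

section Link

variable {Γ X V E P L : Type} [Group Γ] [MulAction Γ X] [Fintype E] [Fintype P] {a b c d : Γ}
  (Y : Cx X V E P a c d)

theorem Cx.dfc_push (ld : X × V → L) (l : L) (y : X) (i : Fin 4) (α : P → F2) (σ : Bool) :
    dfc (Y.pres (gpos a c d i • y)) (lab ld Y.ev (gpos a c d i • y)) l
      (dfp (fun p e => Y.ed p i = e) α) σ =
      dfc (fun _ => True) (lab ld Y.pv y) l α (kap i σ) := by
  classical
  simp only [dfc, dfp_apply]
  have : ∀ e, (if Y.pres (gpos a c d i • y) e ∧ lab ld Y.ev (gpos a c d i • y) e σ = l then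
      ∑ p, if Y.ed p i = e then α p else 0 else 0) = ∑ p, if Y.ed p i = e then
        (if True ∧ lab ld Y.pv y p (kap i σ) = l then α p else 0) else 0 := by
    intro e
    split_ifs with h
    · refine Finset.sum_congr rfl fun p _ => ?_
      by_cases h' : Y.ed p i = e
      · subst h'
        simp only [lab, Y.ev_ed] at h
        simp [lab, h.2]
      · simp [h']
    · refine (Finset.sum_eq_zero fun p _ => ?_).symm
      by_cases h' : Y.ed p i = e
      · subst h'
        simp only [lab, Y.ev_ed, Y.pres_ed, true_and] at h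
        simp [lab, h]
      · simp [h']
  convert (Finset.sum_congr rfl fun e _ => this e).trans Finset.sum_comm using 2
  simp

theorem Cx.compat (ld ld0 : X × V → L) (H : Set L) (l : L) (y : X) (t : Fin 4 → F2)
    (ht : t ∈ SS (fun _ _ => True) Y.pv ld ld0 H l y) (i : Fin 4) :
    (fun σ => t (kap i σ)) ∈ SS Y.pres Y.ev ld ld0 H l (gpos a c d i • y) := by
  obtain ⟨α, hα, rfl⟩ := ht
  refine ⟨dfp (fun p e => Y.ed p i = e) α, mem_cons.2 fun l' hl' => funext fun σ => ?_,
    funext fun σ => Y.dfc_push ld0 l y i α σ⟩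
  rw [Y.dfc_push, mem_cons.1 hα l' hl']
  rfl

theorem Cx.link (hr1 : a * (b * d) = b * c) (hr2 : b * (a * d) = c * b)
    (hfree : ∀ x, FreeAt (gens X a c) x) (ld ld0 : X × V → L) (H : Set L) (l : L)
    (hfin : {u | ld0 u = l}.Finite) :
    ∑' y, (finrank F2 (SS (fun _ _ => True) Y.pv ld ld0 H l y) : ℝ≥0∞) ≤
      ∑' y, (finrank F2 (SS Y.pres Y.ev ld ld0 H l y) : ℝ≥0∞) ∧
    ((∃ x, ∃ τ ∈ SS Y.pres Y.ev ld ld0 H l x, τ true + τ false ≠ 0) →
      ∑' y, (finrank F2 (SS (fun _ _ => True) Y.pv ld ld0 H l y) : ℝ≥0∞) + 1 ≤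
        ∑' y, (finrank F2 (SS Y.pres Y.ev ld ld0 H l y) : ℝ≥0∞)) := by
  let Z := ((finite_pos Y.pv hfin).union (finite_pos Y.ev hfin)).toFinset
  have hP : ∀ x, x ∉ Z → SS (fun _ _ => True) Y.pv ld ld0 H l x = ⊥ := fun x hx =>
    SS_eq_bot fun c σ e => hx ((Set.Finite.mem_toFinset _).2 (Or.inl ⟨c, σ, e⟩))
  have hE : ∀ x, x ∉ Z → SS Y.pres Y.ev ld ld0 H l x = ⊥ := fun x hx =>
    SS_eq_bot fun c σ e => hx ((Set.Finite.mem_toFinset _).2 (Or.inr ⟨c, σ, e⟩))
  have := link_lemma hr1 hr2 hfree _ _ Z hP hE (Y.compat ld ld0 H l)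
  rw [tsum_eq_sum (s := Z) fun x hx => by simp [hP x hx],
    tsum_eq_sum (s := Z) fun x hx => by simp [hE x hx]]
  exact ⟨by exact_mod_cast this.1, fun h => by exact_mod_cast this.2 h⟩

end Link

end Crest.Agent.H6.Cost
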