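import Mathlib
import Crest.Agent.H6.CostCells

/-! One round of the folding process. -/

namespace Crest.Agent.H6.Cost

open MeasureTheory Module
open scoped ENNReal

variable {Γ X V E P : Type} [Group Γ] [MulAction Γ X] {a b c d : Γ}

/-- The class of a label. -/
def cls (ld : X × V → Option (X × V)) (l : Option (X × V)) : Set (X × V) := {u | ld u = l}

/-- Invariants of the folding process. -/
structure Inv [MeasurableSpace X] (β : Balls Γ) (R : ℕ) (ld : X × V → Option (X × V)) : Prop where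
  lead : ∀ u w, ld u = some w → ld w = some w
  fin : ∀ w, (cls ld (some w)).Finite
  size : ∀ w, (cls ld (some w)).ncard ≤ 2 * R
  near : ∀ u u' w, ld u = some w → ld u' = some w →
    ∃ k, k < (cls ld (some w)).ncard ∧ β.Near (2 * k) u.1 u'.1
  meas : ∀ v, OM Γ fun x => ld (x, v)

/-- The data of a round. -/
structure Trig (X E : Type) where
  /-- scheduled set -/
  U : Set X
  /-- first edge -/
  e : E
  /-- second edge -/
  e' : E
  /-- common side -/
  σ : Bool

section Defs

variable (Y : Cx X V E P a c d) (R : ℕ) (t : Trig X E) (ld : X × V → Option (X × V))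

/-- First label. -/
def lp (x : X) : Option (X × V) := ld (vx (Y.ev t.e (!t.σ)) x)

/-- Second label. -/
def lq (x : X) : Option (X × V) := ld (vx (Y.ev t.e' (!t.σ)) x)

/-- Active points. -/
def act (x : X) : Prop := x ∈ t.U ∧ Y.pres x t.e ∧ Y.pres x t.e' ∧
  ld (vx (Y.ev t.e t.σ) x) = ld (vx (Y.ev t.e' t.σ) x) ∧ lp Y t ld x ≠ lq Y t ld x

/-- Big labels. -/
def big (l : Option (X × V)) : Prop := R < (cls ld l).ncard

open Classical in
/-- The label which disappears. -/
noncomputable def fr (x : X) : Option (X × V) :=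
  if lp Y t ld x = none ∨ (lq Y t ld x ≠ none ∧ big R ld (lq Y t ld x)) then lq Y t ld x
  else lp Y t ld x

open Classical in
/-- The label replacing it. -/
noncomputable def tg (x : X) : Option (X × V) :=
  if lp Y t ld x ≠ none ∧ lq Y t ld x ≠ none ∧ ¬big R ld (lp Y t ld x) ∧ ¬big R ld (lq Y t ld x)
  then lq Y t ld x else none

open Classical in
/-- The relabelling. -/
noncomputable def relab (l : Option (X × V)) : Option (X × V) :=
  if h : ∃ x, act Y t ld x ∧ fr Y R t ld x = l then tg Y R t ld h.choose else l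

/-- The new state. -/
noncomputable def step (u : X × V) : Option (X × V) := relab Y R t ld (ld u)

end Defs

variable {Y : Cx X V E P a c d} {R : ℕ} {t : Trig X E} {ld : X × V → Option (X × V)}
  {β : Balls Γ}

theorem act.cases {x : X} (h : act Y t ld x) :
    (fr Y R t ld x = lp Y t ld x ∨ fr Y R t ld x = lq Y t ld x) ∧ fr Y R t ld x ≠ none ∧
    fr Y R t ld x ≠ tg Y R t ld x ∧
    ((tg Y R t ld x = none ∧ big R ld (fr Y R t ld x)) ∨
      (fr Y R t ld x = lp Y t ld x ∧ tg Y R t ld x = lq Y t ld x) ∨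
      (fr Y R t ld x = lq Y t ld x ∧ tg Y R t ld x = lp Y t ld x)) ∧
    (tg Y R t ld x ≠ none → fr Y R t ld x = lp Y t ld x ∧ tg Y R t ld x = lq Y t ld x ∧
      ¬big R ld (fr Y R t ld x) ∧ ¬big R ld (tg Y R t ld x)) := by
  have := h.2.2.2.2
  unfold fr tg
  grind

theorem step_congr {u u' : X × V} (h : ld u = ld u') : step Y R t ld u = step Y R t ld u' := by
  rw [step, step, h]

theorem step_of_not {u : X × V} (h : ∀ x, act Y t ld x → fr Y R t ld x ≠ ld u) :
    step Y R t ld u = ld u :=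
  dif_neg fun ⟨x, hx, e⟩ => h x hx e

theorem step_none {u : X × V} (h : ld u = none) : step Y R t ld u = none :=
  (step_of_not fun _ hx => h ▸ hx.cases.2.1).trans h

variable [MeasurableSpace X]

/-- Standing assumptions for a round. -/
structure Good (Y : Cx X V E P a c d) (β : Balls Γ) (R : ℕ) (t : Trig X E) : Prop where
  hev : ∀ e σ, (Y.ev e σ).1 ∈ β.B 1
  hpv : ∀ p κ, (Y.pv p κ).1 ∈ β.B 1
  sep : ∀ g ∈ β.B (8 * R + 4), ∀ x ∈ t.U, g • x ∈ t.U → g = 1
  mU : MeasurableSet t.U
  mpres : ∀ e, Measurable fun x => Y.pres x e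

theorem Inv.near' (hi : Inv β R ld) {q q' : Γ × V} (hq : q.1 ∈ β.B 1) (hq' : q'.1 ∈ β.B 1)
    {x y : X} (h : ld (vx q x) = ld (vx q' y)) (h' : ld (vx q x) ≠ none) :
    β.Near (4 * R + 2) x y := by
  obtain ⟨w, hw⟩ := Option.ne_none_iff_exists'.1 h'
  obtain ⟨k, hk, h1⟩ := hi.near _ _ w hw (h ▸ hw)
  have := hi.size w
  have h2 : β.Near 1 x (vx q x).1 := ⟨_, hq, rfl⟩
  have h3 : β.Near 1 y (vx q' y).1 := ⟨_, hq', rfl⟩
  exact ((h2.trans h1).trans h3.symm).mono (by omega)

theorem act.exists_fr (hg : Good Y β R t) {x : X} (h : act Y t ld x) :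
    ∃ q : Γ × V, q.1 ∈ β.B 1 ∧ fr Y R t ld x = ld (vx q x) := by
  rcases (h.cases (R := R)).1 with e | e
  exacts [⟨_, hg.hev _ _, e⟩, ⟨_, hg.hev _ _, e⟩]

theorem act.near (hg : Good Y β R t) (hi : Inv β R ld) {x y : X} (h : act Y t ld x) {q : Γ × V}
    (hq : q.1 ∈ β.B 1) (e : fr Y R t ld x = ld (vx q y)) : β.Near (4 * R + 2) x y := by
  obtain ⟨q', hq', e'⟩ := h.exists_fr hg
  exact hi.near' hq' hq (e'.symm.trans e) (e' ▸ h.cases.2.1)

theorem act.uniq (hg : Good Y β R t) {x x' y : X} (h : act Y t ld x) (h' : act Y t ld x')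
    (h1 : β.Near (4 * R + 2) x y) (h2 : β.Near (4 * R + 2) x' y) : x = x' := by
  obtain ⟨g, hg', rfl⟩ := (h1.trans h2.symm).mono (l := 8 * R + 4) (by omega)
  rw [hg.sep g hg' x h.1 h'.1, one_smul]

theorem act.uniq' (hg : Good Y β R t) (hi : Inv β R ld) {x x' : X} (h : act Y t ld x)
    (h' : act Y t ld x') {q : Γ × V} (hq : q.1 ∈ β.B 1) (e : fr Y R t ld x' = ld (vx q x)) :
    x = x' :=
  h.uniq hg h' (Balls.Near.refl _ _ _) (h'.near hg hi hq e)

theorem step_of_fr (hg : Good Y β R t) (hi : Inv β R ld) {x : X} {u : X × V} (h : act Y t ld x)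
    (e : fr Y R t ld x = ld u) : step Y R t ld u = tg Y R t ld x := by
  have h1 : ∃ x, act Y t ld x ∧ fr Y R t ld x = ld u := ⟨x, h, e⟩
  rw [step, relab, dif_pos h1]
  obtain ⟨q, hq, e'⟩ := h.exists_fr hg
  rw [← h.uniq' hg hi h1.choose_spec.1 hq (h1.choose_spec.2.trans (e.symm.trans e'))]

theorem step_of_tg (hg : Good Y β R t) (hi : Inv β R ld) {x : X} {u : X × V} (h : act Y t ld x)
    (e : tg Y R t ld x = ld u) : step Y R t ld u = ld u := by
  refine step_of_not fun x' hx' e' => ?_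
  have h1 := (h.cases.2.2.2.2 (e ▸ e' ▸ hx'.cases.2.1)).2.1
  obtain rfl := h.uniq' hg hi hx' (hg.hev _ _) (e'.trans (e.symm.trans h1))
  exact h.cases.2.2.1 (e'.trans e.symm)

theorem step_cases (hg : Good Y β R t) (hi : Inv β R ld) (u : X × V) :
    (∃ x, act Y t ld x ∧ fr Y R t ld x = ld u ∧ step Y R t ld u = tg Y R t ld x) ∨
      ((∀ x, act Y t ld x → fr Y R t ld x ≠ ld u) ∧ step Y R t ld u = ld u) := by
  by_cases h : ∃ x, act Y t ld x ∧ fr Y R t ld x = ld u
  · obtain ⟨x, hx, e⟩ := h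
    exact Or.inl ⟨x, hx, e, step_of_fr hg hi hx e⟩
  · push Not at h
    exact Or.inr ⟨h, step_of_not h⟩

theorem cls_step (hg : Good Y β R t) (hi : Inv β R ld) (w : X × V) :
    (∃ x, act Y t ld x ∧ tg Y R t ld x = some w ∧
      cls (step Y R t ld) (some w) = cls ld (fr Y R t ld x) ∪ cls ld (some w)) ∨
    cls (step Y R t ld) (some w) = cls ld (some w) ∨ cls (step Y R t ld) (some w) = ∅ := by
  by_cases h : ∃ x, act Y t ld x ∧ tg Y R t ld x = some w
  · obtain ⟨x, hx, e⟩ := h
    refine Or.inl ⟨x, hx, e, Set.ext fun u => ⟨fun hu => ?_, ?_⟩⟩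
    · rcases step_cases hg hi u with ⟨x', hx', e1, e2⟩ | ⟨-, e2⟩
      · have h1 : tg Y R t ld x' = some w := e2.symm.trans hu
        have h2 := (hx.cases.2.2.2.2 (by rw [e]; simp)).2.1
        have h3 := (hx'.cases.2.2.2.2 (by rw [h1]; simp)).2.1
        obtain rfl := hx.uniq hg hx' (Balls.Near.refl _ _ _)
          (hi.near' (hg.hev _ _) (hg.hev _ _) (h3.symm.trans (h1.trans (e.symm.trans h2)))
            (fun h => Option.some_ne_none w ((h1.symm.trans h3).trans h)))
        exact Or.inl e1.symm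
      · exact Or.inr (e2.symm.trans hu)
    · rintro (hu | hu)
      · exact (step_of_fr hg hi hx (Eq.symm hu)).trans e
      · exact (step_of_tg hg hi hx (e.trans (Eq.symm hu))).trans hu
  · push Not at h
    have key : ∀ u, step Y R t ld u = some w → ld u = some w := fun u hu => by
      rcases step_cases hg hi u with ⟨x', hx', -, e2⟩ | ⟨-, e2⟩
      · exact absurd (e2.symm.trans hu) (h x' hx')
      · exact e2.symm.trans hu
    rcases Set.eq_empty_or_nonempty (cls (step Y R t ld) (some w)) with h' | ⟨u, hu⟩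
    · exact Or.inr (Or.inr h')
    · exact Or.inr (Or.inl (Set.ext fun u' => ⟨key u', fun hu' =>
        (step_congr (Eq.trans hu' (key u hu).symm)).trans hu⟩))

section Meas

variable [Countable Γ] [Countable V] [IsCancelSMul Γ X] [MeasurableConstSMul Γ X]

theorem Inv.act (hg : Good Y β R t) (hi : Inv β R ld) : Measurable (act Y t ld) :=
  hg.mU.mem.and ((hg.mpres _).and ((hg.mpres _).and
    (((OM.vx hi.meas _).eq (OM.vx hi.meas _)).and ((OM.vx hi.meas _).ne (OM.vx hi.meas _)))))

theorem Inv.big (hi : Inv β R ld) {f : X → Option (X × V)} (hf : OM Γ f) :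
    Measurable fun x => big R ld (f x) :=
  (Measurable.of_discrete (f := fun n : ℕ => R < n)).comp (measurable_cls hi.meas hf)

theorem Inv.fr (hi : Inv β R ld) : OM Γ (fr Y R t ld) :=
  have hp : OM Γ (lp Y t ld) := OM.vx hi.meas _
  have hq : OM Γ (lq Y t ld) := OM.vx hi.meas _
  hq.ite hp ((hp.eq OM.none).or ((hq.ne OM.none).and (hi.big hq)))

theorem Inv.tg (hi : Inv β R ld) : OM Γ (tg Y R t ld) :=
  have hp : OM Γ (lp Y t ld) := OM.vx hi.meas _
  have hq : OM Γ (lq Y t ld) := OM.vx hi.meas _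
  hq.ite OM.none ((hp.ne OM.none).and ((hq.ne OM.none).and ((hi.big hp).not.and (hi.big hq).not)))

theorem Inv.step (hg : Good Y β R t) (hi : Inv β R ld) : Inv β R (step Y R t ld) where
  lead u w hu := by
    rcases step_cases hg hi u with ⟨x, hx, -, e2⟩ | ⟨-, e2⟩
    · have h1 : Cost.tg Y R t ld x = some w := e2.symm.trans hu
      have h2 := (hx.cases.2.2.2.2 (by rw [h1]; simp)).2.1
      have h3 := hi.lead _ _ (h2.symm.trans h1)
      exact (step_of_tg hg hi hx (h1.trans h3.symm)).trans h3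
    · have h1 := e2.symm.trans hu
      exact (step_congr ((hi.lead _ _ h1).trans h1.symm)).trans hu
  fin w := by
    rcases cls_step hg hi w with ⟨x, hx, -, e⟩ | e | e <;> rw [e]
    · obtain ⟨w', hw'⟩ := Option.ne_none_iff_exists'.1 (hx.cases (R := R)).2.1
      exact (hw' ▸ hi.fin w').union (hi.fin w)
    · exact hi.fin w
    · exact Set.finite_empty
  size w := by
    rcases cls_step hg hi w with ⟨x, hx, e', e⟩ | e | e <;> rw [e]
    · have h2 := (hx.cases.2.2.2.2 (by rw [e']; simp)).2.2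
      rw [e'] at h2
      simp only [Cost.big, not_lt] at h2
      exact (Set.ncard_union_le _ _).trans (by omega)
    · exact hi.size w
    · simp
  near u u' w hu hu' := by
    change u ∈ cls _ _ at hu
    change u' ∈ cls _ _ at hu'
    rcases cls_step hg hi w with ⟨x, hx, e', e⟩ | e | e <;> rw [e] at hu hu' ⊢
    · obtain ⟨w', hw'⟩ := Option.ne_none_iff_exists'.1 (hx.cases (R := R)).2.1
      obtain ⟨h1, h2, -⟩ := hx.cases.2.2.2.2 (by rw [e']; simp)
      have h3 : some w' ≠ some w := hw' ▸ e' ▸ hx.cases.2.2.1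
      rw [hw'] at hu hu' h1 ⊢
      rw [e'] at h2
      have h8 : Disjoint (cls ld (some w')) (cls ld (some w)) :=
        Set.disjoint_left.2 fun u h h' => h3 (Eq.trans (Eq.symm h) h')
      rw [Set.ncard_union_eq h8 (hi.fin _) (hi.fin _)]
      have key : ∀ u u', ld u = some w' → ld u' = some w → ∃ k, k < (cls ld (some w')).ncard +
          (cls ld (some w)).ncard ∧ β.Near (2 * k) u.1 u'.1 := by
        intro u u' hu hu'
        obtain ⟨k, hk, h4⟩ := hi.near _ _ _ hu h1.symm
        obtain ⟨k', hk', h5⟩ := hi.near _ _ _ h2.symm hu'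
        have h6 : β.Near 1 x (vx (Y.ev t.e (!t.σ)) x).1 := ⟨_, hg.hev _ _, rfl⟩
        have h7 : β.Near 1 x (vx (Y.ev t.e' (!t.σ)) x).1 := ⟨_, hg.hev _ _, rfl⟩
        exact ⟨k + k' + 1, by omega, (((h4.trans h6.symm).trans h7).trans h5).mono (by omega)⟩
      rcases hu with hu | hu <;> rcases hu' with hu' | hu'
      · obtain ⟨k, hk, h4⟩ := hi.near _ _ _ hu hu'
        exact ⟨k, by omega, h4⟩
      · exact key _ _ hu hu'
      · obtain ⟨k, hk, h4⟩ := key _ _ hu' hu
        exact ⟨k, hk, h4.symm⟩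
      · obtain ⟨k, hk, h4⟩ := hi.near _ _ _ hu hu'
        exact ⟨k, by omega, h4⟩
    · exact hi.near _ _ _ hu hu'
    · exact hu.elim
  meas v := by
    have key : ∀ y x, Cost.act Y t ld x → Cost.fr Y R t ld x = ld (y, v) → ∃ g : Γ, x = g • y :=
      fun y x hx e => (hx.near hg hi (q := (1, v)) (β.one 1) (by rwa [vx_one])).symm.orb
    refine ⟨fun y => ?_, fun s => ?_⟩
    · rcases step_cases hg hi (y, v) with ⟨x, hx, e1, e2⟩ | ⟨-, e2⟩
      · obtain ⟨g, rfl⟩ := key y x hx e1
        simpa only [e2] using ((hi.tg (Y := Y) (t := t)).shift g).1 y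
      · simpa only [e2] using (hi.meas v).1 y
    · have h1 : ∀ g : Γ, Measurable fun y =>
          Cost.act Y t ld (g • y) ∧ Cost.fr Y R t ld (g • y) = ld (y, v) := fun g =>
        ((hi.act hg).comp (measurable_const_smul g)).and ((hi.fr.shift g).eq (hi.meas v))
      convert (Measurable.exists fun g : Γ => (h1 g).and
        (((hi.tg (Y := Y) (t := t)).shift g).2 s)).or
        ((Measurable.exists h1).not.and ((hi.meas v).2 s)) using 2 with y
      rcases step_cases hg hi (y, v) with ⟨x, hx, e1, e2⟩ | ⟨e1, e2⟩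
      · obtain ⟨g, rfl⟩ := key y x hx e1
        refine ⟨fun h => Or.inl ⟨g, ⟨hx, e1⟩, e2.symm.trans h⟩, ?_⟩
        rintro (⟨g', ⟨h2, h3⟩, h4⟩ | ⟨h2, -⟩)
        · exact (step_of_fr hg hi h2 h3).trans h4
        · exact absurd ⟨g, hx, e1⟩ h2
      · refine ⟨fun h => Or.inr ⟨fun ⟨g, h2, h3⟩ => e1 _ h2 h3, e2.symm.trans h⟩, ?_⟩
        rintro (⟨g', ⟨h2, h3⟩, -⟩ | ⟨-, h2⟩)
        · exact absurd h3 (e1 _ h2)
        · exact e2.trans h2

end Meas

/-- After an active round the two labels agree or one of them is the base label. -/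
theorem act.after (hg : Good Y β R t) (hi : Inv β R ld) {x : X} (h : act Y t ld x) :
    lp Y t (step Y R t ld) x = lq Y t (step Y R t ld) x ∨
      (lp Y t ld x ≠ none ∧ lq Y t ld x ≠ none ∧
        (lp Y t (step Y R t ld) x = none ∨ lq Y t (step Y R t ld) x = none)) := by
  obtain ⟨h1, h2, -, -, h5⟩ := h.cases (R := R)
  by_cases h0 : tg Y R t ld x = none
  · rcases h1 with e | e
    · have h3 : lp Y t (step Y R t ld) x = none := (step_of_fr hg hi h e).trans h0
      by_cases h4 : lq Y t ld x = none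
      · exact Or.inl (h3.trans (step_none h4).symm)
      · exact Or.inr ⟨e ▸ h2, h4, Or.inl h3⟩
    · have h3 : lq Y t (step Y R t ld) x = none := (step_of_fr hg hi h e).trans h0
      by_cases h4 : lp Y t ld x = none
      · exact Or.inl ((step_none h4).trans h3.symm)
      · exact Or.inr ⟨h4, e ▸ h2, Or.inr h3⟩
  · obtain ⟨e1, e2, -⟩ := h5 h0
    exact Or.inl (((step_of_fr hg hi h e1).trans e2).trans (step_of_tg hg hi h e2).symm)

end Crest.Agent.H6.Cost
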