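import Mathlib
import Crest.Agent.H6.CostStep

/-! The potential of the folding process. -/

namespace Crest.Agent.H6.Cost

open MeasureTheory Module
open scoped ENNReal

variable {Γ X V E P : Type} [Group Γ] [MulAction Γ X] {a b c d : Γ} [Fintype V]

open Classical in
/-- Counting kernel. -/
noncomputable def cnt (p : X → X × V → Prop) (x y : X) : ℝ≥0∞ := ∑ v, if p x (y, v) then 1 else 0

theorem tsum_cnt (p : X → X × V → Prop) (x : X) :
    ∑' y, cnt p x y = ({u | p x u}.encard : ℝ≥0∞) := by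
  classical
  rw [← ENNReal.tsum_set_one, tsum_subtype _ fun _ => (1 : ℝ≥0∞), ENNReal.tsum_prod']
  refine tsum_congr fun y => ?_
  rw [tsum_fintype]
  exact Finset.sum_congr rfl fun v _ => by simp [Set.indicator_apply]

open Classical in
theorem tsum_cnt' (p : X → X × V → Prop) (y : X) :
    ∑' x, cnt p x y = ∑ v, ∑' x, if p x (y, v) then (1 : ℝ≥0∞) else 0 :=
  Summable.tsum_finsetSum fun _ _ => ENNReal.summable

variable [MeasurableSpace X]

theorem ker_cnt {p : X → X × V → Prop} (h1 : ∀ x u, p x u → ∃ g : Γ, u.1 = g • x)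
    (h2 : ∀ (g : Γ) v, Measurable fun x => p x (g • x, v)) : Ker Γ (cnt p) :=
  ⟨fun x y h => by
    obtain ⟨v, -, hv⟩ := Finset.exists_ne_zero_of_sum_ne_zero h
    exact h1 x (y, v) (by by_contra h'; exact hv (if_neg h')), fun g =>
    Finset.measurable_sum _ fun v _ =>
      Measurable.ite (h2 g v).setOf measurable_const measurable_const⟩

/-- Mean dimension of cycles. -/
noncomputable def zI (μ : Measure X) {C S : Type} [Fintype C] (pr : X → C → Prop)
    (cv : C → S → Γ × V) (ld : X × V → Option (X × V)) : ℝ≥0∞ :=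
  ∫⁻ y, dZ (pr y) (lab ld cv y) ∂μ

open Classical in
/-- Mean number of vertices with a property. -/
noncomputable def nI (μ : Measure X) (p : X × V → Prop) : ℝ≥0∞ :=
  ∫⁻ y, ∑ v, if p (y, v) then 1 else 0 ∂μ

theorem zI_le (μ : Measure X) [IsProbabilityMeasure μ] {C S : Type} [Fintype C]
    (pr : X → C → Prop) (cv : C → S → Γ × V) (ld : X × V → Option (X × V)) :
    zI μ pr cv ld ≤ Fintype.card C :=
  (lintegral_mono fun y => Nat.cast_le.2 (dZ_le _ _)).trans (by simp)

theorem nI_le (μ : Measure X) [IsProbabilityMeasure μ] (p : X × V → Prop) :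
    nI μ p ≤ Fintype.card V := by
  refine (lintegral_mono (g := fun _ => (Fintype.card V : ℝ≥0∞)) fun y => ?_).trans (by simp)
  refine (Finset.sum_le_card_nsmul _ _ 1 fun v _ => ?_).trans (by simp)
  split_ifs <;> simp

variable {Y : Cx X V E P a c d} {R : ℕ} {t : Trig X E} {ld : X × V → Option (X × V)}
  {β : Balls Γ}

variable (Y R t ld) in
open Classical in
/-- The kernel of dimension jumps. -/
noncomputable def sK {C S : Type} [Fintype C] (pr : X → C → Prop) (cv : C → S → Γ × V)
    (x y : X) : ℝ≥0∞ :=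
  if act Y t ld x then (finrank F2 (SS pr cv
    (mrg ld (fr Y R t ld x) (tg Y R t ld x)) ld Set.univ
      (fr Y R t ld x) y) : ℝ≥0∞) else 0

variable [Countable Γ] [IsCancelSMul Γ X] [MeasurableConstSMul Γ X]

theorem ker_sK (hg : Good Y β R t) (hi : Inv β R ld) {C S : Type} [Fintype C] [Finite S]
    {pr : X → C → Prop} {cv : C → S → Γ × V} (hcv : ∀ c σ, (cv c σ).1 ∈ β.B 1)
    (hpr : ∀ c, Measurable fun x => pr x c) : Ker Γ (sK Y R t ld pr cv) := by
  classical
  refine ⟨fun x y h => ?_, fun g => ?_⟩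
  · unfold sK at h
    split_ifs at h with hx
    · obtain ⟨c, σ, e⟩ := exists_of_finrank_SS (Nat.cast_ne_zero.1 h)
      exact (hx.near hg hi (hcv c σ) e.symm).orb
    · exact absurd rfl h
  · have h0 : ∀ q : Γ × V, OM Γ fun x => ld (vx q (g • x)) := fun q => (OM.vx hi.meas q).shift g
    have h1 : ∀ q : Γ × V, OM Γ fun x =>
        mrg ld (fr Y R t ld x) (tg Y R t ld x) (vx q (g • x)) := fun q => hi.tg.ite (h0 q) ((h0 q).eq hi.fr)
    refine Measurable.ite (hi.act hg).setOf ?_ measurable_const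
    refine (Measurable.of_discrete (f := fun n : ℕ => (n : ℝ≥0∞))).comp
      (measurable_finrank_cons (fun x => pr (g • x)) _ _ _ _ (fun c σ => measurable_const)
        (fun c σ c' σ' => ?_) fun c σ => ?_)
    · exact ((hpr c').comp (measurable_const_smul g)).and ((h1 _).eq (h1 _))
    · exact ((hpr c).comp (measurable_const_smul g)).and ((h0 _).eq hi.fr)

variable (μ : Measure X) [SMulInvariantMeasure Γ X μ]

theorem zI_step (hg : Good Y β R t) (hi : Inv β R ld) {C S : Type} [Fintype C] [Finite S]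
    {pr : X → C → Prop} {cv : C → S → Γ × V} (hcv : ∀ c σ, (cv c σ).1 ∈ β.B 1)
    (hpr : ∀ c, Measurable fun x => pr x c) :
    zI μ pr cv (step Y R t ld) = zI μ pr cv ld + ∫⁻ x, ∑' y, sK Y R t ld pr cv x y ∂μ := by
  have hk := ker_sK hg hi hcv hpr
  rw [hk.mtp μ, zI, zI, ← lintegral_add_right _ hk.swap.measurable]
  refine lintegral_congr fun y => ?_
  exact dZ_step pr cv ld (step Y R t ld) (act Y t ld) (fr Y R t ld) (tg Y R t ld)
    (fun x hx => hx.cases.2.2.1) y (fun x u hx e => step_of_fr hg hi hx e)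
    (fun u h => step_of_not h) fun x x' c σ c' σ' hx hx' e e' =>
      hx.uniq hg hx' (hx.near hg hi (hcv _ _) e) (hx'.near hg hi (hcv _ _) e')

theorem lead_step (hg : Good Y β R t) (hi : Inv β R ld) :
    nI μ (fun u => ld u = some u) ≤ nI μ (fun u => step Y R t ld u = some u) +
      ∫⁻ x, ∑' y, cnt (fun x u => act Y t ld x ∧ fr Y R t ld x = some u) x y ∂μ := by
  have hk : Ker Γ (cnt fun x u => act Y t ld x ∧ fr Y R t ld x = some u) := by
    refine ker_cnt (fun x u h => ?_) fun g v => (hi.act hg).and (hi.fr.eq (OM.some (g, v)))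
    obtain ⟨_ | q, h'⟩ := (hi.fr (Y := Y) (t := t)).1 x
    · exact absurd h' h.1.cases.2.1
    · exact ⟨q.1, congrArg Prod.fst (Option.some.inj (h.2.symm.trans h'))⟩
  rw [hk.mtp μ, nI, nI, ← lintegral_add_right _ hk.swap.measurable]
  refine lintegral_mono fun y => ?_
  simp only [tsum_cnt', ← Finset.sum_add_distrib]
  refine Finset.sum_le_sum fun v _ => ?_
  split_ifs with h1 h2
  · exact le_self_add
  · rcases step_cases hg hi (y, v) with ⟨x, hx, e, -⟩ | ⟨-, e⟩
    · exact le_add_left (le_trans (by rw [if_pos ⟨hx, e.trans h1⟩]) (ENNReal.le_tsum x))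
    · exact absurd (e.trans h1) h2
  · exact zero_le
  · exact zero_le

theorem pay_step (hg : Good Y β R t) (hi : Inv β R ld) :
    nI μ (fun u => step Y R t ld u ≠ none) + ∫⁻ x, ∑' y, cnt (fun x u => act Y t ld x ∧
      tg Y R t ld x = none ∧ fr Y R t ld x = ld u) x y ∂μ ≤ nI μ (fun u => ld u ≠ none) := by
  have hk : Ker Γ (cnt fun x u => act Y t ld x ∧ tg Y R t ld x = none ∧ fr Y R t ld x = ld u) :=
    ker_cnt (fun x u h => (h.1.near hg hi (q := (1, u.2)) (β.one 1) (by rw [vx_one]; exact h.2.2)).orb)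
      fun g v => (hi.act hg).and ((hi.tg.eq OM.none).and (hi.fr.eq ((hi.meas v).shift g)))
  rw [hk.mtp μ, nI, nI, ← lintegral_add_right _ hk.swap.measurable]
  refine lintegral_mono fun y => ?_
  simp only [tsum_cnt', ← Finset.sum_add_distrib]
  refine Finset.sum_le_sum fun v _ => ?_
  rcases step_cases hg hi (y, v) with ⟨x, hx, e, e'⟩ | ⟨e, e'⟩
  · rw [tsum_eq_single x, if_pos (e ▸ hx.cases.2.1 : ld (y, v) ≠ none), e']
    · by_cases h : tg Y R t ld x = none <;> simp [h, hx, e]
    · intro x' hx'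
      refine if_neg fun h => hx' ?_
      obtain ⟨q, hq, h1⟩ := h.1.exists_fr hg
      exact h.1.uniq' hg hi hx hq (e.trans (h.2.2.symm.trans h1))
  · rw [e', ENNReal.tsum_eq_zero.2 fun x => if_neg fun h => e x h.1 h.2.2, add_zero]

variable [Fintype E] [Fintype P]

omit [Countable Γ] [IsCancelSMul Γ X] [MeasurableConstSMul Γ X] in
theorem local_step (hr1 : a * (b * d) = b * c) (hr2 : b * (a * d) = c * b)
    (hfree : ∀ x, FreeAt (gens X a c) x) (hi : Inv β R ld) (x : X) :
    R * (∑' y, sK Y R t ld (fun _ _ => True) Y.pv x y +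
      ∑' y, cnt (fun x u => act Y t ld x ∧ fr Y R t ld x = some u) x y) ≤
    R * ∑' y, sK Y R t ld Y.pres Y.ev x y + ∑' y, cnt (fun x u => act Y t ld x ∧
      tg Y R t ld x = none ∧ fr Y R t ld x = ld u) x y := by
  classical
  by_cases hx : act Y t ld x
  swap
  · simp [sK, tsum_cnt, hx]
  obtain ⟨-, h2, h3, h4, -⟩ := hx.cases (R := R)
  obtain ⟨w, hw⟩ := Option.ne_none_iff_exists'.1 h2
  have hfin : (cls ld (fr Y R t ld x)).Finite := hw ▸ hi.fin w
  obtain ⟨h5, h6⟩ := Y.link hr1 hr2 hfree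
    (mrg ld (fr Y R t ld x) (tg Y R t ld x)) ld Set.univ _ hfin
  have h7 : {u | act Y t ld x ∧ fr Y R t ld x = some u} = {w} := by
    ext u; simp [hx, hw, eq_comm]
  simp only [sK, if_pos hx, tsum_cnt, h7, Set.encard_singleton, ENat.toENNReal_one]
  have key : ((fr Y R t ld x = lp Y t ld x ∧ tg Y R t ld x = lq Y t ld x) ∨
      (fr Y R t ld x = lq Y t ld x ∧ tg Y R t ld x = lp Y t ld x)) →
      ∃ τ ∈ SS Y.pres Y.ev (mrg ld (fr Y R t ld x) (tg Y R t ld x)) ld
        Set.univ (fr Y R t ld x) x, τ true + τ false ≠ 0 := by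
    intro h
    obtain ⟨-, h8, h9, h10, h11⟩ := hx
    refine ⟨_, ⟨Pi.single t.e 1 + Pi.single t.e' 1, mem_cons.2 fun l _ => funext fun σ => ?_, rfl⟩,
      ?_⟩
    · have : lab (mrg ld (fr Y R t ld x) (tg Y R t ld x)) Y.ev x t.e σ =
          lab (mrg ld (fr Y R t ld x) (tg Y R t ld x)) Y.ev x t.e' σ := by
        by_cases hσ : σ = t.σ
        · simp only [lab, mrg, hσ, h10]
        · obtain rfl : σ = !t.σ := Bool.eq_not.2 hσ
          unfold lp lq at h h11
          simp only [lab, mrg]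
          grind
      simp only [map_add, dfc, Pi.add_apply, dfp_single, h8, h9, this, Pi.zero_apply]
      exact CharTwo.add_self_eq_zero _
    · have h12 : ∀ τ : Bool → F2, τ true + τ false = τ t.σ + τ (!t.σ) := fun τ => by
        cases t.σ <;> simp [add_comm]
      rw [h12]
      simp only [map_add, dfc, Pi.add_apply, dfp_single, h8, h9, lab, h10, true_and,
        CharTwo.add_self_eq_zero, zero_add]
      change (if lp Y t ld x = _ then _ else _) + (if lq Y t ld x = _ then _ else _) ≠ _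
      rcases h with ⟨h, -⟩ | ⟨h, -⟩ <;> simp [h, h11, h11.symm]
  rcases h4 with ⟨h8, h9⟩ | h4
  · rw [mul_add, mul_one]
    refine add_le_add (by gcongr) ?_
    have : {u | act Y t ld x ∧ tg Y R t ld x = none ∧ fr Y R t ld x = ld u} =
        cls ld (fr Y R t ld x) := by
      ext u; simp [hx, h8, cls, eq_comm]
    rw [this, ← Set.Finite.cast_ncard_eq hfin]
    exact_mod_cast h9.le
  · exact le_add_right (by gcongr; exact h6 ⟨x, key h4⟩)

theorem pot_step [IsProbabilityMeasure μ] (hr1 : a * (b * d) = b * c) (hr2 : b * (a * d) = c * b)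
    (hfree : ∀ x, FreeAt (gens X a c) x) (hg : Good Y β R t) (hi : Inv β R ld) :
    R * (zI μ (fun _ _ => True) Y.pv (step Y R t ld) + zI μ Y.pres Y.ev ld +
      nI μ fun u => ld u = some u) + nI μ (fun u => step Y R t ld u ≠ none) ≤
    R * (zI μ (fun _ _ => True) Y.pv ld + zI μ Y.pres Y.ev (step Y R t ld) +
      nI μ fun u => step Y R t ld u = some u) + nI μ (fun u => ld u ≠ none) := by
  have h1 := lintegral_mono (μ := μ) (local_step (Y := Y) (t := t) hr1 hr2 hfree hi)
  have k1 := (ker_sK hg hi hg.hpv fun _ => measurable_const (a := True)).measurable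
  have k2 := (ker_sK hg hi hg.hev hg.mpres).measurable
  rw [lintegral_const_mul' _ _ (by simp), lintegral_add_left k1,
    lintegral_add_left (k2.const_mul _), lintegral_const_mul' _ _ (by simp)] at h1
  have h2 := lead_step μ hg hi
  have h3 := pay_step μ hg hi
  rw [zI_step μ hg hi hg.hpv fun _ => measurable_const, zI_step μ hg hi hg.hev hg.mpres]
  generalize zI μ (fun _ _ => True) Y.pv ld = B at *
  generalize zI μ Y.pres Y.ev ld = A at *
  set IP := ∫⁻ x, ∑' y, sK Y R t ld (fun _ _ => True) Y.pv x y ∂μ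
  set IE := ∫⁻ x, ∑' y, sK Y R t ld Y.pres Y.ev x y ∂μ
  set IL := ∫⁻ x, ∑' y, cnt (fun x u => act Y t ld x ∧ fr Y R t ld x = some u) x y ∂μ
  set Ip := ∫⁻ x, ∑' y, cnt (fun x u => act Y t ld x ∧
      tg Y R t ld x = none ∧ fr Y R t ld x = ld u) x y ∂μ
  set C' := nI μ fun u => step Y R t ld u = some u
  set N' := nI μ fun u => step Y R t ld u ≠ none
  calc _ ≤ R * (B + IP + A + (C' + IL)) + N' := by gcongr
    _ = R * (B + A + C') + N' + R * (IP + IL) := by ring
    _ ≤ R * (B + A + C') + N' + (R * IE + Ip) := by gcongr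
    _ = R * (B + (A + IE) + C') + (N' + Ip) := by ring
    _ ≤ _ := by gcongr

end Crest.Agent.H6.Cost
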