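import Mathlib
import Crest.Agent.H6.CostPot

/-! The lower bound for the potential. -/

namespace Crest.Agent.H6.Cost

open MeasureTheory Module
open scoped ENNReal

variable {Γ X V E P : Type} [Group Γ] [MulAction Γ X] {a b c d : Γ}

/-- Labels at distance at most `k` from the base label. -/
def Reach (Y : Cx X V E P a c d) (ld : X × V → Option (X × V)) : ℕ → Option (X × V) → Prop
  | 0, l => l = none
  | k + 1, l => Reach Y ld k l ∨ ∃ u, l = some u ∧ ∃ (g : Γ) (e : E) (σ : Bool),
      Y.pres (g • u.1) e ∧ ld (vx (Y.ev e σ) (g • u.1)) = l ∧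
        Reach Y ld k (ld (vx (Y.ev e (!σ)) (g • u.1)))

open Classical in
/-- The distance to the base label. -/
noncomputable def ht (Y : Cx X V E P a c d) (ld : X × V → Option (X × V)) (l : Option (X × V)) :
    ℝ≥0∞ := ⨅ k : ℕ, if Reach Y ld k l then (k : ℝ≥0∞) else ⊤

variable {Y : Cx X V E P a c d} {R : ℕ} {ld : X × V → Option (X × V)} {β : Balls Γ}

theorem ht_le {k : ℕ} {l : Option (X × V)} (h : Reach Y ld k l) : ht Y ld l ≤ k :=
  (iInf_le _ k).trans (by rw [if_pos h])

theorem le_ht {k : ℕ} {l : Option (X × V)} (h : ∀ j < k, ¬Reach Y ld j l) : k ≤ ht Y ld l := by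
  refine le_iInf fun j => ?_
  split_ifs with h'
  · exact Nat.cast_le.2 (not_lt.1 fun hj => h j hj h')
  · exact le_top

theorem ht_none : ht Y ld none = 0 :=
  nonpos_iff_eq_zero.1 ((ht_le (k := 0) rfl).trans (by simp))

theorem ht_pos (u : X × V) : 0 < ht Y ld (some u) :=
  lt_of_lt_of_le (by simp) (le_ht (k := 1) fun j hj => by
    obtain rfl : j = 0 := by omega
    simp [Reach])

theorem exists_ht_lt {u : X × V} (h : ∃ k, Reach Y ld k (some u)) :
    ∃ x e σ, Y.pres x e ∧ ld (vx (Y.ev e σ) x) = some u ∧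
      ht Y ld (ld (vx (Y.ev e (!σ)) x)) < ht Y ld (some u) := by
  classical
  have h1 := Nat.find_spec h
  have h2 : ∀ j < Nat.find h, ¬Reach Y ld j (some u) := fun j => Nat.find_min h
  generalize Nat.find h = k at h1 h2
  cases k with
  | zero => simp [Reach] at h1
  | succ k =>
    rcases h1 with h1 | ⟨u', e', g, e, σ, h3, h4, h5⟩
    · exact absurd h1 (h2 k (by omega))
    · refine ⟨_, e, σ, h3, h4, (ht_le h5).trans_lt (lt_of_lt_of_le ?_ (le_ht h2))⟩
      exact_mod_cast Nat.lt_succ_self k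

variable [MeasurableSpace X] [Fintype V] [Fintype E] [Fintype P]

/-- The set of positions carrying a base-to-base chain of edges. -/
def KK (Y : Cx X V E P a c d) (ld : X × V → Option (X × V)) : Set X :=
  {x | finrank F2 (SS Y.pres Y.ev ld ld {l | l ≠ none} none x) ≠ 0}

omit [MeasurableSpace X] [Fintype V] [Fintype P] in
theorem mem_KK {x : X} {e : E} (h : Y.pres x e) (h' : ∀ σ, ld (vx (Y.ev e σ) x) = none) :
    x ∈ KK Y ld := by
  classical
  intro h0
  rw [Submodule.finrank_eq_zero, eq_bot_iff] at h0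
  have := h0 ⟨Pi.single e 1, mem_cons.2 fun l hl => funext fun σ => by
    simp [dfc, dfp_single, lab, h', Ne.symm hl], rfl⟩
  simpa [dfc, dfp_single, lab, h', h] using congrFun this true

omit [MeasurableSpace X] [Fintype V] in
theorem finrank_P_none (y : X) :
    (finrank F2 (SS (fun _ _ => True) Y.pv ld ld {l | l ≠ none} none y) : ℝ≥0∞) ≤
      {y | ∀ i, gpos a c d i • y ∈ KK Y ld}.indicator 1 y := by
  have h1 : ∀ t ∈ SS (fun _ _ => True) Y.pv ld ld {l | l ≠ none} none y, t = t 0 • 1 := by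
    rintro _ ⟨α, hα, rfl⟩
    funext κ
    simpa using dfc_const _ _ none hα κ 0
  by_cases h : SS (fun _ _ => True) Y.pv ld ld {l | l ≠ none} none y = ⊥
  · rw [h]; simp
  · obtain ⟨t, ht, ht0⟩ := Submodule.exists_mem_ne_zero_of_ne_bot h
    rw [Set.indicator_of_mem]
    · have : finrank F2 (SS (fun _ _ => True) Y.pv ld ld {l | l ≠ none} none y) ≤ 1 :=
        finrank_le_one ⟨t, ht⟩ fun ⟨s, hs⟩ => ⟨s 0 / t 0, Subtype.ext (by
          have h2 : t 0 ≠ 0 := fun h2 => ht0 (by rw [h1 t ht, h2, zero_smul])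
          change (s 0 / t 0) • t = s
          conv_rhs => rw [h1 s hs]
          conv_lhs => rw [h1 t ht]
          simp [smul_smul, div_mul_cancel₀ _ h2])⟩
      rw [Pi.one_apply]
      exact_mod_cast this
    · intro i h0
      rw [Submodule.finrank_eq_zero, eq_bot_iff] at h0
      have h2 : t (kap i true) = 0 := congrFun (h0 (Y.compat ld ld _ _ y t ht i)) true
      rw [h1 t ht] at h2
      exact ht0 (by rw [h1 t ht, show t 0 = 0 by simpa using h2, zero_smul])

variable [Countable Γ] [IsCancelSMul Γ X] [MeasurableConstSMul Γ X]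

omit [Fintype P] in
theorem measurable_reach (hm : ∀ v, OM Γ fun x => ld (x, v))
    (hp : ∀ e, Measurable fun x => Y.pres x e) (k : ℕ) :
    ∀ {f : X → Option (X × V)}, OM Γ f → Measurable fun x => Reach Y ld k (f x) := by
  induction k with
  | zero => exact fun hf => hf.eq OM.none
  | succ k ih =>
    intro f hf
    refine (ih hf).or (hf.meas (G := fun _ l => ∃ u, l = some u ∧ ∃ (g : Γ) (e : E) (σ : Bool),
      Y.pres (g • u.1) e ∧ ld (vx (Y.ev e σ) (g • u.1)) = l ∧
        Reach Y ld k (ld (vx (Y.ev e (!σ)) (g • u.1)))) ?_)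
    rintro (_ | q)
    · simp
    · simp only [rel_some, Option.some.injEq, exists_eq_left']
      refine .exists fun g => .exists fun e => .exists fun σ => ?_
      simp only [show ∀ x : X, g • (vx q x).1 = (g * q.1) • x from fun x => (mul_smul _ _ _).symm]
      exact ((hp e).comp (measurable_const_smul _)).and
        ((((OM.vx hm _).shift _).eq (OM.some q)).and (ih ((OM.vx hm _).shift _)))

omit [Fintype P] in
theorem exists_lev [StandardBorelSpace X] (hm : ∀ v, OM Γ fun x => ld (x, v))
    (hp : ∀ e, Measurable fun x => Y.pres x e) :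
    ∃ lev : Option (X × V) → ℝ≥0∞ ×ₗ ℝ ×ₗ ℕ, Function.Injective lev ∧
      (∀ f g, OM Γ f → OM Γ g → Measurable fun x => lev (f x) < lev (g x)) ∧
      (∀ l, lev none < lev l ↔ l ≠ none) ∧ ∀ l l', ht Y ld l < ht Y ld l' → lev l < lev l' := by
  obtain ⟨ι, hι⟩ := exists_measurableEmbedding_real X
  obtain ⟨κ, hκ⟩ := Countable.exists_injective_nat V
  let i1 : Option (X × V) → ℝ := fun l => l.elim 0 fun u => ι u.1
  let i2 : Option (X × V) → ℕ := fun l => l.elim 0 fun u => κ u.2
  have h4 : ∀ l l', ht Y ld l < ht Y ld l' → toLex (ht Y ld l, toLex (i1 l, i2 l)) <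
      toLex (ht Y ld l', toLex (i1 l', i2 l')) := fun l l' h =>
    Prod.Lex.toLex_lt_toLex.2 (Or.inl h)
  refine ⟨fun l => toLex (ht Y ld l, toLex (i1 l, i2 l)), ?_, fun f g hf hg => ?_, fun l => ?_, h4⟩
  · intro l l' h
    simp only [toLex_inj, Prod.mk.injEq] at h
    obtain ⟨h1, h2, h3⟩ := h
    rcases l with _ | ⟨x, v⟩ <;> rcases l' with _ | ⟨x', v'⟩
    · rfl
    · exact absurd (ht_none.symm.trans h1) (ht_pos _).ne
    · exact absurd (ht_none.symm.trans h1.symm) (ht_pos _).ne
    · rw [show x = x' from hι.injective h2, show v = v' from hκ h3]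
  · have m1 : ∀ f, OM Γ f → Measurable fun x => ht Y ld (f x) := fun f hf =>
      Measurable.iInf fun k => Measurable.ite (measurable_reach hm hp k hf).setOf
        measurable_const measurable_const
    have m2 : ∀ f, OM Γ f → Measurable fun x => i1 (f x) := fun f hf =>
      hf.meas (G := fun _ l => i1 l) (by
        rintro (_ | q)
        exacts [measurable_const (a := 0), hι.measurable.comp (measurable_const_smul q.1)])
    have m3 : ∀ f, OM Γ f → Measurable fun x => i2 (f x) := fun f hf =>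
      hf.meas (G := fun _ l => i2 l) (by
        rintro (_ | q)
        exacts [measurable_const (a := 0), measurable_const (a := κ q.2)])
    simp only [Prod.Lex.toLex_lt_toLex]
    exact (measurableSet_setOfPred.1 (measurableSet_lt (m1 f hf) (m1 g hg))).or
      ((measurableSet_setOfPred.1 (measurableSet_eq_fun (m1 f hf) (m1 g hg))).and
      ((measurableSet_setOfPred.1 (measurableSet_lt (m2 f hf) (m2 g hg))).or
      ((measurableSet_setOfPred.1 (measurableSet_eq_fun (m2 f hf) (m2 g hg))).and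
      (measurableSet_setOfPred.1 (measurableSet_lt (m3 f hf) (m3 g hg))))))
  · cases l with
    | none => simp
    | some u => exact iff_of_true (h4 _ _ (ht_none.trans_lt (ht_pos u))) (by simp)

omit [Fintype E] [Fintype P] in
theorem measurable_SS (hm : ∀ v, OM Γ fun x => ld (x, v)) {C S : Type} [Fintype C] [Finite S]
    {pr : X → C → Prop} (cv : C → S → Γ × V) (hpr : ∀ c, Measurable fun x => pr x c)
    {H : X → Set (Option (X × V))} (hH : ∀ f, OM Γ f → Measurable fun x => f x ∈ H x)
    {f : X → Option (X × V)} (hf : OM Γ f) :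
    Measurable fun x => finrank F2 (SS pr cv ld ld (H x) (f x) x) :=
  measurable_finrank_cons pr _ _ _ _ (fun _ _ => hH _ (OM.vx hm _))
    (fun _ _ c' _ => (hpr c').and ((OM.vx hm _).eq (OM.vx hm _)))
    fun c _ => (hpr c).and ((OM.vx hm _).eq hf)

omit [Fintype P] in
theorem measurableSet_KK (hm : ∀ v, OM Γ fun x => ld (x, v))
    (hp : ∀ e, Measurable fun x => Y.pres x e) : MeasurableSet (KK Y ld) :=
  ((Measurable.of_discrete (f := fun n : ℕ => n ≠ 0)).comp
    (measurable_SS hm Y.ev hp (H := fun _ => {l | l ≠ none}) (fun _ hf => hf.ne OM.none)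
      OM.none)).setOf

omit [Fintype E] [Fintype P] in
theorem filtration_lintegral (μ : Measure X) [IsProbabilityMeasure μ] [SMulInvariantMeasure Γ X μ]
    (hm : ∀ v, OM Γ fun x => ld (x, v)) {C S : Type} [Fintype C] [Finite S]
    {pr : X → C → Prop} (cv : C → S → Γ × V) (hpr : ∀ c, Measurable fun x => pr x c)
    {A : Type} [LinearOrder A] {lev : Option (X × V) → A} (h1 : Function.Injective lev)
    (h2 : ∀ f g, OM Γ f → OM Γ g → Measurable fun x => lev (f x) < lev (g x))
    (h3 : ∀ l, lev none < lev l ↔ l ≠ none) :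
    (Fintype.card C : ℝ≥0∞) = zI μ pr cv ld +
      ∫⁻ y, finrank F2 (SS pr cv ld ld {l | l ≠ none} none y) ∂μ +
      ∫⁻ x, ∑ v, ∑' y, (finrank F2 (SS pr cv ld ld {l | lev (some (x, v)) < lev l}
        (some (x, v)) y) : ℝ≥0∞) ∂μ := by
  have hk : Ker Γ fun y x => ∑ v, (finrank F2 (SS pr cv ld ld {l | lev (some (x, v)) < lev l}
      (some (x, v)) y) : ℝ≥0∞) := by
    refine ⟨fun y x h => ?_, fun g => Finset.measurable_sum _ fun v _ =>
      (Measurable.of_discrete (f := fun n : ℕ => (n : ℝ≥0∞))).comp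
        (measurable_SS hm cv hpr (fun f hf => h2 _ _ (OM.some (g, v)) hf) (OM.some (g, v)))⟩
    obtain ⟨v, -, hv⟩ := Finset.exists_ne_zero_of_sum_ne_zero h
    obtain ⟨c, σ, e⟩ := exists_of_finrank_SS (Nat.cast_ne_zero.1 hv)
    obtain ⟨_ | q, h'⟩ := (OM.vx hm (cv c σ)).1 y
    · exact absurd (e.symm.trans h') (by simp)
    · exact ⟨q.1, congrArg Prod.fst (Option.some.inj (e.symm.trans h'))⟩
  have h4 := hk.mtp μ
  simp only [Summable.tsum_finsetSum fun _ _ => ENNReal.summable] at h4
  have h5 : Measurable fun y => (finrank F2 (SS pr cv ld ld {l | l ≠ none} none y) : ℝ≥0∞) :=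
    (Measurable.of_discrete (f := fun n : ℕ => (n : ℝ≥0∞))).comp (measurable_SS hm cv hpr
      (H := fun _ => {l | l ≠ none}) (fun _ hf => hf.ne OM.none) OM.none)
  rw [← h4, zI, ← lintegral_add_right _ h5]
  simp only [← Summable.tsum_finsetSum fun _ _ => ENNReal.summable]
  rw [← lintegral_add_right _ hk.measurable]
  have := fun y => filtration_tsum pr cv ld lev h1 y
  rw [show {l | lev none < lev l} = {l | l ≠ none} from Set.ext h3] at this
  rw [← lintegral_congr this]
  simp

theorem pot_lower [StandardBorelSpace X] (μ : Measure X) [IsProbabilityMeasure μ]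
    [SMulInvariantMeasure Γ X μ] (hr1 : a * (b * d) = b * c) (hr2 : b * (a * d) = c * b)
    (hfree : ∀ x, FreeAt (gens X a c) x) (hi : Inv β R ld)
    (hp : ∀ e, Measurable fun x => Y.pres x e)
    (hW : ∀ᵐ x ∂μ, ∀ v, ∃ k, Reach Y ld k (ld (x, v))) :
    Fintype.card P + (zI μ Y.pres Y.ev ld + nI μ fun u => ld u = some u) + μ (KK Y ld) ≤
      zI μ (fun _ _ => True) Y.pv ld + μ {y | ∀ i, gpos a c d i • y ∈ KK Y ld} +
        Fintype.card E := by
  classical
  obtain ⟨lev, h1, h2, h3, h4⟩ := exists_lev hi.meas hp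
  have hK := measurableSet_KK hi.meas hp
  have hD : MeasurableSet {y | ∀ i, gpos a c d i • y ∈ KK Y ld} :=
    (Measurable.forall fun i => hK.mem.comp (measurable_const_smul _)).setOf
  have e1 : μ (KK Y ld) ≤ ∫⁻ y, finrank F2 (SS Y.pres Y.ev ld ld {l | l ≠ none} none y) ∂μ := by
    rw [← lintegral_indicator_one hK]
    refine lintegral_mono fun y => ?_
    by_cases hy : y ∈ KK Y ld
    · rw [Set.indicator_of_mem hy, Pi.one_apply]
      exact Nat.one_le_cast.2 (Nat.one_le_iff_ne_zero.2 hy)
    · simp [hy]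
  have e2 := lintegral_mono (μ := μ) (finrank_P_none (Y := Y) (ld := ld))
  rw [lintegral_indicator_one hD] at e2
  have e3 : ∫⁻ x, ∑ v, ∑' y, (finrank F2 (SS (fun _ _ => True) Y.pv ld ld
      {l | lev (some (x, v)) < lev l} (some (x, v)) y) : ℝ≥0∞) ∂μ + nI μ (fun u => ld u = some u) ≤
      ∫⁻ x, ∑ v, ∑' y, (finrank F2 (SS Y.pres Y.ev ld ld
      {l | lev (some (x, v)) < lev l} (some (x, v)) y) : ℝ≥0∞) ∂μ := by
    refine (le_lintegral_add _ _).trans (lintegral_mono_ae (hW.mono fun x hx => ?_))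
    rw [← Finset.sum_add_distrib]
    refine Finset.sum_le_sum fun v _ => ?_
    obtain ⟨h5, h6⟩ := Y.link hr1 hr2 hfree ld ld {l | lev (some (x, v)) < lev l} _ (hi.fin (x, v))
    split_ifs with h
    · obtain ⟨y, e, σ, h7, h8, h9⟩ := exists_ht_lt (h ▸ hx v)
      have h10 := h4 _ _ h9
      refine h6 ⟨y, _, ⟨Pi.single e 1, mem_cons.2 fun l hl => funext fun σ' => ?_, rfl⟩, ?_⟩
      · simp only [dfc, dfp_single, lab, Pi.zero_apply]
        refine if_neg fun h' => ?_
        rw [← h'.2] at hl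
        by_cases hσ : σ' = σ
        · rw [hσ, h8] at hl
          exact lt_irrefl (lev (some (x, v))) hl
        · rw [Bool.eq_not.2 hσ] at hl
          exact lt_asymm h10 hl
      · have h12 : ∀ τ : Bool → F2, τ true + τ false = τ σ + τ (!σ) := fun τ => by
          cases σ <;> simp [add_comm]
        have h13 : ld (vx (Y.ev e (!σ)) y) ≠ some (x, v) := fun h' => by
          rw [h'] at h10; exact lt_irrefl _ h10
        rw [h12]
        simp [dfc, dfp_single, lab, h7, h8, h13]
    · simpa using h5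
  rw [filtration_lintegral μ hi.meas Y.ev hp h1 h2 h3,
    filtration_lintegral μ hi.meas Y.pv (pr := fun _ _ => True) (fun _ => measurable_const) h1 h2 h3]
  generalize zI μ (fun _ _ => True) Y.pv ld = B at *
  generalize zI μ Y.pres Y.ev ld = A at *
  generalize nI μ (fun u => ld u = some u) = C at *
  set JP := ∫⁻ x, ∑ v, ∑' y, (finrank F2 (SS (fun _ _ => True) Y.pv ld ld
      {l | lev (some (x, v)) < lev l} (some (x, v)) y) : ℝ≥0∞) ∂μ
  set NP := ∫⁻ y, finrank F2 (SS (fun _ _ => True) Y.pv ld ld {l | l ≠ none} none y) ∂μ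
  calc _ = B + NP + (A + μ (KK Y ld) + (JP + C)) := by ring
    _ ≤ _ := by gcongr

end Crest.Agent.H6.Cost
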