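import Mathlib
import Crest.Agent.H6.CostLow

/-! The core inequality. -/

namespace Crest.Agent.H6.Cost

open MeasureTheory Module
open scoped ENNReal

variable {Γ X V E P : Type} [Group Γ] [MulAction Γ X] {a b c d : Γ}

/-- Relations closed under folding. -/
def Cx.FoldClosed (Y : Cx X V E P a c d) (r : X × V → X × V → Prop) : Prop :=
  ∀ x e e' σ, Y.pres x e → Y.pres x e' → r (vx (Y.ev e σ) x) (vx (Y.ev e' σ) x) →
    r (vx (Y.ev e (!σ)) x) (vx (Y.ev e' (!σ)) x)

theorem pow_smul_injective (hfree : ∀ x, FreeAt (gens X a c) x) (x : X) :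
    Function.Injective fun n : ℕ => a ^ n • x := by
  have key : ∀ (n : ℕ) (y : X), a ^ n • y = y → n = 0 := by
    intro n y h
    have := hfree y (FreeGroup.of true ^ n) (by
      rw [map_pow, FreeGroup.lift_apply_of]
      change (MulAction.toPermHom Γ X a ^ n) y = y
      rw [← map_pow]; exact h)
    by_contra hn
    exact FreeGroup.of_ne_one true ((pow_eq_one_iff_left hn).1 this)
  intro i j h
  wlog hij : i ≤ j generalizing i j
  · exact (this h.symm (le_of_not_ge hij)).symm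
  obtain ⟨k, rfl⟩ := Nat.exists_eq_add_of_le' hij
  simp only [pow_add, mul_smul] at h
  rw [key k _ h.symm, zero_add]

/-- The folding process. -/
noncomputable def proc (Y : Cx X V E P a c d) (R : ℕ) (t : ℕ → Trig X E) :
    ℕ → X × V → Option (X × V)
  | 0 => some
  | n + 1 => step Y R (t n) (proc Y R t n)

variable {Y : Cx X V E P a c d} {R : ℕ} {t : ℕ → Trig X E} {β : Balls Γ}

theorem proc_congr {u u' : X × V} {n m : ℕ} (hnm : n ≤ m) (h : proc Y R t n u = proc Y R t n u') :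
    proc Y R t m u = proc Y R t m u' := by
  induction hnm with
  | refl => exact h
  | step _ ih => exact step_congr ih

theorem proc_none {u : X × V} {n m : ℕ} (hnm : n ≤ m) (h : proc Y R t n u = none) :
    proc Y R t m u = none := by
  induction hnm with
  | refl => exact h
  | step _ ih => exact step_none ih

theorem proc_equiv : Equivalence fun u u' => ∃ n, proc Y R t n u = proc Y R t n u' :=
  ⟨fun _ => ⟨0, rfl⟩, fun ⟨n, h⟩ => ⟨n, h.symm⟩, fun ⟨n, h⟩ ⟨m, h'⟩ =>
    ⟨max n m, (proc_congr (le_max_left _ _) h).trans (proc_congr (le_max_right _ _) h')⟩⟩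

variable [MeasurableSpace X] [Fintype V] [Fintype E] [Fintype P]
  [Countable Γ] [IsCancelSMul Γ X] [MeasurableConstSMul Γ X]

omit [Fintype E] [Fintype P] in
theorem proc_inv (hR : 1 ≤ R) (hg : ∀ n, Good Y β R (t n)) (n : ℕ) : Inv β R (proc Y R t n) := by
  induction n with
  | succ n ih => exact ih.step (hg n)
  | zero =>
    have h : ∀ w : X × V, cls (proc Y R t 0) (some w) = {w} := fun w => by
      ext u; simp [cls, proc]
    refine ⟨fun u w _ => rfl, fun w => by simp [h], fun w => by simp [h]; omega,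
      fun u u' w h1 h2 => ⟨0, by simp [h], ?_⟩, fun v => ?_⟩
    · rw [Option.some.inj (h1.trans h2.symm)]
      exact Balls.Near.refl _ _ _
    · simpa only [vx_one, proc] using OM.some (X := X) ((1 : Γ), v)

omit [Fintype E] [Fintype P] in
theorem proc_fold (hR : 1 ≤ R) (hg : ∀ n, Good Y β R (t n))
    (hs : ∀ x e e' σ n, ∃ m, n ≤ m ∧ x ∈ (t m).U ∧ (t m).e = e ∧ (t m).e' = e' ∧ (t m).σ = σ) :
    Y.FoldClosed fun u u' => ∃ n, proc Y R t n u = proc Y R t n u' := by
  rintro x e e' σ he he' ⟨n, hn⟩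
  by_contra hne
  push Not at hne
  have key : ∀ k, n ≤ k → ∃ m, k ≤ m ∧ proc Y R t m (vx (Y.ev e (!σ)) x) ≠ none ∧
      proc Y R t m (vx (Y.ev e' (!σ)) x) ≠ none ∧
      (proc Y R t (m + 1) (vx (Y.ev e (!σ)) x) = none ∨
        proc Y R t (m + 1) (vx (Y.ev e' (!σ)) x) = none) := by
    intro k hk
    obtain ⟨m, hm, h1, rfl, rfl, rfl⟩ := hs x e e' σ k
    have h2 : act Y (t m) (proc Y R t m) x := ⟨h1, he, he', proc_congr (hk.trans hm) hn, hne m⟩
    exact ⟨m, hm, (h2.after (hg m) (proc_inv hR hg m)).resolve_left (hne (m + 1))⟩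
  obtain ⟨m, hm, -, -, h1⟩ := key n le_rfl
  obtain ⟨m', hm', h2, h3, -⟩ := key (m + 1) (by omega)
  rcases h1 with h1 | h1
  exacts [h2 (proc_none hm' h1), h3 (proc_none hm' h1)]

omit [Fintype E] [Fintype P] in
theorem proc_based (hfree : ∀ x, FreeAt (gens X a c) x) (hR : 1 ≤ R) (hg : ∀ n, Good Y β R (t n))
    {v0 : V} (h : ∀ x, ∃ n, proc Y R t n (x, v0) = proc Y R t n (a • x, v0)) (x : X) :
    ∃ n, proc Y R t n (x, v0) = none := by
  have key : ∀ k : ℕ, ∃ n, ∀ j < k, proc Y R t n (a ^ j • x, v0) = proc Y R t n (x, v0) := by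
    have h1 : ∀ k : ℕ, ∃ n, proc Y R t n (x, v0) = proc Y R t n (a ^ k • x, v0) := by
      intro k
      induction k with
      | zero => exact ⟨0, by simp⟩
      | succ k ih => rw [pow_succ', mul_smul]; exact proc_equiv.trans ih (h _)
    choose f hf using h1
    exact fun k => ⟨(Finset.range k).sup f, fun j hj =>
      (proc_congr (Finset.le_sup (f := f) (Finset.mem_range.2 hj)) (hf j)).symm⟩
  obtain ⟨n, hn⟩ := key (2 * R + 1)
  refine ⟨n, by_contra fun h' => ?_⟩
  obtain ⟨w, hw⟩ := Option.ne_none_iff_exists'.1 h'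
  have hi := proc_inv hR hg n
  have h2 := Set.ncard_le_ncard_of_injOn (s := Set.Iio (2 * R + 1)) (fun j => (a ^ j • x, v0))
    (fun j hj => (hn j hj).trans hw)
    (fun i _ j _ e => pow_smul_injective hfree x (congrArg Prod.fst e)) (hi.fin w)
  have h3 := hi.size w
  rw [Set.ncard_Iio_nat] at h2
  omega

theorem proc_pot (μ : Measure X) [IsProbabilityMeasure μ] [SMulInvariantMeasure Γ X μ]
    (hr1 : a * (b * d) = b * c) (hr2 : b * (a * d) = c * b)
    (hfree : ∀ x, FreeAt (gens X a c) x) (hR : 1 ≤ R) (hg : ∀ n, Good Y β R (t n)) (n : ℕ) :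
    R * (zI μ (fun _ _ => True) Y.pv (proc Y R t n) + (zI μ Y.pres Y.ev (proc Y R t 0) +
      nI μ fun u => proc Y R t 0 u = some u)) + nI μ (fun u => proc Y R t n u ≠ none) ≤
    R * (zI μ (fun _ _ => True) Y.pv (proc Y R t 0) + (zI μ Y.pres Y.ev (proc Y R t n) +
      nI μ fun u => proc Y R t n u = some u)) + nI μ (fun u => proc Y R t 0 u ≠ none) := by
  induction n with
  | zero => exact le_rfl
  | succ n ih =>
    have h1 := pot_step μ hr1 hr2 hfree (hg n) (proc_inv hR hg n)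
    rw [add_assoc, add_assoc] at h1
    change _ * (zI μ _ _ (proc Y R t (n + 1)) + _) + nI μ (fun u => proc Y R t (n + 1) u ≠ none) ≤
      _ * (_ + (zI μ _ _ (proc Y R t (n + 1)) + nI μ fun u => proc Y R t (n + 1) u = some u)) + _
      at h1
    have h2 : (R : ℝ≥0∞) * (zI μ Y.pres Y.ev (proc Y R t n) + nI μ fun u => proc Y R t n u = some u)
        ≠ ⊤ := ENNReal.mul_ne_top (by simp) (ENNReal.add_ne_top.2
          ⟨ne_top_of_le_ne_top (by simp) (zI_le μ _ _ _), ne_top_of_le_ne_top (by simp) (nI_le μ _)⟩)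
    generalize (zI μ Y.pres Y.ev (proc Y R t n) + nI μ fun u => proc Y R t n u = some u) = M at *
    generalize (zI μ Y.pres Y.ev (proc Y R t 0) + nI μ fun u => proc Y R t 0 u = some u) = M0 at *
    generalize (zI μ Y.pres Y.ev (proc Y R t (n + 1)) +
      nI μ fun u => proc Y R t (n + 1) u = some u) = M' at *
    generalize zI μ (fun _ _ => True) Y.pv (proc Y R t n) = B at *
    generalize zI μ (fun _ _ => True) Y.pv (proc Y R t (n + 1)) = B' at *
    generalize nI μ (fun u => proc Y R t n u ≠ none) = N at *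
    generalize nI μ (fun u => proc Y R t (n + 1) u ≠ none) = N' at *
    rw [← ENNReal.add_le_add_iff_right h2]
    calc _ = R * (B' + M) + N' + R * M0 := by ring
      _ ≤ R * (B + M') + N + R * M0 := by gcongr
      _ = R * (B + M0) + N + R * M' := by ring
      _ ≤ _ := add_le_add ih le_rfl
      _ = _ := by ring

omit [Fintype V] [Fintype P] [Countable Γ] [IsCancelSMul Γ X] in
theorem KK_step (μ : Measure X) [SMulInvariantMeasure Γ X μ] {t : Trig X E}
    {ld : X × V → Option (X × V)} (hg : Good Y β R t) (hi : Inv β R ld) :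
    μ (KK Y (step Y R t ld)) ≤ μ (KK Y ld) + (β.fin (4 * R + 2)).toFinset.card * μ t.U := by
  have : KK Y (step Y R t ld) ⊆
      KK Y ld ∪ ⋃ g ∈ (β.fin (4 * R + 2)).toFinset, (g • ·) ⁻¹' t.U := by
    intro y hy
    by_contra h
    simp only [Set.mem_union, Set.mem_iUnion, not_or, not_exists, Set.Finite.mem_toFinset] at h
    have h1 : lab (step Y R t ld) Y.ev y = lab ld Y.ev y := by
      funext e σ
      refine step_of_not fun x hx e' => ?_
      obtain ⟨g, hg', rfl⟩ := (hx.near hg hi (hg.hev _ _) e').symm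
      exact h.2 g hg' hx.1
    have h2 : SS Y.pres Y.ev (step Y R t ld) (step Y R t ld) {l | l ≠ none} none y =
        SS Y.pres Y.ev ld ld {l | l ≠ none} none y := by rw [SS, SS, h1]
    rw [KK, Set.mem_ofPred_eq, h2] at hy
    exact h.1 hy
  refine (measure_mono this).trans ((measure_union_le _ _).trans (add_le_add le_rfl ?_))
  refine (measure_biUnion_finset_le _ _).trans ?_
  simp

omit [Fintype P] in
theorem reach_ae (μ : Measure X) {ld : X × V → Option (X × V)} (hi : Inv β R ld)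
    (hconn : ∀ H : Set (X × V), (∀ x e, Y.pres x e →
      (vx (Y.ev e true) x ∈ H ↔ vx (Y.ev e false) x ∈ H)) →
      ∀ x v (g : Γ) w, (x, v) ∈ H → (g • x, w) ∈ H)
    (hgap : ∀ K, MeasurableSet K → ∀ ε, μ (K \ (a • ·) ⁻¹' K) ≤ ε → μ (K \ (c • ·) ⁻¹' K) ≤ ε →
      μ K * μ Kᶜ ≤ 8 * ε) (hK : μ (KK Y ld) ≠ 0) :
    ∀ᵐ x ∂μ, ∀ v, ∃ k, Reach Y ld k (ld (x, v)) := by
  let W : Set X := {x | ∃ (g : Γ) (v : V), ld (g • x, v) = none}
  have h1 : MeasurableSet W := (Measurable.exists fun g => Measurable.exists fun v =>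
    ((hi.meas v).shift g).eq OM.none).setOf
  have h2 : ∀ s : Γ, W \ (s • ·) ⁻¹' W = ∅ := fun s => Set.diff_eq_empty.2 fun x ⟨g, v, h⟩ =>
    ⟨g * s⁻¹, v, by simpa [mul_smul] using h⟩
  have h3 := hgap W h1 0 (by simp [h2]) (by simp [h2])
  have h4 : KK Y ld ⊆ W := fun x hx =>
    let ⟨e, σ, h⟩ := exists_of_finrank_SS hx; ⟨_, _, h⟩
  rw [mul_zero, nonpos_iff_eq_zero, mul_eq_zero] at h3
  have h5 : ∀ᵐ x ∂μ, x ∈ W := h3.resolve_left fun h => hK (measure_mono_null h4 h)
  filter_upwards [h5] with x ⟨g, v, hx⟩ w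
  have h6 : ∀ x e σ, Y.pres x e → (∃ k, Reach Y ld k (ld (vx (Y.ev e (!σ)) x))) →
      ∃ k, Reach Y ld k (ld (vx (Y.ev e σ) x)) := by
    rintro x e σ he ⟨k, hk⟩
    obtain ⟨_ | q, h'⟩ := (OM.vx hi.meas (Y.ev e σ)).1 x
    · exact ⟨0, h'⟩
    · refine ⟨k + 1, Or.inr ⟨_, h', q.1⁻¹, e, σ, ?_⟩⟩
      simp only [vx, inv_smul_smul]
      exact ⟨he, trivial, hk⟩
  simpa using hconn {u | ∃ k, Reach Y ld k (ld u)}
    (fun x e he => ⟨h6 x e false he, h6 x e true he⟩) _ v g⁻¹ w ⟨0, hx⟩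

theorem core [StandardBorelSpace X] (μ : Measure X) [IsProbabilityMeasure μ]
    [SMulInvariantMeasure Γ X μ] (hr1 : a * (b * d) = b * c) (hr2 : b * (a * d) = c * b)
    (hfree : ∀ x, FreeAt (gens X a c) x) (hp : ∀ e, Measurable fun x => Y.pres x e)
    (hpriv : Function.Injective fun p => (Y.pv p 1).2)
    (hconn : ∀ H : Set (X × V), (∀ x e, Y.pres x e →
      (vx (Y.ev e true) x ∈ H ↔ vx (Y.ev e false) x ∈ H)) →
      ∀ x v (g : Γ) w, (x, v) ∈ H → (g • x, w) ∈ H) (v0 : V)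
    (hfold : ∀ r, Equivalence r → Y.FoldClosed r → ∀ x, r (x, v0) (a • x, v0) ∧
      ∃ e, Y.pres x e ∧ ∀ σ, ∃ y, r (vx (Y.ev e σ) x) (y, v0))
    (hgap : ∀ K, MeasurableSet K → ∀ ε, μ (K \ (a • ·) ⁻¹' K) ≤ ε → μ (K \ (c • ·) ⁻¹' K) ≤ ε →
      μ K * μ Kᶜ ≤ 8 * ε) :
    (Fintype.card P + Fintype.card V + 1 / 64 : ℝ≥0∞) ≤ ∑ e, μ {x | Y.pres x e} := by
  classical
  obtain ⟨x0⟩ := nonempty_of_isProbabilityMeasure μ
  haveI : Infinite Γ := Infinite.of_injective (fun n : ℕ => a ^ n) fun i j h =>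
    pow_smul_injective hfree x0 (congrArg (· • x0) h)
  haveI : Nonempty E :=
    let ⟨e, _⟩ := (hfold (fun _ _ => True) ⟨by simp, by simp, by simp⟩ (fun _ _ _ _ _ _ _ => trivial)
      x0).2; ⟨e⟩
  obtain ⟨R, hR⟩ : ∃ R, R = 128 * Fintype.card V + 1 := ⟨_, rfl⟩
  have hR1 : 1 ≤ R := by omega
  obtain ⟨β, hβ⟩ := exists_balls ((Set.finite_range fun q : E × Bool => (Y.ev q.1 q.2).1).union
    (Set.finite_range fun q : P × Fin 4 => (Y.pv q.1 q.2).1))
  obtain ⟨T, hT⟩ := Infinite.exists_subset_card_eq Γ (2 * (β.fin (4 * R + 2)).toFinset.card)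
  obtain ⟨U, hU1, hU2, hU3⟩ := exists_separated_cover (X := X) ((β.fin (8 * R + 4)).union
    (T.finite_toSet.image2 (fun g g' => g' * g⁻¹) T.finite_toSet))
  obtain ⟨sch, hsch⟩ := exists_schedule (ℕ × E × E × Bool)
  let t : ℕ → Trig X E := fun n => ⟨U (sch n).1, (sch n).2.1, (sch n).2.2.1, (sch n).2.2.2⟩
  have hg : ∀ n, Good Y β R (t n) := fun n =>
    ⟨fun e σ => hβ (Or.inl ⟨(e, σ), rfl⟩), fun e σ => hβ (Or.inr ⟨(e, σ), rfl⟩),
      fun g h => hU3 _ g (Or.inl h), hU1 _, hp⟩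
  have hi := proc_inv hR1 hg
  have h1 := hfold _ proc_equiv (proc_fold hR1 hg fun x e e' σ n => by
    obtain ⟨k, hk⟩ := hU2 x
    obtain ⟨m, hm, h⟩ := hsch (k, e, e', σ) n
    exact ⟨m, hm, by simp [t, h, hk]⟩)
  have h2 := proc_based hfree hR1 hg fun x => (h1 x).1
  -- some `K` has measure at least `1 / 4`
  have h3 : ∃ n, 1 / 4 ≤ μ (KK Y (proc Y R t n)) := by
    let K' : ℕ → Set X := fun n =>
      {x | ∃ e, Y.pres x e ∧ ∀ σ, proc Y R t n (vx (Y.ev e σ) x) = none}
    have h4 : Monotone K' := fun n m hnm x ⟨e, he, h⟩ => ⟨e, he, fun σ => proc_none hnm (h σ)⟩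
    have h5 : ⋃ n, K' n = Set.univ := by
      refine Set.eq_univ_of_forall fun x => ?_
      obtain ⟨e, he, h⟩ := (h1 x).2
      have : ∀ σ, ∃ n, proc Y R t n (vx (Y.ev e σ) x) = none := fun σ => by
        obtain ⟨y, n, hn⟩ := h σ
        obtain ⟨m, hm⟩ := h2 y
        exact ⟨max n m, (proc_congr (le_max_left _ _) hn).trans (proc_none (le_max_right _ _) hm)⟩
      choose f hf using this
      exact Set.mem_iUnion.2 ⟨Finset.univ.sup f, e, he, fun σ =>
        proc_none (Finset.le_sup (f := f) (Finset.mem_univ σ)) (hf σ)⟩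
    have h6 := h4.measure_iUnion (μ := μ)
    rw [h5, measure_univ] at h6
    obtain ⟨n, hn⟩ := lt_iSup_iff.1 ((by norm_num : (1 / 4 : ℝ≥0∞) < 1).trans_eq h6)
    exact ⟨n, hn.le.trans (measure_mono fun x ⟨e, he, h⟩ => mem_KK he h)⟩
  have h4 := Nat.find_spec h3
  have h5 : μ (KK Y (proc Y R t (Nat.find h3))) ≤ 1 / 4 + 1 / 2 := by
    have h6 : ∀ m < Nat.find h3, μ (KK Y (proc Y R t m)) < 1 / 4 := fun m hm =>
      not_le.1 (Nat.find_min h3 hm)
    generalize Nat.find h3 = n at h6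
    cases n with
    | zero =>
      have : KK Y (proc Y R t 0) = ∅ := Set.eq_empty_of_forall_notMem fun x hx =>
        let ⟨e, σ, h⟩ := exists_of_finrank_SS hx; Option.some_ne_none _ h
      simp [this]
    | succ n =>
      refine (KK_step μ (hg n) (hi n)).trans (add_le_add (h6 n (by omega)).le ?_)
      have := measure_separated_le μ T (hU1 (sch n).1) fun g h g' h' =>
        hU3 _ _ (Or.inr ⟨g, h, g', h', rfl⟩)
      rw [hT, Nat.cast_mul, mul_assoc, mul_comm] at this
      exact (ENNReal.le_div_iff_mul_le (by simp) (by simp)).2 this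
  generalize Nat.find h3 = n at h4 h5
  have h6 := pot_lower μ hr1 hr2 hfree (hi n) hp
    (reach_ae μ (hi n) hconn hgap (ne_of_gt (lt_of_lt_of_le (by simp) h4)))
  have h7 := proc_pot μ hr1 hr2 hfree hR1 hg n
  have h8 : zI μ (fun _ _ => True) Y.pv (proc Y R t 0) = 0 := by
    refine (lintegral_congr fun y => ?_).trans lintegral_zero
    exact Nat.cast_eq_zero.2 (dZ_eq_zero (lab (proc Y R t 0) Y.pv y) 1 fun p p' h =>
      hpriv (congrArg (Prod.snd : X × V → V) (Option.some.inj h)))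
  have h9 : nI μ (fun u => proc Y R t 0 u = some u) = Fintype.card V := by simp [nI, proc]
  have h10 : (Fintype.card E : ℝ≥0∞) ≤
      zI μ Y.pres Y.ev (proc Y R t 0) + ∑ e, μ {x | Y.pres x e} := by
    simp only [← lintegral_indicator_one (hp _).setOf]
    rw [← lintegral_finset_sum _ fun e _ => measurable_one.indicator (hp e).setOf, zI,
      ← lintegral_add_right _ (Finset.measurable_sum _ fun e _ =>
        measurable_one.indicator (hp e).setOf)]
    refine le_trans (by simp) (lintegral_mono (f := fun _ => (Fintype.card E : ℝ≥0∞)) fun y => ?_)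
    have := card_le_dZ (Y.pres y) (lab (proc Y R t 0) Y.ev y)
    simp only [Set.indicator_apply, Set.mem_ofPred_eq, Pi.one_apply]
    refine ((Nat.cast_le (α := ℝ≥0∞)).2 this).trans_eq ?_
    simp
  have hK := measurableSet_KK (hi n).meas hp
  set K := KK Y (proc Y R t n)
  have h11 : ∀ (i j : Fin 4) (s : Γ), gpos a c d j = s * gpos a c d i →
      μ {y | ∀ i, gpos a c d i • y ∈ K} + μ (K \ (s • ·) ⁻¹' K) ≤ μ K := by
    intro i j s hs
    rw [← measure_preimage_smul μ (gpos a c d i) K, ← measure_preimage_smul μ (gpos a c d i) (_ \ _),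
      ← measure_union _ (measurable_const_smul _ (hK.diff (measurable_const_smul _ hK)))]
    · exact measure_mono (Set.union_subset (fun y hy => hy i) fun y hy => hy.1)
    · exact Set.disjoint_left.2 fun y hy hy' => hy'.2 (by simpa [hs, mul_smul] using hy j)
  have h12 := hgap K hK _ (le_max_left _ _) (le_max_right _ _)
  have h13 : μ {y | ∀ i, gpos a c d i • y ∈ K} +
      max (μ (K \ (a • ·) ⁻¹' K)) (μ (K \ (c • ·) ⁻¹' K)) ≤ μ K := by
    rcases max_choice (μ (K \ (a • ·) ⁻¹' K)) (μ (K \ (c • ·) ⁻¹' K)) with h | h <;> rw [h]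
    exacts [h11 2 3 a rfl, h11 0 1 c (mul_one _).symm]
  have h14 : max (μ (K \ (a • ·) ⁻¹' K)) (μ (K \ (c • ·) ⁻¹' K)) ≠ ⊤ :=
    max_ne_top (measure_ne_top _ _) (measure_ne_top _ _)
  have h15 := nI_le μ fun u => proc Y R t 0 u ≠ none
  have h16 : zI μ Y.pres Y.ev (proc Y R t n) + nI μ (fun u => proc Y R t n u = some u) ≠ ⊤ :=
    ENNReal.add_ne_top.2 ⟨ne_top_of_le_ne_top (by simp) (zI_le μ _ _ _),
      ne_top_of_le_ne_top (by simp) (nI_le μ _)⟩
  have h17 : zI μ Y.pres Y.ev (proc Y R t 0) ≠ ⊤ := ne_top_of_le_ne_top (by simp) (zI_le μ _ _ _)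
  have h18 : ∑ e, μ {x | Y.pres x e} ≠ ⊤ := ENNReal.sum_ne_top.2 fun _ _ => measure_ne_top _ _
  have h19 := measure_ne_top μ {y | ∀ i, gpos a c d i • y ∈ K}
  rw [h8, h9] at h7
  rw [prob_compl_eq_one_sub hK] at h12
  have h20 : μ K ≤ 1 := prob_le_one
  generalize max (μ (K \ (a • ·) ⁻¹' K)) (μ (K \ (c • ·) ⁻¹' K)) = ε at *
  generalize zI μ Y.pres Y.ev (proc Y R t n) + nI μ (fun u => proc Y R t n u = some u) = M at *
  generalize zI μ Y.pres Y.ev (proc Y R t 0) = A at *
  generalize ∑ e, μ {x | Y.pres x e} = s at *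
  generalize μ {y | ∀ i, gpos a c d i • y ∈ K} = D at *
  generalize zI μ (fun _ _ => True) Y.pv (proc Y R t n) = B at *
  have h21 : R * (Fintype.card P + Fintype.card V + ε) + R * (M + D + A) ≤
      Fintype.card V + R * s + R * (M + D + A) :=
    calc _ = R * (Fintype.card P + M + (D + ε)) + R * (A + Fintype.card V) := by ring
      _ ≤ R * (Fintype.card P + M + μ K) + R * (A + Fintype.card V) := by gcongr
      _ ≤ R * (B + D + Fintype.card E) + R * (A + Fintype.card V) := by gcongr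
      _ ≤ R * (B + D + (A + s)) + R * (A + Fintype.card V) := by gcongr
      _ = R * (B + (A + Fintype.card V)) + R * (D + A + s) := by ring
      _ ≤ R * (0 + M) + Fintype.card V + R * (D + A + s) :=
        add_le_add ((le_self_add.trans h7).trans (by gcongr)) le_rfl
      _ = _ := by ring
  rw [ENNReal.add_le_add_iff_right (by finiteness)] at h21
  generalize μ K = k at *
  lift k to NNReal using ne_top_of_le_ne_top (by simp) h20
  lift ε to NNReal using h14
  lift s to NNReal using h18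
  rw [← ENNReal.toReal_le_toReal (by finiteness) (by finiteness)] at h21 h12 h4 h5 ⊢
  simp (disch := finiteness) only [ENNReal.toReal_add, ENNReal.toReal_mul, ENNReal.toReal_natCast,
    ENNReal.coe_toReal, ENNReal.toReal_div, ENNReal.toReal_one, ENNReal.toReal_ofNat,
    ENNReal.toReal_sub_of_le h20] at h21 h12 h4 h5 ⊢
  have h22 : (R : ℝ) = 128 * Fintype.card V + 1 := by rw [hR]; push_cast; ring
  have h23 : (0 : ℝ) ≤ Fintype.card V := by positivity
  have h24 : (3 / 128 : ℝ) ≤ ε := by nlinarith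
  by_contra h25
  push Not at h25
  nlinarith

end Crest.Agent.H6.Cost
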