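import Mathlib
import Crest.Agent.H6.CostCore

/-! The group and the universal complex. -/

namespace Crest.Agent.H6.Cost

open MeasureTheory

/-- The relators. -/
def rels : Set (FreeGroup (Fin 4)) :=
  {.of 2 * .of 0 * (.of 0 * .of 2)⁻¹, .of 2 * .of 1 * (.of 1 * .of 2)⁻¹,
    .of 3 * .of 0 * (.of 3)⁻¹ * (.of 0)⁻¹ * .of 3 * .of 1 * (.of 1 * .of 3)⁻¹}

/-- The group. -/
def G : Type := PresentedGroup rels

instance : Group G := inferInstanceAs (Group (PresentedGroup rels))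

instance : Countable G := (PresentedGroup.mk_surjective rels).countable

/-- The generators. -/
def gen (i : Fin 4) : G := PresentedGroup.of i

/-- The auxiliary element `d`. -/
def gd : G := (gen 3)⁻¹ * (gen 0)⁻¹ * gen 3 * gen 1

theorem exists_hom {H : Type} [Group H] (f : Fin 4 → H) (h1 : f 2 * f 0 = f 0 * f 2)
    (h2 : f 2 * f 1 = f 1 * f 2) (h3 : f 3 * f 0 * (f 3)⁻¹ * (f 0)⁻¹ * f 3 * f 1 = f 1 * f 3) :
    ∃ φ : G →* H, ∀ i, φ (gen i) = f i := by
  have : ∀ r ∈ rels, FreeGroup.lift f r = 1 := by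
    rintro r (rfl | rfl | rfl) <;>
      simp only [map_mul, map_inv, FreeGroup.lift_apply_of, h1, h2, h3, mul_inv_cancel]
  exact ⟨PresentedGroup.toGroup this, fun i => PresentedGroup.toGroup.of this⟩

theorem lift_rel {r : FreeGroup (Fin 4)} (h : r ∈ rels) : FreeGroup.lift gen r = 1 := by
  have : (FreeGroup.lift gen : FreeGroup (Fin 4) →* G) = PresentedGroup.mk rels :=
    FreeGroup.ext_hom _ _ fun i => FreeGroup.lift_apply_of
  rw [this]
  exact PresentedGroup.one_of_mem h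

theorem rel_za : gen 2 * gen 0 = gen 0 * gen 2 := by
  simpa only [map_mul, map_inv, FreeGroup.lift_apply_of, mul_inv_eq_one] using
    lift_rel (Or.inl rfl)

theorem rel_zc : gen 2 * gen 1 = gen 1 * gen 2 := by
  simpa only [map_mul, map_inv, FreeGroup.lift_apply_of, mul_inv_eq_one] using
    lift_rel (Or.inr (Or.inl rfl))

theorem rel_b : gen 3 * gen 0 * (gen 3)⁻¹ * (gen 0)⁻¹ * gen 3 * gen 1 = gen 1 * gen 3 := by
  simpa only [map_mul, map_inv, FreeGroup.lift_apply_of, mul_inv_eq_one] using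
    lift_rel (Or.inr (Or.inr rfl))

theorem rel_1 : gen 0 * (gen 3 * gd) = gen 3 * gen 1 := by simp [gd, mul_assoc]

theorem rel_2 : gen 3 * (gen 0 * gd) = gen 1 * gen 3 := by
  simp only [gd, ← rel_b, mul_assoc]

theorem closure_gen : Subgroup.closure (Set.range gen) = ⊤ := PresentedGroup.closure_range_of rels

theorem G.induction {p : G → Prop} (h1 : p 1) (h2 : ∀ i g, p g → p (gen i * g))
    (h3 : ∀ i g, p g → p ((gen i)⁻¹ * g)) (g : G) : p g := by
  have hg : g ∈ Subgroup.closure (Set.range gen) := closure_gen ▸ Subgroup.mem_top g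
  induction hg using Subgroup.closure_induction_left with
  | one => exact h1
  | mul_left x hx y _ ih => obtain ⟨i, rfl⟩ := hx; exact h2 i y ih
  | inv_mul_cancel x hx y _ ih => obtain ⟨i, rfl⟩ := hx; exact h3 i y ih

section Eqv

variable {Γ V E : Type} [Group Γ]

/-- Derivations of identifications, filtered by depth and weight. -/
def Eqv (ev : E → Bool → Γ × V) (w : E → ℕ) (pr : Γ → E → Prop) : ℕ → Γ × V → Γ × V → Prop
  | 0, u, u' => u = u'
  | k + 1, u, u' => Eqv ev w pr k u u' ∨ Eqv ev w pr k u' u ∨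
      (∃ u'', Eqv ev w pr k u u'' ∧ Eqv ev w pr k u'' u') ∨
      ∃ x e e' σ, w e ≤ k ∧ w e' ≤ k ∧ pr x e ∧ pr x e' ∧
        Eqv ev w pr k (vx (ev e σ) x) (vx (ev e' σ) x) ∧
        u = vx (ev e (!σ)) x ∧ u' = vx (ev e' (!σ)) x

variable {ev : E → Bool → Γ × V} {w : E → ℕ} {pr : Γ → E → Prop}

theorem Eqv.mono {k m : ℕ} {u u' : Γ × V} (h : Eqv ev w pr k u u') (hkm : k ≤ m) :
    Eqv ev w pr m u u' := by
  induction hkm with
  | refl => exact h
  | step _ ih => exact Or.inl ih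

theorem Eqv.equiv : Equivalence fun u u' => ∃ k, Eqv ev w pr k u u' :=
  ⟨fun _ => ⟨0, rfl⟩, fun ⟨k, h⟩ => ⟨k + 1, Or.inr (Or.inl h)⟩, fun ⟨k, h⟩ ⟨m, h'⟩ =>
    ⟨max k m + 1, Or.inr (Or.inr (Or.inl
      ⟨_, h.mono (le_max_left _ _), h'.mono (le_max_right _ _)⟩))⟩⟩

theorem Eqv.fold {x : Γ} {e e' : E} {σ : Bool} (he : pr x e) (he' : pr x e')
    (h : ∃ k, Eqv ev w pr k (vx (ev e σ) x) (vx (ev e' σ) x)) :
    ∃ k, Eqv ev w pr k (vx (ev e (!σ)) x) (vx (ev e' (!σ)) x) :=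
  let ⟨k, h⟩ := h
  ⟨k + w e + w e' + 1, Or.inr (Or.inr (Or.inr
    ⟨x, e, e', σ, by omega, by omega, he, he', h.mono (by omega), rfl, rfl⟩))⟩

theorem Eqv.min {r : Γ × V → Γ × V → Prop} (hr : Equivalence r) {n : ℕ}
    (hf : ∀ x e e' σ, w e ≤ n → w e' ≤ n → pr x e → pr x e' →
      r (vx (ev e σ) x) (vx (ev e' σ) x) → r (vx (ev e (!σ)) x) (vx (ev e' (!σ)) x))
    {k : ℕ} (hk : k ≤ n) : ∀ {u u' : Γ × V}, Eqv ev w pr k u u' → r u u' := by
  induction k with
  | zero => rintro u u' rfl; exact hr.refl _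
  | succ k ih =>
    have ih := @ih (by omega)
    rintro u u' (h | h | ⟨u'', h, h'⟩ | ⟨x, e, e', σ, h1, h2, h3, h4, h5, rfl, rfl⟩)
    exacts [ih h, hr.symm (ih h), hr.trans (ih h) (ih h'),
      hf x e e' σ (by omega) (by omega) h3 h4 (ih h5)]

theorem measurable_Eqv [Countable Γ] [Countable V] [Countable E] {X : Type} [MeasurableSpace X]
    {pr : X → Γ → E → Prop} (hpr : ∀ g e, Measurable fun x => pr x g e) (k : ℕ) :
    ∀ u u', Measurable fun x => Eqv ev w (pr x) k u u' := by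
  induction k with
  | zero => exact fun u u' => measurable_const (a := u = u')
  | succ k ih =>
    exact fun u u' => (ih _ _).or ((ih _ _).or ((Measurable.exists fun _ => (ih _ _).and (ih _ _)).or
      (.exists fun _ => .exists fun _ => .exists fun _ => .exists fun _ =>
        measurable_const.and (measurable_const.and ((hpr _ _).and ((hpr _ _).and
          ((ih _ _).and measurable_const)))))))

end Eqv

/-- Vertex templates. -/
abbrev VT := List (G × Bool × Fin 3)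

/-- Polygon templates. -/
abbrev PT := (G × Bool) × VT

/-- New vertices of a polygon. -/
def fresh (p : PT) (j : Fin 3) : VT := (p.1.1, p.1.2, j) :: p.2

/-- Corners of a polygon. -/
def pvT (p : PT) : Fin 4 → VT :=
  if p.1.2 then ![p.2, fresh p 0, fresh p 1, fresh p 2] else ![fresh p 2, fresh p 0, fresh p 1, p.2]

/-- Walks in the tree of polygons. -/
inductive Walk : VT → G → Prop
  | nil : Walk [] 1
  | lam {l g} (i : Fin 4) (hi : i ≠ 3) : Walk l g → Walk l (gen i * g)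
  | lam' {l g} (i : Fin 4) (hi : i ≠ 3) : Walk l g → Walk l ((gen i)⁻¹ * g)
  | fwd {l g} : Walk l g → Walk (fresh ((g⁻¹, true), l) 2) (gen 3 * g)
  | bwd {l g} : Walk l g → Walk (fresh ((g⁻¹ * gen 3, false), l) 2) ((gen 3)⁻¹ * g)

theorem exists_walk (g : G) : ∃ l, Walk l g := by
  induction g using G.induction with
  | h1 => exact ⟨_, .nil⟩
  | h2 i g ih =>
    obtain ⟨l, h⟩ := ih
    by_cases hi : i = 3
    exacts [⟨_, hi ▸ h.fwd⟩, ⟨_, h.lam i hi⟩]
  | h3 i g ih =>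
    obtain ⟨l, h⟩ := ih
    by_cases hi : i = 3
    exacts [⟨_, hi ▸ h.bwd⟩, ⟨_, h.lam' i hi⟩]

/-- A chosen walk. -/
noncomputable def wk (g : G) : VT := (exists_walk g).choose

variable {J : Type} (γ : J → G)

/-- End points of edge templates. -/
noncomputable def evT : (PT × Fin 4) ⊕ J → Bool → G × VT
  | .inl q, σ => (q.1.1.1 * (gpos (gen 0) (gen 1) gd q.2)⁻¹, pvT q.1 (kap q.2 σ))
  | .inr j, true => ((γ j)⁻¹ * gen 3, wk ((gen 3)⁻¹ * γ j))
  | .inr _, false => (gen 3, [])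

/-- Presence of edge templates. -/
def prT {X : Type} [MulAction G X] (A : J → Set X) (x : X) : (PT × Fin 4) ⊕ J → Prop
  | .inl _ => True
  | .inr j => ((γ j)⁻¹ * gen 3) • x ∈ A j

/-- The vertex to be identified with the translate of the base vertex. -/
def tl (i : Fin 4) : VT := if i = 3 then fresh ((1, true), []) 2 else []

theorem exists_good (A : J → Set G) {r : G × VT → G × VT → Prop} (hr : Equivalence r)
    (hf : ∀ x e e' σ, prT γ A x e → prT γ A x e' → r (vx (evT γ e σ) x) (vx (evT γ e' σ) x) →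
      r (vx (evT γ e (!σ)) x) (vx (evT γ e' (!σ)) x)) :
    ∃ S : Set G, 1 ∈ S ∧ (∀ j, ∀ g ∈ A j, g ∈ S ↔ γ j * g ∈ S) ∧
      ∀ i, gen i ∈ S → r (1, tl i) (gen i, []) := by
  let s : Setoid (G × VT) := ⟨r, hr⟩
  let Rl : Quotient s × G → Quotient s × G → Prop := fun ω ω' => ω'.2 = gen 3 * ω.2 ∧
    ∃ e, prT γ A ω.2 e ∧ ω.1 = ⟦vx (evT γ e true) ω.2⟧ ∧ ω'.1 = ⟦vx (evT γ e false) ω.2⟧
  have h1 : ∀ ω ω1 ω2, Rl ω ω1 → Rl ω ω2 → ω1 = ω2 := by
    rintro ω ω1 ω2 ⟨a1, e, a2, a3, a4⟩ ⟨b1, e', b2, b3, b4⟩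
    exact Prod.ext (a4.trans ((Quotient.sound (s := s) (hf _ e e' true a2 b2
      (Quotient.exact (a3.symm.trans b3)))).trans b4.symm)) (a1.trans b1.symm)
  have h2 : ∀ ω ω1 ω2, Rl ω1 ω → Rl ω2 ω → ω1 = ω2 := by
    rintro ω ⟨C1, x⟩ ⟨C2, y⟩ ⟨a1, e, a2, a3, a4⟩ ⟨b1, e', b2, b3, b4⟩
    obtain rfl : x = y := mul_left_cancel (a1.symm.trans b1)
    exact Prod.ext (a3.trans ((Quotient.sound (s := s) (hf _ e e' false a2 b2
      (Quotient.exact (a4.symm.trans b4)))).trans b3.symm)) rfl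
  have h3 : ∀ (p : PT) i y, Rl (⟦(p.1.1 * y, pvT p (kap i true))⟧, gpos (gen 0) (gen 1) gd i * y)
      (⟦(p.1.1 * y, pvT p (kap i false))⟧, gen 3 * (gpos (gen 0) (gen 1) gd i * y)) :=
    fun p i y => ⟨rfl, .inl (p, i), trivial, by simp [vx, evT], by simp [vx, evT]⟩
  have h4 : ∀ ω, ∃ ω', Rl ω ω' := by
    rintro ⟨⟨x, l⟩, y⟩
    have := h3 ((x * y⁻¹, true), l) 0 y
    simp only [inv_mul_cancel_right, gpos, Matrix.cons_val_zero, one_mul] at this
    exact ⟨_, this⟩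
  have h5 : ∀ ω, ∃ ω', Rl ω' ω := by
    rintro ⟨⟨x, l⟩, y⟩
    have := h3 ((x * ((gen 3)⁻¹ * y)⁻¹, false), l) 0 ((gen 3)⁻¹ * y)
    simp only [inv_mul_cancel_right, gpos, Matrix.cons_val_zero, one_mul,
      mul_inv_cancel_left] at this
    exact ⟨_, this⟩
  choose f hf' using h4
  let B : Equiv.Perm (Quotient s × G) := Equiv.ofBijective f
    ⟨fun ω ω' e => h2 _ _ _ (hf' ω) (e ▸ hf' ω'), fun ω =>
      let ⟨ω', h⟩ := h5 ω; ⟨ω', h1 _ _ _ (hf' ω') h⟩⟩
  have hB : ∀ ω ω', Rl ω ω' → B ω = ω' := fun ω ω' h => h1 _ _ _ (hf' ω) h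
  let L : G → Equiv.Perm (Quotient s × G) := fun g => (Equiv.refl _).prodCongr (Equiv.mulLeft g)
  have hL : ∀ g C x, L g (C, x) = (C, g * x) := fun _ _ _ => rfl
  have hL' : ∀ g C x, (L g)⁻¹ (C, x) = (C, g⁻¹ * x) := fun _ _ _ => rfl
  obtain ⟨φ, hφ⟩ := exists_hom ![L (gen 0), L (gen 1), L (gen 2), B]
    (Equiv.ext fun ⟨C, x⟩ => by simp [hL, ← mul_assoc, rel_za])
    (Equiv.ext fun ⟨C, x⟩ => by simp [hL, ← mul_assoc, rel_zc]) (Equiv.ext <| by
      rintro ⟨⟨x, l⟩, y⟩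
      have e := fun i => hB _ _ (h3 ((x * y⁻¹, true), l) i y)
      have e0 := e 0
      have e1 := e 1
      have e2 := (Equiv.Perm.inv_eq_iff_eq.2 (e 2).symm)
      have e3 := e 3
      simp only [inv_mul_cancel_right, gpos, kap, Matrix.cons_val_zero, Matrix.cons_val_one,
        Matrix.cons_val, one_mul] at e0 e1 e2 e3
      have a1 : (gen 0)⁻¹ * (gen 3 * (gen 1 * y)) = gen 3 * (gd * y) := by
        simp [gd, mul_assoc]
      change B (L (gen 0) (B⁻¹ ((L (gen 0))⁻¹ (B (L (gen 1) (⟦(x, pvT ((x * y⁻¹, true), l) 0)⟧, y))))))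
        = L (gen 1) (B (⟦(x, pvT ((x * y⁻¹, true), l) 0)⟧, y))
      rw [hL (gen 1) _ y, e1, hL', a1, e2, hL (gen 0), ← mul_assoc, e3, e0, hL, ← mul_assoc, rel_2,
        mul_assoc])
  have h6 : ∀ i, i ≠ 3 → φ (gen i) = L (gen i) := fun i hi => by
    rw [hφ]; fin_cases i <;> simp_all
  have h7 : φ (gen 3) = B := hφ 3
  have h8 : ∀ l g, Walk l g → ∀ x, φ g (⟦(x, [])⟧, x) = (⟦(x, l)⟧, g * x) := by
    intro l g h x
    induction h with
    | nil => simp
    | lam i hi _ ih => rw [map_mul, Equiv.Perm.mul_apply, ih, h6 i hi, hL, mul_assoc]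
    | lam' i hi _ ih => rw [map_mul, Equiv.Perm.mul_apply, ih, map_inv, h6 i hi, hL', mul_assoc]
    | @fwd l g _ ih =>
      have := hB _ _ (h3 ((g⁻¹, true), l) 0 (g * x))
      simp only [inv_mul_cancel_left, gpos, Matrix.cons_val_zero, one_mul] at this
      rw [map_mul, Equiv.Perm.mul_apply, ih, h7, mul_assoc]
      exact this
    | @bwd l g _ ih =>
      have := hB _ _ (h3 ((g⁻¹ * gen 3, false), l) 0 ((gen 3)⁻¹ * (g * x)))
      simp only [mul_assoc, mul_inv_cancel_left, inv_mul_cancel_left, gpos, Matrix.cons_val_zero,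
        one_mul] at this
      rw [map_mul, Equiv.Perm.mul_apply, ih, map_inv, h7, mul_assoc, Equiv.Perm.inv_eq_iff_eq]
      exact this.symm
  refine ⟨{g | φ g (⟦(1, [])⟧, 1) = (⟦(g, [])⟧, g)}, by simp, fun j g hg => ?_, fun i hi => ?_⟩
  · have h9 : φ (γ j) (⟦(g, [])⟧, g) = (⟦(γ j * g, [])⟧, γ j * g) := by
      have := h8 _ _ (exists_walk ((gen 3)⁻¹ * γ j)).choose_spec g
      rw [map_mul, Equiv.Perm.mul_apply, map_inv, h7, Equiv.Perm.inv_eq_iff_eq] at this
      rw [this]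
      exact hB _ _ ⟨by simp [mul_assoc], .inr j, by simpa [prT, mul_assoc] using hg,
        by simp [vx, evT, wk, mul_assoc], by simp [vx, evT, mul_assoc]⟩
    simp only [Set.mem_ofPred_eq, map_mul, Equiv.Perm.mul_apply, ← h9, EmbeddingLike.apply_eq_iff_eq]
  · have : Walk (tl i) (gen i * 1) := by
      unfold tl
      split_ifs with h
      · simpa [h] using Walk.nil.fwd
      · exact Walk.nil.lam i h
    have h9 := h8 _ _ this 1
    rw [mul_one, hi] at h9
    exact Quotient.exact (congrArg Prod.fst h9).symm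

end Crest.Agent.H6.Cost
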