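import Mathlib
import Crest.Agent.H6.CostGroup

/-! The Bernoulli shift and its spectral gap. -/

namespace Crest.Agent.H6.Cost

open MeasureTheory Measure
open scoped ENNReal RealInnerProductSpace

theorem exists_rho : ∃ ρ : G →* FreeGroup Bool, ρ (gen 0) = .of true ∧ ρ (gen 1) = .of false := by
  obtain ⟨ρ, h⟩ := exists_hom (H := FreeGroup Bool) ![.of true, .of false, 1, 1] (by simp) (by simp)
    (by simp)
  exact ⟨ρ, h 0, h 1⟩

theorem exists_chi : ∃ χ : G →* Multiplicative ℤ, χ (gen 0) = .ofAdd 1 ∧ χ (gen 1) = 1 ∧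
    χ (gen 2) = .ofAdd 1 ∧ χ (gen 3) = 1 := by
  obtain ⟨χ, h⟩ := exists_hom (H := Multiplicative ℤ) ![.ofAdd 1, 1, .ofAdd 1, 1] (by simp) (by simp)
    (by simp)
  exact ⟨χ, h 0, h 1, h 2, h 3⟩

theorem freeAt_of {Ω : Type} [MulAction G Ω] {ω : Ω}
    (h : ∀ g : G, g • ω = ω → ∃ n : ℕ, n ≠ 0 ∧ g ^ n = 1) : FreeAt (gens Ω (gen 0) (gen 1)) ω := by
  obtain ⟨ρ, h0, h1⟩ := exists_rho
  intro w hw
  let j : FreeGroup Bool →* G := FreeGroup.lift fun i => if i then gen 0 else gen 1
  have h2 : FreeGroup.lift (gens Ω (gen 0) (gen 1)) = (MulAction.toPermHom G Ω).comp j :=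
    FreeGroup.ext_hom _ _ fun i => by simp [j, gens]
  have h3 : ρ.comp j = MonoidHom.id _ :=
    FreeGroup.ext_hom _ _ fun i => by cases i <;> simp [j, h0, h1]
  rw [h2] at hw
  obtain ⟨n, hn, h4⟩ := h (j w) hw
  have h5 : ρ (j w) = w := DFunLike.congr_fun h3 w
  have h6 := congrArg ρ h4
  rw [map_pow, h5, map_one] at h6
  exact (pow_eq_one_iff_left hn).1 h6

/-- The Bernoulli space. -/
abbrev Bn := G → ZMod 2

/-- The shift action. -/
scoped instance shiftAction : MulAction G Bn where
  smul g x h := x (g⁻¹ * h)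
  one_smul x := funext fun h => congrArg x (by simp)
  mul_smul g g' x := funext fun h => congrArg x (by simp [mul_assoc])

theorem shift_apply (g : G) (x : Bn) (h : G) : (g • x) h = x (g⁻¹ * h) := rfl

theorem continuous_shift (g : G) : Continuous fun x : Bn => g • x :=
  continuous_pi fun _ => continuous_apply _

instance : MeasurableConstSMul G Bn := ⟨fun g => (continuous_shift g).measurable⟩

/-- The Bernoulli measure. -/
noncomputable def μB : Measure Bn := addHaarMeasure ⊤

instance : IsAddHaarMeasure μB := inferInstanceAs (IsAddHaarMeasure (addHaarMeasure ⊤))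

instance : IsProbabilityMeasure μB := ⟨addHaarMeasure_self (K₀ := ⊤)⟩

theorem mp_shift (g : G) : MeasurePreserving (fun x : Bn => g • x) μB μB := by
  let f : Bn →+ Bn := ⟨⟨fun x => g • x, rfl⟩, fun _ _ => rfl⟩
  haveI := isAddHaarMeasure_map_of_isFiniteMeasure μB f (continuous_shift g)
    (MulAction.surjective g)
  haveI := isProbabilityMeasure_map (μ := μB) (f := f) (continuous_shift g).measurable.aemeasurable
  exact ⟨(continuous_shift g).measurable, isAddHaarMeasure_eq_of_isProbabilityMeasure (μB.map f) μB⟩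

theorem measurableSet_fix (g : G) : MeasurableSet {x : Bn | g • x = x} :=
  (isClosed_eq (continuous_shift g) continuous_id).measurableSet

theorem null_fix {g : G} (hg : g ≠ 1) : μB {x | g • x = x} = 0 := by
  classical
  obtain ⟨χ, -, -, h2, -⟩ := exists_chi
  let t : ℕ → Bn := fun i => Pi.single (gen 2 ^ i) 1
  have h1 : Pairwise (Function.onFun Disjoint fun i => (t i + ·) ⁻¹' {x : Bn | g • x = x}) := by
    intro i j hij
    refine Set.disjoint_left.2 fun x hi hj => ?_
    have key : ∀ i j x, g • (t i + x) = t i + x → g • (t j + x) = t j + x → i ≠ j →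
        g⁻¹ * gen 2 ^ i = gen 2 ^ j := by
      intro i j x hi hj hij
      by_contra h
      have h3 := congrFun hi (gen 2 ^ i)
      have h4 := congrFun hj (gen 2 ^ i)
      have h5 : g⁻¹ * gen 2 ^ i ≠ gen 2 ^ i := by simpa using hg
      have h6 : gen 2 ^ i ≠ gen 2 ^ j := fun e => hij (by simpa [h2] using congrArg χ e)
      simp only [shift_apply, Pi.add_apply, t, Pi.single_eq_same, Pi.single_eq_of_ne h5,
        Pi.single_eq_of_ne h, Pi.single_eq_of_ne h6, zero_add] at h3 h4
      simp [h4] at h3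
    have h3 := congrArg (fun g => (χ g).toAdd) (key i j x hi hj hij)
    have h4 := congrArg (fun g => (χ g).toAdd) (key j i x hj hi hij.symm)
    simp [h2] at h3 h4
    omega
  have h3 := measure_iUnion (μ := μB) h1 fun i => measurable_const_add _ (measurableSet_fix g)
  simp only [measure_preimage_add] at h3
  by_contra h
  rw [ENNReal.tsum_const_eq_top_of_ne_zero h] at h3
  exact measure_ne_top _ _ h3

attribute [local instance] Finsupp.comapSMul Finsupp.comapMulAction

/-- The sign character. -/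
noncomputable def sgn (t : ZMod 2) : ℝ := if t = 0 then 1 else -1

theorem zmod_two_cases : ∀ s : ZMod 2, s = 0 ∨ s = 1 := by decide

theorem sgn_add (s t : ZMod 2) : sgn (s + t) = sgn s * sgn t := by
  rcases zmod_two_cases s with rfl | rfl <;> rcases zmod_two_cases t with rfl | rfl <;>
    simp [sgn, CharTwo.add_self_eq_zero]

/-- Walsh characters. -/
noncomputable def wal (ξ : G →₀ ZMod 2) : C(Bn, ℝ) :=
  ⟨fun x => sgn (ξ.sum fun h t => t * x h), (continuous_of_discreteTopology (f := sgn)).comp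
    (continuous_finset_sum ξ.support fun h _ => (continuous_const (y := ξ h)).mul
      (continuous_apply h))⟩

theorem wal_apply (ξ : G →₀ ZMod 2) (x : Bn) :
    wal ξ x = sgn (Finsupp.linearCombination (ZMod 2) x ξ) := rfl

theorem wal_add (ξ η : G →₀ ZMod 2) : wal (ξ + η) = wal ξ * wal η := by
  ext x; simp [wal_apply, sgn_add]

theorem wal_zero : wal 0 = 1 := by ext x; simp [wal_apply, sgn]

theorem wal_smul (g : G) (ξ : G →₀ ZMod 2) (x : Bn) : wal ξ (g • x) = wal (g⁻¹ • ξ) x := by
  rw [wal_apply, wal_apply, Finsupp.comapSMul_def, Finsupp.linearCombination_mapDomain]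
  rfl

theorem integral_wal {ξ : G →₀ ZMod 2} (h : ξ ≠ 0) : ∫ x, wal ξ x ∂μB = 0 := by
  classical
  obtain ⟨k, hk⟩ := Finsupp.ne_iff.1 h
  refine integral_eq_zero_of_add_left_eq_neg (g := Pi.single k 1) fun x => ?_
  have h1 : ξ k = 1 := by
    revert hk; generalize ξ k = s; simp only [Finsupp.coe_zero, Pi.zero_apply]; revert s; decide
  have h2 : (ξ.sum fun h t => t * (Pi.single k 1 : Bn) h) = 1 := by
    rw [Finsupp.sum_eq_single k (fun b _ hb => by simp [hb]) (by simp)]
    simp [h1]
  change sgn (ξ.sum fun h t => t * ((Pi.single k 1 : Bn) h + x h)) = -sgn (ξ.sum fun h t => t * x h)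
  simp only [Finsupp.sum] at h2
  simp only [mul_add, Finsupp.sum, Finset.sum_add_distrib, h2, sgn_add]
  rw [show sgn 1 = -1 by simp [sgn], neg_one_mul]

/-- Walsh characters in `L²`. -/
noncomputable def walL (ξ : G →₀ ZMod 2) : Lp ℝ 2 μB := ContinuousMap.toLp 2 μB ℝ (wal ξ)

theorem orthonormal_walL : Orthonormal ℝ walL := by
  classical
  rw [orthonormal_iff_ite]
  intro ξ η
  rw [walL, walL, ContinuousMap.inner_toLp]
  simp only [conj_trivial, ← ContinuousMap.mul_apply, ← wal_add]
  have h1 : ∀ ξ : G →₀ ZMod 2, ξ + ξ = 0 := fun ξ => by ext; simp [CharTwo.add_self_eq_zero]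
  split_ifs with h
  · simp [h, h1, wal_zero]
  · exact integral_wal fun e => h (by rw [← add_zero η, ← h1 ξ, ← add_assoc, e, zero_add])

theorem dense_walL : DenseRange (Finsupp.linearCombination ℝ walL) := by
  have h1 : Subalgebra.toSubmodule (Algebra.adjoin ℝ (Set.range wal)) =
      Submodule.span ℝ (Set.range wal) := by
    apply Algebra.adjoin_eq_span_of_subset
    refine Set.Subset.trans ?_ Submodule.subset_span
    intro x hx
    refine Submonoid.closure_induction (fun _ => id) ⟨0, wal_zero⟩ ?_ hx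
    rintro - - - - ⟨m, rfl⟩ ⟨n, rfl⟩
    exact ⟨m + n, wal_add _ _⟩
  have h2 := ContinuousMap.subalgebra_topologicalClosure_eq_top_of_separatesPoints
    (Algebra.adjoin ℝ (Set.range wal)) (by
      intro x y hxy
      obtain ⟨k, hk⟩ := Function.ne_iff.1 hxy
      refine ⟨_, ⟨wal (Finsupp.single k 1), Algebra.subset_adjoin ⟨_, rfl⟩, rfl⟩, ?_⟩
      simp only [wal_apply, Finsupp.linearCombination_single, one_smul]
      revert hk
      generalize x k = s
      generalize y k = t
      rcases zmod_two_cases s with rfl | rfl <;> rcases zmod_two_cases t with rfl | rfl <;>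
        simp [sgn] <;> norm_num)
  have h3 : (Submodule.span ℝ (Set.range wal)).topologicalClosure = ⊤ := by
    rw [← h1]
    exact congr_arg Subalgebra.toSubmodule h2
  have h4 := (ContinuousMap.toLp_denseRange ℝ μB ℝ (p := 2) (by simp)).topologicalClosure_map_submodule
    h3
  rw [Submodule.map_span, ← Set.range_comp, ← Finsupp.range_linearCombination,
    ← Submodule.dense_iff_topologicalClosure_eq_top] at h4
  exact h4

/-- The Koopman operators. -/
noncomputable def koop (g : G) : Lp ℝ 2 μB →ₗᵢ[ℝ] Lp ℝ 2 μB :=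
  Lp.compMeasurePreservingₗᵢ ℝ _ (mp_shift g)

theorem koop_walL (g : G) (ξ : G →₀ ZMod 2) : koop g (walL ξ) = walL (g⁻¹ • ξ) := by
  refine Lp.ext ((Lp.coeFn_compMeasurePreserving _ (mp_shift g)).trans ?_)
  refine ((mp_shift g).quasiMeasurePreserving.ae_eq_comp
    (ContinuousMap.coeFn_toLp μB (wal ξ))).trans ?_
  refine Filter.EventuallyEq.trans ?_ (ContinuousMap.coeFn_toLp μB _).symm
  exact Filter.Eventually.of_forall fun x => wal_smul g ξ x

theorem inner_koop (g : G) (φ : (G →₀ ZMod 2) →₀ ℝ) :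
    ⟪Finsupp.linearCombination ℝ walL φ, koop g (Finsupp.linearCombination ℝ walL φ)⟫ =
      ∑ ξ ∈ φ.support, φ ξ * φ (g • ξ) := by
  have : koop g (Finsupp.linearCombination ℝ walL φ) =
      Finsupp.linearCombination ℝ walL (φ.mapDomain (g⁻¹ • ·)) := by
    rw [Finsupp.linearCombination_mapDomain]
    refine (Finsupp.apply_linearCombination ℝ (koop g).toLinearMap _ _).trans ?_
    congr 2
    exact funext (koop_walL g)
  rw [this, orthonormal_walL.inner_finsupp_eq_sum_left]
  refine Finset.sum_congr rfl fun ξ _ => ?_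
  have h := Finsupp.mapDomain_apply (MulAction.injective g⁻¹) φ (g • ξ)
  rw [inv_smul_smul] at h
  simp [h]

theorem gap_L2 (f : Lp ℝ 2 μB) : ⟪f, koop (gen 0) f⟫ + ⟪f, koop (gen 1) f⟫ ≤
    7 / 4 * ⟪f, f⟫ + 1 / 4 * ⟪f, walL 0⟫ ^ 2 := by
  classical
  induction f using dense_walL.induction_on with
  | hp => exact isClosed_le (by fun_prop) (by fun_prop)
  | ih φ =>
    have h0 : ∀ (g : G) (ξ : G →₀ ZMod 2), g • ξ = 0 ↔ ξ = 0 := fun g ξ =>
      ⟨fun h => by rw [← inv_smul_smul g ξ, h]; exact Finsupp.mapDomain_zero,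
        fun h => by rw [h]; exact Finsupp.mapDomain_zero⟩
    have h1 := spectral_bound (s := gens _ (gen 0) (gen 1)) (φ.erase 0) fun ξ hξ => by
      refine freeAt_of fun g hg => ?_
      rw [Finsupp.support_erase, Finset.mem_erase] at hξ
      obtain ⟨k, hk⟩ := Finsupp.ne_iff.1 hξ.1
      have h2 : ∀ n : ℕ, g ^ n * k ∈ ξ.support := fun n => by
        have : g ^ n • ξ = ξ := (MulAction.stabilizer G ξ).pow_mem hg n
        rw [← this, Finsupp.mem_support_iff, Finsupp.comapSMul_apply]
        simpa using hk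
      obtain ⟨i, j, hij, e⟩ := Finite.exists_ne_map_eq_of_infinite
        fun n : ℕ => (⟨_, h2 n⟩ : ξ.support)
      have e' : g ^ i = g ^ j := mul_right_cancel (congrArg Subtype.val e)
      wlog h : i < j generalizing i j
      · exact this j i hij.symm e.symm e'.symm (by omega)
      exact ⟨j - i, by omega, by rw [pow_sub _ h.le, e', mul_inv_cancel]⟩
    have h2 : ∀ g : G, ∑ ξ ∈ φ.support, φ ξ * φ (g • ξ) =
        φ 0 ^ 2 + ∑ ξ ∈ (φ.erase 0).support, φ.erase 0 ξ * φ.erase 0 (g • ξ) := fun g => by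
      rw [Finsupp.support_erase, Finset.sum_congr (s₁ := φ.support.erase 0) rfl
          (g := fun ξ => φ ξ * φ (g • ξ)) fun ξ hξ => by
        have := (Finset.mem_erase.1 hξ).1
        rw [Finsupp.erase_ne this, Finsupp.erase_ne (mt (h0 g ξ).1 this)]]
      by_cases h : (0 : G →₀ ZMod 2) ∈ φ.support
      · rw [← Finset.add_sum_erase _ _ h, (h0 g 0).2 rfl, sq]
      · rw [Finset.erase_eq_of_notMem h, Finsupp.notMem_support_iff.1 h]; simp
    have h3 := h2 1
    simp only [one_smul, ← sq] at h3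
    rw [inner_koop, inner_koop, h2, h2, orthonormal_walL.inner_finsupp_eq_sum_left,
      orthonormal_walL.inner_left_finsupp]
    simp only [Fintype.sum_bool] at h1
    simp only [Finsupp.sum, conj_trivial, ← sq, h3]
    change (∑ ξ ∈ _, _ * (φ.erase 0) (gen 0 • ξ)) + ∑ ξ ∈ _, _ * (φ.erase 0) (gen 1 • ξ) ≤ _ at h1
    linarith

theorem gap_set {K : Set Bn} (hK : MeasurableSet K) (ε : ℝ≥0∞)
    (h0 : μB (K \ (gen 0 • ·) ⁻¹' K) ≤ ε) (h1 : μB (K \ (gen 1 • ·) ⁻¹' K) ≤ ε) :
    μB K * μB Kᶜ ≤ 8 * ε := by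
  have h2 := gap_L2 (indicatorConstLp 2 hK (measure_ne_top _ _) 1)
  have h3 : ∀ g : G, ⟪indicatorConstLp 2 hK (measure_ne_top μB _) (1 : ℝ),
      koop g (indicatorConstLp 2 hK (measure_ne_top _ _) 1)⟫ =
      μB.real K - μB.real (K \ (g • ·) ⁻¹' K) := fun g => by
    rw [← measureReal_inter_add_diff (s := K) (measurable_const_smul g hK), add_sub_cancel_right]
    exact L2.real_inner_indicatorConstLp_one_indicatorConstLp_one hK (measurable_const_smul g hK)
  have h4 : ⟪indicatorConstLp 2 hK (measure_ne_top μB _) (1 : ℝ), walL 0⟫ = μB.real K := by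
    rw [L2.inner_indicatorConstLp_one, walL, integral_congr_ae (ae_restrict_of_ae
      (ContinuousMap.coeFn_toLp μB (wal 0)))]
    simp [wal_zero]
  rw [h3, h3, h4, L2.real_inner_indicatorConstLp_one_indicatorConstLp_one, Set.inter_self] at h2
  by_cases hε : ε = ⊤
  · simp [hε]
  rw [← ENNReal.toReal_le_toReal (by finiteness) (by finiteness)] at h0 h1 ⊢
  have h5 := measureReal_add_measureReal_compl (μ := μB) hK
  simp only [Measure.real, measure_univ, ENNReal.toReal_one, ENNReal.toReal_mul,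
    ENNReal.toReal_ofNat] at h2 h5 ⊢
  rw [show (μB Kᶜ).toReal = 1 - (μB K).toReal by linarith]
  nlinarith

end Crest.Agent.H6.Cost
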