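import Mathlib
import Crest.Prelude.Def_Cost
import Crest.Agent.H6.CostGroup

/-! Reduction of the cost inequality to the core inequality. -/

namespace Crest.Agent.H6.Cost

open MeasureTheory Crest.Dynamics
open scoped ENNReal

/-- An injective enumeration of the group. -/
noncomputable def enc : G → ℕ := (Countable.exists_injective_nat G).choose

theorem enc_injective : Function.Injective enc := (Countable.exists_injective_nat G).choose_spec

/-- Weight of a vertex template. -/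
noncomputable def wt : VT → ℕ
  | [] => 0
  | q :: l => enc q.1 + 1 + wt l

theorem finite_wt (n : ℕ) : {l | wt l ≤ n}.Finite := by
  induction n with
  | zero =>
    refine (Set.finite_singleton []).subset ?_
    rintro (_ | ⟨q, l⟩) h
    · rfl
    · simp [wt] at h
  | succ n ih =>
    have h1 : {q : G × Bool × Fin 3 | enc q.1 ≤ n}.Finite :=
      (((Set.finite_Iic n).preimage enc_injective.injOn).prod Set.finite_univ).subset
        fun q hq => ⟨hq, trivial⟩
    refine ((h1.image2 List.cons ih).insert []).subset ?_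
    rintro (_ | ⟨q, l⟩) h
    · exact Or.inl rfl
    · simp only [wt, Set.mem_ofPred_eq] at h
      exact Or.inr ⟨q, by simp only [Set.mem_ofPred_eq]; omega, l,
        by simp only [Set.mem_ofPred_eq]; omega, rfl⟩

theorem fresh_injective {p p' : PT} {j j' : Fin 3} (h : fresh p j = fresh p' j') :
    p = p' ∧ j = j' := by
  obtain ⟨⟨o, s⟩, l⟩ := p
  obtain ⟨⟨o', s'⟩, l'⟩ := p'
  simp only [fresh, List.cons.injEq, Prod.mk.injEq] at h
  simp [h]

variable {J : Type} [Encodable J] (γ : J → G)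

/-- Weight of an edge template. -/
noncomputable def wtE : (PT × Fin 4) ⊕ J → ℕ
  | .inl q => wt (fresh q.1 0)
  | .inr j => Encodable.encode j + wt (wk ((gen 3)⁻¹ * γ j))

/-- Vertices of level `n`. -/
abbrev Vn (n : ℕ) := {l : VT // wt l ≤ n}

/-- Polygons of level `n`. -/
abbrev Pn (n : ℕ) := {p : PT // wt (fresh p 0) ≤ n}

/-- Closing edges of level `n`. -/
abbrev Jn (n : ℕ) := {j : J // wtE γ (.inr j) ≤ n}

noncomputable instance (n : ℕ) : Fintype (Vn n) := (finite_wt n).fintype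

noncomputable instance (n : ℕ) : Fintype (Pn n) :=
  ((finite_wt n).preimage (f := fun p => fresh p 0) fun _ _ _ _ h => (fresh_injective h).1).fintype

noncomputable instance (n : ℕ) : Fintype (Jn γ n) :=
  (((Set.finite_Iic n).preimage Encodable.encode_injective.injOn).subset
    (t := {j | wtE γ (.inr j) ≤ n}) fun _ hj => le_trans (Nat.le_add_right _ _) hj).fintype

theorem card_Vn (n : ℕ) : 3 * Fintype.card (Pn n) + 1 ≤ Fintype.card (Vn n) := by
  have := Fintype.card_le_of_injective (fun o : Option (Pn n × Fin 3) =>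
    (o.elim ⟨[], Nat.zero_le _⟩ fun q => ⟨fresh q.1.1 q.2, q.1.2⟩ : Vn n)) (by
      rintro (_ | ⟨p, j⟩) (_ | ⟨p', j'⟩) h
      · rfl
      · simp [fresh] at h
      · simp [fresh] at h
      · obtain ⟨h1, h2⟩ := fresh_injective (congrArg Subtype.val h)
        rw [show p = p' from Subtype.ext h1, show j = j' from h2])
  simpa [mul_comm] using this

/-- Projection to level `n`. -/
noncomputable def prj (n : ℕ) (l : VT) : Vn n :=
  if h : wt l ≤ n then ⟨l, h⟩ else ⟨[], Nat.zero_le _⟩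

/-- Inclusion of edges of level `n`. -/
def toET {n : ℕ} : (Pn n × Fin 4) ⊕ Jn γ n → (PT × Fin 4) ⊕ J :=
  Sum.map (fun q => (q.1.1, q.2)) Subtype.val

theorem exists_toET {n : ℕ} {e : (PT × Fin 4) ⊕ J} (h : wtE γ e ≤ n) :
    ∃ e' : (Pn n × Fin 4) ⊕ Jn γ n, toET γ e' = e := by
  rcases e with ⟨p, i⟩ | j
  exacts [⟨.inl (⟨p, h⟩, i), rfl⟩, ⟨.inr ⟨j, h⟩, rfl⟩]

variable {X : Type} [MulAction G X]

/-- The complex of level `n`. -/
noncomputable def CxN (A : J → Set X) (n : ℕ) :
    Cx X (Vn n) ((Pn n × Fin 4) ⊕ Jn γ n) (Pn n) (gen 0) (gen 1) gd where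
  pres x e := prT γ A x (toET γ e)
  ev e σ := ((evT γ (toET γ e) σ).1, prj n (evT γ (toET γ e) σ).2)
  ed p i := .inl (p, i)
  pv p κ := (p.1.1.1, prj n (pvT p.1 κ))
  pres_ed _ _ _ := trivial
  ev_ed p i σ y := by simp [vx, toET, evT, mul_smul]

theorem CxN_pull {A : J → Set X} {n : ℕ} {r : X × Vn n → X × Vn n → Prop} (hr : Equivalence r)
    (hf : (CxN γ A n).FoldClosed r) (x : X) {ω : J → Set G} (hω : ∀ j, ∀ g ∈ ω j, g • x ∈ A j)
    {u u' : G × VT} (h : Eqv (evT γ) (wtE γ) (prT γ ω) n u u') :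
    r (u.1 • x, prj n u.2) (u'.1 • x, prj n u'.2) := by
  refine Eqv.min (r := fun u u' => r (u.1 • x, prj n u.2) (u'.1 • x, prj n u'.2))
    ⟨fun _ => hr.refl _, hr.symm, hr.trans⟩ (fun g e e' σ h1 h2 h3 h4 h5 => ?_) le_rfl h
  obtain ⟨e, rfl⟩ := exists_toET γ h1
  obtain ⟨e', rfl⟩ := exists_toET γ h2
  have key : ∀ e, prT γ ω g e → prT γ A (g • x) e := by
    rintro (_ | j) h
    · trivial
    · simpa only [prT, smul_smul, smul_eq_mul] using hω j _ h
  simp only [vx, smul_eq_mul, mul_smul] at h5 ⊢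
  exact hf (g • x) e e' σ (key _ h3) (key _ h4) h5

theorem CxN_conn (A : J → Set X) (n : ℕ) {H : Set (X × Vn n)} (hH : ∀ x e, (CxN γ A n).pres x e →
      (vx ((CxN γ A n).ev e true) x ∈ H ↔ vx ((CxN γ A n).ev e false) x ∈ H)) (x : X) :
    ∀ l, wt l ≤ n → ((x, prj n l) ∈ H ↔ (x, prj n []) ∈ H) := by
  intro l
  induction l with
  | nil => simp
  | cons q l ih =>
    obtain ⟨o, s, j⟩ := q
    intro hl
    rw [← ih (le_trans (Nat.le_add_left _ _) hl)]
    have key : ∀ i, (x, prj n (pvT ((o, s), l) (kap i true))) ∈ H ↔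
        (x, prj n (pvT ((o, s), l) (kap i false))) ∈ H := fun i => by
      have := hH _ _ ((CxN γ A n).pres_ed ⟨((o, s), l), hl⟩ i (o⁻¹ • x))
      rw [Cx.ev_ed, Cx.ev_ed] at this
      simpa [CxN, vx] using this
    have h0 := key 0
    have h1 := key 1
    have h2 := key 2
    cases s <;> fin_cases j <;> simp [pvT, kap, fresh] at h0 h1 h2 ⊢ <;> tauto

theorem cost_lower [MeasurableSpace X] [StandardBorelSpace X] [IsCancelSMul G X]
    [MeasurableConstSMul G X] (μ : Measure X) [IsProbabilityMeasure μ]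
    [SMulInvariantMeasure G X μ] (hfree : ∀ x, FreeAt (gens X (gen 0) (gen 1)) x)
    (hgap : ∀ K, MeasurableSet K → ∀ ε, μ (K \ (gen 0 • ·) ⁻¹' K) ≤ ε →
      μ (K \ (gen 1 • ·) ⁻¹' K) ≤ ε → μ K * μ Kᶜ ≤ 8 * ε)
    (Φ : ℕ → G × Set X) (hΦ : Generates μ Φ) : 1 + 1 / 128 ≤ graphingCost μ Φ := by
  classical
  obtain ⟨hm, N, hN, hgen⟩ := hΦ
  let γ : ℕ ⊕ Fin 4 → G := Sum.elim (fun j => (Φ j).1) gen
  let ω : X → ℕ ⊕ Fin 4 → Set G := fun x => Sum.elim (fun j => {g | g • x ∈ (Φ j).2}) fun _ => ∅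
  let Gd : ℕ → Fin 4 → Set X := fun n i =>
    {x | Eqv (evT γ) (wtE γ) (prT γ (ω x)) n (1, tl i) (gen i, [])}
  have h1 : ∀ n i, MeasurableSet (Gd n i) := fun n i => (measurable_Eqv (by
    rintro g (_ | j | j)
    exacts [measurable_const (a := True), (hm j).mem.comp (measurable_const_smul _),
      measurable_const (a := False)]) n _ _).setOf
  have h2 : ∀ i, ⋂ n, (Gd n i)ᶜ ⊆ N := by
    intro i x hx
    by_contra hxN
    obtain ⟨S, hS1, hS2, hS3⟩ := exists_good γ (ω x) Eqv.equiv fun _ _ _ _ =>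
      Eqv.fold (w := wtE γ)
    have key : ∀ y y', Relation.EqvGen (GraphingStep Φ) y y' →
        ((∃ g ∈ S, y = g • x) ↔ ∃ g ∈ S, y' = g • x) := by
      intro y y' h
      induction h with
      | refl => rfl
      | symm _ _ _ ih => exact ih.symm
      | trans _ _ _ _ _ ih ih' => exact ih.trans ih'
      | rel y y' h =>
        obtain ⟨j, hj, rfl⟩ := h
        constructor
        · rintro ⟨g, hg, rfl⟩
          exact ⟨_, (hS2 (.inl j) g hj).1 hg, (mul_smul _ _ _).symm⟩
        · rintro ⟨g, hg, e⟩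
          obtain rfl : y = ((Φ j).1⁻¹ * g) • x := by rw [mul_smul, ← e, inv_smul_smul]
          exact ⟨_, (hS2 (.inl j) _ hj).2 (by simpa [γ] using hg), rfl⟩
    obtain ⟨g, hg, e⟩ := (key _ _ (hgen x hxN (gen i))).1 ⟨1, hS1, (one_smul _ _).symm⟩
    obtain ⟨k, hk⟩ := hS3 i (IsCancelSMul.right_cancel _ _ _ e ▸ hg)
    exact Set.mem_iInter.1 hx k hk
  have h3 : ∀ i, ∀ᶠ n in Filter.atTop, μ (Gd n i)ᶜ ≤ 1 / 512 := fun i => by
    have := tendsto_measure_iInter_atTop (μ := μ) (s := fun n => (Gd n i)ᶜ)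
      (fun n => (h1 n i).compl.nullMeasurableSet)
      (fun n m hnm => Set.compl_subset_compl.2 fun x hx => Eqv.mono hx hnm) ⟨0, measure_ne_top _ _⟩
    rw [measure_mono_null (h2 i) hN] at this
    exact this.eventually_le_const (by simp)
  let ω' : Fin 4 → ℕ ⊕ Fin 4 → Set G := fun i j => {g | g = 1 ∧ j = .inr i}
  have h4 : ∀ i, ∀ᶠ n in Filter.atTop,
      Eqv (evT γ) (wtE γ) (prT γ (ω' i)) n (1, tl i) (gen i, []) := fun i => by
    obtain ⟨S, hS1, hS2, hS3⟩ := exists_good γ (ω' i) Eqv.equiv fun _ _ _ _ =>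
      Eqv.fold (w := wtE γ)
    obtain ⟨k, hk⟩ := hS3 i (by simpa [γ] using (hS2 (.inr i) 1 ⟨rfl, rfl⟩).1 hS1)
    exact Filter.eventually_atTop.2 ⟨k, fun n hn => hk.mono hn⟩
  obtain ⟨n, h3, h4, h5⟩ := ((Filter.eventually_all.2 h3).and ((Filter.eventually_all.2 h4).and
    (Filter.eventually_ge_atTop (wt (fresh ((1, true), []) 0))))).exists
  let A : ℕ ⊕ Fin 4 → Set X := Sum.elim (fun j => (Φ j).2) fun i => (Gd n i)ᶜ
  have hA : ∀ j, MeasurableSet (A j) := by
    rintro (j | i)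
    exacts [hm j, (h1 n i).compl]
  have h6 : ∀ r, Equivalence r → (CxN γ A n).FoldClosed r → ∀ x i,
      r (x, prj n (tl i)) (gen i • x, prj n []) := by
    intro r hr hf x i
    by_cases hx : x ∈ Gd n i
    · simpa using CxN_pull γ hr hf x (by
        rintro (j | j) g hg
        exacts [hg, hg.elim]) hx
    · simpa using CxN_pull γ hr hf x (by
        rintro j g ⟨rfl, rfl⟩
        simpa [A] using hx) (h4 i)
  have h7 := core (Y := CxN γ A n) μ rel_1 rel_2 hfree (by
      rintro (_ | j)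
      exacts [measurable_const (a := True), (hA j).mem.comp (measurable_const_smul _)])
    (fun p p' h => by
      have e : ∀ p : PT, pvT p 1 = fresh p 0 := fun p => by unfold pvT; split_ifs <;> rfl
      simp only [CxN, e, prj, dif_pos p.2, dif_pos p'.2] at h
      exact Subtype.ext (fresh_injective (congrArg Subtype.val h)).1)
    (fun H hH x v g w hx => by
      have e1 : ∀ x (v : Vn n), (x, v) ∈ H ↔ (x, prj n []) ∈ H := fun x v => by
        rw [← CxN_conn γ A n hH x v.1 v.2, prj, dif_pos v.2]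
      have e2 : ∀ x i, (x, prj n []) ∈ H ↔ (gen i • x, prj n []) ∈ H := fun x i => by
        rw [← e1 x (prj n (tl i))]
        refine h6 (fun u u' => u ∈ H ↔ u' ∈ H) ⟨fun _ => Iff.rfl, Iff.symm, Iff.trans⟩ ?_ x i
        intro x e e' σ he he' h
        have := hH x e he
        have := hH x e' he'
        cases σ <;> simp_all
      rw [e1] at hx ⊢
      induction g using G.induction with
      | h1 => simpa using hx
      | h2 i g ih => rw [mul_smul]; exact (e2 _ i).1 ih
      | h3 i g ih => exact (e2 _ i).2 (by simpa [mul_smul] using ih))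
    (prj n []) (fun r hr hf x => ⟨h6 r hr hf x 0, .inl (⟨((1, true), []), h5⟩, 0), trivial, by
      rintro (_ | _)
      · exact ⟨_, by simpa [CxN, vx, toET, evT, gpos, tl, pvT, kap] using h6 r hr hf x 3⟩
      · exact ⟨x, by simpa [CxN, vx, toET, evT, gpos, pvT, kap] using hr.refl _⟩⟩) hgap
  have h8 : ∑ j : Jn γ n, μ {x | (CxN γ A n).pres x (.inr j)} ≤ graphingCost μ Φ + 1 / 128 :=
    calc _ = ∑' j : Jn γ n, μ (A j.1) := by
          rw [tsum_fintype]
          exact Finset.sum_congr rfl fun j _ => measure_preimage_smul μ _ _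
      _ ≤ ∑' j, μ (A j) := ENNReal.tsum_comp_le_tsum_of_injective Subtype.val_injective _
      _ = graphingCost μ Φ + ∑ i, μ (Gd n i)ᶜ := by
          rw [Summable.tsum_sum ENNReal.summable ENNReal.summable, tsum_fintype (β := Fin 4)]; rfl
      _ ≤ graphingCost μ Φ + ∑ _ : Fin 4, 1 / 512 := by gcongr with i; exact h3 i
      _ = _ := by
          congr 1
          rw [← ENNReal.toReal_eq_toReal_iff' (ENNReal.sum_ne_top.2 fun _ _ => by simp) (by simp)]
          norm_num
  have h9 : ∑ q : Pn n × Fin 4, μ {x | (CxN γ A n).pres x (.inl q)} = 4 * Fintype.card (Pn n) := by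
    simp [CxN, toET, prT, mul_comm]
  rw [Fintype.sum_sum_type, h9] at h7
  have h10 : (3 * Fintype.card (Pn n) + 1 : ℝ≥0∞) ≤ Fintype.card (Vn n) := by
    exact_mod_cast card_Vn n
  have h11 : (1 / 64 : ℝ≥0∞) = 1 / 128 + 1 / 128 := by
    rw [← ENNReal.toReal_eq_toReal_iff' (by simp) (by simp), ENNReal.toReal_add (by simp) (by simp)]
    norm_num
  rw [← ENNReal.add_le_add_iff_right (a := 4 * Fintype.card (Pn n) + 1 / 128) (by finiteness)]
  calc _ = Fintype.card (Pn n) + (3 * Fintype.card (Pn n) + 1) + (1 / 64 : ℝ≥0∞) := by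
        rw [h11]; ring
    _ ≤ _ := (add_le_add (add_le_add le_rfl h10) le_rfl).trans h7
    _ ≤ _ := add_le_add le_rfl h8
    _ = _ := by ring

end Crest.Agent.H6.Cost
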