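import Mathlib
import Crest.Prelude.Def_MarkovType

set_option autoImplicit false

/-! Enflo-type renorming: if the derived sets die out, there is an equivalent uniformly convex
norm; otherwise there are long separated martingales in the unit ball. -/

namespace Crest.Agent.H6.MT

open Set Pointwise

variable {X : Type*} [NormedAddCommGroup X] [NormedSpace ℝ X]

/-- derived convex sets -/
def Cs (X : Type*) [NormedAddCommGroup X] [NormedSpace ℝ X] (ε : ℝ) : ℕ → Set X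
  | 0 => Metric.closedBall 0 1
  | n + 1 => convexHull ℝ
      {z | ∃ x ∈ Cs X ε n, ∃ y ∈ Cs X ε n, ε ≤ ‖x - y‖ ∧ z = (1 / 2 : ℝ) • (x + y)}

lemma Cs_convex (ε : ℝ) (n : ℕ) : Convex ℝ (Cs X ε n) := by
  cases n with
  | zero => exact convex_closedBall _ _
  | succ n => exact convex_convexHull _ _

lemma Cs_norm (ε : ℝ) (n : ℕ) : Cs X ε n ⊆ Metric.closedBall 0 1 := by
  induction n with
  | zero => exact subset_rfl
  | succ n ih =>
    refine convexHull_min ?_ (convex_closedBall _ _)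
    rintro z ⟨x, hx, y, hy, -, rfl⟩
    have h1 := ih hx
    have h2 := ih hy
    simp only [mem_closedBall_zero_iff] at h1 h2 ⊢
    rw [norm_smul]
    have := norm_add_le x y
    norm_num
    linarith

lemma Cs_neg (ε : ℝ) (n : ℕ) : ∀ x ∈ Cs X ε n, -x ∈ Cs X ε n := by
  induction n with
  | zero => intro x hx; simpa [Cs] using hx
  | succ n ih =>
    intro x hx
    have hs : -{z | ∃ x ∈ Cs X ε n, ∃ y ∈ Cs X ε n, ε ≤ ‖x - y‖ ∧ z = (1 / 2 : ℝ) • (x + y)} ⊆
        {z | ∃ x ∈ Cs X ε n, ∃ y ∈ Cs X ε n, ε ≤ ‖x - y‖ ∧ z = (1 / 2 : ℝ) • (x + y)} := by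
      intro z hz
      obtain ⟨a, ha, b, hb, hab, hz⟩ := hz
      refine ⟨-a, ih a ha, -b, ih b hb, ?_, ?_⟩
      · rw [show -a - -b = -(a - b) by abel, norm_neg]; exact hab
      · rw [← neg_neg z, hz, ← smul_neg]; congr 1; abel
    have : -x ∈ convexHull ℝ (-{z | ∃ x ∈ Cs X ε n, ∃ y ∈ Cs X ε n, ε ≤ ‖x - y‖ ∧
        z = (1 / 2 : ℝ) • (x + y)}) := by
      rw [convexHull_neg]; simpa [Cs] using hx
    exact convexHull_mono hs this

lemma Cs_zero_mem {ε : ℝ} {n : ℕ} (h : (Cs X ε n).Nonempty) : (0 : X) ∈ Cs X ε n := by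
  obtain ⟨x, hx⟩ := h
  have := Cs_convex (X := X) ε n hx (Cs_neg ε n x hx) (a := 1 / 2) (b := 1 / 2)
    (by norm_num) (by norm_num) (by norm_num)
  simpa using this

/-- thickened sets -/
def Ds (X : Type*) [NormedAddCommGroup X] [NormedSpace ℝ X] (ε : ℝ) (n : ℕ) : Set X :=
  Cs X ε n + Metric.closedBall 0 ε

lemma Ds_convex (ε : ℝ) (n : ℕ) : Convex ℝ (Ds X ε n) :=
  (Cs_convex ε n).add (convex_closedBall _ _)

lemma Ds_balanced (ε : ℝ) (n : ℕ) : Balanced ℝ (Ds X ε n) := by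
  rw [balanced_iff_neg_mem (Ds_convex ε n)]
  rintro x ⟨c, hc, r, hr, rfl⟩
  refine ⟨-c, Cs_neg ε n c hc, -r, by simpa using hr, by simp only; abel⟩

lemma ball_subset_Ds {ε : ℝ} {n : ℕ} (h : (Cs X ε n).Nonempty) :
    Metric.closedBall 0 ε ⊆ Ds X ε n := fun x hx =>
  ⟨0, Cs_zero_mem h, x, hx, by simp⟩

lemma absorbent_ball {ε : ℝ} (hε : 0 < ε) : Absorbent ℝ (Metric.closedBall (0 : X) ε) :=
  absorbent_nhds_zero (Metric.closedBall_mem_nhds _ hε)

lemma Ds_absorbent {ε : ℝ} (hε : 0 < ε) {n : ℕ} (h : (Cs X ε n).Nonempty) :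
    Absorbent ℝ (Ds X ε n) := (absorbent_ball hε).mono (ball_subset_Ds h)

open Classical in
/-- the gauge seminorms -/
noncomputable def qs (X : Type*) [NormedAddCommGroup X] [NormedSpace ℝ X] (ε : ℝ) (hε : 0 < ε)
    (n : ℕ) : Seminorm ℝ X :=
  if h : (Cs X ε n).Nonempty then
    gaugeSeminorm (Ds_balanced ε n) (Ds_convex ε n) (Ds_absorbent hε h) else 0

lemma qs_apply {ε : ℝ} (hε : 0 < ε) {n : ℕ} (h : (Cs X ε n).Nonempty) (x : X) :
    qs X ε hε n x = gauge (Ds X ε n) x := by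
  simp [qs, h]

lemma qs_le {ε : ℝ} (hε : 0 < ε) (n : ℕ) (x : X) : qs X ε hε n x ≤ ‖x‖ / ε := by
  by_cases h : (Cs X ε n).Nonempty
  · rw [qs_apply hε h, ← gauge_closedBall hε.le]
    exact gauge_mono (absorbent_ball hε) (ball_subset_Ds h) x
  · simp only [qs, h, dite_false, Seminorm.zero_apply]; positivity

lemma Cs_zero_nonempty (ε : ℝ) : (Cs X ε 0).Nonempty := ⟨0, by simp [Cs]⟩

lemma qs_zero_le {ε : ℝ} (hε : 0 < ε) (x : X) : qs X ε hε 0 x ≤ ‖x‖ := by
  rw [qs_apply hε (Cs_zero_nonempty ε)]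
  have h1 : Metric.closedBall (0 : X) 1 ⊆ Ds X ε 0 := fun x hx =>
    ⟨x, hx, 0, by simp [hε.le], by simp⟩
  have := gauge_mono (absorbent_ball one_pos) h1 x
  rwa [gauge_closedBall zero_le_one, div_one] at this

lemma le_qs_zero {ε : ℝ} (hε : 0 < ε) (x : X) : ‖x‖ / (1 + ε) ≤ qs X ε hε 0 x := by
  rw [qs_apply hε (Cs_zero_nonempty ε), ← gauge_closedBall (by linarith)]
  refine gauge_mono (Ds_absorbent hε (Cs_zero_nonempty ε)) ?_ x
  rintro z ⟨c, hc, r, hr, rfl⟩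
  simp only [Cs, mem_closedBall_zero_iff] at hc hr ⊢
  exact (norm_add_le _ _).trans (add_le_add hc hr)

lemma decomp_of_qs_lt {ε : ℝ} (hε : 0 < ε) {n : ℕ} (h : (Cs X ε n).Nonempty) {x : X} {l : ℝ}
    (hx : qs X ε hε n x < l) : ∃ c ∈ Cs X ε n, ∃ r : X, ‖r‖ ≤ ε ∧ x = l • (c + r) := by
  rw [qs_apply hε h] at hx
  obtain ⟨b, hb, hbl, d, hd, rfl⟩ := exists_lt_of_gauge_lt (Ds_absorbent hε h) hx
  have hl : 0 < l := hb.trans hbl
  have h0 : (0 : X) ∈ Ds X ε n := ball_subset_Ds h (by simp [hε.le])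
  have := (Ds_convex ε n).smul_mem_of_zero_mem h0 hd (t := b / l)
    ⟨by positivity, by rw [div_le_one hl]; exact hbl.le⟩
  obtain ⟨c, hc, r, hr, hcr⟩ := this
  refine ⟨c, hc, r, by simpa using hr, ?_⟩
  simp only at hcr ⊢
  rw [hcr, smul_smul, mul_div_cancel₀ _ hl.ne']

lemma qs_step {ε : ℝ} (hε : 0 < ε) {n : ℕ} (h : (Cs X ε n).Nonempty) {x y : X} {l : ℝ}
    (hl : 0 < l) (hx : qs X ε hε n x < l) (hy : qs X ε hε n y < l) (hxy : 3 * ε * l ≤ ‖x - y‖) :
    (Cs X ε (n + 1)).Nonempty ∧ qs X ε hε (n + 1) ((1 / 2 : ℝ) • (x + y)) ≤ l := by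
  obtain ⟨c, hc, r, hr, rfl⟩ := decomp_of_qs_lt hε h hx
  obtain ⟨c', hc', r', hr', rfl⟩ := decomp_of_qs_lt hε h hy
  have h1 : ‖l • (c + r) - l • (c' + r')‖ = l * ‖(c - c') + (r - r')‖ := by
    rw [← smul_sub, norm_smul, Real.norm_of_nonneg hl.le]; congr 2; abel
  have h2 : 3 * ε ≤ ‖(c - c') + (r - r')‖ := by
    rw [h1] at hxy
    have : l * (3 * ε) ≤ l * ‖(c - c') + (r - r')‖ := by linarith
    exact le_of_mul_le_mul_left this hl
  have h3 : ε ≤ ‖c - c'‖ := by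
    have := norm_add_le (c - c') (r - r')
    have := norm_sub_le r r'
    linarith
  have hm : (1 / 2 : ℝ) • (c + c') ∈ Cs X ε (n + 1) :=
    subset_convexHull _ _ ⟨c, hc, c', hc', h3, rfl⟩
  refine ⟨⟨_, hm⟩, ?_⟩
  rw [qs_apply hε ⟨_, hm⟩]
  refine gauge_le_of_mem hl.le ⟨(1 / 2 : ℝ) • (c + c') + (1 / 2 : ℝ) • (r + r'),
    ⟨_, hm, _, ?_, rfl⟩, ?_⟩
  · simp only [mem_closedBall_zero_iff, norm_smul]
    have := norm_add_le r r'
    norm_num
    linarith
  · simp only [smul_add]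
    module

lemma exists_sq_seminorm {ι : Type*} (p : ι → Seminorm ℝ X) (w : ι → ℝ) (hw : ∀ i, 0 ≤ w i)
    (hs : ∀ x, Summable fun i => w i * p i x ^ 2) :
    ∃ N : Seminorm ℝ X, ∀ x, N x ^ 2 = ∑' i, w i * p i x ^ 2 := by
  set F : X → ℝ := fun x => ∑' i, w i * p i x ^ 2 with hF
  have F0 : ∀ x, 0 ≤ F x := fun x => tsum_nonneg fun i => mul_nonneg (hw i) (sq_nonneg _)
  have hadd : ∀ x y (s : ℝ), 0 < s → F (x + y) ≤ (1 + s) * F x + (1 + 1 / s) * F y := by
    intro x y s hs0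
    simp only [hF]
    rw [← tsum_mul_left, ← tsum_mul_left, ← ((hs x).mul_left _).tsum_add ((hs y).mul_left _)]
    refine (hs _).tsum_le_tsum (fun i => ?_) (((hs x).mul_left _).add ((hs y).mul_left _))
    have h1 := map_add_le_add (p i) x y
    have h2 := apply_nonneg (p i) (x + y)
    have ha := apply_nonneg (p i) x
    have hb := apply_nonneg (p i) y
    set a := p i x
    set b := p i y
    have h3 : p i (x + y) ^ 2 ≤ (a + b) ^ 2 := by gcongr
    have h4 : (a + b) ^ 2 ≤ (1 + s) * a ^ 2 + (1 + 1 / s) * b ^ 2 := by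
      have : (1 + s) * a ^ 2 + (1 + 1 / s) * b ^ 2 - (a + b) ^ 2 = (s * a - b) ^ 2 / s := by
        field_simp; ring
      have h5 : 0 ≤ (s * a - b) ^ 2 / s := by positivity
      linarith
    have := mul_le_mul_of_nonneg_left (h3.trans h4) (hw i)
    linarith
  refine ⟨Seminorm.of (fun x => Real.sqrt (F x)) (fun x y => ?_) (fun a x => ?_), fun x => ?_⟩
  · refine le_of_forall_pos_le_add fun η hη => ?_
    have hA := Real.sqrt_nonneg (F x)
    have hB := Real.sqrt_nonneg (F y)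
    have hA2 := Real.sq_sqrt (F0 x)
    have hB2 := Real.sq_sqrt (F0 y)
    set A := Real.sqrt (F x)
    set B := Real.sqrt (F y)
    have hA' : 0 < A + η / 2 := by positivity
    have hB' : 0 < B + η / 2 := by positivity
    have h1 := hadd x y ((B + η / 2) / (A + η / 2)) (by positivity)
    rw [← hA2, ← hB2] at h1
    refine Real.sqrt_le_iff.2 ⟨by positivity, h1.trans ?_⟩
    have h2 : A ^ 2 ≤ (A + η / 2) ^ 2 := by gcongr; linarith
    have h3 : B ^ 2 ≤ (B + η / 2) ^ 2 := by gcongr; linarith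
    calc _ ≤ (1 + (B + η / 2) / (A + η / 2)) * (A + η / 2) ^ 2 +
          (1 + 1 / ((B + η / 2) / (A + η / 2))) * (B + η / 2) ^ 2 := by gcongr
      _ = (A + B + η) ^ 2 := by field_simp; ring
  · have : F (a • x) = ‖a‖ ^ 2 * F x := by
      simp only [hF]
      rw [← tsum_mul_left]
      congr 1; ext i
      rw [map_smul_eq_mul]; ring
    rw [this, Real.sqrt_mul (sq_nonneg _), Real.sqrt_sq (norm_nonneg _)]
  · exact Real.sq_sqrt (F0 x)

lemma defect_real {a b m η : ℝ} (ha : 0 ≤ a) (hb : 0 ≤ b) (hm : 0 ≤ m) (hη : 0 ≤ η)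
    (h1 : m ≤ (a + b) / 2) (h2 : (a ^ 2 + b ^ 2) / 2 - m ^ 2 ≤ η ^ 2) : a ≤ m + 2 * η := by
  have h3 : m ^ 2 ≤ ((a + b) / 2) ^ 2 := by gcongr
  have h4 : ((a - b) / 2) ^ 2 ≤ η ^ 2 := by nlinarith
  have h5 : (a - b) / 2 ≤ η := (abs_le_of_sq_le_sq' h4 hη).2
  have h6 : ((a + b) / 2) ^ 2 ≤ (m + η) ^ 2 := by nlinarith [sq_nonneg (a - b), mul_nonneg hm hη]
  have h7 : (a + b) / 2 ≤ m + η := (abs_le_of_sq_le_sq' h6 (by positivity)).2
  linarith

lemma mid_le (p : Seminorm ℝ X) (x y : X) : p ((1 / 2 : ℝ) • (x + y)) ≤ (p x + p y) / 2 := by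
  rw [map_smul_eq_mul]
  have := map_add_le_add p x y
  norm_num
  linarith

theorem uc_of_empty (h : ∀ ε : ℝ, 0 < ε → ∃ N, Cs X ε N = ∅) :
    Crest.AnalysisR.HasEquivUniformlyConvexNorm X := by
  have hεpos : ∀ k : ℕ, (0 : ℝ) < 1 / ((k : ℝ) + 1) := fun k => by positivity
  let p : ℕ × ℕ → Seminorm ℝ X := fun i => qs X (1 / ((i.1 : ℝ) + 1)) (hεpos i.1) i.2
  let w : ℕ × ℕ → ℝ := fun i => (1 / 2) ^ i.1 * (1 / 2) ^ i.2 * (1 / ((i.1 : ℝ) + 1)) ^ 2
  have hw : ∀ i, 0 < w i := fun i => by simp only [w]; positivity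
  have hg : Summable fun i : ℕ × ℕ => ((1 / 2 : ℝ) ^ i.1 * (1 / 2) ^ i.2) :=
    Summable.mul_of_nonneg (f := fun n : ℕ => (1 / 2 : ℝ) ^ n) (g := fun n : ℕ => (1 / 2 : ℝ) ^ n)
      summable_geometric_two summable_geometric_two (fun _ => by positivity)
      (fun _ => by positivity)
  have hb : ∀ x i, w i * p i x ^ 2 ≤ ((1 / 2 : ℝ) ^ i.1 * (1 / 2) ^ i.2) * ‖x‖ ^ 2 := by
    intro x i
    have h1 := qs_le (hεpos i.1) i.2 x
    have h2 : p i x ^ 2 ≤ (‖x‖ / (1 / ((i.1 : ℝ) + 1))) ^ 2 := by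
      have := apply_nonneg (p i) x
      gcongr
    have h3 : (1 / ((i.1 : ℝ) + 1)) ^ 2 * (‖x‖ / (1 / ((i.1 : ℝ) + 1))) ^ 2 = ‖x‖ ^ 2 := by
      field_simp
    simp only [w]
    rw [mul_assoc, ← h3]
    gcongr
  have hs : ∀ x, Summable fun i => w i * p i x ^ 2 := fun x =>
    Summable.of_nonneg_of_le (fun i => mul_nonneg (hw i).le (sq_nonneg _)) (hb x) (hg.mul_right _)
  obtain ⟨N, hN⟩ := exists_sq_seminorm p w (fun i => (hw i).le) hs
  set G : ℝ := ∑' i : ℕ × ℕ, ((1 / 2 : ℝ) ^ i.1 * (1 / 2) ^ i.2) with hG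
  have hG0 : 0 ≤ G := tsum_nonneg fun _ => by positivity
  have hlow : ∀ x, (1 / 2) * ‖x‖ ≤ N x := by
    intro x
    have h1 : w (0, 0) * p (0, 0) x ^ 2 ≤ N x ^ 2 := by
      rw [hN]
      exact (hs x).le_tsum (0, 0) fun j _ => mul_nonneg (hw j).le (sq_nonneg _)
    have h2 := le_qs_zero (hεpos 0) x
    have h3 : w (0, 0) = 1 := by simp [w]
    have h4 : (1 / 2) * ‖x‖ ≤ p (0, 0) x := by
      refine le_trans (le_of_eq ?_) h2
      simp; ring
    rw [h3, one_mul] at h1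
    exact h4.trans (abs_le_of_sq_le_sq' h1 (apply_nonneg _ _)).2
  have hup : ∀ x, N x ≤ (G + 1) * ‖x‖ := by
    intro x
    have h1 : N x ^ 2 ≤ G * ‖x‖ ^ 2 := by
      rw [hN, hG, ← tsum_mul_right]
      exact (hs x).tsum_le_tsum (hb x) (hg.mul_right _)
    have h2 : N x ^ 2 ≤ ((G + 1) * ‖x‖) ^ 2 := by
      refine h1.trans ?_
      rw [mul_pow]
      gcongr
      nlinarith
    exact (abs_le_of_sq_le_sq' h2 (by positivity)).2
  have hdef : ∀ x y i, w i * ((p i x ^ 2 + p i y ^ 2) / 2 - p i ((1 / 2 : ℝ) • (x + y)) ^ 2) ≤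
      (N x ^ 2 + N y ^ 2) / 2 - N ((1 / 2 : ℝ) • (x + y)) ^ 2 := by
    intro x y i
    have e : ∀ j, w j * ((p j x ^ 2 + p j y ^ 2) / 2 - p j ((1 / 2 : ℝ) • (x + y)) ^ 2) =
        (w j * p j x ^ 2 + w j * p j y ^ 2) / 2 - w j * p j ((1 / 2 : ℝ) • (x + y)) ^ 2 :=
      fun j => by ring
    have hs1 : Summable fun j => (w j * p j x ^ 2 + w j * p j y ^ 2) / 2 :=
      ((hs x).add (hs y)).div_const 2
    have hs2 := hs1.sub (hs ((1 / 2 : ℝ) • (x + y)))
    rw [hN, hN, hN, ← (hs x).tsum_add (hs y), ← tsum_div_const, ← hs1.tsum_sub (hs _), e]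
    refine hs2.le_tsum i fun j _ => ?_
    rw [← e]
    refine mul_nonneg (hw j).le ?_
    have h1 := mid_le (p j) x y
    have h2 := apply_nonneg (p j) ((1 / 2 : ℝ) • (x + y))
    have h3 : p j ((1 / 2 : ℝ) • (x + y)) ^ 2 ≤ ((p j x + p j y) / 2) ^ 2 := by gcongr
    nlinarith [sq_nonneg (p j x - p j y)]
  refine ⟨N, 1 / 2, G + 1, by norm_num, by positivity, fun x => ⟨hlow x, hup x⟩, ?_⟩
  intro ε hε _
  obtain ⟨k, hk⟩ := exists_nat_one_div_lt (show 0 < ε / (G + 1) / 9 by positivity)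
  obtain ⟨M, hM⟩ := h _ (hεpos k)
  set η : ℝ := 1 / (3 * ((M : ℝ) + 1)) with hη
  have hη0 : 0 < η := by positivity
  refine ⟨min 1 (w (k, M) * η ^ 2 / 2), lt_min one_pos (by have := hw (k, M); positivity), ?_⟩
  intro x y hx hy hxy
  by_contra hcon
  push Not at hcon
  set δ := min 1 (w (k, M) * η ^ 2 / 2) with hδ
  have hδ1 : δ ≤ 1 := min_le_left _ _
  have hδ2 : δ ≤ w (k, M) * η ^ 2 / 2 := min_le_right _ _
  have hδ0 : 0 < δ := lt_min one_pos (by have := hw (k, M); positivity)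
  have hD : (N x ^ 2 + N y ^ 2) / 2 - N ((1 / 2 : ℝ) • (x + y)) ^ 2 ≤ w (k, M) * η ^ 2 := by
    have h1 : N x ^ 2 ≤ 1 := pow_le_one₀ (apply_nonneg _ _) hx
    have h2 : N y ^ 2 ≤ 1 := pow_le_one₀ (apply_nonneg _ _) hy
    have h3 : (1 - δ) ^ 2 ≤ N ((1 / 2 : ℝ) • (x + y)) ^ 2 := by
      have : 0 ≤ 1 - δ := by linarith
      gcongr
    nlinarith
  have hclose : ∀ n ≤ M, p (k, n) x ≤ p (k, n) ((1 / 2 : ℝ) • (x + y)) + 2 * η ∧
      p (k, n) y ≤ p (k, n) ((1 / 2 : ℝ) • (x + y)) + 2 * η := by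
    intro n hn
    have h1 := (hdef x y (k, n)).trans hD
    have h2 : w (k, M) ≤ w (k, n) := by
      simp only [w]
      gcongr ?_ * ?_ * ?_
      exact pow_le_pow_of_le_one (by norm_num) (by norm_num) hn
    have h3 : (p (k, n) x ^ 2 + p (k, n) y ^ 2) / 2 - p (k, n) ((1 / 2 : ℝ) • (x + y)) ^ 2 ≤
        η ^ 2 := by
      have h4 : w (k, M) * η ^ 2 ≤ w (k, n) * η ^ 2 := by gcongr
      exact le_of_mul_le_mul_left (h1.trans h4) (hw _)
    have h5 := mid_le (p (k, n)) x y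
    exact ⟨defect_real (apply_nonneg _ _) (apply_nonneg _ _) (apply_nonneg _ _) hη0.le h5 h3,
      defect_real (apply_nonneg _ _) (apply_nonneg _ _) (apply_nonneg _ _) hη0.le
        (h5.trans (le_of_eq (by ring))) (le_trans (le_of_eq (by ring)) h3)⟩
  have hx2 : ‖x‖ ≤ 2 := by have := hlow x; linarith
  have hy2 : ‖y‖ ≤ 2 := by have := hlow y; linarith
  have hsep : 9 * (1 / ((k : ℝ) + 1)) ≤ ‖x - y‖ := by
    have h1 := hup (x - y)
    have h2 : ε / (G + 1) ≤ ‖x - y‖ := by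
      rw [div_le_iff₀ (by positivity)]; linarith
    linarith
  have key : ∀ n ≤ M, (Cs X (1 / ((k : ℝ) + 1)) n).Nonempty ∧
      p (k, n) x < 2 + ((n : ℝ) + 1) * (3 * η) ∧ p (k, n) y < 2 + ((n : ℝ) + 1) * (3 * η) := by
    intro n
    induction n with
    | zero =>
      intro _
      have h1 := qs_zero_le (hεpos k) x
      have h2 := qs_zero_le (hεpos k) y
      refine ⟨Cs_zero_nonempty _, ?_, ?_⟩
      · simp only [p]; push_cast; linarith
      · simp only [p]; push_cast; linarith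
    | succ n ih =>
      intro hn
      obtain ⟨h1, h2, h3⟩ := ih (by omega)
      have hl : 2 + ((n : ℝ) + 1) * (3 * η) ≤ 3 := by
        have : ((n : ℝ) + 1) * (3 * η) ≤ ((M : ℝ) + 1) * (3 * η) := by
          gcongr; exact_mod_cast (by omega : n ≤ M)
        have h4 : ((M : ℝ) + 1) * (3 * η) = 1 := by rw [hη]; field_simp
        linarith
      have := qs_step (hεpos k) h1 (l := 2 + ((n : ℝ) + 1) * (3 * η)) (by positivity) h2 h3
        (by have := hεpos k; nlinarith)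
      obtain ⟨h5, h6⟩ := this
      obtain ⟨h7, h8⟩ := hclose (n + 1) hn
      refine ⟨h5, ?_, ?_⟩
      · simp only [p] at h7 ⊢; push_cast; linarith
      · simp only [p] at h8 ⊢; push_cast; linarith
  have := (key M le_rfl).1
  rw [hM] at this
  exact Set.not_nonempty_empty this

/-- finite random sequences in the unit ball with a summing-basis lower estimate -/
def Mart (ε : ℝ) (n : ℕ) (x : X) : Prop :=
  ∃ (ι : Type) (_ : Fintype ι) (μ : ι → ℝ) (z : ι → ℕ → X), (∀ i, 0 ≤ μ i) ∧ ∑ i, μ i = 1 ∧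
    (∀ i j, ‖z i j‖ ≤ 1) ∧ (∀ j, ∑ i, μ i • z i j = x) ∧
    ∀ r < n, ∀ (L : ℕ) (a : ℕ → ℝ) (c : X),
      ε / 2 * |∑ j ∈ Finset.range L, if r ≤ j then a j else 0| ≤
        ∑ i, μ i * ‖c + ∑ j ∈ Finset.range L, a j • z i j‖

lemma Mart_convex (ε : ℝ) (n : ℕ) : Convex ℝ {x : X | Mart ε n x} := by
  rintro x ⟨ι, _, μ, z, h0, h1, h2, h3, h4⟩ y ⟨ι', _, μ', z', h0', h1', h2', h3', h4'⟩ s t hs ht hst
  refine ⟨ι ⊕ ι', inferInstance, Sum.elim (fun i => s * μ i) (fun i => t * μ' i),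
    Sum.elim z z', ?_, ?_, ?_, ?_, ?_⟩
  · rintro (i | i)
    · exact mul_nonneg hs (h0 i)
    · exact mul_nonneg ht (h0' i)
  · simp [Fintype.sum_sum_type, ← Finset.mul_sum, h1, h1', hst]
  · rintro (i | i) j
    · exact h2 i j
    · exact h2' i j
  · intro j
    simp [Fintype.sum_sum_type, mul_smul, ← Finset.smul_sum, h3, h3']
  · intro r hr L a c
    have e1 := mul_le_mul_of_nonneg_left (h4 r hr L a c) hs
    have e2 := mul_le_mul_of_nonneg_left (h4' r hr L a c) ht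
    simp only [Fintype.sum_sum_type, Sum.elim_inl, Sum.elim_inr, mul_assoc, ← Finset.mul_sum]
    have : ε / 2 * |∑ j ∈ Finset.range L, if r ≤ j then a j else 0| =
      s * (ε / 2 * |∑ j ∈ Finset.range L, if r ≤ j then a j else 0|) +
      t * (ε / 2 * |∑ j ∈ Finset.range L, if r ≤ j then a j else 0|) := by
      rw [← add_mul, hst, one_mul]
    linarith

lemma jensen_mean {ι : Type} [Fintype ι] (μ : ι → ℝ) (z : ι → ℕ → X) (x : X) (h0 : ∀ i, 0 ≤ μ i)
    (h1 : ∑ i, μ i = 1) (h3 : ∀ j, ∑ i, μ i • z i j = x) (L : ℕ) (a : ℕ → ℝ) (c : X) :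
    ‖c + (∑ j ∈ Finset.range L, a j) • x‖ ≤
      ∑ i, μ i * ‖c + ∑ j ∈ Finset.range L, a j • z i j‖ := by
  have : c + (∑ j ∈ Finset.range L, a j) • x =
      ∑ i, μ i • (c + ∑ j ∈ Finset.range L, a j • z i j) := by
    simp only [smul_add, Finset.sum_add_distrib, ← Finset.sum_smul, h1, one_smul, Finset.smul_sum]
    congr 1
    rw [Finset.sum_comm, Finset.sum_smul]
    refine Finset.sum_congr rfl fun j _ => ?_
    rw [← h3 j, Finset.smul_sum]
    exact Finset.sum_congr rfl fun i _ => smul_comm _ _ _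
  rw [this]
  refine (norm_sum_le _ _).trans (le_of_eq (Finset.sum_congr rfl fun i _ => ?_))
  rw [norm_smul, Real.norm_of_nonneg (h0 i)]

/-- one-sided shift -/
lemma Mart_shift {ε : ℝ} {n : ℕ} {x : X} (hx1 : ‖x‖ ≤ 1) (h : Mart ε n x) :
    ∃ (ι : Type) (_ : Fintype ι) (μ : ι → ℝ) (z : ι → ℕ → X), (∀ i, 0 ≤ μ i) ∧ ∑ i, μ i = 1 ∧
    (∀ i j, ‖z i j‖ ≤ 1) ∧ (∀ j, ∑ i, μ i • z i j = x) ∧
    ∀ r < n, ∀ (L : ℕ) (a : ℕ → ℝ) (c : X),
      ε / 2 * |∑ j ∈ Finset.range L, if r + 1 ≤ j then a j else 0| ≤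
        ∑ i, μ i * ‖c + ∑ j ∈ Finset.range L, a j • z i j‖ := by
  obtain ⟨ι, _, μ, z, h0, h1, h2, h3, h4⟩ := h
  refine ⟨ι, inferInstance, μ, fun i j => Nat.casesOn j x (z i), h0, h1, ?_, ?_, ?_⟩
  · rintro i (_ | j)
    · exact hx1
    · exact h2 i j
  · rintro (_ | j)
    · simp [← Finset.sum_smul, h1]
    · exact h3 j
  · intro r hr L a c
    cases L with
    | zero =>
      simp only [Finset.range_zero, Finset.sum_empty, abs_zero, mul_zero]
      exact Finset.sum_nonneg fun i _ => mul_nonneg (h0 i) (norm_nonneg _)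
    | succ L =>
      have := h4 r hr L (fun j => a (j + 1)) (c + a 0 • x)
      simp only [Finset.sum_range_succ', Nat.add_le_add_iff_right]
      simp only [show ¬ (r + 1 ≤ 0) by omega, if_false, add_zero]
      refine this.trans (le_of_eq (Finset.sum_congr rfl fun i _ => ?_))
      congr 2
      show c + a 0 • x + ∑ j ∈ Finset.range L, a (j + 1) • z i j =
        c + (∑ j ∈ Finset.range L, a (j + 1) • z i j + a 0 • x)
      rw [add_assoc, add_comm (a 0 • x)]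

lemma Mart_of_mem {ε : ℝ} (n : ℕ) : ∀ x ∈ Cs X ε n, Mart ε n x := by
  induction n with
  | zero =>
    intro x hx
    refine ⟨Unit, inferInstance, fun _ => 1, fun _ _ => x, by simp, by simp, ?_, by simp, by simp⟩
    intro _ _
    simpa [Cs] using hx
  | succ n ih =>
    refine convexHull_min ?_ (Mart_convex ε (n + 1))
    rintro z ⟨x, hx, y, hy, hxy, rfl⟩
    obtain ⟨ι, _, μ, z, h0, h1, h2, h3, h4⟩ :=
      Mart_shift (by simpa using Cs_norm ε n hx) (ih x hx)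
    obtain ⟨ι', _, μ', z', h0', h1', h2', h3', h4'⟩ :=
      Mart_shift (by simpa using Cs_norm ε n hy) (ih y hy)
    refine ⟨ι ⊕ ι', inferInstance, Sum.elim (fun i => 1 / 2 * μ i) (fun i => 1 / 2 * μ' i),
      Sum.elim z z', ?_, ?_, ?_, ?_, ?_⟩
    · rintro (i | i)
      · exact mul_nonneg (by norm_num) (h0 i)
      · exact mul_nonneg (by norm_num) (h0' i)
    · simp only [Fintype.sum_sum_type, Sum.elim_inl, Sum.elim_inr, ← Finset.mul_sum, h1, h1']
      norm_num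
    · rintro (i | i) j
      · exact h2 i j
      · exact h2' i j
    · intro j
      simp only [Fintype.sum_sum_type, Sum.elim_inl, Sum.elim_inr, mul_smul, ← Finset.smul_sum,
        h3, h3', smul_add]
    · intro r hr L a c
      simp only [Fintype.sum_sum_type, Sum.elim_inl, Sum.elim_inr, mul_assoc, ← Finset.mul_sum]
      cases r with
      | zero =>
        have e1 := jensen_mean μ z x h0 h1 h3 L a c
        have e2 := jensen_mean μ' z' y h0' h1' h3' L a c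
        simp only [zero_le, if_true]
        set τ := ∑ j ∈ Finset.range L, a j
        have e3 : |τ| * ‖x - y‖ ≤ ‖c + τ • x‖ + ‖c + τ • y‖ := by
          rw [← Real.norm_eq_abs, ← norm_smul]
          refine le_trans (le_of_eq ?_) (norm_sub_le _ _)
          congr 1; rw [smul_sub]; abel
        have e4 : ε * |τ| ≤ ‖x - y‖ * |τ| := by gcongr
        linarith
      | succ r =>
        have e1 := h4 r (by omega) L a c
        have e2 := h4' r (by omega) L a c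
        linarith

end Crest.Agent.H6.MT
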