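import Crest.Agent.H6.MTA

set_option autoImplicit false

/-! Seminorms on finitely supported sequences with Markov type: limits, spreading invariance,
block averaging. -/

namespace Crest.Agent.H6.MT

open Filter Topology Finset

abbrev V := ℕ →₀ ℝ

/-- Markov type inequality for a functional -/
def MTI (p K : ℝ) (ν : V → ℝ) : Prop :=
  ∀ (S : Type) [Fintype S] [DecidableEq S] (w : S → ℝ) (P : Matrix S S ℝ),
    (∀ i, 0 ≤ w i) → ∑ i, w i = 1 → (∀ i j, 0 ≤ P i j) → (∀ i, ∑ j, P i j = 1) →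
    (∀ i j, w i * P i j = w j * P j i) →
    ∀ (f : S → V) (t : ℕ), 1 ≤ t →
      ∑ i, ∑ j, w i * (P ^ t) i j * ν (f j - f i) ^ p ≤
        K ^ p * t * ∑ i, ∑ j, w i * P i j * ν (f j - f i) ^ p

/-- tail sums -/
noncomputable def tl (r : ℕ) : V →ₗ[ℝ] ℝ :=
  Finsupp.linearCombination ℝ fun k => if r ≤ k then (1 : ℝ) else 0

@[simp] lemma tl_single (r k : ℕ) (c : ℝ) :
    tl r (Finsupp.single k c) = if r ≤ k then c else 0 := by
  simp [tl]

structure Pre (p K : ℝ) (ν : V → ℝ) : Prop where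
  nonneg : ∀ a, 0 ≤ ν a
  add : ∀ a b, ν (a + b) ≤ ν a + ν b
  smul : ∀ (c : ℝ) a, ν (c • a) = |c| * ν a
  single : ∀ k, ν (Finsupp.single k 1) ≤ 1
  mt : MTI p K ν

variable {p K : ℝ}

lemma Pre.zero {ν : V → ℝ} (h : Pre p K ν) : ν 0 = 0 := by
  have := h.smul 0 0
  simpa using this

lemma Pre.neg {ν : V → ℝ} (h : Pre p K ν) (a : V) : ν (-a) = ν a := by
  have := h.smul (-1) a
  simpa using this

lemma Pre.sub {ν : V → ℝ} (h : Pre p K ν) (a b : V) : ν (a - b) ≤ ν a + ν b := by
  rw [sub_eq_add_neg, ← h.neg b]; exact h.add _ _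

lemma Pre.sum_le {ν : V → ℝ} (h : Pre p K ν) {ι : Type*} (s : Finset ι) (f : ι → V) :
    ν (∑ i ∈ s, f i) ≤ ∑ i ∈ s, ν (f i) := by
  classical
  induction s using Finset.induction_on with
  | empty => simp [h.zero]
  | insert i s hi ih =>
    rw [sum_insert hi, sum_insert hi]
    exact (h.add _ _).trans (by linarith)

lemma Pre.single_le {ν : V → ℝ} (h : Pre p K ν) (k : ℕ) (c : ℝ) :
    ν (Finsupp.single k c) ≤ |c| := by
  have : Finsupp.single k c = c • Finsupp.single k (1 : ℝ) := by simp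
  rw [this, h.smul]
  exact mul_le_of_le_one_right (abs_nonneg _) (h.single k)

lemma Pre.le_l1 {ν : V → ℝ} (h : Pre p K ν) (a : V) : ν a ≤ ∑ k ∈ a.support, |a k| := by
  conv_lhs => rw [← Finsupp.sum_single a]
  exact (h.sum_le _ _).trans (sum_le_sum fun k _ => h.single_le _ _)

lemma Pre.comp {ν : V → ℝ} (h : Pre p K ν) (T : V →ₗ[ℝ] V)
    (hT : ∀ k, ν (T (Finsupp.single k 1)) ≤ 1) : Pre p K fun a => ν (T a) where
  nonneg a := h.nonneg _
  add a b := by rw [map_add]; exact h.add _ _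
  smul c a := by rw [map_smul]; exact h.smul _ _
  single := hT
  mt S _ _ w P h1 h2 h3 h4 h5 f t ht := by
    have := h.mt S w P h1 h2 h3 h4 h5 (fun i => T (f i)) t ht
    simpa only [map_sub] using this

lemma Pre.of_tendsto (hp : 0 ≤ p) {α : Type*} (l : Filter α) [l.NeBot] (νs : α → V → ℝ)
    (ν : V → ℝ) (h : ∀ᶠ m in l, Pre p K (νs m))
    (ht : ∀ a, Tendsto (fun m => νs m a) l (𝓝 (ν a))) : Pre p K ν where
  nonneg a := ge_of_tendsto (ht a) (h.mono fun m hm => hm.nonneg a)
  add a b := le_of_tendsto_of_tendsto (ht _) ((ht a).add (ht b)) (h.mono fun m hm => hm.add a b)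
  smul c a := tendsto_nhds_unique_of_eventuallyEq (ht _) ((ht a).const_mul _)
    (h.mono fun m hm => hm.smul c a)
  single k := le_of_tendsto (ht _) (h.mono fun m hm => hm.single k)
  mt S _ _ w P h1 h2 h3 h4 h5 f t ht' := by
    refine le_of_tendsto_of_tendsto (b := l)
      (f := fun m => ∑ i, ∑ j, w i * (P ^ t) i j * νs m (f j - f i) ^ p)
      (g := fun m => K ^ p * t * ∑ i, ∑ j, w i * P i j * νs m (f j - f i) ^ p) ?_ ?_
      (h.mono fun m hm => hm.mt S w P h1 h2 h3 h4 h5 f t ht')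
    · exact tendsto_finset_sum _ fun i _ => tendsto_finset_sum _ fun j _ =>
        ((ht _).rpow_const (Or.inr hp)).const_mul _
    · exact (tendsto_finset_sum _ fun i _ => tendsto_finset_sum _ fun j _ =>
        ((ht _).rpow_const (Or.inr hp)).const_mul _).const_mul _

lemma eq_sum_range (a : V) (L : ℕ) (hL : ∀ j, L ≤ j → a j = 0) :
    a = ∑ j ∈ range L, Finsupp.single j (a j) := by
  ext k
  simp only [Finsupp.finset_sum_apply, Finsupp.single_apply, sum_ite_eq', mem_range]
  split_ifs with h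
  · rfl
  · exact hL k (by omega)

lemma exists_bound (a : V) : ∃ L, ∀ j, L ≤ j → a j = 0 :=
  ⟨a.support.sup id + 1, fun j hj => by
    by_contra h
    have := Finset.le_sup (f := id) (Finsupp.mem_support_iff.2 h)
    simp only [id] at this
    omega⟩

lemma tl_eq_sum (r : ℕ) (a : V) (L : ℕ) (hL : ∀ j, L ≤ j → a j = 0) :
    tl r a = ∑ j ∈ range L, if r ≤ j then a j else 0 := by
  conv_lhs => rw [eq_sum_range a L hL]
  simp [map_sum]

section fromMart
variable {X : Type*} [NormedAddCommGroup X] [NormedSpace ℝ X]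

lemma pre_of_mart (hp : 1 ≤ p) (hX : Crest.AnalysisR.HasMarkovType X p K) {ε : ℝ} {n : ℕ} {x : X}
    (h : Mart ε n x) : ∃ ν : V → ℝ, Pre p K ν ∧ ∀ r < n, ∀ a, ε / 2 * |tl r a| ≤ ν a := by
  obtain ⟨ι, _, μ, z, h0, h1, h2, -, h4⟩ := h
  have hp0 : 0 < p := by linarith
  let T : ι → V →ₗ[ℝ] X := fun i => Finsupp.linearCombination ℝ (z i)
  have hnn : ∀ a, 0 ≤ ∑ i, μ i * ‖T i a‖ ^ p := fun a =>
    sum_nonneg fun i _ => mul_nonneg (h0 i) (by positivity)
  have hpow : ∀ a, ((∑ i, μ i * ‖T i a‖ ^ p) ^ (1 / p)) ^ p = ∑ i, μ i * ‖T i a‖ ^ p := by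
    intro a
    rw [← Real.rpow_mul (hnn a), one_div_mul_cancel hp0.ne', Real.rpow_one]
  have hu : ∀ i (s : ℝ), 0 ≤ s → (μ i ^ (1 / p) * s) ^ p = μ i * s ^ p := by
    intro i s hs
    rw [Real.mul_rpow (Real.rpow_nonneg (h0 i) _) hs, ← Real.rpow_mul (h0 i),
      one_div_mul_cancel hp0.ne', Real.rpow_one]
  refine ⟨fun a => (∑ i, μ i * ‖T i a‖ ^ p) ^ (1 / p), ⟨fun a => Real.rpow_nonneg (hnn a) _,
    fun a b => ?_, fun c a => ?_, fun k => ?_, ?_⟩, fun r hr a => ?_⟩
  · have := Real.Lp_add_le_of_nonneg (s := univ) (f := fun i => μ i ^ (1 / p) * ‖T i a‖)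
      (g := fun i => μ i ^ (1 / p) * ‖T i b‖) hp
      (fun i _ => mul_nonneg (Real.rpow_nonneg (h0 i) _) (norm_nonneg _))
      (fun i _ => mul_nonneg (Real.rpow_nonneg (h0 i) _) (norm_nonneg _))
    simp only [← mul_add, hu _ _ (norm_nonneg _), hu _ _ (add_nonneg (norm_nonneg _)
      (norm_nonneg _))] at this
    refine le_trans ?_ this
    refine Real.rpow_le_rpow (hnn _) (sum_le_sum fun i _ => ?_) (by positivity)
    refine mul_le_mul_of_nonneg_left ?_ (h0 i)
    refine Real.rpow_le_rpow (norm_nonneg _) ?_ hp0.le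
    rw [map_add]; exact norm_add_le _ _
  · have : ∑ i, μ i * ‖T i (c • a)‖ ^ p = |c| ^ p * ∑ i, μ i * ‖T i a‖ ^ p := by
      rw [mul_sum]
      refine sum_congr rfl fun i _ => ?_
      rw [map_smul, norm_smul, Real.mul_rpow (norm_nonneg _) (norm_nonneg _), Real.norm_eq_abs]
      ring
    rw [this, Real.mul_rpow (by positivity) (hnn a), ← Real.rpow_mul (abs_nonneg _),
      mul_one_div_cancel hp0.ne', Real.rpow_one]
  · refine Real.rpow_le_one (hnn _) ?_ (by positivity)
    refine le_trans (sum_le_sum fun i _ => mul_le_of_le_one_right (h0 i) ?_) h1.le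
    refine Real.rpow_le_one (norm_nonneg _) ?_ hp0.le
    simp only [T, Finsupp.linearCombination_single, one_smul]
    exact h2 i k
  · intro S _ _ w P g1 g2 g3 g4 g5 f t ht
    simp only [hpow]
    have key : ∀ i, μ i * ∑ a, ∑ b, w a * (P ^ t) a b * ‖T i (f b) - T i (f a)‖ ^ p ≤
        μ i * (K ^ p * t * ∑ a, ∑ b, w a * P a b * ‖T i (f b) - T i (f a)‖ ^ p) := fun i =>
      mul_le_mul_of_nonneg_left (hX S w P g1 g2 g3 g4 g5 (fun a => T i (f a)) t ht) (h0 i)
    have e : ∀ Q : Matrix S S ℝ, ∑ a, ∑ b, w a * Q a b * ∑ i, μ i * ‖T i (f b - f a)‖ ^ p =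
        ∑ i, μ i * ∑ a, ∑ b, w a * Q a b * ‖T i (f b) - T i (f a)‖ ^ p := by
      intro Q
      simp only [mul_sum, map_sub]
      rw [sum_comm]
      refine Eq.trans (sum_congr rfl fun b _ => sum_comm) ?_
      rw [sum_comm]
      refine sum_congr rfl fun i _ => ?_
      rw [sum_comm]
      exact sum_congr rfl fun a _ => sum_congr rfl fun b _ => by ring
    rw [e, e, mul_sum]
    exact sum_le_sum fun i _ => (key i).trans (le_of_eq (by ring))
  · obtain ⟨L, hL⟩ := exists_bound a
    have e1 := h4 r hr L a 0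
    rw [tl_eq_sum r a L hL]
    refine e1.trans (le_trans (le_of_eq ?_) (Real.arith_mean_le_rpow_mean univ μ
      (fun i => ‖T i a‖) (fun i _ => h0 i) h1 (fun i _ => norm_nonneg _) hp))
    refine sum_congr rfl fun i _ => ?_
    conv_rhs => rw [eq_sum_range a L hL]
    simp [T, map_sum]

end fromMart

/-- limit along the hyperfilter -/
noncomputable def ulim (f : ℕ → ℝ) : ℝ := limUnder (hyperfilter ℕ : Filter ℕ) f

lemma tendsto_ulim {f : ℕ → ℝ} {a b : ℝ} (h : ∀ k, f k ∈ Set.Icc a b) :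
    Tendsto f (hyperfilter ℕ : Filter ℕ) (𝓝 (ulim f)) := by
  refine tendsto_nhds_limUnder ?_
  obtain ⟨x, -, hx⟩ := isCompact_Icc.ultrafilter_le_nhds ((hyperfilter ℕ).map f)
    (by
      rw [Ultrafilter.coe_map, le_principal_iff, Filter.mem_map]
      exact Filter.univ_mem' h)
  exact ⟨x, hx⟩

lemma ulim_const (c : ℝ) : ulim (fun _ => c) = c :=
  tendsto_nhds_unique (tendsto_ulim (a := c) (b := c) fun _ => ⟨le_rfl, le_rfl⟩) tendsto_const_nhds

lemma ev_ge (n : ℕ) : ∀ᶠ k in (hyperfilter ℕ : Filter ℕ), n ≤ k :=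
  (eventually_ge_atTop n).filter_mono Nat.hyperfilter_le_atTop

lemma exists_pre_J (hp : 0 ≤ p) {κ : ℝ}
    (h : ∀ n : ℕ, ∃ ν : V → ℝ, Pre p K ν ∧ ∀ r < n, ∀ a, κ * |tl r a| ≤ ν a) :
    ∃ ν : V → ℝ, Pre p K ν ∧ ∀ r a, κ * |tl r a| ≤ ν a := by
  choose νs h1 h2 using h
  have ht : ∀ a, Tendsto (fun m => νs m a) (hyperfilter ℕ : Filter ℕ) (𝓝 (ulim fun m => νs m a)) :=
    fun a => tendsto_ulim fun m => ⟨(h1 m).nonneg a, (h1 m).le_l1 a⟩
  refine ⟨fun a => ulim fun m => νs m a, Pre.of_tendsto hp _ νs _ (Eventually.of_forall h1) ht,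
    fun r a => ge_of_tendsto (ht a) ((ev_ge (r + 1)).mono fun m hm => h2 m r (by omega) a)⟩

/-- iterated limits -/
noncomputable def Psi (ν : V → ℝ) : ℕ → (ℕ → ℝ) → V → ℝ
  | 0, _, v => ν v
  | L + 1, a, v => ulim fun k => Psi ν L (fun j => a (j + 1)) (v + Finsupp.single k (a 0))

lemma Psi_bound {ν : V → ℝ} (h : Pre p K ν) (L : ℕ) : ∀ (a : ℕ → ℝ) (v : V),
    Psi ν L a v ∈ Set.Icc 0 (ν v + ∑ j ∈ range L, |a j|) := by
  induction L with
  | zero => intro a v; simp [Psi, h.nonneg]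
  | succ L ih =>
    intro a v
    have hb : ∀ k, Psi ν L (fun j => a (j + 1)) (v + Finsupp.single k (a 0)) ∈
        Set.Icc 0 (ν v + ∑ j ∈ range (L + 1), |a j|) := by
      intro k
      refine ⟨(ih _ _).1, (ih _ _).2.trans ?_⟩
      rw [sum_range_succ']
      have h1 := h.add v (Finsupp.single k (a 0))
      have h2 := h.single_le k (a 0)
      linarith
    exact isClosed_Icc.mem_of_tendsto (tendsto_ulim hb) (Eventually.of_forall hb)

lemma Psi_tendsto {ν : V → ℝ} (h : Pre p K ν) (L : ℕ) (a : ℕ → ℝ) (v : V) :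
    Tendsto (fun k => Psi ν L (fun j => a (j + 1)) (v + Finsupp.single k (a 0)))
      (hyperfilter ℕ : Filter ℕ) (𝓝 (Psi ν (L + 1) a v)) := by
  refine tendsto_ulim (a := 0) (b := ν v + |a 0| + ∑ j ∈ range L, |a (j + 1)|) fun k => ?_
  refine ⟨(Psi_bound h L _ _).1, (Psi_bound h L _ _).2.trans ?_⟩
  have h1 := h.add v (Finsupp.single k (a 0))
  have h2 := h.single_le k (a 0)
  linarith

lemma Psi_principle {ν : V → ℝ} (h : Pre p K ν) {I : Type*} (Q : (I → ℝ) → Prop)
    (hQ : ∀ (F : ℕ → I → ℝ) (G : I → ℝ), (∀ᶠ k in (hyperfilter ℕ : Filter ℕ), Q (F k)) →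
      (∀ i, Tendsto (fun k => F k i) (hyperfilter ℕ : Filter ℕ) (𝓝 (G i))) → Q G) (L : ℕ) :
    ∀ (v : I → V) (a : I → ℕ → ℝ) (n : ℕ), (∀ k : ℕ → ℕ, StrictMono k → n ≤ k 0 →
      Q fun i => ν (v i + ∑ j ∈ range L, Finsupp.single (k j) (a i j))) →
      Q fun i => Psi ν L (a i) (v i) := by
  induction L with
  | zero =>
    intro v a n H
    simpa [Psi] using H (fun j => n + j) (fun _ _ h => by simpa using h) (by simp)
  | succ L ih =>
    intro v a n H
    refine hQ (fun k i => Psi ν L (fun j => a i (j + 1)) (v i + Finsupp.single k (a i 0))) _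
      ((ev_ge n).mono fun k0 hk0 => ?_) fun i => Psi_tendsto h L _ _
    refine ih _ _ (k0 + 1) fun k hk hk1 => ?_
    have hm : StrictMono fun j => (Nat.casesOn j k0 k : ℕ) := by
      refine strictMono_nat_of_lt_succ fun j => ?_
      cases j with
      | zero => exact hk1
      | succ j => exact hk (Nat.lt_succ_self j)
    have := H _ hm hk0
    convert this using 3 with i
    rw [sum_range_succ', add_assoc, add_comm (Finsupp.single k0 _)]
    rfl

lemma Psi_zero (ν : V → ℝ) (L : ℕ) : ∀ (a : ℕ → ℝ) (v : V), (∀ j, a j = 0) → Psi ν L a v = ν v := by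
  induction L with
  | zero => intro a v _; rfl
  | succ L ih =>
    intro a v ha
    simp only [Psi, ha 0, Finsupp.single_zero, add_zero]
    rw [ulim_const, ih _ _ fun j => ha _]

lemma Psi_spread (ν : V → ℝ) (L' : ℕ) : ∀ (L : ℕ) (a a' : ℕ → ℝ) (σ : ℕ → ℕ) (v : V),
    StrictMono σ → (∀ n, a' (σ n) = a n) → (∀ j, j ∉ Set.range σ → a' j = 0) →
    (∀ j, L' ≤ j → a' j = 0) → (∀ n, L ≤ n → a n = 0) → Psi ν L' a' v = Psi ν L a v := by
  induction L' with
  | zero =>
    intro L a a' σ v _ h1 _ h3 _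
    rw [Psi_zero ν L a v fun j => by rw [← h1, h3 _ (Nat.zero_le _)]]
    rfl
  | succ L' ih =>
    intro L a a' σ v hσ h1 h2 h3 h4
    by_cases h0 : σ 0 = 0
    · cases L with
      | zero =>
        rw [Psi_zero ν _ a' v, Psi_zero ν _ a v fun j => h4 j (Nat.zero_le _)]
        intro j
        by_cases hj : j ∈ Set.range σ
        · obtain ⟨n, rfl⟩ := hj
          rw [h1, h4 n (Nat.zero_le _)]
        · exact h2 j hj
      | succ L =>
        have hpos : ∀ n, 1 ≤ σ (n + 1) := fun n => by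
          have : σ 0 < σ (n + 1) := hσ (Nat.succ_pos n)
          omega
        have e0 : a' 0 = a 0 := by rw [← h1 0, h0]
        simp only [Psi, e0]
        congr 1; ext k
        refine ih L _ _ (fun n => σ (n + 1) - 1) _ ?_ ?_ ?_ ?_ ?_
        · intro m n hmn
          have := hσ (Nat.succ_lt_succ hmn)
          have := hpos m
          simp only [Nat.succ_eq_add_one] at *
          omega
        · intro n
          show a' (σ (n + 1) - 1 + 1) = a (n + 1)
          rw [Nat.sub_add_cancel (hpos n), h1]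
        · intro j hj
          refine h2 _ ?_
          rintro ⟨n, hn⟩
          cases n with
          | zero => omega
          | succ n => exact hj ⟨n, by simp only; omega⟩
        · intro j hj; exact h3 _ (by omega)
        · intro n hn; exact h4 _ (by omega)
    · have hpos : ∀ n, 1 ≤ σ n := fun n => by
        have := hσ.monotone (Nat.zero_le n); omega
      have e0 : a' 0 = 0 := h2 0 (by rintro ⟨n, hn⟩; have := hpos n; omega)
      simp only [Psi, e0, Finsupp.single_zero, add_zero]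
      rw [ulim_const]
      refine ih L _ _ (fun n => σ n - 1) _ ?_ ?_ ?_ ?_ h4
      · intro m n hmn
        have := hσ hmn
        have := hpos m
        simp only
        omega
      · intro n
        show a' (σ n - 1 + 1) = a n
        rw [Nat.sub_add_cancel (hpos n), h1]
      · intro j hj
        refine h2 _ ?_
        rintro ⟨n, hn⟩
        exact hj ⟨n, by simp only; omega⟩
      · intro j hj; exact h3 _ (by omega)

/-- admissible: Markov type, summing lower bound, spreading invariant -/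
structure Adm (p K κ : ℝ) (ν : V → ℝ) : Prop extends Pre p K ν where
  low : ∀ r a, κ * |tl r a| ≤ ν a
  spread : ∀ (σ : ℕ → ℕ), StrictMono σ → ∀ a, ν (Finsupp.mapDomain σ a) = ν a

lemma exists_adm (hp : 0 ≤ p) {κ : ℝ} {ν : V → ℝ} (h : Pre p K ν)
    (hJ : ∀ r a, κ * |tl r a| ≤ ν a) : ∃ ν' : V → ℝ, Adm p K κ ν' := by
  have key : ∀ L, Pre p K (fun a => Psi ν L a 0) ∧
      ∀ r (a : V), (∀ j, L ≤ j → a j = 0) → κ * |tl r a| ≤ Psi ν L a 0 := by
    intro L
    refine Psi_principle h (I := V) (fun ν' => Pre p K ν' ∧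
      ∀ r (a : V), (∀ j, L ≤ j → a j = 0) → κ * |tl r a| ≤ ν' a) ?_ L (fun _ => 0)
      (fun a => a) 0 ?_
    · intro F G hF hG
      exact ⟨Pre.of_tendsto hp _ F G (hF.mono fun k hk => hk.1) hG,
        fun r a ha => ge_of_tendsto (hG a) (hF.mono fun k hk => hk.2 r a ha)⟩
    · intro k hk _
      let T : V →ₗ[ℝ] V := ∑ j ∈ range L, (Finsupp.lsingle (k j)).comp (Finsupp.lapply j)
      have hT : ∀ a : V, T a = ∑ j ∈ range L, Finsupp.single (k j) (a j) := fun a => by
        simp [T, LinearMap.sum_apply]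
      simp only [zero_add, ← hT]
      refine ⟨h.comp T fun m => ?_, fun r a ha => ?_⟩
      · rw [hT]
        refine (h.sum_le _ _).trans ((sum_le_sum fun j _ => h.single_le _ _).trans ?_)
        have : ∀ j, |(Finsupp.single m (1 : ℝ) : V) j| = if m = j then 1 else 0 := fun j => by
          rw [Finsupp.single_apply]; split_ifs <;> simp
        simp only [this, sum_ite_eq]
        split_ifs <;> simp
      · have := hJ (k r) (T a)
        rw [hT, map_sum] at this
        rw [tl_eq_sum r a L ha, hT]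
        simpa only [tl_single, hk.le_iff_le] using this
  choose B hB using exists_bound
  have hst : ∀ (a : V) L, (∀ j, L ≤ j → a j = 0) → Psi ν L a 0 = Psi ν (B a) a 0 := fun a L hL =>
    Psi_spread ν L (B a) a a id 0 strictMono_id (fun _ => rfl) (fun j hj => absurd ⟨j, rfl⟩ hj)
      hL (hB a)
  refine ⟨fun a => Psi ν (B a) a 0, Pre.of_tendsto hp atTop (fun L a => Psi ν L a 0) _
    (Eventually.of_forall fun L => (key L).1) fun a => ?_, fun r a => (key _).2 r a (hB a),
    fun σ hσ a => ?_⟩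
  · refine tendsto_const_nhds.congr' ((eventually_ge_atTop (B a)).mono fun L hL => ?_)
    exact (hst a L fun j hj => hB a j (hL.trans hj)).symm
  · exact Psi_spread ν _ _ a _ σ 0 hσ (fun n => Finsupp.mapDomain_apply hσ.injective a n)
      (fun j hj => Finsupp.mapDomain_notin_range a j hj) (hB _) (hB a)

/-- block averages -/
noncomputable def Av (N s : ℕ) : V := (1 / (N : ℝ)) • ∑ j ∈ range N, Finsupp.single (s + j) 1

noncomputable def Bl (N : ℕ) : V →ₗ[ℝ] V := Finsupp.linearCombination ℝ fun k => Av N (k * N)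

@[simp] lemma Bl_single (N k : ℕ) (c : ℝ) : Bl N (Finsupp.single k c) = c • Av N (k * N) := by
  simp [Bl]

lemma Adm.block {κ : ℝ} {ν : V → ℝ} (h : Adm p K κ ν) {N : ℕ} (hN : 0 < N) :
    Adm p K κ fun a => ν (Bl N a) := by
  have hN' : (0 : ℝ) < N := by exact_mod_cast hN
  refine ⟨h.toPre.comp _ fun k => ?_, fun r a => ?_, fun σ hσ a => ?_⟩
  · rw [Bl_single, one_smul, Av, h.smul, abs_of_pos (by positivity)]
    have : ν (∑ j ∈ range N, Finsupp.single (k * N + j) 1) ≤ N :=
      (h.toPre.sum_le _ _).trans ((sum_le_sum fun j _ => h.single _).trans (by simp))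
    rw [one_div, inv_mul_le_iff₀ hN']
    simpa using this
  · have : tl r = (tl (r * N)).comp (Bl N) := by
      refine Finsupp.lhom_ext fun k c => ?_
      simp only [LinearMap.comp_apply, Bl_single, Av, map_smul, map_sum, tl_single]
      have e : ∀ j ∈ range N, (if r * N ≤ k * N + j then (1 : ℝ) else 0) =
          if r ≤ k then 1 else 0 := by
        intro j hj
        have hj := mem_range.1 hj
        refine if_congr ⟨fun h1 => ?_, fun h1 => ?_⟩ rfl rfl
        · by_contra h2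
          have : (k + 1) * N ≤ r * N := Nat.mul_le_mul_right _ (by omega)
          nlinarith
        · have : r * N ≤ k * N := Nat.mul_le_mul_right _ h1
          omega
      rw [sum_congr rfl e]
      split_ifs
      · simp [hN'.ne']
      · simp
    rw [this]
    exact h.low _ _
  · let τ : ℕ → ℕ := fun x => σ (x / N) * N + x % N
    have hτ : StrictMono τ := by
      intro x y hxy
      simp only [τ]
      have h1 := Nat.div_add_mod x N
      have h2 := Nat.div_add_mod y N
      have h3 := Nat.mod_lt x hN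
      rcases (Nat.div_le_div_right (c := N) hxy.le).eq_or_lt with h4 | h4
      · rw [h4] at h1 ⊢; omega
      · have : (σ (x / N) + 1) * N ≤ σ (y / N) * N := Nat.mul_le_mul_right _ (hσ h4)
        rw [add_mul, one_mul] at this
        omega
    have : (Bl N).comp (Finsupp.lmapDomain ℝ ℝ σ) = (Finsupp.lmapDomain ℝ ℝ τ).comp (Bl N) := by
      refine Finsupp.lhom_ext fun k c => ?_
      simp only [LinearMap.comp_apply, Finsupp.lmapDomain_apply, Finsupp.mapDomain_single,
        Bl_single]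
      rw [← Finsupp.lmapDomain_apply ℝ ℝ]
      simp only [Av, map_smul, map_sum, Finsupp.lmapDomain_apply, Finsupp.mapDomain_single]
      congr 2
      refine sum_congr rfl fun j hj => ?_
      have hj := mem_range.1 hj
      simp only [τ]
      rw [show (k * N + j) / N = k by
        rw [add_comm, Nat.add_mul_div_right _ _ hN, Nat.div_eq_of_lt hj, zero_add],
        show (k * N + j) % N = j by rw [add_comm, Nat.add_mul_mod_self_right, Nat.mod_eq_of_lt hj]]
    have e := LinearMap.congr_fun this a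
    simp only [LinearMap.comp_apply, Finsupp.lmapDomain_apply] at e
    simp only [e]
    exact h.spread τ hτ _

lemma Av_shift {ν : V → ℝ} (h : Pre p K ν) {N : ℕ} (hN : 0 < N) (s k : ℕ) :
    ν (Av N s - Av N (s + k)) ≤ 2 * k / N := by
  have hN' : (0 : ℝ) < N := by exact_mod_cast hN
  induction k with
  | zero => simp [h.zero]
  | succ k ih =>
    have e : Av N (s + k) - Av N (s + (k + 1)) =
        (1 / (N : ℝ)) • (Finsupp.single (s + k) 1 - Finsupp.single (s + k + N) 1) := by
      simp only [Av, ← smul_sub]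
      congr 1
      have h1 := sum_range_succ (fun j => (Finsupp.single (s + k + j) (1 : ℝ) : V)) N
      have h2 := sum_range_succ' (fun j => (Finsupp.single (s + k + j) (1 : ℝ) : V)) N
      have h3 : ∑ j ∈ range N, (Finsupp.single (s + (k + 1) + j) (1 : ℝ) : V) =
          ∑ j ∈ range N, Finsupp.single (s + k + (j + 1)) 1 :=
        sum_congr rfl fun j _ => by congr 1; omega
      rw [h3, sub_eq_sub_iff_add_eq_add, ← h1, h2, add_zero, add_comm]
    have e2 : ν (Av N (s + k) - Av N (s + (k + 1))) ≤ 2 / N := by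
      rw [e, h.smul, abs_of_pos (by positivity)]
      have h1 := h.sub (Finsupp.single (s + k) 1) (Finsupp.single (s + k + N) 1)
      have h2 := h.single (s + k)
      have h3 := h.single (s + k + N)
      rw [one_div, inv_mul_le_iff₀ hN', mul_div_cancel₀ _ hN'.ne']
      linarith
    have e3 := h.add (Av N s - Av N (s + k)) (Av N (s + k) - Av N (s + (k + 1)))
    rw [sub_add_sub_cancel] at e3
    push_cast
    have : 2 * ((k : ℝ) + 1) / N = 2 * k / N + 2 / N := by ring
    linarith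

lemma Adm.merge {κ : ℝ} {ν : V → ℝ} (h : Adm p K κ ν) {N : ℕ} (hN : 0 < N) (ι : ℕ → ℕ)
    (hι : Monotone ι) (a : V) :
    ν (Bl N (Finsupp.mapDomain ι a)) ≤ ν a + (∑ k ∈ a.support, |a k| * (2 * k)) / N := by
  have hN' : (0 : ℝ) < N := by exact_mod_cast hN
  let σ : ℕ → ℕ → ℕ := fun j k => ι k * N + k + j
  have hσ : ∀ j, StrictMono (σ j) := fun j x y hxy => by
    have := Nat.mul_le_mul_right N (hι hxy.le)
    simp only [σ]; omega
  let T : V →ₗ[ℝ] V := (1 / (N : ℝ)) • ∑ j ∈ range N, Finsupp.lmapDomain ℝ ℝ (σ j)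
  have h1 : ν (T a) ≤ ν a := by
    simp only [T, LinearMap.smul_apply, LinearMap.sum_apply, Finsupp.lmapDomain_apply]
    rw [h.smul, abs_of_pos (by positivity), one_div, inv_mul_le_iff₀ hN']
    refine (h.toPre.sum_le _ _).trans (le_of_eq ?_)
    rw [sum_congr rfl fun j _ => h.spread _ (hσ j) a]
    simp
  let U : V →ₗ[ℝ] V := (Bl N).comp (Finsupp.lmapDomain ℝ ℝ ι) - T
  have hU : ∀ k (c : ℝ), U (Finsupp.single k c) = c • (Av N (ι k * N) - Av N (ι k * N + k)) := by
    intro k c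
    simp only [U, T, LinearMap.sub_apply, LinearMap.comp_apply, Finsupp.lmapDomain_apply,
      Finsupp.mapDomain_single, Bl_single, LinearMap.smul_apply, LinearMap.sum_apply, smul_sub]
    congr 1
    rw [Av, smul_comm, smul_sum (r := c)]
    simp [σ]
  have h2 : ν (U a) ≤ (∑ k ∈ a.support, |a k| * (2 * k)) / N := by
    conv_lhs => rw [← Finsupp.sum_single a]
    rw [Finsupp.sum, map_sum, sum_div]
    refine (h.toPre.sum_le _ _).trans (sum_le_sum fun k _ => ?_)
    rw [hU, h.smul, mul_div_assoc]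
    exact mul_le_mul_of_nonneg_left (Av_shift h.toPre hN _ _) (abs_nonneg _)
  have e : Bl N (Finsupp.mapDomain ι a) = T a + U a := by
    simp [U]
  rw [e]
  exact (h.add _ _).trans (add_le_add h1 h2)

lemma exists_select {κ : ℝ} (hκ : 0 < κ) {ν : V → ℝ} (h : Adm p K κ ν) (D : V) (r : ℕ)
    (hD : |tl r D| = 1) : ∃ ν' : V → ℝ, Adm p K κ ν' ∧ ∀ (a : V) (ι : ℕ → ℕ) (s : ℝ),
      Monotone ι → Finsupp.mapDomain ι a = s • D → |s| * ν' D ≤ 2 * ν' a := by
  let A : Set ℝ := {x | ∃ ν', Adm p K κ ν' ∧ x = ν' D}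
  have hA : ∀ x ∈ A, κ ≤ x := by
    rintro x ⟨ν', h', rfl⟩
    simpa [hD] using h'.low r D
  have hne : A.Nonempty := ⟨_, ν, h, rfl⟩
  have hinf : κ ≤ sInf A := le_csInf hne hA
  obtain ⟨x, ⟨ν', h', rfl⟩, hx⟩ := exists_lt_of_csInf_lt hne (show sInf A < 2 * sInf A by linarith)
  refine ⟨ν', h', fun a ι s hι ha => ?_⟩
  have key : ∀ N : ℕ, 0 < N →
      |s| * ν' D ≤ 2 * ν' a + 2 * (∑ k ∈ a.support, |a k| * (2 * k)) / N := by
    intro N hN
    have h1 := h'.merge hN ι hι a
    rw [ha, map_smul, h'.smul] at h1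
    have h2 : sInf A ≤ ν' (Bl N D) := csInf_le ⟨κ, hA⟩ ⟨_, h'.block hN, rfl⟩
    have h3 : |s| * ν' D ≤ |s| * (2 * ν' (Bl N D)) :=
      mul_le_mul_of_nonneg_left (by linarith) (abs_nonneg _)
    rw [mul_div_assoc]
    linarith
  have ht : Tendsto (fun N : ℕ => 2 * ν' a + 2 * (∑ k ∈ a.support, |a k| * (2 * k)) / (N : ℝ))
      atTop (𝓝 (2 * ν' a + 0)) :=
    tendsto_const_nhds.add (tendsto_const_div_atTop_nhds_zero_nat _)
  rw [add_zero] at ht
  exact ge_of_tendsto ht ((eventually_gt_atTop 0).mono key)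

end Crest.Agent.H6.MT
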