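import Crest.Agent.H6.MTB

set_option autoImplicit false

/-! The tower construction: finite systems of involutions with interlacing cut points, and the
alternating peaks of the label sums along good words. -/

namespace Crest.Agent.H6.MT

open Finset

/-- the slot order at a vertex of parity `b` -/
def klt (b : Bool) (i n j m : ℕ) : Prop :=
  (n + b.toNat) / 2 < (m + b.toNat) / 2 ∨
    ((n + b.toNat) / 2 = (m + b.toNat) / 2 ∧ (i < j ∨ (i = j ∧ n < m)))

def Tower (d R : ℕ) (ε : ℝ) : Prop :=
  ∃ (S : Type) (_ : Fintype S) (_ : DecidableEq S) (_ : Nonempty S) (T : Fin d → S → S)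
    (par : S → Bool) (c : S → Fin d → ℕ → ℕ) (Bad : Finset S),
    (∀ i a, T i (T i a) = a) ∧ (∀ i a, par (T i a) = !par a) ∧ (∀ i a, c (T i a) i = c a i) ∧
    (∀ a i, StrictMono (c a i)) ∧ ((Bad.card : ℝ) ≤ ε * Fintype.card S) ∧
    ∀ a, a ∉ Bad → ∀ (i j : Fin d) (n m : ℕ), n ≤ R → m ≤ R → klt (par a) i n j m →
      c a i n < c a j m

lemma pow_gap {B x y : ℕ} (hB : 3 ≤ B) (h : x < y) : 3 * B ^ (x + 1) ≤ B ^ (y + 1) := by
  calc 3 * B ^ (x + 1) ≤ B * B ^ (x + 1) := Nat.mul_le_mul_right _ hB
    _ = B ^ (x + 2) := by ring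
    _ ≤ B ^ (y + 1) := Nat.pow_le_pow_right (by omega) (by omega)

lemma le_pow_succ {B x : ℕ} (hB : 3 ≤ B) : B ≤ B ^ (x + 1) := by
  calc B = B ^ 1 := by ring
    _ ≤ B ^ (x + 1) := Nat.pow_le_pow_right (by omega) (by omega)

def ext0 (f : ℕ → ℕ) : ℕ → ℕ
  | 0 => 0
  | n + 1 => f n

lemma ext0_zero (f : ℕ → ℕ) : ext0 f 0 = 0 := rfl
lemma ext0_succ (f : ℕ → ℕ) (n : ℕ) : ext0 f (n + 1) = f n := rfl

theorem tower (d R : ℕ) : ∀ ε : ℝ, 0 < ε → Tower d R ε := by
  induction R with
  | zero =>
    intro ε hε
    refine ⟨Bool, inferInstance, inferInstance, inferInstance, fun _ a => !a, id,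
      fun _ i n => i + n, ∅, by simp, by simp, by simp, fun _ _ _ _ h => by simpa using h,
      by simp only [card_empty, Nat.cast_zero]; positivity, ?_⟩
    intro a _ i j n m hn hm h
    simp only [klt] at h
    simp only
    omega
  | succ R ih =>
    intro ε hε
    obtain ⟨S, _, _, _, T, par, c, Bad, h1, h2, h3, h4, h5, h6⟩ := ih (ε / 2) (by positivity)
    set B := d + 3 with hB
    have hB3 : 3 ≤ B := by omega
    let E : S → Fin d → ℕ → ℕ := fun a i n => B ^ (c a i n + 1)
    have hE : ∀ a i n, B ≤ E a i n := fun a i n => le_pow_succ hB3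
    have hEmono : ∀ a i n, E a i 0 ≤ E a i n := fun a i n =>
      Nat.pow_le_pow_right (by omega) (Nat.succ_le_succ ((h4 a i).monotone (Nat.zero_le n)))
    let Emax : ℕ := (univ : Finset (S × Fin d)).sup fun x => E x.1 x.2 0
    have hEmax : ∀ a i, E a i 0 ≤ Emax := fun a i =>
      Finset.le_sup (f := fun x : S × Fin d => E x.1 x.2 0) (mem_univ (a, i))
    obtain ⟨M, hM⟩ := exists_nat_gt (2 * Emax / ε)
    have hM0 : 0 < M := by
      have : (0 : ℝ) < M := lt_of_le_of_lt (by positivity) hM
      exact_mod_cast this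
    haveI : NeZero M := ⟨hM0.ne'⟩
    let δ : S → Fin d → ZMod M := fun a i => ((E a i 0 - i : ℕ) : ZMod M)
    have hδ : ∀ i a, δ (T i a) i = δ a i := fun i a => by simp only [δ, E, h3]
    let γ : S × ZMod M → Fin d → ℕ := fun x i =>
      (if par x.1 then x.2 + δ x.1 i else x.2).val + i
    refine ⟨S × ZMod M, inferInstance, inferInstance, inferInstance,
      fun i x => (T i x.1, if par x.1 then x.2 + δ x.1 i else x.2 - δ x.1 i),
      fun x => !par x.1, fun x i n => γ x i + ext0 (E x.1 i) n,
      univ.filter fun x => x.1 ∈ Bad ∨ M ≤ x.2.val + Emax, ?_, ?_, ?_, ?_, ?_, ?_⟩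
    · rintro i ⟨a, β⟩
      simp only [h1, h2, hδ]
      cases par a <;> simp
    · rintro i ⟨a, β⟩
      simp only [h2]
    · rintro i ⟨a, β⟩
      ext n
      simp only [γ, h2, hδ, E, h3]
      cases par a <;> simp
    · rintro ⟨a, β⟩ i
      refine strictMono_nat_of_lt_succ fun n => ?_
      cases n with
      | zero => have := hE a i 0; simp only [ext0_zero, ext0_succ]; omega
      | succ n =>
        have : 3 * E a i n ≤ E a i (n + 1) := pow_gap hB3 (h4 a i (Nat.lt_succ_self n))
        have := hE a i n
        simp only [ext0_succ]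
        omega
    · have hsub : (univ.filter fun x : S × ZMod M => x.1 ∈ Bad ∨ M ≤ x.2.val + Emax) ⊆
          Bad ×ˢ univ ∪ univ ×ˢ (univ.filter fun β : ZMod M => M ≤ β.val + Emax) := by
        intro x hx
        simpa using hx
      have hc : (univ.filter fun β : ZMod M => M ≤ β.val + Emax).card ≤ Emax := by
        have : (univ.filter fun β : ZMod M => M ≤ β.val + Emax).card ≤ (range Emax).card := by
          refine card_le_card_of_injOn (fun β => M - 1 - β.val) ?_ ?_
          · intro β hβ
            have h7 := ZMod.val_lt β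
            simp only [coe_filter, mem_univ, true_and, Set.mem_setOf_eq] at hβ
            simp only [coe_range, Set.mem_Iio]
            omega
          · intro β _ β' _ h
            have h7 := ZMod.val_lt β
            have h8 := ZMod.val_lt β'
            simp only at h
            exact ZMod.val_injective M (by omega)
        simpa using this
      have h7 : (univ.filter fun x : S × ZMod M => x.1 ∈ Bad ∨ M ≤ x.2.val + Emax).card ≤
          Bad.card * M + Fintype.card S * Emax := by
        refine (card_le_card hsub).trans ((card_union_le _ _).trans ?_)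
        rw [card_product, card_product, card_univ, card_univ, ZMod.card]
        gcongr
      have h8 : (Emax : ℝ) ≤ ε / 2 * M := by
        rw [div_lt_iff₀ hε] at hM
        linarith
      calc ((univ.filter fun x : S × ZMod M => x.1 ∈ Bad ∨ M ≤ x.2.val + Emax).card : ℝ)
          ≤ Bad.card * M + Fintype.card S * Emax := by exact_mod_cast h7
        _ ≤ ε / 2 * Fintype.card S * M + Fintype.card S * (ε / 2 * M) := by gcongr
        _ = ε * Fintype.card (S × ZMod M) := by
          rw [Fintype.card_prod, ZMod.card]; push_cast; ring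
    · rintro ⟨a, β⟩ hx i j n m hn hm hk
      simp only [mem_filter, mem_univ, true_and, not_or, not_le] at hx
      obtain ⟨ha, hβ⟩ := hx
      have g := h6 a ha
      have hi := i.2
      have hj := j.2
      have gE : ∀ (i j : Fin d) (n m : ℕ), n ≤ R → m ≤ R → klt (par a) i n j m →
          3 * E a i n ≤ E a j m := fun i j n m hn hm hk => pow_gap hB3 (g i j n m hn hm hk)
      cases hpa : par a with
      | false =>
        simp only [hpa, klt, Bool.not_false, Bool.toNat_true, Bool.toNat_false] at hk gE
        simp only [γ, hpa, Bool.false_eq_true, if_false]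
        cases n with
        | zero =>
          cases m with
          | zero => simp only [ext0_zero, ext0_succ]; omega
          | succ m => have := hE a j m; simp only [ext0_zero, ext0_succ]; omega
        | succ n =>
          cases m with
          | zero => omega
          | succ m =>
            have := gE i j n m (by omega) (by omega) (by omega)
            have := hE a i n
            simp only [ext0_zero, ext0_succ]; omega
      | true =>
        have hγ : ∀ i : Fin d, γ (a, β) i = β.val + E a i 0 := by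
          intro i
          have hi := i.2
          have e1 := hE a i 0
          have e2 := hEmax a i
          have e3 : (δ a i).val = E a i 0 - i := ZMod.val_natCast_of_lt (by omega)
          simp only [γ, hpa, if_true]
          rw [ZMod.val_add_of_lt (by omega), e3]
          omega
        simp only [hpa, klt, Bool.not_true, Bool.toNat_true, Bool.toNat_false] at hk gE
        simp only [hγ]
        have e1 := hE a i 0
        have e2 := hE a j 0
        cases n with
        | zero =>
          cases m with
          | zero =>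
            have := gE i j 0 0 (by omega) (by omega) (by omega)
            simp only [ext0_zero, ext0_succ]; omega
          | succ m =>
            have e3 := hE a j m
            by_cases hij : i = j
            · subst hij; simp only [ext0_zero, ext0_succ]; omega
            · have hij' : (i : ℕ) ≠ j := fun h => hij (Fin.ext h)
              have := gE i j 0 m (by omega) (by omega) (by omega)
              simp only [ext0_zero, ext0_succ]; omega
        | succ n =>
          cases m with
          | zero =>
            obtain rfl : n = 0 := by omega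
            have := gE i j 0 0 (by omega) (by omega) (by omega)
            simp only [ext0_zero, ext0_succ]; omega
          | succ m =>
            have := gE i j n m (by omega) (by omega) (by omega)
            have := hEmono a i n
            have := hE a i n
            simp only [ext0_zero, ext0_succ]; omega

/-- alternating jump vector -/
noncomputable def DD (c : ℕ → ℕ) (q : ℕ) : V :=
  ∑ r ∈ range q, (-1 : ℝ) ^ r • (Finsupp.single (c r) 1 - Finsupp.single (c (r + 1)) 1)

lemma mapDomain_DD (σ c : ℕ → ℕ) (q : ℕ) : Finsupp.mapDomain σ (DD c q) = DD (σ ∘ c) q := by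
  rw [← Finsupp.lmapDomain_apply ℝ ℝ]
  simp only [DD, map_sum, map_smul, map_sub, Finsupp.lmapDomain_apply, Finsupp.mapDomain_single,
    Function.comp]

lemma Adm.DD_eq {p K κ : ℝ} {ν : V → ℝ} (h : Adm p K κ ν) {c : ℕ → ℕ} (hc : StrictMono c)
    (q : ℕ) : ν (DD c q) = ν (DD id q) := by
  rw [← h.spread c hc (DD id q), mapDomain_DD]; rfl

lemma DD_add (c : ℕ → ℕ) (n m : ℕ) :
    DD c (n + m) = DD c n + (-1 : ℝ) ^ n • DD (fun r => c (n + r)) m := by
  simp only [DD, sum_range_add, smul_sum, smul_smul, pow_add, add_assoc]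

lemma Adm.DD_three {p K κ : ℝ} {ν : V → ℝ} (h : Adm p K κ ν) {c : ℕ → ℕ} (hc : StrictMono c)
    (q : ℕ) : ν (DD c (q + q + q)) ≤ 3 * ν (DD id q) := by
  have key : ∀ n m, ν (DD c (n + m)) ≤ ν (DD c n) + ν (DD id m) := by
    intro n m
    rw [DD_add]
    refine (h.add _ _).trans (le_of_eq ?_)
    rw [h.smul, h.DD_eq (c := fun r => c (n + r)) fun x y hxy => hc (by omega)]
    simp
  have h1 := key (q + q) q
  have h2 := key q q
  rw [h.DD_eq hc q] at h2
  linarith

lemma tl_DD {c : ℕ → ℕ} (hc : StrictMono c) {q n θ : ℕ} (hn : n < q) (h1 : c n < θ)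
    (h2 : θ ≤ c (n + 1)) : tl θ (DD c q) = -(-1) ^ n := by
  simp only [DD, map_sum, map_smul, map_sub, tl_single, smul_eq_mul]
  rw [sum_eq_single n]
  · rw [if_neg (by omega), if_pos h2]; ring
  · intro r _ hr
    rcases lt_or_gt_of_ne hr with h | h
    · have := hc.monotone (show r + 1 ≤ n by omega)
      have : c r < c (r + 1) := hc (Nat.lt_succ_self r)
      rw [if_neg (by omega), if_neg (by omega)]; ring
    · have := hc.monotone (show n + 1 ≤ r by omega)
      have : c r < c (r + 1) := hc (Nat.lt_succ_self r)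
      rw [if_pos (by omega), if_pos (by omega)]; ring
  · intro h; exact absurd (mem_range.2 hn) h

lemma tl_zero_DD (c : ℕ → ℕ) (q : ℕ) : tl 0 (DD c q) = 0 := by
  simp [DD, map_sum]

lemma tl_big_DD {q x : ℕ} (hx : q < x) : tl x (DD id q) = 0 := by
  simp only [DD, map_sum, map_smul, map_sub, tl_single, smul_eq_mul, id]
  refine sum_eq_zero fun r hr => ?_
  have := mem_range.1 hr
  rw [if_neg (by omega), if_neg (by omega)]; ring

lemma ext_tl {a b : V} (h : ∀ x, tl x a = tl x b) : a = b := by
  have key : ∀ x, (Finsupp.lapply x : V →ₗ[ℝ] ℝ) = tl x - tl (x + 1) := by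
    intro x
    refine Finsupp.lhom_ext fun k c => ?_
    simp only [Finsupp.lapply_apply, LinearMap.sub_apply, tl_single, Finsupp.single_apply]
    split_ifs <;> first | omega | simp
  ext x
  have e1 := LinearMap.congr_fun (key x) a
  have e2 := LinearMap.congr_fun (key x) b
  simp only [Finsupp.lapply_apply, LinearMap.sub_apply] at e1 e2
  rw [e1, e2, h, h]

lemma tl_mapDomain (ι : ℕ → ℕ) (x y : ℕ) (h : ∀ k, x ≤ ι k ↔ y ≤ k) (a : V) :
    tl x (Finsupp.mapDomain ι a) = tl y a := by
  have : (tl x).comp (Finsupp.lmapDomain ℝ ℝ ι) = tl y := by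
    refine Finsupp.lhom_ext fun k c => ?_
    simp [Finsupp.mapDomain_single, h]
  exact LinearMap.congr_fun this a

lemma tl_mapDomain_zero (ι : ℕ → ℕ) (x : ℕ) (h : ∀ k, ι k < x) (a : V) :
    tl x (Finsupp.mapDomain ι a) = 0 := by
  have : (tl x).comp (Finsupp.lmapDomain ℝ ℝ ι) = 0 := by
    refine Finsupp.lhom_ext fun k c => ?_
    have := h k
    simp only [LinearMap.comp_apply, Finsupp.lmapDomain_apply, Finsupp.mapDomain_single, tl_single,
      LinearMap.zero_apply]
    rw [if_neg (by omega)]
  exact LinearMap.congr_fun this a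

/-- merging a vector with alternating tail sums -/
lemma exists_merge (a : V) (q : ℕ) (θ : ℕ → ℕ) (s : ℝ) (hθ : ∀ r, r + 1 < q → θ r < θ (r + 1))
    (h0 : tl 0 a = 0) (h1 : ∀ r < q, tl (θ r) a = -(s * (-1) ^ r)) :
    ∃ ι : ℕ → ℕ, Monotone ι ∧ Finsupp.mapDomain ι a = s • DD id q := by
  have hmono : ∀ r r', r ≤ r' → r' < q → θ r ≤ θ r' := by
    intro r r' h
    induction h with
    | refl => intro _; rfl
    | step h ih => intro h'; exact (ih (by omega)).trans (hθ _ h').le
  let ι : ℕ → ℕ := fun k => ((range q).filter fun r => θ r ≤ k).card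
  refine ⟨ι, fun k k' hk => card_le_card fun r hr => ?_, ext_tl fun x => ?_⟩
  · simp only [mem_filter] at hr ⊢
    exact ⟨hr.1, hr.2.trans hk⟩
  · rw [map_smul, smul_eq_mul]
    cases x with
    | zero => rw [tl_mapDomain ι 0 0 (by simp), h0, tl_zero_DD, mul_zero]
    | succ r =>
      by_cases hr : r < q
      · rw [tl_mapDomain ι (r + 1) (θ r), h1 r hr,
          tl_DD strictMono_id hr (by simp) (by simp)]
        · ring
        · intro k
          constructor
          · intro hk
            by_contra hc
            have : ((range q).filter fun r => θ r ≤ k) ⊆ range r := by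
              intro r' hr'
              simp only [mem_filter, mem_range] at hr' ⊢
              by_contra hc'
              have := hmono r r' (by omega) hr'.1
              omega
            have := card_le_card this
            simp only [card_range, ι] at this hk
            omega
          · intro hk
            have : range (r + 1) ⊆ (range q).filter fun r => θ r ≤ k := by
              intro r' hr'
              simp only [mem_filter, mem_range] at hr' ⊢
              exact ⟨by omega, (hmono r' r (by omega) hr).trans hk⟩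
            simpa using card_le_card this
      · rw [tl_mapDomain_zero, tl_big_DD (by omega), mul_zero]
        intro k
        have : ι k ≤ q := (card_filter_le _ _).trans (by simp)
        omega

section peaks

variable {d : ℕ} {S : Type} (T : Fin d → S → S) (par : S → Bool) (c : S → Fin d → ℕ → ℕ)
  (Bad : Finset S)

def stp (i j : Fin d) (n : ℕ) : ℕ := if i < j then n - 1 else n + 1

def Good : S → Fin d → List (Fin d) → Prop
  | _, _, [] => True
  | a, i, j :: w => i ≠ j ∧ T i a ∉ Bad ∧ Good (T i a) j w

def InI (θ : ℕ) : S → Fin d → List (Fin d) → ℕ → Prop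
  | a, i, [], n => c a i n < θ ∧ θ ≤ c a i (n + 1)
  | a, i, j :: w, n => (c a i n < θ ∧ θ ≤ c a i (n + 1)) ∧ InI θ (T i a) j w (stp i j n)

lemma InI.head {θ : ℕ} {a : S} {i : Fin d} {w : List (Fin d)} {n : ℕ} (h : InI T c θ a i w n) :
    c a i n < θ ∧ θ ≤ c a i (n + 1) := by
  cases w with
  | nil => exact h
  | cons j w => exact h.1

def sg (b : Bool) : ℝ := if b then -1 else 1

noncomputable def lab (R : ℕ) (a : S) (i : Fin d) : V := sg (par a) • DD (c a i) R

/-- sum of labels along a word -/
noncomputable def sumg (g : S → Fin d → V) : S → List (Fin d) → V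
  | _, [] => 0
  | a, i :: w => g a i + sumg g (T i a) w

variable {T par c Bad} {R : ℕ}

lemma nest (h6 : ∀ a, a ∉ Bad → ∀ (i j : Fin d) (n m : ℕ), n ≤ R → m ≤ R → klt (par a) i n j m →
      c a i n < c a j m) {b : S} (hb : b ∉ Bad) {i j : Fin d} (hij : i ≠ j) {n : ℕ}
    (hn : (n + (par b).toNat) % 2 = 1) (h1 : 1 ≤ n) (h2 : n + 2 ≤ R) :
    c b i n < c b j (stp i j n) ∧ c b j (stp i j n + 1) < c b i (n + 1) := by
  have hij' : (i : ℕ) ≠ j := fun h => hij (Fin.ext h)
  unfold stp
  split_ifs with h
  · have h' : (i : ℕ) < j := h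
    exact ⟨h6 b hb _ _ _ _ (by omega) (by omega) (by unfold klt; omega),
      h6 b hb _ _ _ _ (by omega) (by omega) (by unfold klt; omega)⟩
  · have h' : ¬ (i : ℕ) < j := h
    exact ⟨h6 b hb _ _ _ _ (by omega) (by omega) (by unfold klt; omega),
      h6 b hb _ _ _ _ (by omega) (by omega) (by unfold klt; omega)⟩

lemma stp_stp {i j : Fin d} (hij : i ≠ j) {n : ℕ} (h1 : 1 ≤ n) : stp j i (stp i j n) = n := by
  unfold stp
  rcases lt_or_gt_of_ne hij with h | h
  · rw [if_pos h, if_neg (not_lt.2 h.le)]; omega
  · rw [if_neg (not_lt.2 h.le), if_pos h]; omega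

lemma stp_cases (i j : Fin d) (n : ℕ) : stp i j n = n - 1 ∨ stp i j n = n + 1 := by
  unfold stp; split_ifs <;> simp

lemma peaks (h2 : ∀ i a, par (T i a) = !par a) (h3 : ∀ i a, c (T i a) i = c a i)
    (h4 : ∀ a i, StrictMono (c a i))
    (h6 : ∀ a, a ∉ Bad → ∀ (i j : Fin d) (n m : ℕ), n ≤ R → m ≤ R → klt (par a) i n j m →
      c a i n < c a j m) (w : List (Fin d)) : ∀ (a : S) (i : Fin d) (n : ℕ), Good T Bad a i w →
    w.length + 1 ≤ n → n + w.length + 2 ≤ R →
    ((n + (par a).toNat) % 2 = 0 → ∃ θ, InI T c θ a i w n) ∧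
    ((n + (par a).toNat) % 2 = 1 → ∀ θ, c a i n < θ → θ ≤ c a i (n + 1) → InI T c θ a i w n) := by
  induction w with
  | nil =>
    intro a i n _ _ _
    exact ⟨fun _ => ⟨c a i (n + 1), h4 a i (Nat.lt_succ_self n), le_rfl⟩, fun _ θ h h' => ⟨h, h'⟩⟩
  | cons j w ih =>
    intro a i n hg hn hR
    obtain ⟨hij, hb, hg⟩ := hg
    simp only [List.length_cons] at hn hR
    have hs := stp_cases i j n
    have hpar : (par (T i a)).toNat + (par a).toNat = 1 := by rw [h2]; cases par a <;> rfl
    obtain ⟨ihF, ihB⟩ := ih (T i a) j (stp i j n) hg (by omega) (by omega)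
    constructor
    · intro he
      obtain ⟨θ, hθ⟩ := ihF (by omega)
      have h7 := nest h6 hb hij (n := n) (by omega) (by omega) (by omega)
      have h8 := hθ.head
      rw [h3] at h7
      exact ⟨θ, ⟨by omega, by omega⟩, hθ⟩
    · intro ho θ hθ1 hθ2
      have h7 := nest h6 hb hij.symm (n := stp i j n) (by omega) (by omega) (by omega)
      rw [stp_stp hij (by omega), h3] at h7
      exact ⟨⟨hθ1, hθ2⟩, ihB (by omega) θ (by omega) (by omega)⟩

lemma sg_not (b : Bool) : sg (!b) = -sg b := by cases b <;> simp [sg]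

lemma abs_sg (b : Bool) : |sg b| = 1 := by cases b <;> simp [sg]

lemma tl_sumg (h2 : ∀ i a, par (T i a) = !par a) (h4 : ∀ a i, StrictMono (c a i)) (θ : ℕ)
    (w : List (Fin d)) : ∀ (a : S) (i : Fin d) (n : ℕ), InI T c θ a i w n →
    w.length + 1 ≤ n → n + w.length + 2 ≤ R →
    tl θ (sumg T (lab par c R) a (i :: w)) = -(((w.length : ℝ) + 1) * sg (par a) * (-1) ^ n) := by
  induction w with
  | nil =>
    intro a i n h _ hR
    simp only [sumg, lab, add_zero, map_smul, smul_eq_mul, List.length_nil] at hR ⊢
    rw [tl_DD (h4 a i) (by omega) h.1 h.2]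
    simp
  | cons j w ih =>
    intro a i n h hn hR
    simp only [List.length_cons] at hn hR
    have hs := stp_cases i j n
    have h7 := ih (T i a) j (stp i j n) h.2 (by omega) (by omega)
    have h8 : (-1 : ℝ) ^ (stp i j n) = -(-1) ^ n := by
      rcases hs with hs | hs
      · obtain ⟨n', rfl⟩ : ∃ n', n = n' + 1 := ⟨n - 1, by omega⟩
        rw [hs]; simp [pow_succ]
      · rw [hs]; simp [pow_succ]
    rw [sumg, map_add, h7, h8, h2, sg_not, lab, map_smul, tl_DD (h4 a i) (by omega) h.1.1 h.1.2]
    simp only [List.length_cons, smul_eq_mul]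
    push_cast
    ring

lemma tl_zero_sumg (w : List (Fin d)) : ∀ a : S, tl 0 (sumg T (lab par c R) a w) = 0 := by
  induction w with
  | nil => intro a; simp [sumg]
  | cons i w ih => intro a; rw [sumg, map_add, ih, lab, map_smul, tl_zero_DD]; simp

lemma good_merge (h2 : ∀ i a, par (T i a) = !par a) (h3 : ∀ i a, c (T i a) i = c a i)
    (h4 : ∀ a i, StrictMono (c a i)) {q : ℕ}
    (h6 : ∀ a, a ∉ Bad → ∀ (i j : Fin d) (n m : ℕ), n ≤ q + q + q → m ≤ q + q + q →
      klt (par a) i n j m → c a i n < c a j m) (w : List (Fin d)) (hq : w.length + 2 ≤ q)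
    (a : S) (i : Fin d) (hg : Good T Bad a i w) :
    ∃ (ι : ℕ → ℕ) (s : ℝ), Monotone ι ∧ |s| = w.length + 1 ∧
      Finsupp.mapDomain ι (sumg T (lab par c (q + q + q)) a (i :: w)) = s • DD id q := by
  have key : ∀ r, ∃ θ, r < q → InI T c θ a i w (w.length + 1 + r) := by
    intro r
    by_cases hr : r < q
    · obtain ⟨hF, hB⟩ := peaks h2 h3 h4 h6 w a i (w.length + 1 + r) hg (by omega) (by omega)
      rcases Nat.mod_two_eq_zero_or_one (w.length + 1 + r + (par a).toNat) with h | h
      · obtain ⟨θ, hθ⟩ := hF h
        exact ⟨θ, fun _ => hθ⟩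
      · exact ⟨_, fun _ => hB h _ (h4 a i (Nat.lt_succ_self _)) le_rfl⟩
    · exact ⟨0, fun h => absurd h hr⟩
  choose θ hθ using key
  obtain ⟨ι, h7, h8⟩ := exists_merge (sumg T (lab par c (q + q + q)) a (i :: w)) q θ
    (((w.length : ℝ) + 1) * sg (par a) * (-1) ^ (w.length + 1)) (fun r hr => by
      have e1 := (hθ r (by omega)).head
      have e2 := (hθ (r + 1) hr).head
      rw [← add_assoc] at e2
      omega) (tl_zero_sumg _ _) (fun r hr => by
      rw [tl_sumg h2 h4 _ w a i _ (hθ r hr) (by omega) (by omega)]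
      ring)
  refine ⟨ι, _, h7, ?_, h8⟩
  rw [abs_mul, abs_mul, abs_sg, abs_pow, abs_neg, abs_one, one_pow, mul_one, mul_one,
    abs_of_nonneg (by positivity)]

end peaks

end Crest.Agent.H6.MT
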