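import Crest.Agent.H6.MTC

set_option autoImplicit false

/-! Markov type for words in involutions and for antisymmetric edge labels. -/

namespace Crest.Agent.H6.MT

open Finset

variable {d : ℕ}

/-- expectation over uniformly random words -/
noncomputable def Ew (d : ℕ) : ℕ → (List (Fin d) → ℝ) → ℝ
  | 0, φ => φ []
  | t + 1, φ => (1 / (d : ℝ)) * ∑ i, Ew d t fun w => φ (i :: w)

lemma Ew_mono (t : ℕ) : ∀ (φ ψ : List (Fin d) → ℝ), (∀ w, w.length = t → φ w ≤ ψ w) →
    Ew d t φ ≤ Ew d t ψ := by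
  induction t with
  | zero => intro φ ψ h; exact h [] rfl
  | succ t ih =>
    intro φ ψ h
    simp only [Ew]
    refine mul_le_mul_of_nonneg_left (sum_le_sum fun i _ => ih _ _ fun w hw => h _ ?_)
      (by positivity)
    simp [hw]

lemma Ew_affine (hd : 0 < d) (t : ℕ) (α β : ℝ) : ∀ φ : List (Fin d) → ℝ,
    Ew d t (fun w => α + β * φ w) = α + β * Ew d t φ := by
  have hd' : (d : ℝ) ≠ 0 := by exact_mod_cast hd.ne'
  induction t with
  | zero => intro φ; rfl
  | succ t ih =>
    intro φ
    simp only [Ew, ih, sum_add_distrib, ← mul_sum, sum_const, card_univ, Fintype.card_fin,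
      nsmul_eq_mul]
    field_simp

lemma Ew_const (hd : 0 < d) (t : ℕ) (α : ℝ) : Ew d t (fun _ => α) = α := by
  simpa using Ew_affine hd t α 0 fun _ => 0

def run {S : Type} (T : Fin d → S → S) : S → List (Fin d) → S
  | a, [] => a
  | a, i :: w => run T (T i a) w

section inv
variable {S : Type} [Fintype S] [DecidableEq S] (T : Fin d → S → S)

noncomputable def Pm : Matrix S S ℝ := fun x y => (1 / (d : ℝ)) * ∑ i, if T i x = y then 1 else 0

lemma Pm_sum (x : S) (ψ : S → ℝ) : ∑ y, Pm T x y * ψ y = (1 / (d : ℝ)) * ∑ i, ψ (T i x) := by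
  simp only [Pm, mul_assoc, ← mul_sum, sum_mul]
  congr 1
  rw [sum_comm]
  simp

lemma Pm_pow_sum (t : ℕ) : ∀ (x : S) (ψ : S → ℝ),
    ∑ y, (Pm T ^ t) x y * ψ y = Ew d t fun w => ψ (run T x w) := by
  induction t with
  | zero => intro x ψ; simp [Ew, run, Matrix.one_apply]
  | succ t ih =>
    intro x ψ
    simp only [pow_succ', Matrix.mul_apply, sum_mul, mul_assoc]
    rw [sum_comm]
    simp only [← mul_sum, ih]
    rw [Pm_sum]
    rfl

lemma mt_inv {p K : ℝ} {ν : V → ℝ} (h : MTI p K ν) (hd : 0 < d) [Nonempty S]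
    (hT : ∀ i a, T i (T i a) = a) (f : S → V) (t : ℕ) (ht : 1 ≤ t) :
    ∑ x, Ew d t (fun w => ν (f (run T x w) - f x) ^ p) ≤
      K ^ p * t * ∑ x, (1 / (d : ℝ)) * ∑ i, ν (f (T i x) - f x) ^ p := by
  have hd' : (d : ℝ) ≠ 0 := by exact_mod_cast hd.ne'
  have hS : (0 : ℝ) < Fintype.card S := by exact_mod_cast Fintype.card_pos
  have := h S (fun _ => 1 / (Fintype.card S : ℝ)) (Pm T) (fun _ => by positivity)
    (by simp [hS.ne']) (fun x y => by unfold Pm; positivity)
    (fun x => by
      have := Pm_sum T x fun _ => 1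
      simp only [mul_one] at this
      rw [this]; simp [hd'])
    (fun x y => by
      unfold Pm
      congr 2
      refine sum_congr rfl fun i _ => if_congr ⟨fun h => ?_, fun h => ?_⟩ rfl rfl
      · rw [← h, hT]
      · rw [← h, hT]) f t ht
  simp only [mul_assoc, ← mul_sum] at this
  simp only [Pm_pow_sum T t _ fun y => ν (f y - f _) ^ p,
    Pm_sum T _ fun y => ν (f y - f _) ^ p] at this
  rw [mul_left_comm (t : ℝ), mul_left_comm (K ^ p)] at this
  rw [mul_assoc]
  exact le_of_mul_le_mul_left this (by positivity)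

end inv

section cover
variable {S : Type} [Fintype S] [DecidableEq S] (T : Fin d → S → S)

noncomputable def box (S : Type) [Fintype S] [DecidableEq S] (d : ℕ) (lo hi : ℤ) : Finset (S × Fin d → ℤ) :=
  Fintype.piFinset fun _ => Finset.Ico lo hi

def inc (a : S) (i : Fin d) : S × Fin d → ℤ := Pi.single (a, i) 1 - Pi.single (T i a, i) 1

lemma inc_bound (a : S) (i : Fin d) (e : S × Fin d) : -1 ≤ inc T a i e ∧ inc T a i e ≤ 1 := by
  simp only [inc, Pi.sub_apply, Pi.single_apply]
  split_ifs <;> simp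

noncomputable def Tc (M : ℤ) (i : Fin d) (x : S × box S d 0 M) : S × box S d 0 M :=
  if h : x.2.1 + inc T x.1 i ∈ box S d 0 M then (T i x.1, ⟨_, h⟩) else x

lemma Tc_inv (hT : ∀ i a, T i (T i a) = a) (M : ℤ) (i : Fin d) (x : S × box S d 0 M) :
    Tc T M i (Tc T M i x) = x := by
  obtain ⟨a, h, hh⟩ := x
  by_cases h1 : h + inc T a i ∈ box S d 0 M
  · have e : h + inc T a i + inc T (T i a) i = h := by simp only [inc, hT]; abel
    have e1 : Tc T M i (a, ⟨h, hh⟩) = (T i a, ⟨_, h1⟩) := by simp only [Tc, h1, dite_true]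
    rw [e1]
    simp only [Tc, hh, dite_true, hT, e]
  · simp only [Tc, h1, dite_false]

noncomputable def fc (g : S → Fin d → V) (h : S × Fin d → ℤ) : V :=
  ∑ e, ((h e : ℝ) / 2) • g e.1 e.2

lemma fc_inc (g : S → Fin d → V) (hg : ∀ i a, g (T i a) i = -g a i) (h : S × Fin d → ℤ) (a : S)
    (i : Fin d) : fc g (h + inc T a i) = fc g h + g a i := by
  have e : ∀ b : S, ∑ e : S × Fin d, (((Pi.single (b, i) 1 : S × Fin d → ℤ) e : ℝ) / 2) •
      g e.1 e.2 = (1 / 2 : ℝ) • g b i := by
    intro b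
    rw [sum_eq_single (b, i)]
    · simp
    · intro e _ he; simp [Pi.single_eq_of_ne he]
    · simp
  simp only [fc, inc, Pi.add_apply, Pi.sub_apply, Int.cast_add, Int.cast_sub, add_div, sub_div,
    add_smul, sub_smul, sum_add_distrib, sum_sub_distrib, e, hg]
  module

lemma run_Tc (g : S → Fin d → V) (hg : ∀ i a, g (T i a) i = -g a i) (M : ℤ) (w : List (Fin d)) :
    ∀ x : S × box S d 0 M, x.2.1 ∈ box S d w.length (M - w.length) →
      fc g (run (Tc T M) x w).2.1 - fc g x.2.1 = sumg T g x.1 w := by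
  induction w with
  | nil => intro x _; simp [run, sumg]
  | cons i w ih =>
    rintro ⟨a, h, hh⟩ hx
    simp only [box, Fintype.mem_piFinset, mem_Ico, List.length_cons] at hx
    have h1 : h + inc T a i ∈ box S d w.length (M - w.length) := by
      simp only [box, Fintype.mem_piFinset, mem_Ico, Pi.add_apply]
      intro e
      have := hx e
      have := inc_bound T a i e
      push_cast at *
      omega
    have h2 : h + inc T a i ∈ box S d 0 M := by
      simp only [box, Fintype.mem_piFinset, mem_Ico] at h1 ⊢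
      intro e
      have := h1 e
      omega
    have e1 : Tc T M i (a, ⟨h, hh⟩) = (T i a, ⟨_, h2⟩) := by simp only [Tc, h2, dite_true]
    have := ih (T i a, ⟨_, h2⟩) h1
    simp only [run, sumg, e1] at this ⊢
    rw [← this, fc_inc T g hg]
    abel

lemma card_box (lo hi : ℤ) :
    (box S d lo hi).card = (hi - lo).toNat ^ Fintype.card (S × Fin d) := by
  simp [box, Fintype.card_piFinset]

lemma exists_M (N t : ℕ) : ∃ M : ℕ, 0 < M ∧ 2 * t ≤ M ∧ (M : ℝ) ^ N ≤ 2 * ((M : ℝ) - 2 * t) ^ N := by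
  refine ⟨4 * t * (N + 1) + 1, by omega, by nlinarith, ?_⟩
  set M : ℝ := ((4 * t * (N + 1) + 1 : ℕ) : ℝ) with hM
  have hM' : M = 4 * t * (N + 1) + 1 := by rw [hM]; push_cast; ring
  have ht : (0 : ℝ) ≤ t := by positivity
  have hN : (0 : ℝ) ≤ N := by positivity
  have hM0 : 0 < M := by rw [hM']; positivity
  have h0 : 2 * t / M ≤ 1 := by rw [div_le_one hM0, hM']; nlinarith
  have h1 := one_add_mul_le_pow (a := -(2 * t / M)) (by linarith) N
  have h2 : N * (2 * t / M) ≤ 1 / 2 := by
    rw [← mul_div_assoc, div_le_iff₀ hM0, hM']; nlinarith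
  have h3 : (M - 2 * t) ^ N = M ^ N * (1 + -(2 * t / M)) ^ N := by
    rw [← mul_pow]; congr 1; field_simp; ring
  rw [h3]
  have h4 : 0 < M ^ N := by positivity
  nlinarith

theorem mt_cocycle {p K : ℝ} (hp : 0 ≤ p) (hK : 0 ≤ K) {ν : V → ℝ} (h : Pre p K ν) (hd : 0 < d)
    [Nonempty S] (hT : ∀ i a, T i (T i a) = a) (g : S → Fin d → V)
    (hg : ∀ i a, g (T i a) i = -g a i) (U : ℝ) (hU0 : 0 ≤ U) (hU : ∀ a i, ν (g a i) ≤ U)
    (t : ℕ) (ht : 1 ≤ t) :
    ∑ a, Ew d t (fun w => ν (sumg T g a w) ^ p) ≤ 2 * (K ^ p * t * (Fintype.card S * U ^ p)) := by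
  have hd' : (d : ℝ) ≠ 0 := by exact_mod_cast hd.ne'
  obtain ⟨M, hM0, hMt, hM⟩ := exists_M (Fintype.card (S × Fin d)) t
  haveI : Nonempty (box S d 0 M) := ⟨⟨0, by simp [box, hM0]⟩⟩
  have h1 := mt_inv (Tc T M) h.mt hd (Tc_inv T hT M) (fun x => fc g x.2.1) t ht
  set N := Fintype.card (S × Fin d)
  have h2 : ∑ x : S × box S d 0 M, (1 / (d : ℝ)) * ∑ i, ν (fc g (Tc T M i x).2.1 - fc g x.2.1) ^ p
      ≤ Fintype.card S * (M : ℝ) ^ N * U ^ p := by
    have : ∀ (x : S × box S d 0 M) i, ν (fc g (Tc T M i x).2.1 - fc g x.2.1) ^ p ≤ U ^ p := by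
      intro x i
      refine Real.rpow_le_rpow (h.nonneg _) ?_ hp
      unfold Tc
      split_ifs with hx
      · simp only [fc_inc T g hg, add_sub_cancel_left]; exact hU _ _
      · simp [h.zero, hU0]
    refine (sum_le_sum fun x _ => mul_le_mul_of_nonneg_left (sum_le_sum fun i _ => this x i)
      (by positivity)).trans (le_of_eq ?_)
    simp only [sum_const, card_univ, Fintype.card_fin, nsmul_eq_mul, Fintype.card_prod,
      Fintype.card_coe, card_box]
    simp only [N, Fintype.card_prod, Fintype.card_fin, sub_zero, Int.toNat_natCast]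
    push_cast
    field_simp
  have h3 : ((M : ℝ) - 2 * t) ^ N * ∑ a, Ew d t (fun w => ν (sumg T g a w) ^ p) ≤
      ∑ x : S × box S d 0 M, Ew d t fun w => ν (fc g (run (Tc T M) x w).2.1 - fc g x.2.1) ^ p := by
    rw [Fintype.sum_prod_type, mul_sum]
    refine sum_le_sum fun a _ => ?_
    have e1 : ∀ y : box S d 0 M, (if y.1 ∈ box S d t (M - t) then
        Ew d t (fun w => ν (sumg T g a w) ^ p) else 0) ≤
        Ew d t fun w => ν (fc g (run (Tc T M) (a, y) w).2.1 - fc g y.1) ^ p := by
      intro y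
      split_ifs with hy
      · refine Ew_mono _ _ _ fun w hw => le_of_eq ?_
        rw [run_Tc T g hg M w (a, y) (by rw [hw]; exact hy)]
      · rw [← Ew_const hd t 0]
        exact Ew_mono _ _ _ fun w _ => Real.rpow_nonneg (h.nonneg _) _
    refine le_trans (le_of_eq ?_) (sum_le_sum fun y _ => e1 y)
    rw [sum_coe_sort (box S d 0 M) fun y => if y ∈ box S d t (M - t) then
        Ew d t (fun w => ν (sumg T g a w) ^ p) else 0, ← sum_filter, sum_const, nsmul_eq_mul]
    congr 1
    have : (box S d 0 M).filter (fun y => y ∈ box S d t (M - t)) = box S d t (M - t) := by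
      ext y
      simp only [mem_filter, and_iff_right_iff_imp, box, Fintype.mem_piFinset, mem_Ico]
      intro hy e
      have := hy e
      omega
    rw [this, card_box]
    have e2 : ((M : ℤ) - t - t).toNat = M - 2 * t := by omega
    rw [e2]
    push_cast [hMt]
    rfl
  have h4 : 0 ≤ ∑ a, Ew d t (fun w => ν (sumg T g a w) ^ p) := sum_nonneg fun a _ => by
    rw [← Ew_const hd t 0]
    exact Ew_mono _ _ _ fun w _ => Real.rpow_nonneg (h.nonneg _) _
  have h5 : (0 : ℝ) < (M : ℝ) ^ N := by positivity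
  have h6 : 0 ≤ K ^ p * t := by positivity
  have h7 := (h3.trans h1).trans (mul_le_mul_of_nonneg_left h2 h6)
  refine le_of_mul_le_mul_left ?_ h5
  have h8 := mul_le_mul_of_nonneg_right hM h4
  nlinarith

/-- bad-event counter -/
noncomputable def bad (Bad : Finset S) : S → Fin d → List (Fin d) → ℝ
  | _, _, [] => 0
  | a, i, j :: w => (if i = j then 1 else 0) + (if T i a ∈ Bad then 1 else 0) + bad Bad (T i a) j w

lemma bad_nonneg (Bad : Finset S) (w : List (Fin d)) : ∀ a i, 0 ≤ bad T Bad a i w := by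
  induction w with
  | nil => intro a i; exact le_rfl
  | cons j w ih =>
    intro a i
    have := ih (T i a) j
    simp only [bad]
    positivity

lemma good_of_bad (Bad : Finset S) (w : List (Fin d)) :
    ∀ a i, bad T Bad a i w < 1 → Good T Bad a i w := by
  induction w with
  | nil => intro a i _; trivial
  | cons j w ih =>
    intro a i h
    have := bad_nonneg T Bad w (T i a) j
    simp only [bad] at h
    split_ifs at h with h1 h2 h2
    · linarith
    · linarith
    · linarith
    · exact ⟨h1, h2, ih _ _ (by linarith)⟩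

lemma sum_T (hT : ∀ i a, T i (T i a) = a) (i : Fin d) (F : S → ℝ) : ∑ a, F (T i a) = ∑ a, F a :=
  Equiv.sum_comp (Function.Involutive.toPerm (T i) (hT i)) F

lemma sum_bad (hd : 0 < d) (hT : ∀ i a, T i (T i a) = a) (Bad : Finset S) (t : ℕ) :
    ∀ i, ∑ a, Ew d t (bad T Bad a i) ≤ t * (Fintype.card S / d + Bad.card) := by
  have hd' : (d : ℝ) ≠ 0 := by exact_mod_cast hd.ne'
  induction t with
  | zero => intro i; simp [Ew, bad]
  | succ t ih =>
    intro i
    have e : ∀ a j, Ew d t (fun w => bad T Bad a i (j :: w)) =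
        (if i = j then 1 else 0) + (if T i a ∈ Bad then 1 else 0) + Ew d t (bad T Bad (T i a) j) := by
      intro a j
      have := Ew_affine hd t ((if i = j then 1 else 0) + (if T i a ∈ Bad then 1 else 0)) 1
        (bad T Bad (T i a) j)
      simpa only [one_mul, bad] using this
    simp only [Ew, e, ← mul_sum]
    rw [sum_comm]
    simp only [sum_add_distrib]
    have e1 : ∑ j : Fin d, ∑ _a : S, (if i = j then (1 : ℝ) else 0) = Fintype.card S := by
      rw [sum_comm]; simp
    have e2 : ∑ _j : Fin d, ∑ a : S, (if T i a ∈ Bad then (1 : ℝ) else 0) = d * Bad.card := by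
      rw [sum_T T hT i fun b => if b ∈ Bad then (1 : ℝ) else 0]
      simp
    have e3 : ∑ j : Fin d, ∑ a : S, Ew d t (bad T Bad (T i a) j) ≤
        d * (t * (Fintype.card S / d + Bad.card)) := by
      refine (sum_le_sum fun j _ => (sum_T T hT i fun b => Ew d t (bad T Bad b j)).le.trans
        (ih j)).trans (le_of_eq ?_)
      simp
    rw [e1, e2]
    calc _ ≤ 1 / (d : ℝ) * (Fintype.card S + d * Bad.card +
          d * (t * (Fintype.card S / d + Bad.card))) := by gcongr
      _ = _ := by push_cast; field_simp; ring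

end cover

theorem not_adm {p K κ : ℝ} (hp : 1 < p) (hK : 0 < K) (hκ : 0 < κ) {ν : V → ℝ}
    (h : Adm p K κ ν) : False := by
  have hp0 : 0 < p := by linarith
  -- choose the length
  obtain ⟨s, hs⟩ : ∃ s : ℕ, 4 * (6 * K) ^ p < ((s : ℝ) + 1) ^ (p - 1) := by
    have h1 := (tendsto_rpow_atTop (show 0 < p - 1 by linarith)).comp
      (Filter.tendsto_atTop_add_const_right _ 1 tendsto_natCast_atTop_atTop)
    exact (h1.eventually_gt_atTop _).exists
  set t : ℝ := (s : ℝ) + 1 with ht
  have ht0 : 0 < t := by positivity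
  have hD : |tl 1 (DD id (s + 2))| = 1 := by
    rw [tl_DD (n := 0) strictMono_id (by omega) (by simp) (by simp)]; simp
  obtain ⟨μ, hμ, hsel⟩ := exists_select hκ h (DD id (s + 2)) 1 hD
  set A := μ (DD id (s + 2)) with hA
  have hA0 : 0 < A := by
    have := hμ.low 1 (DD id (s + 2))
    rw [hD] at this
    linarith
  have hd : 0 < 4 * (s + 1) := by omega
  obtain ⟨S, _, _, _, T, par, c, Bad, h1, h2, h3, h4, h5, h6⟩ :=
    tower (4 * (s + 1)) (s + 2 + (s + 2) + (s + 2)) (1 / (4 * t)) (by positivity)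
  set R := s + 2 + (s + 2) + (s + 2)
  have hS : (0 : ℝ) < Fintype.card S := by exact_mod_cast Fintype.card_pos
  have up := mt_cocycle T hp0.le hK.le hμ.toPre hd h1 (lab par c R)
    (fun i a => by simp only [lab, h2, h3, sg_not, neg_smul]) (3 * A) (by positivity)
    (fun a i => by
      rw [lab, hμ.smul, abs_sg, one_mul]; exact hμ.DD_three (h4 a i) _) (s + 1) (by omega)
  have hΛ : 0 < (t * A / 2) ^ p := by positivity
  have low : ∀ a i, (t * A / 2) ^ p + -(t * A / 2) ^ p * Ew _ s (bad T Bad a i) ≤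
      Ew _ s fun w => μ (sumg T (lab par c R) a (i :: w)) ^ p := by
    intro a i
    rw [← Ew_affine hd]
    refine Ew_mono _ _ _ fun w hw => ?_
    have hb := bad_nonneg T Bad w a i
    by_cases hb1 : bad T Bad a i w < 1
    · obtain ⟨ι, u, e1, e2, e3⟩ := good_merge h2 h3 h4 h6 w (by omega) a i
        (good_of_bad T Bad w a i hb1)
      have e4 := hsel _ ι u e1 e3
      rw [e2, hw] at e4
      have e5 : (t * A / 2) ^ p ≤ μ (sumg T (lab par c R) a (i :: w)) ^ p :=
        Real.rpow_le_rpow (by positivity) (by linarith) hp0.le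
      nlinarith
    · have := Real.rpow_nonneg (hμ.nonneg (sumg T (lab par c R) a (i :: w))) p
      nlinarith
  have hbad : ∀ i, ∑ a, Ew _ s (bad T Bad a i) ≤ Fintype.card S / 2 := by
    intro i
    refine (sum_bad T hd h1 Bad s i).trans ?_
    have e1 : (s : ℝ) ≤ t := by linarith
    calc (s : ℝ) * (Fintype.card S / ((4 * (s + 1) : ℕ) : ℝ) + Bad.card)
        ≤ t * (Fintype.card S / ((4 * (s + 1) : ℕ) : ℝ) + 1 / (4 * t) * Fintype.card S) := by
          gcongr
      _ = Fintype.card S / 2 := by push_cast; rw [← ht]; field_simp; ring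
  have low2 : (t * A / 2) ^ p * (Fintype.card S / 2) ≤
      ∑ a, Ew _ (s + 1) fun w => μ (sumg T (lab par c R) a w) ^ p := by
    simp only [Ew, ← mul_sum]
    rw [sum_comm]
    have e : ∀ i, (t * A / 2) ^ p * (Fintype.card S / 2) ≤
        ∑ a, Ew _ s fun w => μ (sumg T (lab par c R) a (i :: w)) ^ p := by
      intro i
      refine le_trans ?_ (sum_le_sum fun a _ => low a i)
      simp only [sum_add_distrib, ← mul_sum, sum_const, card_univ, nsmul_eq_mul]
      have := mul_le_mul_of_nonneg_left (hbad i) hΛ.le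
      linarith
    refine le_trans (le_of_eq ?_) (mul_le_mul_of_nonneg_left (sum_le_sum fun i _ => e i)
      (by positivity))
    simp only [sum_const, card_univ, Fintype.card_fin, nsmul_eq_mul]
    field_simp
  have fin := low2.trans up
  have e1 : (t * A / 2) ^ p = t ^ (p - 1) * t * (A / 2) ^ p := by
    rw [mul_div_assoc, Real.mul_rpow ht0.le (by positivity), ← Real.rpow_add_one ht0.ne']
    congr 2; ring
  have e2 : K ^ p * (3 * A) ^ p = (6 * K) ^ p * (A / 2) ^ p := by
    rw [← Real.mul_rpow hK.le (by positivity), ← Real.mul_rpow (by positivity) (by positivity)]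
    congr 1; ring
  have e3 : 0 < t * (A / 2) ^ p * Fintype.card S := by positivity
  have e4 : t ^ (p - 1) * (t * (A / 2) ^ p * Fintype.card S) ≤
      4 * (6 * K) ^ p * (t * (A / 2) ^ p * Fintype.card S) := by
    push_cast at fin
    rw [← ht, e1] at fin
    calc _ = 2 * (t ^ (p - 1) * t * (A / 2) ^ p * (Fintype.card S / 2)) := by ring
      _ ≤ 2 * (2 * (K ^ p * t * (Fintype.card S * (3 * A) ^ p))) := by linarith
      _ = 4 * (K ^ p * (3 * A) ^ p) * t * Fintype.card S := by ring
      _ = _ := by rw [e2]; ring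
  exact absurd (le_of_mul_le_mul_right e4 e3) (not_le.2 hs)

theorem main (X : Type*) [NormedAddCommGroup X] [NormedSpace ℝ X] (p K : ℝ) (hp : 1 < p)
    (hK : 0 < K) (hX : Crest.AnalysisR.HasMarkovType X p K) :
    Crest.AnalysisR.HasEquivUniformlyConvexNorm X := by
  refine uc_of_empty fun ε hε => ?_
  by_contra hcon
  push Not at hcon
  obtain ⟨ν, h1, h2⟩ := exists_pre_J (p := p) (K := K) (by linarith) (κ := ε / 2) fun n => by
    obtain ⟨x, hx⟩ := hcon n
    exact pre_of_mart hp.le hX (Mart_of_mem n x hx)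
  obtain ⟨ν', h3⟩ := exists_adm (by linarith) h1 h2
  exact not_adm hp hK (by positivity) h3

end Crest.Agent.H6.MT
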