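import Mathlib

set_option autoImplicit false

namespace Crest.Agent.H6.Mat

open Set

/-- A uniform identically self-dual matroid from a predicate `Lo` ("value at most zero"). -/
theorem exists_selfdual {α : Type*} (Lo : Set α → Prop)
    (hmono : ∀ A B, A ⊆ B → Lo B → Lo A)
    (hins : ∀ A x, x ∉ A → (Lo (insert x A) ↔ ¬ Lo Aᶜ))
    (hint : ∀ I X, I ⊆ X → Lo I → ¬ Lo X → ∃ B, I ⊆ B ∧ B ⊆ X ∧ Lo B ∧ Lo Bᶜ)
    (h0 : Lo ∅) (h1 : ¬ Lo univ) :
    ∃ M : Matroid α, M.E = univ ∧ (∀ B, M.IsBase B ↔ M.IsBase Bᶜ) ∧ ∀ I, M.Indep I → Lo I := by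
  have hanti : ∀ B B' : Set α, Lo Bᶜ → Lo B' → B ⊆ B' → B' ⊆ B := by
    intro B B' hB hB' hs x hx
    by_contra hxB
    exact (hins B x hxB).1 (hmono _ _ (insert_subset hx hs) hB') hB
  have hex : ∀ (B : Set α) x y, Lo B → x ∈ B → y ∉ B → Lo (insert y (B \ {x})) := by
    intro B x y hB hx hy
    have h2 : insert x (B \ {x}) = B := by
      ext z; simp only [mem_insert_iff, mem_diff, mem_singleton_iff]
      constructor
      · rintro (rfl | h)
        · exact hx
        · exact h.1
      · intro hz; by_cases h : z = x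
        · exact Or.inl h
        · exact Or.inr ⟨hz, h⟩
    have h3 := (hins (B \ {x}) x (by simp)).1 (by rw [h2]; exact hB)
    exact (hins (B \ {x}) y (by simp [hy])).2 h3
  have hind : ∀ I, Lo I ↔ ∃ B, (Lo B ∧ Lo Bᶜ) ∧ I ⊆ B := by
    intro I
    constructor
    · intro hI
      obtain ⟨B, h2, _, h4, h5⟩ := hint I univ (subset_univ _) hI h1
      exact ⟨B, ⟨h4, h5⟩, h2⟩
    · rintro ⟨B, ⟨hB, _⟩, hIB⟩
      exact hmono _ _ hIB hB
  refine ⟨{ E := univ
            IsBase := fun B => Lo B ∧ Lo Bᶜ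
            Indep := Lo
            indep_iff' := fun I => hind I
            exists_isBase := ?_
            isBase_exchange := ?_
            maximality := ?_
            subset_ground := fun _ _ => subset_univ _ }, rfl, ?_, fun I h => h⟩
  · obtain ⟨B, hB, _⟩ := (hind ∅).1 h0
    exact ⟨B, hB⟩
  · intro B B' hB hB' x hx
    have : ∃ y, y ∈ B' \ B := by
      by_contra hne
      push Not at hne
      have hs : B' ⊆ B := fun z hz => by
        by_contra h; exact hne z ⟨hz, h⟩
      exact hx.2 (hanti B' B hB'.2 hB.1 hs hx.1)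
    obtain ⟨y, hy⟩ := this
    refine ⟨y, hy, hex B x y hB.1 hx.1 hy.2, ?_⟩
    have hxy : x ≠ y := fun h => hx.2 (h ▸ hy.1)
    have h2 : (insert y (B \ {x}))ᶜ = insert x (Bᶜ \ {y}) := by
      ext z
      simp only [mem_compl_iff, mem_insert_iff, mem_diff, mem_singleton_iff]
      constructor
      · intro h
        by_cases hz : z = x
        · exact Or.inl hz
        · right
          refine ⟨fun hzB => h (Or.inr ⟨hzB, hz⟩), fun hzy => h (Or.inl hzy)⟩
      · rintro (rfl | ⟨h1, h2⟩)
        · rintro (h | h)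
          · exact hxy h
          · exact h.2 rfl
        · rintro (h | h)
          · exact h2 h
          · exact h1 h.1
    rw [h2]
    exact hex Bᶜ y x hB.2 hy.2 (fun h => h hx.1)
  · intro X _ I hI hIX
    by_cases hX : Lo X
    · refine ⟨X, hIX, ⟨hX, subset_rfl⟩, ?_⟩
      intro Y hY _
      exact hY.2
    · obtain ⟨B, h2, h3, h4, h5⟩ := hint I X hIX hI hX
      refine ⟨B, h2, ⟨h4, h3⟩, ?_⟩
      intro Y hY hBY
      exact hanti B Y h5 hY.1 hBY
  · intro B
    simp only [compl_compl]
    exact and_comm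

theorem dual_eq_of {α : Type*} (M : Matroid α) (hE : M.E = univ)
    (h : ∀ B, M.IsBase B ↔ M.IsBase Bᶜ) : M.dual = M := by
  refine Matroid.ext_isBase rfl ?_
  intro B _
  rw [Matroid.dual_isBase_iff', hE, ← compl_eq_univ_diff, ← h]
  simp

/-- For an identically self-dual matroid a packing/covering partition yields independent sets. -/
theorem indep_of_partition {α : Type*} (M : Matroid α) (hE : M.E = univ)
    (h : ∀ B, M.IsBase B ↔ M.IsBase Bᶜ) (P S I : Set α) (hS : S ⊆ P)
    (hcl : (M.restrict P).closure S = P) (hI : (M.contract P).Indep I) :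
    M.Indep (I ∪ (P \ S)) := by
  have hPE : ∀ X : Set α, X ⊆ M.E := fun X => by rw [hE]; exact subset_univ _
  have hPcl : P ⊆ M.closure S := by
    rw [Matroid.restrict_closure_eq _ hS (hPE P)] at hcl
    rw [← hcl]; exact inter_subset_left
  obtain ⟨J, hJ⟩ := M.exists_isBasis S (hPE S)
  have hJP : M.IsBasis J P := by
    refine hJ.indep.isBasis_of_subset_of_subset_closure (hJ.subset.trans hS) ?_
    rw [hJ.closure_eq_closure]; exact hPcl
  obtain ⟨B, hB, hJB⟩ := hJ.indep.exists_isBase_superset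
  have hBP : B ∩ P = J := by
    refine (hJP.eq_of_subset_indep (hB.indep.subset inter_subset_left)
      (subset_inter hJB hJP.subset) inter_subset_right).symm
  have hPS : M.Indep (P \ S) := by
    refine ((h B).1 hB).indep.subset ?_
    intro x hx hxB
    have : x ∈ J := hBP ▸ ⟨hxB, hx.1⟩
    exact hx.2 (hJ.subset this)
  obtain ⟨K, hK, hsub⟩ := hPS.subset_isBasis_of_subset diff_subset (hPE P)
  have := (hK.contract_indep_iff.1 hI).1
  exact this.subset (union_subset_union_right _ hsub)

/-- Transfinite construction with pairwise invariants. -/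
theorem transfinite {T Item : Type*} (r : T → T → Prop) [IsWellOrder T r]
    (R : Item → Item → Prop) (Bd : T → Item → Prop) (Sol : T → Set Item → Prop)
    (Sm : Set Item → Prop)
    (hSol : ∀ t S S', S ⊆ S' → Sol t S → Sol t S')
    (hSm : ∀ t (g : T → Option Item), Sm {p | ∃ s, r s t ∧ g s = some p})
    (step : ∀ t S, Sm S → (∀ p ∈ S, ∀ q ∈ S, R p q) → (∀ p ∈ S, ∃ s, r s t ∧ Bd s p) →
      Sol t S ∨ ∃ n, Bd t n ∧ R n n ∧ (∀ p ∈ S, R p n ∧ R n p) ∧ Sol t (insert n S)) :
    ∃ S : Set Item, (∀ p ∈ S, ∀ q ∈ S, R p q) ∧ ∀ t, Sol t S := by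
  classical
  let Good : T → Set Item → Option Item → Prop := fun t S o =>
    match o with
    | none => Sol t S
    | some n => Bd t n ∧ R n n ∧ (∀ p ∈ S, R p n ∧ R n p) ∧ Sol t (insert n S)
  have wf : WellFounded r := IsWellFounded.wf
  let F : (t : T) → ((s : T) → r s t → Option Item) → Option Item := fun t g =>
    Classical.epsilon (Good t {p | ∃ s, ∃ h : r s t, g s h = some p})
  let g : T → Option Item := wf.fix F
  have hg : ∀ t, g t = Classical.epsilon (Good t {p | ∃ s, r s t ∧ g s = some p}) := by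
    intro t
    have : g t = F t (fun s _ => g s) := wf.fix_eq F t
    rw [this]
    simp only [F, exists_prop]
  have key : ∀ t, Good t {p | ∃ s, r s t ∧ g s = some p} (g t) := by
    intro t
    induction t using wf.induction with
    | _ t ih =>
      rw [hg t]
      apply Classical.epsilon_spec (p := Good t {p | ∃ s, r s t ∧ g s = some p})
      have hR : ∀ p ∈ {p | ∃ s, r s t ∧ g s = some p}, ∀ q ∈ {p | ∃ s, r s t ∧ g s = some p},
          R p q := by
        rintro p ⟨s, hs, hp⟩ q ⟨s', hs', hq⟩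
        have h1 := ih s hs
        have h2 := ih s' hs'
        rw [hp] at h1; rw [hq] at h2
        rcases trichotomous_of r s s' with h | h | h
        · exact (h2.2.2.1 p ⟨s, h, hp⟩).1
        · subst h
          rw [hp] at hq
          obtain rfl : p = q := Option.some.inj hq
          exact h1.2.1
        · exact (h1.2.2.1 q ⟨s', h, hq⟩).2
      have hB : ∀ p ∈ {p | ∃ s, r s t ∧ g s = some p}, ∃ s, r s t ∧ Bd s p := by
        rintro p ⟨s, hs, hp⟩
        have h1 := ih s hs
        rw [hp] at h1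
        exact ⟨s, hs, h1.1⟩
      rcases step t _ (hSm t g) hR hB with h | ⟨n, hn⟩
      · exact ⟨none, h⟩
      · exact ⟨some n, hn⟩
  refine ⟨{p | ∃ s, g s = some p}, ?_, ?_⟩
  · rintro p ⟨s, hp⟩ q ⟨s', hq⟩
    have h1 := key s
    have h2 := key s'
    rw [hp] at h1; rw [hq] at h2
    rcases trichotomous_of r s s' with h | h | h
    · exact (h2.2.2.1 p ⟨s, h, hp⟩).1
    · subst h
      rw [hp] at hq
      obtain rfl : p = q := Option.some.inj hq
      exact h1.2.1
    · exact (h1.2.2.1 q ⟨s', h, hq⟩).2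
  · intro t
    have h1 := key t
    cases hgt : g t with
    | none =>
      rw [hgt] at h1
      refine hSol t _ _ ?_ h1
      rintro p ⟨s, _, hp⟩
      exact ⟨s, hp⟩
    | some n =>
      rw [hgt] at h1
      refine hSol t _ _ ?_ h1.2.2.2
      rintro p (rfl | ⟨s, _, hp⟩)
      · exact ⟨t, hgt⟩
      · exact ⟨s, hp⟩

end Crest.Agent.H6.Mat
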