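import Mathlib

set_option autoImplicit false

namespace Crest.Agent.H6.Mat

open Set Filter

/-- A partition of a type into finite blocks of rapidly growing size. -/
structure Blk (α : Type*) where
  blk : α → ℕ
  J : ℕ → Finset α
  mem_J : ∀ a j, a ∈ J j ↔ blk a = j
  pos : ∀ j, 0 < (J j).card
  mono : Monotone fun j => (J j).card
  grow : ∀ m, ∀ᶠ k in atTop, m * (∑ j ∈ Finset.range k, (J j).card + 1) ≤ (J k).card

namespace Blk

variable {α : Type*} (B : Blk α)

def s (j : ℕ) : ℕ := (B.J j).card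

open Classical in
noncomputable def c (j : ℕ) (Z : Set α) : ℕ := ((B.J j).filter (· ∈ Z)).card

def Negl (Z : Set α) : Prop := ∀ m : ℕ, ∀ᶠ j in atTop, m * B.c j Z < B.s j

theorem s_pos (j : ℕ) : 0 < B.s j := B.pos j

theorem c_congr {j : ℕ} {Z Z' : Set α} (h : ∀ a, B.blk a = j → (a ∈ Z ↔ a ∈ Z')) :
    B.c j Z = B.c j Z' := by
  classical
  unfold c
  congr 1
  ext a
  simp only [Finset.mem_filter, B.mem_J]
  constructor
  · rintro ⟨h1, h2⟩; exact ⟨h1, (h a h1).1 h2⟩
  · rintro ⟨h1, h2⟩; exact ⟨h1, (h a h1).2 h2⟩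

theorem c_mono (j : ℕ) {Z Z' : Set α} (h : Z ⊆ Z') : B.c j Z ≤ B.c j Z' := by
  classical
  unfold c
  apply Finset.card_le_card
  intro a
  simp only [Finset.mem_filter]
  rintro ⟨h1, h2⟩; exact ⟨h1, h h2⟩

theorem c_le (j : ℕ) (Z : Set α) : B.c j Z ≤ B.s j := by
  classical
  unfold c s
  exact Finset.card_filter_le _ _

theorem c_univ (j : ℕ) : B.c j univ = B.s j := by
  classical
  unfold c s
  simp

theorem c_empty (j : ℕ) : B.c j ∅ = 0 := by
  classical
  unfold c
  simp

theorem c_union_le (j : ℕ) (Z Z' : Set α) : B.c j (Z ∪ Z') ≤ B.c j Z + B.c j Z' := by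
  classical
  unfold c
  refine le_trans (Finset.card_le_card ?_) (Finset.card_union_le _ _)
  intro a
  simp only [Finset.mem_filter, Finset.mem_union, mem_union]
  tauto

theorem c_insert_ne {j : ℕ} {x : α} (Z : Set α) (h : B.blk x ≠ j) :
    B.c j (insert x Z) = B.c j Z := by
  apply B.c_congr
  intro a ha
  simp only [mem_insert_iff]
  constructor
  · rintro (rfl | h')
    · exact absurd ha h
    · exact h'
  · exact Or.inr

theorem c_insert_eq {j : ℕ} {x : α} {Z : Set α} (h : B.blk x = j) (hx : x ∉ Z) :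
    B.c j (insert x Z) = B.c j Z + 1 := by
  classical
  unfold c
  rw [← Finset.card_insert_of_notMem (a := x) (by simp [hx])]
  congr 1
  ext a
  simp only [Finset.mem_filter, Finset.mem_insert, mem_insert_iff, B.mem_J]
  constructor
  · rintro ⟨h1, rfl | h2⟩
    · exact Or.inl rfl
    · exact Or.inr ⟨h1, h2⟩
  · rintro (rfl | ⟨h1, h2⟩)
    · exact ⟨h, Or.inl rfl⟩
    · exact ⟨h1, Or.inr h2⟩

theorem c_insert_le (j : ℕ) (x : α) (Z : Set α) : B.c j (insert x Z) ≤ B.c j Z + 1 := by
  by_cases hx : x ∈ Z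
  · rw [insert_eq_of_mem hx]; omega
  · by_cases h : B.blk x = j
    · rw [B.c_insert_eq h hx]
    · rw [B.c_insert_ne Z h]; omega

theorem Negl.mono {B : Blk α} {Z Z' : Set α} (h : B.Negl Z') (hs : Z ⊆ Z') : B.Negl Z := by
  intro m
  filter_upwards [h m] with j hj
  exact lt_of_le_of_lt (Nat.mul_le_mul_left _ (B.c_mono j hs)) hj

theorem Negl.union {B : Blk α} {Z Z' : Set α} (h : B.Negl Z) (h' : B.Negl Z') :
    B.Negl (Z ∪ Z') := by
  intro m
  filter_upwards [h (2 * m), h' (2 * m)] with j h1 h2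
  have := Nat.mul_le_mul_left m (B.c_union_le j Z Z')
  nlinarith

theorem negl_empty : B.Negl ∅ := by
  intro m
  exact Eventually.of_forall fun j => by rw [B.c_empty]; simpa using B.s_pos j

theorem negl_singleton (x : α) : B.Negl {x} := by
  intro m
  filter_upwards [eventually_gt_atTop (B.blk x)] with j hj
  have : B.c j {x} = B.c j ∅ := by
    have := B.c_insert_ne (j := j) (x := x) ∅ (by omega)
    simpa using this
  rw [this, B.c_empty]; simpa using B.s_pos j

theorem not_negl_univ : ¬ B.Negl univ := by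
  intro h
  obtain ⟨j, hj⟩ := (h 1).exists
  rw [B.c_univ] at hj
  omega

noncomputable def past (k : ℕ) (Z : Set α) : ℕ := ∑ j ∈ Finset.range k, B.c j Z

noncomputable def term (k j : ℕ) (Z : Set α) : ℕ := B.s k * B.c (k + j) Z / B.s (k + j)

noncomputable def fut (k : ℕ) (Z : Set α) : ℕ := ⨆ j, B.term k j Z

noncomputable def H (k : ℕ) (Z : Set α) : ℕ := B.past k Z + B.fut k Z

theorem term_le (k j : ℕ) (Z : Set α) : B.term k j Z ≤ B.s k := by
  unfold term
  apply Nat.div_le_of_le_mul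
  rw [mul_comm (B.s (k + j))]
  exact Nat.mul_le_mul_left _ (B.c_le _ _)

theorem bdd (k : ℕ) (Z : Set α) : BddAbove (range fun j => B.term k j Z) :=
  ⟨B.s k, by rintro _ ⟨j, rfl⟩; exact B.term_le k j Z⟩

theorem term_le_fut (k j : ℕ) (Z : Set α) : B.term k j Z ≤ B.fut k Z :=
  le_ciSup (B.bdd k Z) j

theorem fut_le {k : ℕ} {Z : Set α} {n : ℕ} (h : ∀ j, B.term k j Z ≤ n) : B.fut k Z ≤ n :=
  ciSup_le h

theorem H_mono (k : ℕ) {Z Z' : Set α} (h : Z ⊆ Z') : B.H k Z ≤ B.H k Z' := by
  unfold H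
  refine add_le_add (Finset.sum_le_sum fun j _ => B.c_mono j h) (B.fut_le fun j => ?_)
  refine le_trans ?_ (B.term_le_fut k j Z')
  exact Nat.div_le_div_right (Nat.mul_le_mul_left _ (B.c_mono _ h))

theorem H_insert_eq {k : ℕ} {x : α} {Z : Set α} (hk : B.blk x < k) (hx : x ∉ Z) :
    B.H k (insert x Z) = B.H k Z + 1 := by
  have h1 : B.fut k (insert x Z) = B.fut k Z := by
    unfold fut term
    congr 1
    ext j
    rw [B.c_insert_ne Z (by omega)]
  have h2 : B.past k (insert x Z) = B.past k Z + 1 := by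
    unfold past
    have : ∀ j ∈ Finset.range k, B.c j (insert x Z) =
        B.c j Z + if B.blk x = j then 1 else 0 := by
      intro j _
      split_ifs with h
      · exact B.c_insert_eq h hx
      · exact B.c_insert_ne Z h
    rw [Finset.sum_congr rfl this, Finset.sum_add_distrib, Finset.sum_ite_eq]
    simp [hk]
  unfold H
  omega

theorem H_insert_le (k : ℕ) (x : α) (Z : Set α) : B.H k (insert x Z) ≤ B.H k Z + 1 := by
  by_cases hx : x ∈ Z
  · rw [insert_eq_of_mem hx]; omega
  by_cases hk : B.blk x < k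
  · rw [B.H_insert_eq hk hx]
  have h2 : B.past k (insert x Z) = B.past k Z := by
    unfold past
    refine Finset.sum_congr rfl fun j hj => B.c_insert_ne Z ?_
    have := Finset.mem_range.1 hj
    omega
  have h1 : B.fut k (insert x Z) ≤ B.fut k Z + 1 := by
    refine B.fut_le fun j => le_trans ?_ (Nat.add_le_add_right (B.term_le_fut k j Z) 1)
    unfold term
    have h3 : B.s k ≤ B.s (k + j) := B.mono (Nat.le_add_right k j)
    rw [← Nat.add_div_right _ (B.s_pos (k + j))]
    apply Nat.div_le_div_right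
    have := Nat.mul_le_mul_left (B.s k) (B.c_insert_le (k + j) x Z)
    nlinarith
  unfold H
  omega

theorem H_local {W : Set α} (hW : B.Negl W) (k : ℕ) : ∃ j0, ∀ Z Z' : Set α, Z ⊆ W → Z' ⊆ W →
    (∀ a, B.blk a < j0 → (a ∈ Z ↔ a ∈ Z')) → B.H k Z = B.H k Z' := by
  obtain ⟨j1, hj1⟩ := eventually_atTop.1 (hW (B.s k))
  refine ⟨max j1 k, fun Z Z' hZ hZ' h => ?_⟩
  have hc : ∀ j, j < max j1 k → B.c j Z = B.c j Z' := fun j hj =>
    B.c_congr fun a ha => h a (by omega)
  have h0 : ∀ (Y : Set α) j, Y ⊆ W → j1 ≤ k + j → B.term k j Y = 0 := by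
    intro Y j hY hj
    unfold term
    apply Nat.div_eq_of_lt
    exact lt_of_le_of_lt (Nat.mul_le_mul_left _ (B.c_mono _ hY)) (hj1 _ hj)
  have h1 : B.fut k Z = B.fut k Z' := by
    unfold fut
    congr 1
    ext j
    by_cases hj : j1 ≤ k + j
    · rw [h0 Z j hZ hj, h0 Z' j hZ' hj]
    · unfold term
      rw [hc _ (by omega)]
  have h2 : B.past k Z = B.past k Z' := by
    unfold past
    refine Finset.sum_congr rfl fun j hj => hc j ?_
    have := Finset.mem_range.1 hj
    omega
  unfold H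
  omega

theorem H_small {P : Set α} (hP : B.Negl P) (m : ℕ) :
    ∀ᶠ k in atTop, m * (B.H k P + 1) ≤ B.s k := by
  obtain ⟨j1, hj1⟩ := eventually_atTop.1 (hP (2 * m))
  filter_upwards [B.grow (2 * m), eventually_ge_atTop j1] with k h1 h2
  have h3 : B.past k P ≤ ∑ j ∈ Finset.range k, (B.J j).card :=
    Finset.sum_le_sum fun j _ => B.c_le j P
  have h4 : 2 * m * B.fut k P ≤ B.s k := by
    rcases Nat.eq_zero_or_pos m with rfl | hm
    · simp
    have : B.fut k P ≤ B.s k / (2 * m) := by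
      refine B.fut_le fun j => ?_
      rw [Nat.le_div_iff_mul_le (by omega)]
      have h5 := hj1 (k + j) (by omega)
      have h6 : B.term k j P * B.s (k + j) ≤ B.s k * B.c (k + j) P := Nat.div_mul_le_self _ _
      have h7 := B.s_pos (k + j)
      have h8 : B.term k j P * (2 * m) * B.s (k + j) ≤ B.s k * B.s (k + j) := by
        calc B.term k j P * (2 * m) * B.s (k + j)
            = (2 * m) * (B.term k j P * B.s (k + j)) := by ring
          _ ≤ (2 * m) * (B.s k * B.c (k + j) P) := Nat.mul_le_mul_left _ h6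
          _ = B.s k * (2 * m * B.c (k + j) P) := by ring
          _ ≤ B.s k * B.s (k + j) := Nat.mul_le_mul_left _ h5.le
      exact Nat.le_of_mul_le_mul_right h8 h7
    calc 2 * m * B.fut k P ≤ 2 * m * (B.s k / (2 * m)) := Nat.mul_le_mul_left _ this
      _ ≤ B.s k := Nat.mul_div_le _ _
  have h5 : 2 * m * (B.past k P + 1) ≤ B.s k :=
    le_trans (Nat.mul_le_mul_left _ (by omega)) h1
  unfold H
  nlinarith

theorem s_large (m : ℕ) : ∀ᶠ k in atTop, m ≤ B.s k := by
  filter_upwards [B.grow m] with k hk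
  exact le_trans (Nat.le_mul_of_pos_right _ (by omega)) hk

theorem dominate (h : ℕ → ℕ) (hh : ∀ m, ∀ᶠ k in atTop, m * h k ≤ B.s k) {W : Set α}
    (hW : ¬ B.Negl W) : ∃ N, N ⊆ W ∧ B.Negl N ∧ ∀ᶠ k in atTop, h k ≤ B.H k N := by
  classical
  unfold Negl at hW
  push Not at hW
  obtain ⟨m, hm⟩ := hW
  have hgood : ∀ k, ∃ j, k ≤ j ∧ B.s j ≤ m * B.c j W := by
    intro k
    obtain ⟨j, h1, h2⟩ := frequently_atTop.1 hm k
    exact ⟨j, h1, h2⟩
  let P : ℕ → ℕ → Prop := fun j r =>
    ∀ k, k ≤ j → (∀ i, k ≤ i → i < j → ¬ B.s i ≤ m * B.c i W) → r * h k ≤ B.s k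
  let r : ℕ → ℕ := fun j => Nat.findGreatest (P j) j
  have hr1 : ∀ j, P j (r j) := fun j =>
    Nat.findGreatest_spec (P := P j) (m := 0) (Nat.zero_le _) (fun k _ _ => by simp)
  have hr2 : ∀ r0, ∀ᶠ j in atTop, r0 ≤ r j := by
    intro r0
    obtain ⟨K, hK⟩ := eventually_atTop.1 (hh r0)
    obtain ⟨g, hg1, hg2⟩ := hgood K
    filter_upwards [eventually_gt_atTop g, eventually_ge_atTop r0] with j h1 h2
    refine Nat.le_findGreatest h2 ?_
    intro k hk hno
    apply hK
    by_contra hlt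
    exact hno g (by omega) h1 hg2
  have hch : ∀ j, ∃ F : Finset α, F ⊆ (B.J j).filter (· ∈ W) ∧
      F.card = min (B.c j W) (B.s j / r j + 1) := by
    intro j
    apply Finset.exists_subset_card_eq
    exact min_le_left _ _
  choose F hF1 hF2 using hch
  let N : Set α := {a | a ∈ F (B.blk a)}
  have hcN : ∀ j, B.c j N = (F j).card := by
    intro j
    unfold c
    congr 1
    ext a
    simp only [Finset.mem_filter, B.mem_J, N, mem_setOf_eq]
    constructor
    · rintro ⟨rfl, h2⟩; exact h2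
    · intro ha
      have h1 := (B.mem_J a j).1 (Finset.mem_filter.1 (hF1 j ha)).1
      exact ⟨h1, h1 ▸ ha⟩
  refine ⟨N, fun a ha => (Finset.mem_filter.1 (hF1 _ ha)).2, ?_, ?_⟩
  · intro m'
    filter_upwards [hr2 (2 * m' + 1), B.s_large (2 * m' + 1)] with j h1 h2
    rw [hcN, hF2]
    have h3 : B.s j / r j * r j ≤ B.s j := Nat.div_mul_le_self _ _
    have h4 : B.s j / r j * (2 * m' + 1) ≤ B.s j := le_trans (Nat.mul_le_mul_left _ h1) h3
    have h5 : min (B.c j W) (B.s j / r j + 1) ≤ B.s j / r j + 1 := min_le_right _ _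
    have h6 := Nat.mul_le_mul_left m' h5
    nlinarith [Nat.zero_le (B.s j / r j)]
  · obtain ⟨K, hK⟩ := eventually_atTop.1 (hr2 (m + 1))
    filter_upwards [eventually_ge_atTop K] with k hk
    let j := Nat.find (hgood k)
    have hj : k ≤ j ∧ B.s j ≤ m * B.c j W := Nat.find_spec (hgood k)
    have hmin : ∀ i, k ≤ i → i < j → ¬ B.s i ≤ m * B.c i W := fun i h1 h2 h3 =>
      Nat.find_min (hgood k) h2 ⟨h1, h3⟩
    have h1 : r j * h k ≤ B.s k := hr1 j k hj.1 hmin
    have h2 : m + 1 ≤ r j := hK j (by omega)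
    have h3 : B.s j ≤ r j * B.c j N := by
      rw [hcN, hF2]
      rcases le_total (B.c j W) (B.s j / r j + 1) with h4 | h4
      · rw [min_eq_left h4]
        exact le_trans hj.2 (Nat.mul_le_mul_right _ (by omega))
      · rw [min_eq_right h4]
        have := Nat.lt_mul_div_succ (B.s j) (show 0 < r j by omega)
        exact this.le
    have h4 : h k ≤ B.term k (j - k) N := by
      unfold term
      rw [show k + (j - k) = j by omega, Nat.le_div_iff_mul_le (B.s_pos j)]
      calc h k * B.s j ≤ h k * (r j * B.c j N) := Nat.mul_le_mul_left _ h3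
        _ = (r j * h k) * B.c j N := by ring
        _ ≤ B.s k * B.c j N := Nat.mul_le_mul_right _ h1
    have h5 := B.term_le_fut k (j - k) N
    unfold H
    omega

end Blk

end Crest.Agent.H6.Mat
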