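import Crest.Agent.H6.MatA
import Crest.Agent.H6.MatB

set_option autoImplicit false

namespace Crest.Agent.H6.Mat

open Set Filter

namespace Blk

variable {α : Type*} (B : Blk α)

/-- inclusion modulo negligible sets -/
def le (X Y : Set α) : Prop := B.Negl (X \ Y)

theorem le_of_subset {X Y : Set α} (h : X ⊆ Y) : B.le X Y := by
  unfold le
  rw [diff_eq_empty.2 h]; exact B.negl_empty

theorem le_refl (X : Set α) : B.le X X := B.le_of_subset subset_rfl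

theorem le.trans {B : Blk α} {X Y Z : Set α} (h1 : B.le X Y) (h2 : B.le Y Z) : B.le X Z := by
  refine (Negl.union h1 h2).mono ?_
  intro a ha
  by_cases h : a ∈ Y
  · exact Or.inr ⟨h, ha.2⟩
  · exact Or.inl ⟨ha.1, h⟩

theorem le_compl {X Y : Set α} : B.le Xᶜ Yᶜ ↔ B.le Y X := by
  unfold le
  have : Xᶜ \ Yᶜ = Y \ X := by ext a; simp [and_comm]
  rw [this]

theorem le_insert (x : α) (A : Set α) : B.le (insert x A) A := by
  refine (B.negl_singleton x).mono ?_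
  rintro a ⟨rfl | h, h2⟩
  · rfl
  · exact absurd h h2

noncomputable def F (G : Set α) (k : ℕ) (A : Set α) : ℤ := (B.H k (A \ G) : ℤ) - B.H k (G \ A)

def Le (G A : Set α) : Prop := ∀ᶠ k in atTop, B.F G k A ≤ 0

def Ge (G A : Set α) : Prop := ∃ᶠ k in atTop, 0 ≤ B.F G k A

theorem F_mono (G : Set α) (k : ℕ) {A A' : Set α} (h : A ⊆ A') : B.F G k A ≤ B.F G k A' := by
  unfold F
  have h1 := B.H_mono k (diff_subset_diff_left (t := G) h)
  have h2 := B.H_mono k (diff_subset_diff_right (s := G) h)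
  omega

theorem diff_cases (G A : Set α) (x : α) (hx : x ∉ A) :
    (x ∈ G ∧ insert x A \ G = A \ G ∧ G \ A = insert x (G \ insert x A) ∧ x ∉ G \ insert x A) ∨
    (insert x A \ G = insert x (A \ G) ∧ G \ insert x A = G \ A ∧ x ∉ A \ G) := by
  by_cases h : x ∈ G
  · left
    refine ⟨h, ?_, ?_, by simp⟩
    · ext a
      simp only [mem_diff, mem_insert_iff]
      constructor
      · rintro ⟨rfl | h1, h2⟩
        · exact absurd h h2
        · exact ⟨h1, h2⟩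
      · rintro ⟨h1, h2⟩; exact ⟨Or.inr h1, h2⟩
    · ext a
      simp only [mem_diff, mem_insert_iff, not_or]
      constructor
      · rintro ⟨h1, h2⟩
        by_cases h3 : a = x
        · exact Or.inl h3
        · exact Or.inr ⟨h1, h3, h2⟩
      · rintro (rfl | ⟨h1, _, h2⟩)
        · exact ⟨h, hx⟩
        · exact ⟨h1, h2⟩
  · right
    refine ⟨?_, ?_, fun h => hx h.1⟩
    · ext a
      simp only [mem_diff, mem_insert_iff]
      constructor
      · rintro ⟨rfl | h1, h2⟩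
        · exact Or.inl rfl
        · exact Or.inr ⟨h1, h2⟩
      · rintro (rfl | ⟨h1, h2⟩)
        · exact ⟨Or.inl rfl, h⟩
        · exact ⟨Or.inr h1, h2⟩
    · ext a
      simp only [mem_diff, mem_insert_iff, not_or]
      constructor
      · rintro ⟨h1, _, h2⟩; exact ⟨h1, h2⟩
      · rintro ⟨h1, h2⟩
        exact ⟨h1, fun h3 => h (h3 ▸ h1), h2⟩

theorem F_insert_le (G : Set α) (k : ℕ) (A : Set α) (x : α) (hx : x ∉ A) :
    B.F G k (insert x A) ≤ B.F G k A + 1 := by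
  unfold F
  rcases diff_cases G A x hx with ⟨_, h1, h2, h3⟩ | ⟨h1, h2, h3⟩
  · rw [h1]
    have := B.H_insert_le k x (G \ insert x A)
    rw [← h2] at this
    omega
  · rw [h1, h2]
    have := B.H_insert_le k x (A \ G)
    omega

theorem F_insert_eq (G : Set α) (A : Set α) (x : α) (hx : x ∉ A) :
    ∀ᶠ k in atTop, B.F G k (insert x A) = B.F G k A + 1 := by
  filter_upwards [eventually_gt_atTop (B.blk x)] with k hk
  unfold F
  rcases diff_cases G A x hx with ⟨_, h1, h2, h3⟩ | ⟨h1, h2, h3⟩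
  · rw [h1]
    have := B.H_insert_eq hk h3
    rw [← h2] at this
    omega
  · rw [h1, h2]
    have := B.H_insert_eq hk h3
    omega

theorem Le_insert_iff (G A : Set α) (x : α) (hx : x ∉ A) :
    B.Le G (insert x A) ↔ ¬ B.Ge G A := by
  unfold Le Ge
  rw [not_frequently]
  refine eventually_congr ?_
  filter_upwards [B.F_insert_eq G A x hx] with k hk
  rw [hk]; omega

theorem Le.mono {B : Blk α} {G A A' : Set α} (h : B.Le G A') (hs : A ⊆ A') : B.Le G A := by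
  filter_upwards [h] with k hk
  exact le_trans (B.F_mono G k hs) hk

theorem Ge.mono {B : Blk α} {G A A' : Set α} (h : B.Ge G A) (hs : A ⊆ A') : B.Ge G A' :=
  Frequently.mono h fun k hk => le_trans hk (B.F_mono G k hs)

theorem Le_of_not_Ge {G A : Set α} (h : ¬ B.Ge G A) : B.Le G A := by
  unfold Ge at h
  rw [not_frequently] at h
  filter_upwards [h] with k hk
  omega

theorem F_local {G I X : Set α} (hX : B.le X G) (hI : B.le G I) (k : ℕ) :
    ∃ j0, ∀ A A' : Set α, I ⊆ A → A ⊆ X → I ⊆ A' → A' ⊆ X →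
      (∀ a, B.blk a < j0 → (a ∈ A ↔ a ∈ A')) → B.F G k A = B.F G k A' := by
  obtain ⟨j1, h1⟩ := B.H_local hX k
  obtain ⟨j2, h2⟩ := B.H_local hI k
  refine ⟨max j1 j2, fun A A' a1 a2 a3 a4 h => ?_⟩
  unfold F
  rw [h1 (A \ G) (A' \ G) (diff_subset_diff_left a2) (diff_subset_diff_left a4),
    h2 (G \ A) (G \ A') (diff_subset_diff_right a1) (diff_subset_diff_right a3)]
  · intro a ha
    simp only [mem_diff, h a (by omega)]
  · intro a ha
    simp only [mem_diff, h a (by omega)]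

theorem finite_below (j0 : ℕ) : {a | B.blk a < j0}.Finite := by
  classical
  refine (Finset.finite_toSet ((Finset.range j0).biUnion B.J)).subset ?_
  intro a ha
  simp only [Finset.coe_biUnion, Finset.coe_range, mem_iUnion]
  exact ⟨B.blk a, ha, (B.mem_J a _).2 rfl⟩

theorem internal_fin (G X : Set α) (hX : ¬ B.Le G X) (n : ℕ) :
    ∀ I : Set α, I ⊆ X → (X \ I).Finite → (X \ I).ncard = n → B.Le G I →
      ∃ A, I ⊆ A ∧ A ⊆ X ∧ B.Le G A ∧ B.Ge G A := by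
  induction n with
  | zero =>
    intro I hIX hfin hn hI
    rw [ncard_eq_zero hfin, diff_eq_empty] at hn
    exact absurd (hI.mono hn) hX
  | succ n ih =>
    intro I hIX hfin hn hI
    by_cases hG : B.Ge G I
    · exact ⟨I, subset_rfl, hIX, hI, hG⟩
    obtain ⟨x, hx⟩ : (X \ I).Nonempty := by
      rw [← ncard_pos hfin]; omega
    have h1 : X \ insert x I = (X \ I) \ {x} := by
      ext a; simp only [mem_diff, mem_insert_iff, mem_singleton_iff, not_or]; tauto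
    obtain ⟨A, h2, h3⟩ := ih (insert x I) (insert_subset hx.1 hIX)
      (by rw [h1]; exact hfin.subset diff_subset)
      (by rw [h1, ncard_diff_singleton_of_mem hx]; omega)
      ((B.Le_insert_iff G I x hx.2).2 hG)
    exact ⟨A, (subset_insert x I).trans h2, h3⟩

theorem internal {G I X : Set α} (hIX : I ⊆ X) (hXG : B.le X G) (hGI : B.le G I)
    (hI : B.Le G I) (hX : ¬ B.Le G X) : ∃ A, I ⊆ A ∧ A ⊆ X ∧ B.Le G A ∧ B.Ge G A := by
  obtain ⟨k0, hk0⟩ := eventually_atTop.1 hI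
  let S : Set (Set α) := {A | I ⊆ A ∧ A ⊆ X ∧ ∀ k, k0 ≤ k → B.F G k A ≤ 0}
  have hz : ∀ c ⊆ S, IsChain (· ⊆ ·) c → c.Nonempty → ∃ ub ∈ S, ∀ s ∈ c, s ⊆ ub := by
    intro c hc hch hne
    obtain ⟨A0, hA0⟩ := hne
    have hU1 : I ⊆ ⋃₀ c := (hc hA0).1.trans (subset_sUnion_of_mem hA0)
    have hU2 : ⋃₀ c ⊆ X := sUnion_subset fun A hA => (hc hA).2.1
    refine ⟨⋃₀ c, ⟨hU1, hU2, fun k hk => ?_⟩, fun s hs => subset_sUnion_of_mem hs⟩
    obtain ⟨j0, hj0⟩ := B.F_local hXG hGI k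
    have hfin : (⋃₀ c ∩ {a | B.blk a < j0}).Finite := (B.finite_below j0).subset inter_subset_right
    obtain ⟨A, hA, hsub⟩ : ∃ A ∈ c, ⋃₀ c ∩ {a | B.blk a < j0} ⊆ A :=
      (hch.directedOn).exists_mem_subset_of_finite_of_subset_sUnion ⟨A0, hA0⟩ hfin
        inter_subset_left
    rw [hj0 (⋃₀ c) A hU1 hU2 (hc hA).1 (hc hA).2.1]
    · exact (hc hA).2.2 k hk
    · intro a ha
      exact ⟨fun h => hsub ⟨h, ha⟩, fun h => subset_sUnion_of_mem hA h⟩
  obtain ⟨A, hIA, hA⟩ := zorn_subset_nonempty S hz I ⟨subset_rfl, hIX, hk0⟩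
  have hAS : A ∈ S := hA.prop
  have hLe : B.Le G A := eventually_atTop.2 ⟨k0, hAS.2.2⟩
  by_cases hfin : (X \ A).Finite
  · obtain ⟨A', h1, h2⟩ := B.internal_fin G X hX _ A hAS.2.1 hfin rfl hLe
    exact ⟨A', hIA.trans h1, h2⟩
  refine ⟨A, hIA, hAS.2.1, hLe, ?_⟩
  unfold Ge
  rw [frequently_atTop]
  intro K
  have hloc := fun k => B.F_local hXG hGI k
  choose j0 hj0 using hloc
  obtain ⟨x, hx, hxb⟩ : ∃ x ∈ X \ A, ¬ B.blk x < (Finset.range K).sup j0 := by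
    by_contra hne
    push Not at hne
    exact hfin ((B.finite_below _).subset fun a ha => hne a ha)
  have hnot : insert x A ∉ S := fun h => hx.2 (hA.2 h (subset_insert x A) (mem_insert x A))
  have hx1 : I ⊆ insert x A := hIA.trans (subset_insert x A)
  have hx2 : insert x A ⊆ X := insert_subset hx.1 hAS.2.1
  obtain ⟨k, hk, hFk⟩ : ∃ k, k0 ≤ k ∧ 0 < B.F G k (insert x A) := by
    by_contra hne
    push Not at hne
    exact hnot ⟨hx1, hx2, hne⟩
  have h1 := B.F_insert_le G k A x hx.2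
  refine ⟨k, ?_, by omega⟩
  by_contra hkK
  have h2 : j0 k ≤ (Finset.range K).sup j0 := Finset.le_sup (f := j0) (Finset.mem_range.2 (by omega))
  have h3 := hj0 k (insert x A) A hx1 hx2 hIA hAS.2.1 (by
    intro a ha
    simp only [mem_insert_iff]
    constructor
    · rintro (rfl | h)
      · omega
      · exact h
    · exact Or.inr)
  have h4 := hAS.2.2 k hk
  omega

theorem up {G A X : Set α} (hAG : B.le A G) (hGA : B.le G A) (hAX : A ⊆ X)
    (hn : ¬ B.le X A) : ∃ A', A ⊆ A' ∧ A' ⊆ X ∧ B.le A' G ∧ ¬ B.Le G A' := by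
  have hW : ¬ B.Negl ((X \ A) \ G) := by
    intro h
    apply hn
    refine (h.union hGA).mono ?_
    intro a ha
    by_cases hG : a ∈ G
    · exact Or.inr ⟨hG, ha.2⟩
    · exact Or.inl ⟨ha, hG⟩
  obtain ⟨N, h1, h2, h3⟩ := B.dominate (fun k => B.H k (G \ A) + 1) (B.H_small hGA) hW
  refine ⟨A ∪ N, subset_union_left, union_subset hAX fun a ha => (h1 ha).1.1, ?_, ?_⟩
  · refine (Negl.union hAG h2).mono ?_
    rintro a ⟨ha | ha, hG⟩
    · exact Or.inl ⟨ha, hG⟩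
    · exact Or.inr ha
  · intro hLe
    obtain ⟨k, hk1, hk2⟩ := (h3.and hLe).exists
    unfold F at hk2
    have h4 := B.H_mono k (show N ⊆ (A ∪ N) \ G from fun a ha => ⟨Or.inr ha, (h1 ha).2⟩)
    have h5 := B.H_mono k (show G \ (A ∪ N) ⊆ G \ A from
      diff_subset_diff_right subset_union_left)
    omega

theorem down {G A I : Set α} (hAG : B.le A G) (hGA : B.le G A) (hIA : I ⊆ A)
    (hn : ¬ B.le A I) : ∃ A', I ⊆ A' ∧ A' ⊆ A ∧ B.le G A' ∧ ¬ B.Ge G A' := by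
  have hW : ¬ B.Negl ((A \ I) ∩ G) := by
    intro h
    apply hn
    refine (h.union hAG).mono ?_
    intro a ha
    by_cases hG : a ∈ G
    · exact Or.inl ⟨ha, hG⟩
    · exact Or.inr ⟨ha.1, hG⟩
  obtain ⟨N, h1, h2, h3⟩ := B.dominate (fun k => B.H k (A \ G) + 1) (B.H_small hAG) hW
  refine ⟨A \ N, fun a ha => ⟨hIA ha, fun h => (h1 h).1.2 ha⟩, diff_subset, ?_, ?_⟩
  · refine (Negl.union hGA h2).mono ?_
    rintro a ⟨hG, ha⟩
    by_cases h : a ∈ N
    · exact Or.inr h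
    · exact Or.inl ⟨hG, fun h' => ha ⟨h', h⟩⟩
  · intro hGe
    obtain ⟨k, hk1, hk2⟩ := (hGe.and_eventually h3).exists
    unfold F at hk1
    have h4 := B.H_mono k (show N ⊆ G \ (A \ N) from fun a ha => ⟨(h1 ha).2, fun h => h.2 ha⟩)
    have h5 := B.H_mono k (show (A \ N) \ G ⊆ A \ G from diff_subset_diff_left diff_subset)
    omega

/-- The matroid attached to a coarse family of complementary pairs. -/
theorem vertex (𝒢 : Set (Set α))
    (ha : ∀ b ∈ 𝒢, ∀ b' ∈ 𝒢, (B.le b b' → b = b') ∧ ¬ B.le b b'ᶜ ∧ ¬ B.le bᶜ b')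
    (hb : ∀ I X : Set α, I ⊆ X → ∃ b, (b ∈ 𝒢 ∨ bᶜ ∈ 𝒢) ∧
      ((B.le I b ∧ B.le b X) ∨ B.le X b ∨ B.le b I)) :
    ∃ M : Matroid α, M.E = univ ∧ (∀ A, M.IsBase A ↔ M.IsBase Aᶜ) ∧
      ∀ I, M.Indep I → ∃ b, (b ∈ 𝒢 ∨ bᶜ ∈ 𝒢) ∧ B.le I b := by
  let Lb : Set α → Set α → Prop := fun b A => (b ∈ 𝒢 ∧ B.Le b A) ∨ (bᶜ ∈ 𝒢 ∧ B.Ge bᶜ Aᶜ)
  let Lo : Set α → Prop := fun A => ∃ b, (b ∈ 𝒢 ∨ bᶜ ∈ 𝒢) ∧ B.le A b ∧ (B.le b A → Lb b A)
  have hex : ∀ b, b ∈ 𝒢 → bᶜ ∉ 𝒢 := fun b h1 h2 =>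
    (ha b h1 bᶜ h2).2.2 (B.le_refl _)
  have hanti : ∀ b b', (b ∈ 𝒢 ∨ bᶜ ∈ 𝒢) → (b' ∈ 𝒢 ∨ b'ᶜ ∈ 𝒢) → B.le b b' → b = b' := by
    rintro b b' (h1 | h1) (h2 | h2) h
    · exact (ha b h1 b' h2).1 h
    · exact absurd (by simpa using h) (ha b h1 b'ᶜ h2).2.1
    · exact absurd (by simpa using h) (ha bᶜ h1 b' h2).2.2
    · exact compl_injective ((ha b'ᶜ h2 bᶜ h1).1 (B.le_compl.2 h)).symm
  have hc : ∀ b, (b ∈ 𝒢 ∨ bᶜ ∈ 𝒢) → (bᶜ ∈ 𝒢 ∨ bᶜᶜ ∈ 𝒢) := by
    intro b h; rw [compl_compl]; exact h.symm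
  have hgerm : ∀ b A, (b ∈ 𝒢 ∨ bᶜ ∈ 𝒢) → B.le A b → B.le b A → (Lo A ↔ Lb b A) := by
    intro b A hb' h1 h2
    constructor
    · rintro ⟨b', hb'', h3, h4⟩
      obtain rfl := hanti b b' hb' hb'' (h2.trans h3)
      exact h4 h2
    · intro h
      exact ⟨b, hb', h1, fun _ => h⟩
  have hbelow : ∀ b A, (b ∈ 𝒢 ∨ bᶜ ∈ 𝒢) → B.le A b → ¬ B.le b A → Lo A :=
    fun b A hb' h1 h2 => ⟨b, hb', h1, fun h => absurd h h2⟩
  have habove : ∀ b A, (b ∈ 𝒢 ∨ bᶜ ∈ 𝒢) → B.le b A → ¬ B.le A b → ¬ Lo A := by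
    rintro b A hb' h1 h2 ⟨b', hb'', h3, _⟩
    obtain rfl := hanti b b' hb' hb'' (h1.trans h3)
    exact h2 h3
  have hLb1 : ∀ b A, b ∈ 𝒢 → (Lb b A ↔ B.Le b A) := fun b A h =>
    ⟨fun h' => h'.elim (fun h => h.2) (fun h' => absurd h'.1 (hex b h)), fun h' => Or.inl ⟨h, h'⟩⟩
  have hLb2 : ∀ b A, bᶜ ∈ 𝒢 → (Lb b A ↔ B.Ge bᶜ Aᶜ) := fun b A h =>
    ⟨fun h' => h'.elim (fun h' => absurd h (hex b h'.1)) (fun h => h.2), fun h' => Or.inr ⟨h, h'⟩⟩
  have hne : ∀ b, (b ∈ 𝒢 ∨ bᶜ ∈ 𝒢) → ¬ B.le b bᶜ := by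
    intro b h1 h2
    have := hanti b bᶜ h1 (hc b h1) h2
    rcases h1 with h1 | h1
    · exact hex b h1 (this ▸ h1)
    · exact hex bᶜ h1 (by rw [compl_compl, this]; exact h1)
  suffices hM : ∃ M : Matroid α, M.E = univ ∧ (∀ B, M.IsBase B ↔ M.IsBase Bᶜ) ∧
      ∀ I, M.Indep I → Lo I by
    obtain ⟨M, h1, h2, h3⟩ := hM
    refine ⟨M, h1, h2, fun I hI => ?_⟩
    obtain ⟨b, hb1, hb2, _⟩ := h3 I hI
    exact ⟨b, hb1, hb2⟩
  refine exists_selfdual Lo ?_ ?_ ?_ ?_ ?_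
  · rintro A A' hs ⟨b, hb1, hb2, hb3⟩
    refine ⟨b, hb1, (B.le_of_subset hs).trans hb2, fun h => ?_⟩
    rcases hb3 (h.trans (B.le_of_subset hs)) with h' | h'
    · exact Or.inl ⟨h'.1, h'.2.mono hs⟩
    · exact Or.inr ⟨h'.1, h'.2.mono (compl_subset_compl.2 hs)⟩
  · intro A x hx
    obtain ⟨b, hb1, hb2⟩ := hb A A subset_rfl
    have e1 := B.le_insert x A
    have e2 := B.le_of_subset (subset_insert x A)
    by_cases h1 : B.le A b
    · by_cases h2 : B.le b A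
      · rw [hgerm b _ hb1 (e1.trans h1) (h2.trans e2),
          hgerm bᶜ _ (hc b hb1) (B.le_compl.2 h2) (B.le_compl.2 h1)]
        rcases hb1 with hb1 | hb1
        · rw [hLb1 b _ hb1, hLb2 bᶜ _ (by simpa using hb1), compl_compl, compl_compl]
          exact B.Le_insert_iff b A x hx
        · rw [hLb2 b _ hb1, hLb1 bᶜ _ hb1]
          have h3 : Aᶜ = insert x (insert x A)ᶜ := by
            ext a
            simp only [mem_compl_iff, mem_insert_iff, not_or]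
            constructor
            · intro h
              by_cases h' : a = x
              · exact Or.inl h'
              · exact Or.inr ⟨h', h⟩
            · rintro (rfl | h)
              · exact hx
              · exact h.2
          have h4 := B.Le_insert_iff bᶜ (insert x A)ᶜ x (by simp)
          rw [← h3] at h4
          rw [h4, not_not]
      · refine ⟨fun _ => habove bᶜ _ (hc b hb1) (B.le_compl.2 h1) (fun h => h2 (B.le_compl.1 h)),
          fun _ => hbelow b _ hb1 (e1.trans h1) (fun h => h2 (h.trans e1))⟩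
    · have h2 : B.le b A := by tauto
      refine ⟨fun h => absurd h (habove b _ hb1 (h2.trans e2) (fun h => h1 (e2.trans h))),
        fun h => absurd (hbelow bᶜ _ (hc b hb1) (B.le_compl.2 h2)
          (fun h => h1 (B.le_compl.1 h))) h⟩
  · intro I X hIX hI hX
    obtain ⟨b, hb1, hb2⟩ := hb I X hIX
    obtain ⟨A, hA1, hA2, hA3, hA4⟩ : ∃ A, I ⊆ A ∧ A ⊆ X ∧ B.le A b ∧ B.le b A := by
      rcases hb2 with ⟨h1, h2⟩ | h | h
      · refine ⟨(b ∪ I) ∩ X, subset_inter subset_union_right hIX, inter_subset_right, ?_, ?_⟩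
        · refine Negl.mono h1 ?_
          rintro a ⟨⟨h3 | h3, _⟩, h4⟩
          · exact absurd h3 h4
          · exact ⟨h3, h4⟩
        · refine Negl.mono h2 ?_
          rintro a ⟨h3, h4⟩
          exact ⟨h3, fun h5 => h4 ⟨Or.inl h3, h5⟩⟩
      · refine ⟨X, hIX, subset_rfl, h, ?_⟩
        by_contra h'
        exact hX (hbelow b X hb1 h h')
      · refine ⟨I, subset_rfl, hIX, ?_, h⟩
        by_contra h'
        exact habove b I hb1 h h' hI
    obtain ⟨I', i1, i2, i3, i4⟩ : ∃ I', I ⊆ I' ∧ I' ⊆ A ∧ B.le b I' ∧ Lb b I' := by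
      by_cases h : B.le A I
      · exact ⟨I, subset_rfl, hA1, hA4.trans h,
          (hgerm b I hb1 ((B.le_of_subset hA1).trans hA3) (hA4.trans h)).1 hI⟩
      · rcases hb1 with hb1 | hb1
        · obtain ⟨I', i1, i2, i3, i4⟩ := B.down hA3 hA4 hA1 h
          exact ⟨I', i1, i2, i3, Or.inl ⟨hb1, B.Le_of_not_Ge i4⟩⟩
        · obtain ⟨I', i1, i2, i3, i4⟩ := B.up (B.le_compl.2 hA4) (B.le_compl.2 hA3)
            (compl_subset_compl.2 hA1) (fun h' => h (B.le_compl.1 h'))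
          refine ⟨I'ᶜ, subset_compl_comm.1 i2, compl_subset_comm.1 i1,
            B.le_compl.1 (by simpa using i3), Or.inr ⟨hb1, ?_⟩⟩
          rw [compl_compl]
          by_contra h'
          exact i4 (B.Le_of_not_Ge h')
    obtain ⟨X', x1, x2, x3, x4⟩ : ∃ X', A ⊆ X' ∧ X' ⊆ X ∧ B.le X' b ∧ ¬ Lb b X' := by
      by_cases h : B.le X A
      · exact ⟨X, hA2, subset_rfl, h.trans hA3, fun h' => hX
          ((hgerm b X hb1 (h.trans hA3) (hA4.trans (B.le_of_subset hA2))).2 h')⟩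
      · rcases hb1 with hb1 | hb1
        · obtain ⟨X', i1, i2, i3, i4⟩ := B.up hA3 hA4 hA2 h
          exact ⟨X', i1, i2, i3, fun h' => i4 ((hLb1 b _ hb1).1 h')⟩
        · obtain ⟨X', i1, i2, i3, i4⟩ := B.down (B.le_compl.2 hA4) (B.le_compl.2 hA3)
            (compl_subset_compl.2 hA2) (fun h' => h (B.le_compl.1 h'))
          refine ⟨X'ᶜ, subset_compl_comm.1 i2, compl_subset_comm.1 i1,
            B.le_compl.1 (by simpa using i3), fun h' => i4 ?_⟩
          simpa using (hLb2 b _ hb1).1 h'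
    have hfin : ∀ C, I' ⊆ C → C ⊆ X' → Lb b C → Lb bᶜ Cᶜ →
        ∃ C, I ⊆ C ∧ C ⊆ X ∧ Lo C ∧ Lo Cᶜ := by
      intro C c1 c2 c3 c4
      have c5 : B.le C b := (B.le_of_subset c2).trans x3
      have c6 : B.le b C := i3.trans (B.le_of_subset c1)
      exact ⟨C, i1.trans c1, c2.trans x2, (hgerm b C hb1 c5 c6).2 c3,
        (hgerm bᶜ Cᶜ (hc b hb1) (B.le_compl.2 c6) (B.le_compl.2 c5)).2 c4⟩
    rcases hb1 with hb1 | hb1
    · obtain ⟨C, c1, c2, c3, c4⟩ := B.internal (i2.trans x1) x3 i3 ((hLb1 b _ hb1).1 i4)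
        (fun h => x4 ((hLb1 b _ hb1).2 h))
      exact hfin C c1 c2 (Or.inl ⟨hb1, c3⟩) (Or.inr ⟨by simpa using hb1, by simpa using c4⟩)
    · have g1 := (hLb2 b _ hb1).1 i4
      have g2 : B.Le bᶜ X'ᶜ := B.Le_of_not_Ge fun h => x4 ((hLb2 b _ hb1).2 h)
      by_cases g3 : B.Le bᶜ I'ᶜ
      · exact hfin I' subset_rfl (i2.trans x1) i4 (Or.inl ⟨hb1, g3⟩)
      · obtain ⟨C, c1, c2, c3, c4⟩ := B.internal (compl_subset_compl.2 (i2.trans x1))
          (B.le_compl.2 i3) (B.le_compl.2 x3) g2 g3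
        exact hfin Cᶜ (subset_compl_comm.1 c2) (compl_subset_comm.1 c1)
          (Or.inr ⟨hb1, by simpa using c4⟩) (Or.inl ⟨hb1, by simpa using c3⟩)
  · obtain ⟨b, hb1, _⟩ := hb ∅ ∅ subset_rfl
    exact hbelow b ∅ hb1 (B.le_of_subset (empty_subset _))
      (fun h => hne b hb1 (h.trans (B.le_of_subset (empty_subset _))))
  · obtain ⟨b, hb1, _⟩ := hb ∅ ∅ subset_rfl
    refine habove b univ hb1 (B.le_of_subset (subset_univ _)) (fun h => hne bᶜ (hc b hb1) ?_)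
    rw [compl_compl]
    exact (B.le_of_subset (subset_univ _)).trans h

end Blk

end Crest.Agent.H6.Mat
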