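import Crest.Agent.H6.MatC

set_option autoImplicit false

namespace Crest.Agent.H6.Mat

open Set Filter Cardinal

namespace Blk

/-- fewer than continuum many non-negligible sets can be split simultaneously -/
def Split {α : Type} (B : Blk α) : Prop :=
  ∀ (ι : Type) (W : ι → Set α), #ι < 𝔠 →
    ∃ T : Set α, ∀ i, ¬ B.Negl (W i) → ¬ B.Negl (W i ∩ T) ∧ ¬ B.Negl (W i \ T)

/-- doubling -/
def two {δ : Type*} (B : Blk δ) : Blk (δ ⊕ δ) where
  blk := Sum.elim B.blk B.blk
  J j := (B.J j).disjSum (B.J j)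
  mem_J := by
    rintro (a | a) j
    · simp [B.mem_J]
    · simp [B.mem_J]
  pos j := by
    rw [Finset.card_disjSum]
    have := B.pos j
    omega
  mono := by
    intro i j hij
    simp only [Finset.card_disjSum]
    have := B.mono hij
    simp only at this
    omega
  grow m := by
    filter_upwards [B.grow m] with k hk
    simp only [Finset.card_disjSum, Finset.sum_add_distrib]
    nlinarith [Nat.zero_le m]

theorem two_s {δ : Type*} (B : Blk δ) (j : ℕ) : B.two.s j = 2 * B.s j := by
  unfold s two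
  simp only [Finset.card_disjSum]
  omega

theorem two_c {δ : Type*} (B : Blk δ) (j : ℕ) (Z : Set (δ ⊕ δ)) :
    B.two.c j Z = B.c j (Sum.inl ⁻¹' Z) + B.c j (Sum.inr ⁻¹' Z) := by
  classical
  unfold c
  rw [← Finset.card_disjSum]
  congr 1
  ext a
  rcases a with a | a
  · simp [two]
  · simp [two]

theorem two_negl {δ : Type*} (B : Blk δ) (Z : Set (δ ⊕ δ)) :
    B.two.Negl Z ↔ B.Negl (Sum.inl ⁻¹' Z) ∧ B.Negl (Sum.inr ⁻¹' Z) := by
  constructor
  · intro h
    constructor
    · intro m
      filter_upwards [h (2 * m)] with j hj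
      rw [two_c, two_s] at hj
      nlinarith [Nat.zero_le (m * B.c j (Sum.inr ⁻¹' Z))]
    · intro m
      filter_upwards [h (2 * m)] with j hj
      rw [two_c, two_s] at hj
      nlinarith [Nat.zero_le (m * B.c j (Sum.inl ⁻¹' Z))]
  · rintro ⟨h1, h2⟩ m
    filter_upwards [h1 m, h2 m] with j a1 a2
    rw [two_c, two_s]
    nlinarith

theorem Split.two {δ : Type} {B : Blk δ} (h : B.Split) : B.two.Split := by
  intro ι W hι
  obtain ⟨T, hT⟩ := h (ι ⊕ ι) (Sum.elim (fun i => Sum.inl ⁻¹' W i) (fun i => Sum.inr ⁻¹' W i))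
    (by
      simp only [mk_sum, lift_id]
      exact add_lt_of_lt aleph0_le_continuum hι hι)
  refine ⟨{a | Sum.elim id id a ∈ T}, fun i hi => ?_⟩
  rw [two_negl, not_and_or] at hi
  rw [two_negl, two_negl]
  rcases hi with hi | hi
  · have := hT (Sum.inl i) hi
    exact ⟨fun h => this.1 h.1, fun h => this.2 h.1⟩
  · have := hT (Sum.inr i) hi
    exact ⟨fun h => this.1 h.2, fun h => this.2 h.2⟩

theorem negl_biUnion {α κ : Type*} (B : Blk α) (X : Finset κ) (Z : κ → Set α)
    (h : ∀ x ∈ X, B.Negl (Z x)) : B.Negl (⋃ x ∈ X, Z x) := by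
  classical
  induction X using Finset.induction_on with
  | empty => simpa using B.negl_empty
  | insert a X ha ih =>
    rw [Finset.set_biUnion_insert]
    exact (h a (by simp)).union (ih fun x hx => h x (by simp [hx]))

end Blk

/-- the concrete bundle -/
abbrev D : Type := Σ j : ℕ, ((Fin j → Bool) → Bool)

def JD (j : ℕ) : Finset D :=
  (Finset.univ : Finset ((Fin j → Bool) → Bool)).map
    (Function.Embedding.sigmaMk (β := fun j : ℕ => (Fin j → Bool) → Bool) j)

theorem card_JD (j : ℕ) : (JD j).card = 2 ^ 2 ^ j := by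
  simp [JD]

theorem sum_le_pow (k : ℕ) : ∑ j ∈ Finset.range k, 2 ^ 2 ^ j + 1 ≤ 2 ^ 2 ^ k := by
  induction k with
  | zero => simp
  | succ k ih =>
    rw [Finset.sum_range_succ, pow_succ 2 k, pow_mul]
    have : 2 ≤ 2 ^ 2 ^ k := by
      calc 2 = 2 ^ 1 := by norm_num
        _ ≤ 2 ^ 2 ^ k := Nat.pow_le_pow_right (by norm_num) Nat.one_le_two_pow
    nlinarith

def BD : Blk D where
  blk a := a.1
  J := JD
  mem_J := by
    rintro ⟨i, a⟩ j
    simp only [JD, Finset.mem_map, Finset.mem_univ, true_and, Function.Embedding.sigmaMk_apply]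
    constructor
    · rintro ⟨b, hb⟩
      exact (congrArg Sigma.fst hb).symm
    · rintro rfl
      exact ⟨a, rfl⟩
  pos j := by rw [card_JD]; positivity
  mono := by
    intro i j hij
    simp only [card_JD]
    exact Nat.pow_le_pow_right (by norm_num) (Nat.pow_le_pow_right (by norm_num) hij)
  grow m := by
    filter_upwards [eventually_ge_atTop (2 * m + 1)] with k hk
    obtain ⟨k, rfl⟩ : ∃ k', k = k' + 1 := ⟨k - 1, by omega⟩
    simp only [card_JD]
    rw [Finset.sum_range_succ, pow_succ 2 k, pow_mul]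
    have h1 := sum_le_pow k
    have h2 : k < 2 ^ k := Nat.lt_two_pow_self
    have h3 : 2 ^ k < 2 ^ 2 ^ k := Nat.lt_two_pow_self
    have h4 : 2 * m ≤ 2 ^ 2 ^ k := by omega
    nlinarith [Nat.zero_le m]

def res (j : ℕ) (x : ℕ → Bool) : Fin j → Bool := fun i => x i

theorem count_le (j : ℕ) (X : Finset (ℕ → Bool)) (σ : (ℕ → Bool) → Bool)
    (hinj : ∀ x ∈ X, ∀ y ∈ X, res j x = res j y → x = y) :
    BD.c j {a : D | ∀ x ∈ X, a.2 (res a.1 x) = σ x} * 2 ^ X.card ≤ BD.s j := by
  classical
  let P : Finset (Fin j → Bool) := X.image (res j)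
  have hP : P.card = X.card := Finset.card_image_of_injOn fun x hx y hy h => hinj x hx y hy h
  let v : (Fin j → Bool) → Bool := fun p =>
    if h : ∃ x ∈ X, res j x = p then σ h.choose else false
  let t : (Fin j → Bool) → Finset Bool := fun p => if p ∈ P then {v p} else Finset.univ
  have h1 : BD.c j {a : D | ∀ x ∈ X, a.2 (res a.1 x) = σ x} ≤ (Fintype.piFinset t).card := by
    unfold Blk.c
    rw [← Finset.card_map
      (Function.Embedding.sigmaMk (β := fun j : ℕ => (Fin j → Bool) → Bool) j)]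
    apply Finset.card_le_card
    intro a ha
    simp only [Finset.mem_filter] at ha
    obtain ⟨ha1, ha2⟩ := ha
    obtain ⟨i, φ⟩ := a
    obtain rfl : i = j := (BD.mem_J _ _).1 ha1
    refine Finset.mem_map.2 ⟨φ, ?_, rfl⟩
    rw [Fintype.mem_piFinset]
    intro p
    simp only [t]
    split_ifs with hp
    · have hex : ∃ x ∈ X, res i x = p := Finset.mem_image.1 hp
      simp only [v, dif_pos hex, Finset.mem_singleton]
      have := ha2 _ hex.choose_spec.1
      simp only at this
      rw [hex.choose_spec.2] at this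
      exact this
    · simp
  have h2 : (Fintype.piFinset t).card * 2 ^ P.card = 2 ^ 2 ^ j := by
    rw [Fintype.card_piFinset]
    have h3 : 2 ^ P.card = ∏ p : Fin j → Bool, if p ∈ P then 2 else 1 := by
      rw [Finset.prod_ite_mem]
      simp
    rw [h3, ← Finset.prod_mul_distrib]
    have h4 : ∀ p : Fin j → Bool, (t p).card * (if p ∈ P then 2 else 1) = 2 := by
      intro p
      simp only [t]
      split_ifs <;> simp
    simp only [h4]
    simp
  have h5 : BD.s j = 2 ^ 2 ^ j := card_JD j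
  rw [h5, ← h2, hP]
  exact Nat.mul_le_mul_right _ h1

def TD (x : ℕ → Bool) : Set D := {a | a.2 (res a.1 x) = true}

theorem bad_finite {Z : Set D} (hZ : ¬ BD.Negl Z) :
    {x | BD.Negl (Z ∩ TD x) ∨ BD.Negl (Z \ TD x)}.Finite := by
  classical
  by_contra hinf
  unfold Blk.Negl at hZ
  push Not at hZ
  obtain ⟨m, hm⟩ := hZ
  obtain ⟨X, hX, hcard⟩ := Set.Infinite.exists_subset_card_eq hinf (m + 1)
  let σ : (ℕ → Bool) → Bool := fun x => decide (BD.Negl (Z \ TD x))
  let Y : Set D := {a : D | ∀ x ∈ X, a.2 (res a.1 x) = σ x}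
  have h1 : BD.Negl (Z \ Y) := by
    refine (BD.negl_biUnion X (fun x => Z ∩ {a | a.2 (res a.1 x) ≠ σ x}) ?_).mono ?_
    · intro x hx
      by_cases h : BD.Negl (Z \ TD x)
      · refine h.mono ?_
        rintro a ⟨h1, h2⟩
        refine ⟨h1, fun h3 => h2 ?_⟩
        simp only [σ, h, decide_true]
        exact h3
      · have h' : BD.Negl (Z ∩ TD x) := (hX hx).resolve_right h
        refine h'.mono ?_
        rintro a ⟨h1, h2⟩
        refine ⟨h1, ?_⟩
        simp only [σ, h, decide_false, mem_setOf_eq] at h2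
        simpa [TD] using h2
    · rintro a ⟨h1, h2⟩
      simp only [Y, mem_setOf_eq, not_forall] at h2
      obtain ⟨x, hx, h3⟩ := h2
      exact mem_biUnion hx ⟨h1, h3⟩
  have h2 : ∀ᶠ j in atTop, ∀ x ∈ X, ∀ y ∈ X, res j x = res j y → x = y := by
    rw [eventually_all_finset]
    intro x _
    rw [eventually_all_finset]
    intro y _
    by_cases hxy : x = y
    · exact Eventually.of_forall fun _ _ => hxy
    · obtain ⟨i, hi⟩ := Function.ne_iff.1 hxy
      filter_upwards [eventually_gt_atTop i] with j hj h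
      exact absurd (congrFun h ⟨i, hj⟩) hi
  obtain ⟨j, hj1, hj2, hj3⟩ := (hm.and_eventually (h2.and (h1 (2 * m)))).exists
  have h3 := count_le j X σ hj2
  rw [hcard] at h3
  have h4 : BD.c j Z ≤ BD.c j Y + BD.c j (Z \ Y) :=
    le_trans (BD.c_mono j (by
      intro a ha
      by_cases h : a ∈ Y
      · exact Or.inl h
      · exact Or.inr ⟨ha, h⟩)) (BD.c_union_le j _ _)
  have h5 : m < 2 ^ m := Nat.lt_two_pow_self
  have h6 : BD.c j Y * (2 * m) ≤ BD.s j :=
    le_trans (Nat.mul_le_mul_left _ (by rw [pow_succ]; omega)) h3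
  have h7 := Nat.mul_le_mul_left (2 * m) h4
  nlinarith

theorem BD_split : BD.Split := by
  intro ι W hι
  let Bad : ι → Set (ℕ → Bool) := fun i =>
    {x | ¬ BD.Negl (W i) ∧ (BD.Negl (W i ∩ TD x) ∨ BD.Negl (W i \ TD x))}
  have hfin : ∀ i, (Bad i).Finite := by
    intro i
    by_cases h : BD.Negl (W i)
    · convert finite_empty
      ext x
      simp [Bad, h]
    · exact (bad_finite h).subset fun x hx => hx.2
  have hlt : #(⋃ i, Bad i) < 𝔠 := by
    refine lt_of_le_of_lt (mk_iUnion_le Bad) (mul_lt_of_lt aleph0_le_continuum hι ?_)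
    refine lt_of_le_of_lt (ciSup_le' fun i => (hfin i).lt_aleph0.le) aleph0_lt_continuum
  have hne : (⋃ i, Bad i) ≠ Set.univ := by
    intro h
    rw [h, mk_univ] at hlt
    simp at hlt
  obtain ⟨x, hx⟩ := (ne_univ_iff_exists_notMem _).1 hne
  refine ⟨TD x, fun i hi => ?_⟩
  have : x ∉ Bad i := fun h => hx (mem_iUnion.2 ⟨i, h⟩)
  simp only [Bad, mem_setOf_eq, not_and, not_or] at this
  exact this hi

end Crest.Agent.H6.Mat
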