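import Crest.Agent.H6.MatD

set_option autoImplicit false

namespace Crest.Agent.H6.Mat

open Set Filter Cardinal

theorem sm_union {β : Type} {A A' : Set β} (h : #A < 𝔠) (h' : #A' < 𝔠) :
    #(A ∪ A' : Set β) < 𝔠 :=
  lt_of_le_of_lt (mk_union_le A A') (add_lt_of_lt aleph0_le_continuum h h')

theorem sm_image {β γ : Type} (f : β → γ) {A : Set β} (h : #A < 𝔠) : #(f '' A) < 𝔠 :=
  lt_of_le_of_lt mk_image_le h

theorem sm_singleton {β : Type} (a : β) : #({a} : Set β) < 𝔠 :=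
  lt_of_lt_of_le (finite_singleton a).lt_aleph0 aleph0_le_continuum

variable {δ T : Type} (B : Blk δ) (r : T → T → Prop)

def L (b : Set (δ ⊕ δ)) : Set δ := Sum.inl ⁻¹' b
def Rr (b : Set (δ ⊕ δ)) : Set δ := Sum.inr ⁻¹' b

def cov (Y Z : Set δ) : Prop := B.Negl (Y ∪ Z)ᶜ

abbrev Item (δ T : Type) : Type := ℕ × Set (δ ⊕ δ) × T

def Rel (p q : Item δ T) : Prop :=
  (p.1 = q.1 → (B.two.le p.2.1 q.2.1 → p.2.1 = q.2.1) ∧ ¬ cov B (Rr p.2.1) (Rr q.2.1) ∧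
    ¬ cov B (L p.2.1ᶜ) (L q.2.1ᶜ)) ∧
  (q.1 = p.1 + 1 → ¬ cov B (Rr p.2.1) (L q.2.1ᶜ) ∧
    (cov B (Rr p.2.1) (L q.2.1) → r q.2.2 p.2.2))

def Small (S : Set (Item δ T)) (n : ℕ) (Y : Set δ) : Prop :=
  Y = ∅ ∨ (∃ p ∈ S, n = p.1 + 1 ∧ Y = Rr p.2.1) ∨ (∃ p ∈ S, n = p.1 ∧ Y = L p.2.1ᶜ)

def Big (S : Set (Item δ T)) (n : ℕ) (Z : Set δ) : Prop := ∃ Y, Small S n Y ∧ cov B Y Z

def Mem (S : Set (Item δ T)) (i : ℕ) (b : Set (δ ⊕ δ)) : Prop := ∃ l, (i, b, l) ∈ S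

def Solved (S : Set (Item δ T)) (i : ℕ) (I X : Set (δ ⊕ δ)) : Prop :=
  ∃ b, (Mem S i b ∨ Mem S i bᶜ) ∧
    ((B.two.le I b ∧ B.two.le b X) ∨ B.two.le X b ∨ B.two.le b I)

variable {B r}

theorem cov.symm {Y Z : Set δ} (h : cov B Y Z) : cov B Z Y := by
  unfold cov at *
  rwa [union_comm]

theorem cov.of_le {Y Z Z' : Set δ} (h : cov B Y Z) (h' : B.le Z Z') : cov B Y Z' := by
  refine (Blk.Negl.union h h').mono ?_
  intro a ha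
  simp only [mem_compl_iff, mem_union, not_or, mem_diff] at *
  tauto

theorem le_L {b b' : Set (δ ⊕ δ)} (h : B.two.le b b') : B.le (L b) (L b') :=
  ((B.two_negl _).1 h).1

theorem le_Rr {b b' : Set (δ ⊕ δ)} (h : B.two.le b b') : B.le (Rr b) (Rr b') :=
  ((B.two_negl _).1 h).2

theorem small_pair {S : Set (Item δ T)} (hR : ∀ p ∈ S, ∀ q ∈ S, Rel B r p q) {n : ℕ}
    {Y Y' : Set δ} (h : Small S n Y) (h' : Small S n Y') : ¬ cov B Y Y' := by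
  have key : ∀ Y Y' : Set δ, Small S n Y → Small S n Y' → Y ≠ ∅ → Y' ≠ ∅ → ¬ cov B Y Y' := by
    rintro Y Y' (h | ⟨p, hp, h1, rfl⟩ | ⟨p, hp, h1, rfl⟩) (h' | ⟨q, hq, h2, rfl⟩ | ⟨q, hq, h2, rfl⟩)
      a1 a2 <;> try contradiction
    · exact ((hR p hp q hq).1 (by omega)).2.1
    · exact ((hR p hp q hq).2 (by omega)).1
    · exact fun h => ((hR q hq p hp).2 (by omega)).1 h.symm
    · exact ((hR p hp q hq).1 (by omega)).2.2
  intro hc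
  by_cases h1 : Y = ∅
  · by_cases h2 : Y' = ∅
    · subst h1; subst h2
      apply B.not_negl_univ
      simpa [cov] using hc
    · subst h1
      apply key Y' Y' h' h' h2 h2
      simpa [cov] using hc
  · by_cases h2 : Y' = ∅
    · subst h2
      apply key Y Y h h h1 h1
      simpa [cov] using hc
    · exact key Y Y' h h' h1 h2 hc

theorem not_big_of_le {S : Set (Item δ T)} (hR : ∀ p ∈ S, ∀ q ∈ S, Rel B r p q) {n : ℕ}
    {Y Z : Set δ} (h : Small S n Y) (h' : B.le Z Y) : ¬ Big B S n Z := by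
  rintro ⟨Y', h1, h2⟩
  exact small_pair hR h1 h (h2.of_le h')

theorem not_both_big {S : Set (Item δ T)} (hR : ∀ p ∈ S, ∀ q ∈ S, Rel B r p q) {n : ℕ}
    {Z Z' : Set δ} (hd : ∀ a ∈ Z', a ∉ Z) (h : Big B S n Z) : ¬ Big B S n Z' := by
  obtain ⟨Y, h1, h2⟩ := h
  refine not_big_of_le hR h1 (Blk.Negl.mono h2 ?_)
  rintro a ⟨h3, h4⟩ (h5 | h5)
  · exact h4 h5
  · exact hd a h3 h5

theorem core (hsplit : B.two.Split) {S : Set (Item δ T)} (hS : #S < 𝔠) (i : ℕ)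
    (J Y : Set (δ ⊕ δ)) (hJY : J ⊆ Y) (l : T)
    (h0 : ∀ b, Mem S i b → ¬ B.two.le Y b ∧ ¬ B.two.le b J)
    (h1 : ¬ Big B S (i + 1) (Rr J)) (h2 : ¬ Big B S i (L Yᶜ))
    (hL1 : ∀ p ∈ S, i = p.1 + 1 → cov B (Rr p.2.1) (L J) → r l p.2.2)
    (hL2 : ∀ q ∈ S, q.1 = i + 1 → cov B (L q.2.1) (Rr J) → r q.2.2 l) :
    ∃ b, J ⊆ b ∧ b ⊆ Y ∧ Rel B r (i, b, l) (i, b, l) ∧
      ∀ p ∈ S, Rel B r p (i, b, l) ∧ Rel B r (i, b, l) p := by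
  let 𝒰 : Set (Set δ) := ({∅} ∪ (fun p : Item δ T => Rr p.2.1) '' S) ∪
    ((fun p : Item δ T => L p.2.1) '' S ∪ (fun p : Item δ T => L p.2.1ᶜ) '' S)
  let 𝒲 : Set (Set (δ ⊕ δ)) :=
    ((fun p : Item δ T => p.2.1) '' S ∪ (fun p : Item δ T => p.2.1ᶜ) '' S) ∪
    ((fun U : Set δ => Sum.inl '' Uᶜ) '' 𝒰 ∪ (fun U : Set δ => Sum.inr '' Uᶜ) '' 𝒰)
  have hU : #𝒰 < 𝔠 := sm_union (sm_union (sm_singleton _) (sm_image _ hS))
    (sm_union (sm_image _ hS) (sm_image _ hS))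
  have hW : #𝒲 < 𝔠 := sm_union (sm_union (sm_image _ hS) (sm_image _ hS))
    (sm_union (sm_image _ hU) (sm_image _ hU))
  obtain ⟨Q, hQ⟩ := hsplit 𝒲 (fun w => (Y \ J) ∩ w.1) hW
  let b : Set (δ ⊕ δ) := J ∪ ((Y \ J) ∩ Q)
  have hJb : J ⊆ b := subset_union_left
  have hbY : b ⊆ Y := union_subset hJY fun a ha => ha.1.1
  have G1 : ∀ W ∈ 𝒲, B.two.Negl (b ∩ W) → B.two.Negl (Y ∩ W) := by
    intro W hW h
    have h3 : B.two.Negl ((Y \ J) ∩ W) := by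
      by_contra h3
      refine (hQ ⟨W, hW⟩ h3).1 (h.mono ?_)
      rintro a ⟨⟨a1, a2⟩, a3⟩
      exact ⟨Or.inr ⟨a1, a3⟩, a2⟩
    refine (h.union h3).mono ?_
    rintro a ⟨a1, a2⟩
    by_cases a3 : a ∈ J
    · exact Or.inl ⟨Or.inl a3, a2⟩
    · exact Or.inr ⟨⟨a1, a3⟩, a2⟩
  have G2 : ∀ W ∈ 𝒲, B.two.Negl (W \ b) → B.two.Negl (W \ J) := by
    intro W hW h
    have h3 : B.two.Negl ((Y \ J) ∩ W) := by
      by_contra h3
      refine (hQ ⟨W, hW⟩ h3).2 (h.mono ?_)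
      rintro a ⟨⟨a1, a2⟩, a3⟩
      refine ⟨a2, ?_⟩
      rintro (a4 | a4)
      · exact a1.2 a4
      · exact a3 a4.2
    refine (h.union h3).mono ?_
    rintro a ⟨a1, a2⟩
    by_cases a3 : a ∈ b
    · exact Or.inr ⟨⟨hbY a3, a2⟩, a1⟩
    · exact Or.inl ⟨a1, a3⟩
  have e1 : ∀ (U : Set δ) (c : Set (δ ⊕ δ)),
      B.two.Negl (Sum.inl '' Uᶜ \ c) ↔ cov B U (L c) := by
    intro U c
    rw [B.two_negl]
    have a1 : Sum.inl ⁻¹' (Sum.inl '' Uᶜ \ c) = (U ∪ L c)ᶜ := by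
      ext a; simp [L]
    have a2 : Sum.inr ⁻¹' (Sum.inl '' Uᶜ \ c) = ∅ := by
      ext a; simp
    rw [a1, a2]
    exact ⟨fun h => h.1, fun h => ⟨h, B.negl_empty⟩⟩
  have e2 : ∀ (U : Set δ) (c : Set (δ ⊕ δ)),
      B.two.Negl (Sum.inr '' Uᶜ \ c) ↔ cov B U (Rr c) := by
    intro U c
    rw [B.two_negl]
    have a1 : Sum.inr ⁻¹' (Sum.inr '' Uᶜ \ c) = (U ∪ Rr c)ᶜ := by
      ext a; simp [Rr]
    have a2 : Sum.inl ⁻¹' (Sum.inr '' Uᶜ \ c) = ∅ := by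
      ext a; simp
    rw [a1, a2]
    exact ⟨fun h => h.2, fun h => ⟨B.negl_empty, h⟩⟩
  have e3 : ∀ (U : Set δ) (c : Set (δ ⊕ δ)),
      B.two.Negl (c ∩ Sum.inl '' Uᶜ) ↔ cov B U (L cᶜ) := by
    intro U c
    rw [← e1, diff_compl, inter_comm]
  have g1 : ∀ U ∈ 𝒰, cov B U (L b) → cov B U (L J) := fun U hU h =>
    (e1 U J).1 (G2 _ (Or.inr (Or.inl ⟨U, hU, rfl⟩)) ((e1 U b).2 h))
  have g2 : ∀ U ∈ 𝒰, cov B U (Rr b) → cov B U (Rr J) := fun U hU h =>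
    (e2 U J).1 (G2 _ (Or.inr (Or.inr ⟨U, hU, rfl⟩)) ((e2 U b).2 h))
  have g3 : ∀ U ∈ 𝒰, cov B U (L bᶜ) → cov B U (L Yᶜ) := fun U hU h =>
    (e3 U Y).1 (G1 _ (Or.inr (Or.inl ⟨U, hU, rfl⟩)) ((e3 U b).2 h))
  have hsm : ∀ n U, Small S n U → U ∈ 𝒰 := by
    rintro n U (rfl | ⟨p, hp, _, rfl⟩ | ⟨p, hp, _, rfl⟩)
    · exact Or.inl (Or.inl rfl)
    · exact Or.inl (Or.inr ⟨p, hp, rfl⟩)
    · exact Or.inr (Or.inr ⟨p, hp, rfl⟩)
  have k1 : ∀ U, Small S (i + 1) U → ¬ cov B U (Rr b) := fun U hU h =>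
    h1 ⟨U, hU, g2 U (hsm _ U hU) h⟩
  have k2 : ∀ U, Small S i U → ¬ cov B U (L bᶜ) := fun U hU h =>
    h2 ⟨U, hU, g3 U (hsm _ U hU) h⟩
  refine ⟨b, hJb, hbY, ⟨fun _ => ⟨fun _ => rfl, ?_, ?_⟩, fun h => absurd h (by simp)⟩, ?_⟩
  · intro h
    apply k1 ∅ (Or.inl rfl)
    simpa [cov] using h
  · intro h
    apply k2 ∅ (Or.inl rfl)
    simpa [cov] using h
  · rintro ⟨j, c, l'⟩ hp
    refine ⟨⟨fun hji => ?_, fun hji => ?_⟩, ⟨fun hji => ?_, fun hji => ?_⟩⟩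
    · simp only at hji
      subst hji
      refine ⟨fun h => absurd (G2 c (Or.inl (Or.inl ⟨_, hp, rfl⟩)) h) (h0 c ⟨l', hp⟩).2, ?_, ?_⟩
      · exact k1 _ (Or.inr (Or.inl ⟨_, hp, rfl, rfl⟩))
      · exact k2 _ (Or.inr (Or.inr ⟨_, hp, rfl, rfl⟩))
    · simp only at hji
      refine ⟨k2 _ (Or.inr (Or.inl ⟨_, hp, hji, rfl⟩)), fun h => ?_⟩
      exact hL1 _ hp hji (g1 _ (Or.inl (Or.inr ⟨_, hp, rfl⟩)) h)
    · simp only at hji
      subst hji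
      refine ⟨fun h => absurd (G1 cᶜ (Or.inl (Or.inr ⟨_, hp, rfl⟩)) h) (h0 c ⟨l', hp⟩).1, ?_, ?_⟩
      · exact fun h => k1 _ (Or.inr (Or.inl ⟨_, hp, rfl, rfl⟩)) h.symm
      · exact fun h => k2 _ (Or.inr (Or.inr ⟨_, hp, rfl, rfl⟩)) h.symm
    · simp only at hji
      refine ⟨fun h => k1 _ (Or.inr (Or.inr ⟨_, hp, hji.symm, rfl⟩)) h.symm, fun h => ?_⟩
      exact hL2 _ hp hji (g2 _ (Or.inr (Or.inl ⟨_, hp, rfl⟩)) h.symm)

theorem Solved.mono {S S' : Set (Item δ T)} (h : S ⊆ S') {i : ℕ} {I X : Set (δ ⊕ δ)}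
    (hs : Solved B S i I X) : Solved B S' i I X := by
  obtain ⟨b, h1, h2⟩ := hs
  exact ⟨b, h1.imp (fun ⟨l, hl⟩ => ⟨l, h hl⟩) (fun ⟨l, hl⟩ => ⟨l, h hl⟩), h2⟩

theorem Solved.dual {S : Set (Item δ T)} {i : ℕ} {I X : Set (δ ⊕ δ)}
    (hs : Solved B S i Xᶜ Iᶜ) : Solved B S i I X := by
  obtain ⟨b, h1, h2⟩ := hs
  refine ⟨bᶜ, by rw [compl_compl]; exact h1.symm, ?_⟩
  rcases h2 with ⟨h3, h4⟩ | h3 | h3
  · exact Or.inl ⟨B.two.le_compl.1 (by simpa using h4), B.two.le_compl.1 (by simpa using h3)⟩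
  · exact Or.inr (Or.inr (B.two.le_compl.1 (by simpa using h3)))
  · exact Or.inr (Or.inl (B.two.le_compl.1 (by simpa using h3)))

theorem step_half [IsTrans T r] (hsplit : B.two.Split) {S : Set (Item δ T)} (hS : #S < 𝔠)
    (hR : ∀ p ∈ S, ∀ q ∈ S, Rel B r p q) (t : T) (hB : ∀ p ∈ S, r p.2.2 t) (i : ℕ)
    (I X : Set (δ ⊕ δ)) (hIX : I ⊆ X) (h2 : ¬ Big B S i (L Xᶜ))
    (h1 : Big B S i (L I) ∨ ¬ Big B S (i + 1) (Rr I)) :
    Solved B S i I X ∨ ∃ n : Item δ T, (r n.2.2 t ∨ n.2.2 = t) ∧ Rel B r n n ∧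
      (∀ p ∈ S, Rel B r p n ∧ Rel B r n p) ∧ Solved B (insert n S) i I X := by
  by_cases hsol : Solved B S i I X
  · exact Or.inl hsol
  right
  have h0 : ∀ b, Mem S i b → ¬ B.two.le X b ∧ ¬ B.two.le b I := fun b hb =>
    ⟨fun h => hsol ⟨b, Or.inl hb, Or.inr (Or.inl h)⟩,
      fun h => hsol ⟨b, Or.inl hb, Or.inr (Or.inr h)⟩⟩
  by_cases hbig : Big B S i (L I)
  · by_cases hle : ∃ b, Mem S i b ∧ B.two.le I b
    · obtain ⟨c, ⟨l, hc⟩, hIc⟩ := hle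
      obtain ⟨b, b1, b2, b3, b4⟩ := core (r := r) hsplit hS i I X hIX l h0
        (not_big_of_le hR (Or.inr (Or.inl ⟨_, hc, rfl, rfl⟩)) (le_Rr hIc)) h2
        (fun p hp hi h => ((hR p hp _ hc).2 hi).2 (h.of_le (le_L hIc)))
        (fun q hq hi h => ((hR _ hc q hq).2 hi).2 (h.of_le (le_Rr hIc)).symm)
      exact ⟨(i, b, l), Or.inl (hB (i, c, l) hc), b3, b4, b, Or.inl ⟨l, mem_insert _ _⟩,
        Or.inl ⟨B.two.le_of_subset b1, B.two.le_of_subset b2⟩⟩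
    · push Not at hle
      have he : ∀ n, ¬ Big B S n ∅ := fun n => not_big_of_le hR (Or.inl rfl) (B.le_refl _)
      obtain ⟨b, b1, b2, b3, b4⟩ := core (r := r) hsplit hS i ∅ I (empty_subset _) t
        (fun b hb => ⟨hle b hb, fun h => (h0 b hb).2 (h.trans (B.two.le_of_subset
          (empty_subset _)))⟩) (he _)
        (not_both_big hR (fun a ha => ha) hbig)
        (fun p hp hi h => absurd ⟨_, Or.inr (Or.inl ⟨p, hp, hi, rfl⟩), h⟩ (he i))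
        (fun q hq _ _ => hB q hq)
      exact ⟨(i, b, t), Or.inr rfl, b3, b4, b, Or.inl ⟨t, mem_insert _ _⟩,
        Or.inr (Or.inr (B.two.le_of_subset b2))⟩
  · obtain ⟨b, b1, b2, b3, b4⟩ := core (r := r) hsplit hS i I X hIX t h0
      (h1.resolve_left hbig) h2
      (fun p hp hi h => absurd ⟨_, Or.inr (Or.inl ⟨p, hp, hi, rfl⟩), h⟩ hbig)
      (fun q hq _ _ => hB q hq)
    exact ⟨(i, b, t), Or.inr rfl, b3, b4, b, Or.inl ⟨t, mem_insert _ _⟩,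
      Or.inl ⟨B.two.le_of_subset b1, B.two.le_of_subset b2⟩⟩

theorem step [IsTrans T r] (hsplit : B.two.Split) {S : Set (Item δ T)} (hS : #S < 𝔠)
    (hR : ∀ p ∈ S, ∀ q ∈ S, Rel B r p q) (t : T) (hB : ∀ p ∈ S, r p.2.2 t) (i : ℕ)
    (I X : Set (δ ⊕ δ)) (hIX : I ⊆ X) :
    Solved B S i I X ∨ ∃ n : Item δ T, (r n.2.2 t ∨ n.2.2 = t) ∧ Rel B r n n ∧
      (∀ p ∈ S, Rel B r p n ∧ Rel B r n p) ∧ Solved B (insert n S) i I X := by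
  have hdual : ¬ Big B S i (L I) → (Big B S i (L Xᶜ) ∨ ¬ Big B S (i + 1) (Rr Xᶜ)) →
      Solved B S i I X ∨ ∃ n : Item δ T, (r n.2.2 t ∨ n.2.2 = t) ∧ Rel B r n n ∧
      (∀ p ∈ S, Rel B r p n ∧ Rel B r n p) ∧ Solved B (insert n S) i I X := by
    intro a1 a2
    rcases step_half hsplit hS hR t hB i Xᶜ Iᶜ (compl_subset_compl.2 hIX)
      (by rw [compl_compl]; exact a1) a2 with h | ⟨n, n1, n2, n3, n4⟩
    · exact Or.inl h.dual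
    · exact Or.inr ⟨n, n1, n2, n3, n4.dual⟩
  by_cases a1 : Big B S i (L Xᶜ)
  · exact hdual (not_both_big (Z := L Xᶜ) (Z' := L I) hR
      (fun a ha hb => (show Sum.inl a ∉ X from hb) (hIX ha)) a1) (Or.inl a1)
  by_cases a2 : Big B S i (L I)
  · exact step_half hsplit hS hR t hB i I X hIX a1 (Or.inl a2)
  by_cases a3 : Big B S (i + 1) (Rr I)
  · exact hdual a2 (Or.inr (not_both_big hR (fun a ha hb => ha (hIX hb)) a3))
  · exact step_half hsplit hS hR t hB i I X hIX a1 (Or.inr a3)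

theorem exists_family (hsplit : B.two.Split) [Countable δ] :
    ∃ (T : Type) (r : T → T → Prop) (_ : IsWellOrder T r) (S : Set (Item δ T)),
      (∀ p ∈ S, ∀ q ∈ S, Rel B r p q) ∧ ∀ i I X, I ⊆ X → Solved B S i I X := by
  let T : Type := ℕ × Set (δ ⊕ δ) × Set (δ ⊕ δ)
  obtain ⟨r, wo, hr⟩ := exists_ord_eq T
  have hT : #T ≤ 𝔠 := by
    have h1 : #(Set (δ ⊕ δ)) ≤ 𝔠 := by
      rw [mk_set, ← two_power_aleph0]
      exact power_le_power_left two_ne_zero mk_le_aleph0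
    simp only [T, mk_prod, lift_id, mk_nat]
    calc ℵ₀ * (#(Set (δ ⊕ δ)) * #(Set (δ ⊕ δ))) ≤ 𝔠 * (𝔠 * 𝔠) := by
          gcongr
          exact aleph0_le_continuum
      _ = 𝔠 := by simp
  suffices h : ∃ S : Set (Item δ T), (∀ p ∈ S, ∀ q ∈ S, Rel B r p q) ∧
      ∀ t : T, t.2.1 ⊆ t.2.2 → Solved B S t.1 t.2.1 t.2.2 by
    obtain ⟨S, h1, h2⟩ := h
    exact ⟨T, r, wo, S, h1, fun i I X h => h2 (i, I, X) h⟩
  refine transfinite (Item := Item δ T) r (Rel B r)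
    (fun t p => r p.2.2 t ∨ p.2.2 = t)
    (fun t S => t.2.1 ⊆ t.2.2 → Solved B S t.1 t.2.1 t.2.2) (fun S => #S < 𝔠)
    (fun t S S' h hs hi => (hs hi).mono h) ?_ ?_
  · intro t g
    have h1 : #{s // r s t} < 𝔠 := lt_of_lt_of_le (card_typein_lt t hr) hT
    refine lt_of_le_of_lt ?_ h1
    have hch : ∀ p : {p | ∃ s, r s t ∧ g s = some p}, ∃ s : {s // r s t}, g s.1 = some p.1 :=
      fun p => by
        obtain ⟨s, h1, h2⟩ := p.2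
        exact ⟨⟨s, h1⟩, h2⟩
    choose f hf using hch
    refine mk_le_of_injective (f := f) fun p q h => ?_
    have := hf p
    rw [h, hf q] at this
    exact Subtype.ext (Option.some.inj this).symm
  · intro t S hS hR hB
    by_cases hi : t.2.1 ⊆ t.2.2
    · have hB' : ∀ p ∈ S, r p.2.2 t := by
        intro p hp
        obtain ⟨s, h1, h2 | h2⟩ := hB p hp
        · exact _root_.trans h2 h1
        · rw [h2]; exact h1
      rcases step hsplit hS hR t hB' t.1 t.2.1 t.2.2 hi with h | ⟨n, n1, n2, n3, n4⟩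
      · exact Or.inl fun _ => h
      · exact Or.inr ⟨n, n1, n2, n3, fun _ => n4⟩
    · exact Or.inl fun h => absurd h hi

end Crest.Agent.H6.Mat
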