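import Crest.Agent.H1.BorChk

/-! Row 40, piece P3: the finite clauses about labelled directions. -/

set_option autoImplicit false

noncomputable section

namespace Crest.Agent.H6.P3
open Crest.Agent.H1.Bor

abbrev Q4 := ℤ × ℤ × ℤ × ℤ

def cx (u : ℕ) : Q4 :=
  [((12, 0, 0, 0) : Q4), (6, 0, 6, 0), (-6, 0, 6, 0), (-12, 0, 0, 0), (-6, 0, -6, 0), (6, 0, -6, 0),
    (0, 2, 2, 0), (-3, 1, 1, 3), (-3, -1, -1, 3), (0, -2, -2, 0), (3, -1, -1, -3), (3, 1, 1, -3),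
    (10, 0, 0, 2), (5, -1, 5, 1), (-5, -1, 5, -1), (-10, 0, 0, -2), (-5, 1, -5, -1),
    (5, 1, -5, 1)].getD u (0, 0, 0, 0)

def n1 (a : Q4) : ℤ := a.1 * a.1 + 33 * (a.2.1 * a.2.1) + 3 * (a.2.2.1 * a.2.2.1) +
  11 * (a.2.2.2 * a.2.2.2)

def n2 (a : Q4) : ℤ := a.1 * a.2.1 + a.2.2.1 * a.2.2.2

def nx (u : ℕ) : ℕ := (u % 6 + 1) % 6 + 6 * (u / 6)

def nd (u v : ℕ) : Bool :=
  !(decide (n2 (cx u + cx v) = 0) &&
    (decide (n1 (cx u + cx v) = 0) || decide (n1 (cx u + cx v) = 576)))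

def un (u v u' v' : ℕ) : Bool :=
  decide (n1 (cx u + cx v - (cx u' + cx v')) = 144) &&
    decide (n2 (cx u + cx v - (cx u' + cx v')) = 0)

structure Hy (L : ℕ → Fin 5 → Prop) (col : ℕ → ℕ → Fin 5) : Prop where
  adj : ∀ u < 18, ∀ k, L u k → ¬ L (nx u) k
  fst : ∀ u < 18, ∀ v < 18, nd u v = true → ¬ L u (col u v)
  snd : ∀ u < 18, ∀ v < 18, nd u v = true → ¬ L v (col u v)
  edge : ∀ u < 18, ∀ v < 18, ∀ u' < 18, ∀ v' < 18, un u v u' v' = true → col u v ≠ col u' v'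

def val (L : ℕ → Fin 5 → Prop) (col : ℕ → ℕ → Fin 5) (m : ℕ) : Prop :=
  if m < 95 then L (m / 5 - 1) (Fin.ofNat 5 m)
  else col ((m - 95) / 5 / 18) ((m - 95) / 5 % 18) = Fin.ofNat 5 m

def lab (u k : ℕ) : ℕ := Nat.add 5 (Nat.add (Nat.mul 5 u) (Nat.mod k 5))

def cv (u v k : ℕ) : ℕ := Nat.add 95 (Nat.add (Nat.mul 5 (Nat.add (Nat.mul 18 u) v)) (Nat.mod k 5))

lemma val_lab {L : ℕ → Fin 5 → Prop} {col : ℕ → ℕ → Fin 5} {u : ℕ} (hu : u < 18) (k : ℕ) :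
    val L col (lab u k) ↔ L u (Fin.ofNat 5 k) := by
  have h : lab u k = 5 + (5 * u + k % 5) := rfl
  have h1 : lab u k < 95 := by rw [h]; omega
  have h2 : lab u k / 5 - 1 = u := by rw [h]; omega
  have h3 : Fin.ofNat 5 (lab u k) = Fin.ofNat 5 k := by
    apply Fin.ext; simp only [Fin.val_ofNat, h]; omega
  rw [val, if_pos h1, h2, h3]

lemma val_cv {L : ℕ → Fin 5 → Prop} {col : ℕ → ℕ → Fin 5} (u : ℕ) {v : ℕ} (hv : v < 18) (k : ℕ) :
    val L col (cv u v k) ↔ col u v = Fin.ofNat 5 k := by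
  have h : cv u v k = 95 + (5 * (18 * u + v) + k % 5) := rfl
  have h1 : ¬ cv u v k < 95 := by rw [h]; omega
  have h2 : (cv u v k - 95) / 5 / 18 = u := by rw [h]; omega
  have h2' : (cv u v k - 95) / 5 % 18 = v := by rw [h]; omega
  have h3 : Fin.ofNat 5 (cv u v k) = Fin.ofNat 5 k := by
    apply Fin.ext; simp only [Fin.val_ofNat, h]; omega
  rw [val, if_neg h1, h2, h2', h3]

def axc (t u v u' v' k : ℕ) : ℕ :=
  cond (Nat.beq t 0) (Nat.lor (pl (lab u (Nat.add k 1))) (Nat.lor (pl (lab u (Nat.add k 2)))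
    (Nat.lor (pl (lab u (Nat.add k 3))) (pl (lab u (Nat.add k 4)))))) <|
  cond (Nat.beq t 1) (Nat.lor (nl (lab u k)) (nl (lab (nx u) k))) <|
  cond (Nat.beq t 2) (Nat.lor (pl (cv u v 0)) (Nat.lor (pl (cv u v 1)) (Nat.lor (pl (cv u v 2))
    (Nat.lor (pl (cv u v 3)) (pl (cv u v 4)))))) <|
  cond (Nat.beq t 3) (Nat.lor (nl (lab u k)) (nl (cv u v k))) <|
  cond (Nat.beq t 4) (Nat.lor (nl (lab v k)) (nl (cv u v k))) <|
  cond (Nat.beq t 5) (Nat.lor (nl (cv u v k)) (nl (cv u' v' k))) <|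
  cond (Nat.beq t 6) (pl (lab u k)) (Nat.lor (pl (lab u 2)) (pl (lab u k)))

def okc (mode : Bool) (t u v u' v' k : ℕ) : Bool :=
  and (and (and (Nat.blt u 18) (Nat.blt v 18)) (and (Nat.blt u' 18) (Nat.blt v' 18))) <|
  cond (Nat.beq t 0) mode <|
  cond (Nat.beq t 1) true <|
  cond (Nat.beq t 2) true <|
  cond (Nat.beq t 3) (nd u v) <|
  cond (Nat.beq t 4) (nd u v) <|
  cond (Nat.beq t 5) (un u v u' v') <|
  cond (Nat.beq t 6) (and mode (and (Nat.blt k 4) (Nat.beq u (Nat.div k 2))))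
    (and (not mode) (Nat.blt k 2))

def fd (code i : ℕ) : ℕ := Nat.mod (Nat.shiftRight code i) 32

def axF (code : ℕ) : ℕ :=
  axc (fd code 0) (fd code 5) (fd code 10) (fd code 15) (fd code 20) (fd code 25)

def okF (mode : Bool) (code : ℕ) : Bool :=
  okc mode (fd code 0) (fd code 5) (fd code 10) (fd code 15) (fd code 20) (fd code 25)

lemma nx_lt {u : ℕ} (hu : u < 18) : nx u < 18 := by unfold nx; omega

lemma fin_cases' (k : ℕ) (m : Fin 5) (h : m ≠ Fin.ofNat 5 k) :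
    m = Fin.ofNat 5 (k + 1) ∨ m = Fin.ofNat 5 (k + 2) ∨ m = Fin.ofNat 5 (k + 3) ∨
      m = Fin.ofNat 5 (k + 4) := by
  have := m.2
  simp only [ne_eq, Fin.ext_iff, Fin.val_ofNat] at h ⊢
  omega

lemma axc_sound {L : ℕ → Fin 5 → Prop} {col : ℕ → ℕ → Fin 5} (H : Hy L col) (mode : Bool)
    (h0 : mode = true → (∀ u < 18, ∀ k, ∃ m, m ≠ k ∧ L u m) ∧ L 0 0 ∧ L 0 1 ∧ L 1 2 ∧ L 1 3)
    (h7 : mode = false → ∀ u < 18, L u 2 ∨ (L u 0 ∧ L u 1)) (t u v u' v' k : ℕ)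
    (h : okc mode t u v u' v' k = true) : Sat (val L col) (axc t u v u' v' k) := by
  simp only [okc, Bool.and_eq_true, Nat.blt_eq] at h
  obtain ⟨⟨⟨hu, hv⟩, hu', hv'⟩, h⟩ := h
  unfold axc
  cases e0 : Nat.beq t 0
  case true =>
    rw [e0, cond_true] at h
    rw [cond_true]
    obtain ⟨m, hm, hL⟩ := (h0 h).1 u hu (Fin.ofNat 5 k)
    rcases fin_cases' k m hm with e | e | e | e
    · exact Sat_lor (Or.inl (Sat_pl ((val_lab hu _).2 (e ▸ hL))))
    · exact Sat_lor (Or.inr (Sat_lor (Or.inl (Sat_pl ((val_lab hu _).2 (e ▸ hL))))))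
    · exact Sat_lor (Or.inr (Sat_lor (Or.inr (Sat_lor (Or.inl
        (Sat_pl ((val_lab hu _).2 (e ▸ hL))))))))
    · exact Sat_lor (Or.inr (Sat_lor (Or.inr (Sat_lor (Or.inr
        (Sat_pl ((val_lab hu _).2 (e ▸ hL))))))))
  rw [e0, cond_false] at h
  rw [cond_false]
  cases e1 : Nat.beq t 1
  case true =>
    rw [cond_true]
    refine Sat_imp fun h1 => Sat_nl fun h2 => ?_
    exact H.adj u hu _ ((val_lab hu _).1 h1) ((val_lab (nx_lt hu) _).1 h2)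
  rw [e1, cond_false] at h
  rw [cond_false]
  cases e2 : Nat.beq t 2
  case true =>
    rw [cond_true]
    have : ∀ m : Fin 5, m = Fin.ofNat 5 0 ∨ m = Fin.ofNat 5 1 ∨ m = Fin.ofNat 5 2 ∨
      m = Fin.ofNat 5 3 ∨ m = Fin.ofNat 5 4 := by decide
    rcases this (col u v) with e | e | e | e | e
    · exact Sat_lor (Or.inl (Sat_pl ((val_cv u hv _).2 e)))
    · exact Sat_lor (Or.inr (Sat_lor (Or.inl (Sat_pl ((val_cv u hv _).2 e)))))
    · exact Sat_lor (Or.inr (Sat_lor (Or.inr (Sat_lor (Or.inl (Sat_pl ((val_cv u hv _).2 e)))))))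
    · exact Sat_lor (Or.inr (Sat_lor (Or.inr (Sat_lor (Or.inr (Sat_lor (Or.inl
        (Sat_pl ((val_cv u hv _).2 e)))))))))
    · exact Sat_lor (Or.inr (Sat_lor (Or.inr (Sat_lor (Or.inr (Sat_lor (Or.inr
        (Sat_pl ((val_cv u hv _).2 e)))))))))
  rw [e2, cond_false] at h
  rw [cond_false]
  cases e3 : Nat.beq t 3
  case true =>
    rw [e3, cond_true] at h
    rw [cond_true]
    refine Sat_imp fun h1 => Sat_nl fun h2 => ?_
    exact H.fst u hu v hv h (((val_cv u hv _).1 h2).symm ▸ (val_lab hu _).1 h1)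
  rw [e3, cond_false] at h
  rw [cond_false]
  cases e4 : Nat.beq t 4
  case true =>
    rw [e4, cond_true] at h
    rw [cond_true]
    refine Sat_imp fun h1 => Sat_nl fun h2 => ?_
    exact H.snd u hu v hv h (((val_cv u hv _).1 h2).symm ▸ (val_lab hv _).1 h1)
  rw [e4, cond_false] at h
  rw [cond_false]
  cases e5 : Nat.beq t 5
  case true =>
    rw [e5, cond_true] at h
    rw [cond_true]
    refine Sat_imp fun h1 => Sat_nl fun h2 => ?_
    exact H.edge u hu v hv u' hu' v' hv' h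
      (((val_cv u hv _).1 h1).trans ((val_cv u' hv' _).1 h2).symm)
  rw [e5, cond_false] at h
  rw [cond_false]
  cases e6 : Nat.beq t 6
  case true =>
    rw [e6, cond_true] at h
    rw [cond_true]
    simp only [Bool.and_eq_true, Nat.blt_eq, Nat.beq_eq] at h
    obtain ⟨hm, hk, rfl⟩ := h
    obtain ⟨-, a0, a1, a2, a3⟩ := h0 hm
    refine Sat_pl ((val_lab hu _).2 ?_)
    interval_cases k
    exacts [a0, a1, a2, a3]
  rw [e6, cond_false] at h
  rw [cond_false]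
  simp only [Bool.and_eq_true, Nat.blt_eq, Bool.not_eq_true'] at h
  rcases h7 h.1 u hu with a | ⟨a0, a1⟩
  · exact Sat_lor (Or.inl (Sat_pl ((val_lab hu _).2 a)))
  · refine Sat_lor (Or.inr (Sat_pl ((val_lab hu _).2 ?_)))
    obtain ⟨-, hk⟩ := h
    interval_cases k
    exacts [a0, a1]

lemma okF_sound {L : ℕ → Fin 5 → Prop} {col : ℕ → ℕ → Fin 5} (H : Hy L col) (mode : Bool)
    (h0 : mode = true → (∀ u < 18, ∀ k, ∃ m, m ≠ k ∧ L u m) ∧ L 0 0 ∧ L 0 1 ∧ L 1 2 ∧ L 1 3)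
    (h7 : mode = false → ∀ u < 18, L u 2 ∨ (L u 0 ∧ L u 1)) (code : ℕ)
    (h : okF mode code = true) : Sat (val L col) (axF code) :=
  axc_sound H mode h0 h7 _ _ _ _ _ _ h

lemma Hy.perm {L : ℕ → Fin 5 → Prop} {col : ℕ → ℕ → Fin 5} (H : Hy L col)
    (σ : Equiv.Perm (Fin 5)) : Hy (fun u k => L u (σ k)) (fun u v => σ.symm (col u v)) := by
  refine ⟨fun u hu k => H.adj u hu _, fun u hu v hv h => ?_, fun u hu v hv h => ?_,
    fun u hu v hv u' hu' v' hv' h e => H.edge u hu v hv u' hu' v' hv' h (σ.symm.injective e)⟩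
  · simpa using H.fst u hu v hv h
  · simpa using H.snd u hu v hv h

end Crest.Agent.H6.P3
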