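import Crest.Agent.H6.P3D1

set_option autoImplicit false
set_option maxRecDepth 100000

namespace Crest.Agent.H6.P3
open Crest.Agent.H1.Bor

theorem tf_c7 : allR (chk1 (okF true) axF tf 2478) 8 7 = true := by decide +kernel

theorem tf_c8 : allR (chk1 (okF true) axF tf 2478) 8 8 = true := by decide +kernel

theorem tf_c9 : allR (chk1 (okF true) axF tf 2478) 8 9 = true := by decide +kernel

end Crest.Agent.H6.P3
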