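import Crest.Agent.H6.P3D3
import Crest.Agent.H6.P3D4

set_option autoImplicit false
set_option maxRecDepth 100000

namespace Crest.Agent.H6.P3
open Crest.Agent.H1.Bor

theorem tf_last : db tf 2477 = 0 := by decide +kernel

theorem tf_all : ∀ i < 2478, chk1 (okF true) axF tf 2478 i = true := by
  intro i hi
  have h : i / 2 ^ 8 = 0 ∨ i / 2 ^ 8 = 1 ∨ i / 2 ^ 8 = 2 ∨ i / 2 ^ 8 = 3 ∨ i / 2 ^ 8 = 4 ∨ i / 2 ^ 8 = 5 ∨ i / 2 ^ 8 = 6 ∨ i / 2 ^ 8 = 7 ∨ i / 2 ^ 8 = 8 ∨ i / 2 ^ 8 = 9 := by omega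
  rcases h with h | h | h | h | h | h | h | h | h | h
  · exact allR_spec _ _ _ tf_c0 i h
  · exact allR_spec _ _ _ tf_c1 i h
  · exact allR_spec _ _ _ tf_c2 i h
  · exact allR_spec _ _ _ tf_c3 i h
  · exact allR_spec _ _ _ tf_c4 i h
  · exact allR_spec _ _ _ tf_c5 i h
  · exact allR_spec _ _ _ tf_c6 i h
  · exact allR_spec _ _ _ tf_c7 i h
  · exact allR_spec _ _ _ tf_c8 i h
  · exact allR_spec _ _ _ tf_c9 i h

theorem tf_false {v : ℕ → Prop} (h : ∀ code, okF true code = true → Sat v (axF code)) :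
    False :=
  not_Sat_zero v (tf_last ▸ chk_sound h tf_all 2477 (by norm_num))

end Crest.Agent.H6.P3
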