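import Crest.Agent.H6.P3D2
import Crest.Agent.H6.P3D5
import Crest.Agent.Lead.P3I

/-! Row 40, piece P3: five colours never meet; labels `f` / `ac` are impossible. -/

set_option autoImplicit false

noncomputable section

namespace Crest.Agent.H6.P3
open MeasureTheory Set
open Crest.Agent.H2.Gm Crest.Agent.Lead.P3

theorem five_comb {L : ℕ → Fin 5 → Prop} {col : ℕ → ℕ → Fin 5} (H : Hy L col)
    (h0 : ∀ u < 18, ∀ k, ∃ m, m ≠ k ∧ L u m) : False := by
  obtain ⟨a, -, ha⟩ := h0 0 (by norm_num) 0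
  obtain ⟨b, hab, hb⟩ := h0 0 (by norm_num) a
  obtain ⟨c, -, hc⟩ := h0 1 (by norm_num) 0
  obtain ⟨d, hcd, hd⟩ := h0 1 (by norm_num) c
  have hadj : ∀ k, L 0 k → ¬ L 1 k := H.adj 0 (by norm_num)
  have hn : [a, b, c, d].Nodup := by
    have h1 : a ≠ c := fun e => hadj a ha (e ▸ hc)
    have h2 : a ≠ d := fun e => hadj a ha (e ▸ hd)
    have h3 : b ≠ c := fun e => hadj b hb (e ▸ hc)
    have h4 : b ≠ d := fun e => hadj b hb (e ▸ hd)
    simp [h1, h2, h3, h4, hab.symm, hcd.symm]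
  have hinj : Function.Injective ![a, b, c, d] := List.nodup_ofFn.1 hn
  obtain ⟨σ, hσ⟩ := Equiv.Perm.exists_extending_pair _ _
    (Fin.castLE_injective (by norm_num : 4 ≤ 5)) hinj
  have e0 : σ 0 = a := hσ 0
  have e1 : σ 1 = b := hσ 1
  have e2 : σ 2 = c := hσ 2
  have e3 : σ 3 = d := hσ 3
  refine tf_false (okF_sound (H.perm σ) true (fun _ => ⟨fun u hu k => ?_, ?_⟩) (by simp))
  · obtain ⟨m, hm, hL⟩ := h0 u hu (σ k)
    refine ⟨σ.symm m, fun e => hm ?_, by simpa using hL⟩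
    rw [← e]; simp
  · simp only [e0, e1, e2, e3]
    exact ⟨ha, hb, hc, hd⟩

theorem ex_comb {L : ℕ → Fin 5 → Prop} {col : ℕ → ℕ → Fin 5} (H : Hy L col) {a c f : Fin 5}
    (hn : [a, c, f].Nodup) (h0 : ∀ u < 18, L u f ∨ (L u a ∧ L u c)) : False := by
  have hinj : Function.Injective ![a, c, f] := List.nodup_ofFn.1 hn
  obtain ⟨σ, hσ⟩ := Equiv.Perm.exists_extending_pair _ _
    (Fin.castLE_injective (by norm_num : 3 ≤ 5)) hinj
  have e0 : σ 0 = a := hσ 0
  have e1 : σ 1 = c := hσ 1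
  have e2 : σ 2 = f := hσ 2
  refine tx_false (okF_sound (H.perm σ) false (by simp) (fun _ u hu => ?_))
  simp only [e0, e1, e2]
  exact h0 u hu

def toC (a : Q4) : ℂ :=
  ⟨(a.1 + a.2.1 * (√3 * √11)) / 12, (a.2.2.1 * √3 + a.2.2.2 * √11) / 12⟩

lemma s3 : √3 * √3 = (3 : ℝ) := Real.mul_self_sqrt (by norm_num)

lemma s11 : √11 * √11 = (11 : ℝ) := Real.mul_self_sqrt (by norm_num)

lemma toC_add (a b : Q4) : toC (a + b) = toC a + toC b := by
  apply Complex.ext <;> simp [toC] <;> ring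

lemma toC_sub (a b : Q4) : toC (a - b) = toC a - toC b := by
  apply Complex.ext <;> simp [toC] <;> ring

lemma normSq_toC (a : Q4) :
    Complex.normSq (toC a) = (n1 a + 2 * (√3 * √11) * n2 a) / 144 := by
  obtain ⟨p, q, r, t⟩ := a
  simp only [Complex.normSq_apply, toC, n1, n2]
  push_cast
  have h3 := s3
  have h11 := s11
  linear_combination ((q : ℝ) ^ 2 * √11 * √11 / 144 + (r : ℝ) ^ 2 / 144) * h3 +
    (3 * (q : ℝ) ^ 2 / 144 + (t : ℝ) ^ 2 / 144) * h11

def mul4 (a b : Q4) : Q4 :=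
  (a.1 * b.1 + 33 * (a.2.1 * b.2.1) - 3 * (a.2.2.1 * b.2.2.1) - 11 * (a.2.2.2 * b.2.2.2),
    a.1 * b.2.1 + a.2.1 * b.1 - a.2.2.1 * b.2.2.2 - a.2.2.2 * b.2.2.1,
    a.1 * b.2.2.1 + 11 * (a.2.1 * b.2.2.2) + b.1 * a.2.2.1 + 11 * (b.2.1 * a.2.2.2),
    a.1 * b.2.2.2 + 3 * (a.2.1 * b.2.2.1) + b.1 * a.2.2.2 + 3 * (b.2.1 * a.2.2.1))

lemma toC_mul4 (a b : Q4) : toC (mul4 a b) = 12 * (toC a * toC b) := by
  obtain ⟨p, q, r, t⟩ := a
  obtain ⟨P, Q, R, T⟩ := b
  have h3 := s3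
  have h11 := s11
  apply Complex.ext
  · simp only [toC, mul4, Complex.mul_re, Complex.mul_im, Complex.re_ofNat, Complex.im_ofNat]
    push_cast
    linear_combination (-(q : ℝ) * Q * √11 * √11 / 12 + (r : ℝ) * R / 12) * h3 +
      (-3 * (q : ℝ) * Q / 12 + (t : ℝ) * T / 12) * h11
  · simp only [toC, mul4, Complex.mul_re, Complex.mul_im, Complex.re_ofNat, Complex.im_ofNat]
    push_cast
    linear_combination (-(q : ℝ) * R * √11 / 12 - (r : ℝ) * Q * √11 / 12) * h3 +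
      (-(q : ℝ) * T * √3 / 12 - (t : ℝ) * Q * √3 / 12) * h11

lemma toC_mul {a b c : Q4} (h : mul4 a b = (12 * c.1, 12 * c.2.1, 12 * c.2.2.1, 12 * c.2.2.2)) :
    toC a * toC b = toC c := by
  have h1 := toC_mul4 a b
  have h2 : toC (12 * c.1, 12 * c.2.1, 12 * c.2.2.1, 12 * c.2.2.2) = 12 * toC c := by
    apply Complex.ext
    · simp only [toC, Complex.mul_re, Complex.re_ofNat, Complex.im_ofNat]; push_cast; ring
    · simp only [toC, Complex.mul_im, Complex.re_ofNat, Complex.im_ofNat]; push_cast; ring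
  rw [h, h2] at h1
  exact (mul_left_cancel₀ (by norm_num) h1).symm

lemma e_add (s t : ℝ) : e (s + t) = e s * e t := by
  simp [e, add_mul, Complex.exp_add]

lemma e_re (s : ℝ) : (e s).re = Real.cos s := Complex.exp_ofReal_mul_I_re s

lemma e_im (s : ℝ) : (e s).im = Real.sin s := Complex.exp_ofReal_mul_I_im s

lemma norm_e (s : ℝ) : ‖e s‖ = 1 := Complex.norm_exp_ofReal_mul_I s

def th : ℝ := Real.arcsin (√3 / 6)

def ph (u : ℕ) : ℝ := (u % 6 : ℕ) * (Real.pi / 3) + (u / 6 : ℕ) * th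

lemma e_zero : e 0 = toC (cx 0) := by
  apply Complex.ext <;> simp [e, toC, cx]

lemma e_pi3 : e (Real.pi / 3) = toC (cx 1) := by
  apply Complex.ext
  · rw [e_re, Real.cos_pi_div_three]; simp [toC, cx]; norm_num
  · rw [e_im, Real.sin_pi_div_three]; simp [toC, cx]; ring

lemma e_th : e th = toC (cx 6) := by
  have h3 := s3
  have h11 := s11
  have p3 : (0 : ℝ) ≤ √3 := Real.sqrt_nonneg _
  have p11 : (0 : ℝ) ≤ √11 := Real.sqrt_nonneg _
  apply Complex.ext
  · rw [e_re, th, Real.cos_arcsin]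
    have : (toC (cx 6)).re = √3 * √11 / 6 := by simp [toC, cx]; ring
    rw [this, Real.sqrt_eq_iff_mul_self_eq (by nlinarith) (by positivity)]
    linear_combination (-(√11 * √11 / 36 + 1 / 36)) * h3 + (-3 / 36) * h11
  · rw [e_im, th, Real.sin_arcsin (by nlinarith) (by nlinarith)]
    simp [toC, cx]; ring

lemma e_mul_pi3 (i : ℕ) (hi : i < 6) : e (i * (Real.pi / 3)) = toC (cx i) := by
  induction i with
  | zero => simpa using e_zero
  | succ n ih =>
    rw [Nat.cast_succ, add_mul, one_mul, e_add, ih (by omega), e_pi3]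
    apply toC_mul
    have : n < 5 := by omega
    interval_cases n <;> decide

lemma e_mul_th (j : ℕ) (hj : j < 3) : e (j * th) = toC (cx (6 * j)) := by
  induction j with
  | zero => simpa using e_zero
  | succ n ih =>
    rw [Nat.cast_succ, add_mul, one_mul, e_add, ih (by omega), e_th]
    apply toC_mul
    have : n < 2 := by omega
    interval_cases n <;> decide

lemma e_ph {u : ℕ} (hu : u < 18) : e (ph u) = toC (cx u) := by
  rw [ph, e_add, e_mul_pi3 _ (Nat.mod_lt _ (by norm_num)), e_mul_th _ (by omega)]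
  apply toC_mul
  interval_cases u <;> decide

lemma ph_nx (u : ℕ) :
    ph (nx u) = ph u + Real.pi / 3 ∨ ph (nx u) + 2 * Real.pi = ph u + Real.pi / 3 := by
  have h2 : nx u / 6 = u / 6 := by unfold nx; omega
  by_cases h : u % 6 = 5
  · right
    have h1 : nx u % 6 = 0 := by unfold nx; omega
    rw [ph, ph, h1, h2, h]; push_cast; ring
  · left
    have h1 : nx u % 6 = u % 6 + 1 := by unfold nx; omega
    rw [ph, ph, h1, h2]; push_cast; ring

lemma irr33 : Irrational (√3 * √11) := by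
  rw [← Real.sqrt_mul (by norm_num)]
  have : ((3 : ℝ) * 11) = ((33 : ℕ) : ℝ) := by norm_num
  rw [this, irrational_sqrt_natCast_iff]
  rintro ⟨r, hr⟩
  have : r ≤ 6 := by nlinarith
  interval_cases r <;> omega

lemma sin_ne {u v : ℕ} (hu : u < 18) (hv : v < 18) (h : nd u v = true) :
    Real.sin (ph u - ph v) ≠ 0 := by
  intro hs
  have h1 : Complex.normSq (e (ph u) + e (ph v)) = 2 + 2 * Real.cos (ph u - ph v) := by
    rw [Complex.normSq_apply, Complex.add_re, Complex.add_im, e_re, e_re, e_im, e_im, Real.cos_sub]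
    nlinarith [Real.sin_sq_add_cos_sq (ph u), Real.sin_sq_add_cos_sq (ph v)]
  rw [e_ph hu, e_ph hv, ← toC_add, normSq_toC] at h1
  have key : ∀ m : ℤ, (n1 (cx u + cx v) + 2 * (√3 * √11) * n2 (cx u + cx v) : ℝ) = m →
      n2 (cx u + cx v) = 0 ∧ n1 (cx u + cx v) = m := by
    intro m hm
    have h2 : n2 (cx u + cx v) = 0 := by
      by_contra h2
      have h3 : (√3 * √11 : ℝ) = ((m - n1 (cx u + cx v) : ℤ) : ℝ) / ((2 * n2 (cx u + cx v) : ℤ) : ℝ) := by
        have : (n2 (cx u + cx v) : ℝ) ≠ 0 := by exact_mod_cast h2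
        push_cast
        field_simp
        linarith
      exact irr33 ⟨((m - n1 (cx u + cx v) : ℤ) : ℚ) / ((2 * n2 (cx u + cx v) : ℤ) : ℚ), by
        rw [h3]; push_cast; ring⟩
    refine ⟨h2, ?_⟩
    rw [h2] at hm
    have : (n1 (cx u + cx v) : ℝ) = m := by simpa using hm
    exact_mod_cast this
  rcases Real.sin_eq_zero_iff_cos_eq.1 hs with hc | hc
  · obtain ⟨a, b⟩ := key 576 (by rw [hc] at h1; push_cast; linarith)
    simp [nd, a, b] at h
  · obtain ⟨a, b⟩ := key 0 (by rw [hc] at h1; push_cast; linarith)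
    simp [nd, a, b] at h

lemma ae_shift {p : ℝ → Prop} (h : ∀ᵐ s : ℝ, p s) : ∀ᵐ s : ℝ, ∀ u : ℕ, p (s + ph u) :=
  ae_all_iff.2 fun u => (measurePreserving_add_right volume (ph u)).quasiMeasurePreserving.ae h

theorem exists_hy (hB : BasicStmt) (hT : ThinStmt) (hTr : TransStmt) (C : Col) (x : ℂ)
    (P : Lab C x) {p : ℝ → Prop} (hp : ∀ᵐ s : ℝ, p s) :
    ∃ (s : ℝ) (col : ℕ → ℕ → Fin 5), Hy (fun u k => s + ph u ∈ P.S k) col ∧ ∀ u, p (s + ph u) := by
  have h1 : ∀ᵐ s : ℝ, ∀ k, s ∈ P.S k → Dens (P.S k) s :=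
    ae_all_iff.2 fun k => hB.1 _ (P.meas k)
  have h2 : ∀ᵐ s : ℝ, ∀ k, ¬ (s ∈ P.S k ∧ s + Real.pi / 3 ∈ P.S k) := ae_all_iff.2 P.L2
  obtain ⟨s, hs⟩ := (ae_shift (h1.and (h2.and hp))).exists
  obtain ⟨col, hc1, hc2⟩ := hTr C (Fin 18 × Fin 18)
    (fun w => x + e (s + ph w.1) + e (s + ph w.2))
    (fun w k => nd w.1 w.2 = true ∧ (s + ph w.1 ∈ P.S k ∨ s + ph w.2 ∈ P.S k)) (by
      rintro ⟨u, v⟩ k ⟨hn, hk | hk⟩
      · refine hT C x P k _ _ ((hs u).1 k hk) ?_
        rw [add_sub_add_left_eq_sub]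
        exact sin_ne u.2 v.2 hn
      · rw [add_right_comm]
        refine hT C x P k _ _ ((hs v).1 k hk) ?_
        rw [add_sub_add_left_eq_sub, ← neg_sub, Real.sin_neg, neg_ne_zero]
        exact sin_ne u.2 v.2 hn)
  refine ⟨s, fun u v => col (Fin.ofNat 18 u, Fin.ofNat 18 v), ?_, fun u => (hs u).2.2⟩
  have hv : ∀ u < 18, ((Fin.ofNat 18 u : Fin 18) : ℕ) = u := fun u hu => Nat.mod_eq_of_lt hu
  refine ⟨fun u _ k a b => (hs u).2.1 k ⟨a, ?_⟩, fun u hu v hv' hn hk => ?_,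
    fun u hu v hv' hn hk => ?_, fun u hu v hv' u' hu' v' hv'' hn => ?_⟩
  · rcases ph_nx u with h | h
    · rw [add_assoc, ← h]; exact b
    · rw [add_assoc, ← h, ← add_assoc, P.per]; exact b
  · refine hc1 (Fin.ofNat 18 u, Fin.ofNat 18 v) ?_
    simp only [hv u hu, hv v hv']
    exact ⟨hn, Or.inl hk⟩
  · refine hc1 (Fin.ofNat 18 u, Fin.ofNat 18 v) ?_
    simp only [hv u hu, hv v hv']
    exact ⟨hn, Or.inr hk⟩
  · refine hc2 _ _ ?_
    simp only [hv u hu, hv v hv', hv u' hu', hv v' hv'']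
    simp only [un, Bool.and_eq_true, decide_eq_true_eq] at hn
    have h3 : x + e (s + ph u) + e (s + ph v) - (x + e (s + ph u') + e (s + ph v')) =
        e s * toC (cx u + cx v - (cx u' + cx v')) := by
      rw [toC_sub, toC_add, toC_add, e_add, e_add, e_add, e_add, e_ph hu, e_ph hv', e_ph hu',
        e_ph hv'']
      ring
    rw [dist_eq_norm, h3, norm_mul, norm_e, one_mul, Complex.norm_def, normSq_toC, hn.1, hn.2]
    simp

theorem fiveStmt (hB : BasicStmt) (hL : LabStmt) (hT : ThinStmt) (hTr : TransStmt) :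
    FiveStmt := by
  intro C x h
  obtain ⟨P⟩ := hL C x
  have h1 : ∀ᵐ s : ℝ, ∀ k, ∃ m, m ≠ k ∧ s ∈ P.S m := by
    refine ae_all_iff.2 fun k => ?_
    filter_upwards [P.L1 {k} (hB.2.2.2.2.2.2.1 C x k (h k))] with s ⟨m, hm, hs⟩
    exact ⟨m, by simpa using hm, hs⟩
  obtain ⟨s, col, H, hp⟩ := exists_hy hB hT hTr C x P h1
  exact five_comb H fun u _ => hp u

theorem exStmt (hB : BasicStmt) (hT : ThinStmt) (hTr : TransStmt) : ExStmt := by
  intro C x P a c f hn h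
  obtain ⟨s, col, H, hp⟩ := exists_hy hB hT hTr C x P h
  exact ex_comb H hn fun u _ => hp u

end Crest.Agent.H6.P3
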