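import Crest.Agent.H6.P3D1

set_option autoImplicit false
set_option maxRecDepth 100000

namespace Crest.Agent.H6.P3
open Crest.Agent.H1.Bor

theorem tf_c0 : allR (chk1 (okF true) axF tf 2478) 8 0 = true := by decide +kernel

theorem tf_c1 : allR (chk1 (okF true) axF tf 2478) 8 1 = true := by decide +kernel

theorem tf_c2 : allR (chk1 (okF true) axF tf 2478) 8 2 = true := by decide +kernel

theorem tf_c3 : allR (chk1 (okF true) axF tf 2478) 8 3 = true := by decide +kernel

theorem tf_c4 : allR (chk1 (okF true) axF tf 2478) 8 4 = true := by decide +kernel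

theorem tf_c5 : allR (chk1 (okF true) axF tf 2478) 8 5 = true := by decide +kernel

theorem tf_c6 : allR (chk1 (okF true) axF tf 2478) 8 6 = true := by decide +kernel

end Crest.Agent.H6.P3
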