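import Crest.Agent.H6.TkD

/-! Row 186: elementary cochain lemmas for the assembly. -/

set_option autoImplicit false
set_option linter.unusedSectionVars false

noncomputable section
namespace Crest.Agent.H6.Tk.A
open MulOpposite Finsupp

variable {R : Type} [Ring R] {P P' : Cx R}
  {V : Type} [AddCommGroup V] [Module R V] [Module Rᵐᵒᵖ V] [SMulCommClass R Rᵐᵒᵖ V]
  {W : Type} [AddCommGroup W] [Module R W] [Module Rᵐᵒᵖ W] [SMulCommClass R Rᵐᵒᵖ W]
  {U : Type} [AddCommGroup U] [Module R U] [Module Rᵐᵒᵖ U] [SMulCommClass R Rᵐᵒᵖ U]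

lemma ch_ext {I J : Type} {Φ Ψ : (I →₀ R) →ₗ[R] (J →₀ V)}
    (h : ∀ i j, Φ (single i 1) j = Ψ (single i 1) j) : Φ = Ψ := by
  refine Finsupp.lhom_ext fun i r => ?_
  have : (single i r : I →₀ R) = r • single i 1 := by simp
  rw [this, map_smul, map_smul]
  congr 1; ext j; exact h i j

lemma single_eq {I : Type} (i : I) (r : R) : (single i r : I →₀ R) = r • single i 1 := by simp

lemma one_single (i : P.I) (r : R) : P.one (single i r) = single i (r * P.ε i) := by
  simp [Cx.one]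

lemma isC_add {n : ℤ} {Φ Ψ : Ch P P' V} (h : IsC P P' V n Φ) (h' : IsC P P' V n Ψ) :
    IsC P P' V n (Φ + Ψ) := fun i j => by
  obtain ⟨a, b, c⟩ := h i j
  obtain ⟨a', b', c'⟩ := h' i j
  refine ⟨fun x => ?_, ?_, ?_⟩
  · simp [a x, a' x]
  · simp [b, b']
  · simp [c, c']

lemma δ_add (Φ Ψ : Ch P P' V) : δ P P' V (Φ + Ψ) = δ P P' V Φ + δ P P' V Ψ := by
  simp only [δ, LinearMap.add_comp, LinearMap.comp_add]; abel

lemma two (h2 : (2 : R) = 0) {I J : Type} (Φ : (I →₀ R) →ₗ[R] (J →₀ V)) : Φ + Φ = 0 := by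
  refine ch_ext fun i j => ?_
  simp only [LinearMap.add_apply, Finsupp.add_apply, LinearMap.zero_apply, Finsupp.zero_apply]
  rw [← two_smul R, h2, zero_smul]

lemma δδ (h2 : (2 : R) = 0) (Φ : Ch P P' V) : δ P P' V (δ P P' V Φ) = 0 := by
  simp only [δ, LinearMap.add_comp, LinearMap.comp_add, LinearMap.comp_assoc, P.dd, LinearMap.comp_zero]
  rw [← LinearMap.comp_assoc Φ, ← tens_comp, P'.dd, tens_zero, LinearMap.zero_comp, zero_add, add_zero]
  exact two h2 _

lemma comp_one {n : ℤ} {Φ : Ch P P' V} (h : IsC P P' V n Φ) : Φ ∘ₗ P.one = Φ :=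
  ch_ext fun i j => by
    rw [LinearMap.comp_apply, one_single, one_mul, single_eq, map_smul, Finsupp.smul_apply, (h i j).2.1]

lemma one_apply (x : P.I →₀ R) (j : P.I) : P.one x j = x j * P.ε j := by
  classical
  induction x using Finsupp.induction_linear with
  | zero => simp
  | add x y hx hy => simp [hx, hy, add_mul]
  | single i r =>
    rw [one_single]
    by_cases h : i = j
    · subst h; simp
    · simp [h]

lemma one_comp {n : ℤ} {u : Ch P P' R} (h : IsC P P' R n u) : P'.one ∘ₗ u = u :=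
  ch_ext fun i j => by
    rw [LinearMap.comp_apply, one_apply]; exact (h i j).2.2

lemma bd_add {n : ℤ} {Φ Ψ : Ch P P' V} (h : Bd P P' V n Φ) (h' : Bd P P' V n Ψ) : Bd P P' V n (Φ + Ψ) := by
  obtain ⟨a, ha, rfl⟩ := h
  obtain ⟨b, hb, rfl⟩ := h'
  exact ⟨a + b, isC_add ha hb, δ_add _ _⟩

section sc
variable {k : Type} [Field k] [Algebra k R]

lemma sc_apply (a : k) (Φ : Ch P P' V) (i : P.I) (j : P'.I) :
    (Φ ∘ₗ (a • P.one)) (single i 1) j = (a • P.ε i) • Φ (single i 1) j := by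
  rw [LinearMap.comp_apply, LinearMap.smul_apply, one_single, one_mul, smul_single, single_eq, map_smul,
    Finsupp.smul_apply]

lemma isC_sc (a : k) {n : ℤ} {Φ : Ch P P' V} (h : IsC P P' V n Φ) : IsC P P' V n (Φ ∘ₗ (a • P.one)) :=
  fun i j => by
    obtain ⟨x, y, z⟩ := h i j
    rw [sc_apply]
    refine ⟨fun e => by rw [x e, smul_zero], ?_, ?_⟩
    · rw [smul_smul, mul_smul_comm, P.idem]
    · rw [← smul_comm, z]

lemma δ_sc (a : k) (Φ : Ch P P' V) : δ P P' V (Φ ∘ₗ (a • P.one)) = δ P P' V Φ ∘ₗ (a • P.one) := by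
  have h1 : P.one ∘ₗ P.d = P.d := one_comp (P := P) (P' := P) (n := 1) P.d_isM
  have h2 : P.d ∘ₗ P.one = P.d := comp_one (P := P) (P' := P) (V := R) (n := 1) P.d_isM
  have h3 : (a • P.one) ∘ₗ P.d = P.d ∘ₗ (a • P.one) := by
    refine LinearMap.ext fun x => ?_
    have e1 := LinearMap.congr_fun h1 x
    have e2 := LinearMap.congr_fun h2 x
    simp only [LinearMap.comp_apply, LinearMap.smul_apply] at e1 e2 ⊢
    rw [e1, LinearMap.map_smul_of_tower, e2]
  simp only [δ, LinearMap.add_comp, LinearMap.comp_assoc, h3]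

lemma bd_sc (a : k) {n : ℤ} {Φ : Ch P P' V} (h : Bd P P' V n Φ) : Bd P P' V n (Φ ∘ₗ (a • P.one)) := by
  obtain ⟨b, hb, rfl⟩ := h
  exact ⟨_, isC_sc a hb, δ_sc a b⟩

lemma sc_sc (a b : k) (Φ : Ch P P' V) : (Φ ∘ₗ (a • P.one)) ∘ₗ (b • P.one) = Φ ∘ₗ ((a * b) • P.one) :=
  ch_ext fun i j => by
    rw [sc_apply, sc_apply, sc_apply, smul_smul, smul_mul_smul_comm, P.idem, mul_comm]
end sc

/-- a map of bimodules -/
def IsBi (θ : V →ₗ[R] W) : Prop := ∀ (a : Rᵐᵒᵖ) x, θ (a • x) = a • θ x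

abbrev mc (θ : V →ₗ[R] W) (Φ : Ch P P' V) : Ch P P' W := mapRange.linearMap θ ∘ₗ Φ

lemma mc_apply (θ : V →ₗ[R] W) (Φ : Ch P P' V) (x : P.I →₀ R) (j : P'.I) : mc θ Φ x j = θ (Φ x j) := by
  simp [mc]

lemma tens_map {θ : V →ₗ[R] W} (hθ : IsBi θ) {I J : Type} (g : (I →₀ R) →ₗ[R] (J →₀ R)) :
    tens W g ∘ₗ mapRange.linearMap θ = mapRange.linearMap θ ∘ₗ tens V g := by
  refine Finsupp.lhom_ext fun i v => ?_
  ext j
  simp [hθ _ _]

lemma δ_mc {θ : V →ₗ[R] W} (hθ : IsBi θ) (Φ : Ch P P' V) : δ P P' W (mc θ Φ) = mc θ (δ P P' V Φ) := by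
  simp only [δ, mc, LinearMap.comp_add, ← LinearMap.comp_assoc, tens_map hθ]

lemma isC_mc {θ : V →ₗ[R] W} (hθ : IsBi θ) {n : ℤ} {Φ : Ch P P' V} (h : IsC P P' V n Φ) :
    IsC P P' W n (mc θ Φ) := fun i j => by
  obtain ⟨x, y, z⟩ := h i j
  rw [mc_apply]
  exact ⟨fun e => by rw [x e, map_zero], by rw [← map_smul, y], by rw [← hθ, z]⟩

lemma mc_inj {θ : V →ₗ[R] W} (h : Function.Injective θ) {Φ Ψ : Ch P P' V} (e : mc θ Φ = mc θ Ψ) : Φ = Ψ :=
  ch_ext fun i j => h (by rw [← mc_apply, ← mc_apply, e])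

/-- entrywise lifting -/
lemma lift {θ : V →ₗ[R] W} (hθ : IsBi θ) {n : ℤ} {Φ : Ch P P' W} (h : IsC P P' W n Φ)
    (hs : ∀ i j, ∃ v, θ v = Φ (single i 1) j) : ∃ Ψ, IsC P P' V n Ψ ∧ mc θ Ψ = Φ := by
  classical
  choose v hv using hs
  let w : P.I → P'.I → V := fun i j =>
    if Φ (single i 1) j = 0 then 0 else P.ε i • op (P'.ε j) • v i j
  let row : P.I → P'.I →₀ V := fun i => Finsupp.onFinset (Φ (single i 1)).support (w i) fun j hj => by
    rw [mem_support_iff]; intro e; exact hj (if_pos e)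
  have key : ∀ i j, Finsupp.linearCombination R row (single i 1) j = w i j := fun i j => by
    simp [row]
  refine ⟨Finsupp.linearCombination R row, fun i j => ?_, ch_ext fun i j => ?_⟩
  · rw [key]
    obtain ⟨x, y, z⟩ := h i j
    refine ⟨fun e => if_pos (x e), ?_, ?_⟩
    · simp only [w]; split_ifs
      · simp
      · rw [smul_smul, P.idem]
    · simp only [w]; split_ifs
      · simp
      · rw [← smul_comm, smul_smul (op _), ← op_mul, P'.idem]
  · rw [mc_apply, key]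
    obtain ⟨x, y, z⟩ := h i j
    simp only [w]; split_ifs with e
    · rw [map_zero, e]
    · rw [map_smul, hθ, hv, z, y]

lemma isC_δ {n : ℤ} {Φ : Ch P P' V} (h : IsC P P' V n Φ) : IsC P P' V (n + 1) (δ P P' V Φ) := by
  classical
  intro i j
  have e1 : (Φ ∘ₗ P.d) (single i 1) j = (P.d (single i 1)).sum fun l r => r • Φ (single l 1) j := by
    rw [LinearMap.comp_apply]
    conv_lhs => rw [← Finsupp.sum_single (P.d (single i 1)), map_finsuppSum, Finsupp.sum_apply]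
    exact Finsupp.sum_congr fun l _ => by rw [single_eq, map_smul, Finsupp.smul_apply]
  have e2 : (tens V P'.d ∘ₗ Φ) (single i 1) j =
      (Φ (single i 1)).sum fun l v => op (P'.d (single l 1) j) • v := by
    rw [LinearMap.comp_apply]
    conv_lhs => rw [← Finsupp.sum_single (Φ (single i 1)), map_finsuppSum, Finsupp.sum_apply]
    exact Finsupp.sum_congr fun l _ => by rw [tens_single]
  rw [δ, LinearMap.add_apply, Finsupp.add_apply, e1, e2]
  refine ⟨fun e => ?_, ?_, ?_⟩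
  · rw [Finsupp.sum, Finsupp.sum, Finset.sum_eq_zero, Finset.sum_eq_zero, add_zero]
    · intro l hl
      have h1 : P'.deg l = P.deg i + n := by
        by_contra c; exact (mem_support_iff.1 hl) ((h i l).1 c)
      rw [(P'.d_isM l j).1 (by omega), op_zero, zero_smul]
    · intro l hl
      have h1 : P.deg l = P.deg i + 1 := by
        by_contra c; exact (mem_support_iff.1 hl) ((P.d_isM i l).1 c)
      rw [(h l j).1 (by omega), smul_zero]
  · rw [smul_add, Finsupp.sum, Finsupp.sum, Finset.smul_sum, Finset.smul_sum]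
    congr 1
    · exact Finset.sum_congr rfl fun l _ => by
        rw [smul_smul]; congr 1; exact (P.d_isM i l).2.1
    · exact Finset.sum_congr rfl fun l _ => by rw [smul_comm, (h i l).2.1]
  · rw [smul_add, Finsupp.sum, Finsupp.sum, Finset.smul_sum, Finset.smul_sum]
    congr 1
    · exact Finset.sum_congr rfl fun l _ => by rw [← smul_comm, (h l j).2.2]
    · exact Finset.sum_congr rfl fun l _ => by
        rw [smul_smul, ← op_mul]; congr 2; exact (P'.d_isM l j).2.2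

/-- the connecting map detects coboundaries -/
lemma bd_of_conn (h2 : (2 : R) = 0) {ι : V →ₗ[R] W} {π : W →ₗ[R] U} (hι : IsBi ι) (hπ : IsBi π)
    (inj : Function.Injective ι) (sur : Function.Surjective π) (ex : ∀ w, π w = 0 → ∃ v, ι v = w)
    {n : ℤ} {Φ : Ch P P' V} {Ψ : Ch P P' W} (hΨ : IsC P P' W (n - 1) Ψ) (e : δ P P' W Ψ = mc ι Φ)
    (hb : Bd P P' U (n - 1) (mc π Ψ)) : Bd P P' V n Φ := by
  obtain ⟨χ, hχ, e'⟩ := hb
  obtain ⟨χ', hχ', rfl⟩ := lift hπ hχ fun i j => sur _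
  have h1 : IsC P P' W (n - 1) (Ψ + δ P P' W χ') := by
    have := isC_δ hχ'
    rw [sub_add_cancel] at this
    exact isC_add hΨ this
  obtain ⟨Θ, hΘ, e''⟩ := lift hι h1 fun i j => ex _ (by
    rw [← mc_apply, mc, LinearMap.comp_add, ← mc, ← mc, ← δ_mc hπ, e', two h2]; rfl)
  refine ⟨Θ, hΘ, mc_inj inj ?_⟩
  rw [← δ_mc hι, e'', δ_add, δδ h2, add_zero, e]

end Crest.Agent.H6.Tk.A
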