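import Crest.Agent.H6.TkA

/-! Row 186: exact sequences and the gluing data. -/

set_option autoImplicit false
set_option linter.unusedSectionVars false

noncomputable section
namespace Crest.Agent.H6.Tk.A
open MulOpposite Finsupp

section ses
variable {R : Type} [Ring R] {P P' : Cx R}
  {V : Type} [AddCommGroup V] [Module R V] [Module Rᵐᵒᵖ V] [SMulCommClass R Rᵐᵒᵖ V]
  {W : Type} [AddCommGroup W] [Module R W] [Module Rᵐᵒᵖ W] [SMulCommClass R Rᵐᵒᵖ W]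
  {U : Type} [AddCommGroup U] [Module R U] [Module Rᵐᵒᵖ U] [SMulCommClass R Rᵐᵒᵖ U]

structure SE (ι : V →ₗ[R] W) (π : W →ₗ[R] U) : Prop where
  hι : IsBi ι
  hπ : IsBi π
  inj : Function.Injective ι
  sur : Function.Surjective π
  ex : ∀ w, π w = 0 → ∃ v, ι v = w
  z : ∀ v, π (ι v) = 0

variable {ι : V →ₗ[R] W} {π : W →ₗ[R] U}

lemma mc_add (θ : V →ₗ[R] W) (Φ Ψ : Ch P P' V) : mc θ (Φ + Ψ) = mc θ Φ + mc θ Ψ := LinearMap.comp_add _ _ _
lemma mc_zero (θ : V →ₗ[R] W) : mc θ (0 : Ch P P' V) = 0 := LinearMap.comp_zero _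
lemma SE.mz (s : SE ι π) (Φ : Ch P P' V) : mc π (mc ι Φ) = 0 :=
  ch_ext fun i j => by rw [mc_apply, mc_apply, s.z]; rfl
lemma cy_mc {θ : V →ₗ[R] W} (hθ : IsBi θ) {n : ℤ} {Φ : Ch P P' V} (h : Cy P P' V n Φ) :
    Cy P P' W n (mc θ Φ) := ⟨isC_mc hθ h.1, by rw [δ_mc hθ, h.2, mc_zero]⟩
lemma SE.lift (s : SE ι π) {n : ℤ} {Ψ : Ch P P' W} (h : IsC P P' W n Ψ) (e : mc π Ψ = 0) :
    ∃ Θ, IsC P P' V n Θ ∧ mc ι Θ = Ψ :=
  A.lift s.hι h fun i j => s.ex _ (by rw [← mc_apply, e]; rfl)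

lemma SE.vanA (h2 : (2 : R) = 0) (s : SE ι π) {n : ℤ} (hW : Van P P' W n) (hU : Van P P' U (n - 1)) :
    Van P P' V n := fun Φ hΦ => by
  obtain ⟨Ψ, hΨ, e⟩ := hW _ (cy_mc s.hι hΦ)
  exact bd_of_conn h2 s.hι s.hπ s.inj s.sur s.ex hΨ e
    (hU _ ⟨isC_mc s.hπ hΨ, by rw [δ_mc s.hπ, e, s.mz]⟩)

lemma SE.vanB (h2 : (2 : R) = 0) (s : SE ι π) {n : ℤ} (hV : Van P P' V (n + 1)) (hW : Van P P' W n) :
    Van P P' U n := fun Φ hΦ => by
  obtain ⟨Ψ, hΨ, rfl⟩ := A.lift s.hπ hΦ.1 fun i j => s.sur _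
  obtain ⟨Θ, hΘ, e⟩ := s.lift (isC_δ hΨ) (by rw [← δ_mc s.hπ, hΦ.2])
  obtain ⟨Θ', hΘ', e'⟩ := hV Θ ⟨hΘ, mc_inj s.inj (by rw [← δ_mc s.hι, e, δδ h2, mc_zero])⟩
  rw [add_sub_cancel_right] at hΘ'
  obtain ⟨χ, hχ, e''⟩ := hW (Ψ + mc ι Θ') ⟨isC_add hΨ (isC_mc s.hι hΘ'), by
    rw [δ_add, δ_mc s.hι, e', e, two h2]⟩
  exact ⟨mc π χ, isC_mc s.hπ hχ, by rw [δ_mc s.hπ, e'', mc_add, s.mz, add_zero]⟩

lemma SE.vanC (h2 : (2 : R) = 0) (s : SE ι π) {n : ℤ} (hV : Van P P' V n) (hU : Van P P' U n) :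
    Van P P' W n := fun Φ hΦ => by
  obtain ⟨χ, hχ, e⟩ := hU _ (cy_mc s.hπ hΦ)
  obtain ⟨χ', hχ', rfl⟩ := A.lift s.hπ hχ fun i j => s.sur _
  have h1 := isC_δ hχ'
  rw [sub_add_cancel] at h1
  obtain ⟨Θ, hΘ, e'⟩ := s.lift (isC_add hΦ.1 h1) (by rw [mc_add, ← δ_mc s.hπ, e, two h2])
  obtain ⟨Θ', hΘ', e''⟩ := hV Θ ⟨hΘ, mc_inj s.inj (by
    rw [← δ_mc s.hι, e', δ_add, δδ h2, hΦ.2, add_zero, mc_zero])⟩
  refine ⟨χ' + mc ι Θ', isC_add hχ' (isC_mc s.hι hΘ'), ?_⟩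
  rw [δ_add, δ_mc s.hι, e'', e', add_comm Φ, ← add_assoc, two h2, zero_add]

lemma se_prod : SE (LinearMap.inl R V W) (LinearMap.snd R V W) where
  hι a x := by simp
  hπ a x := by simp
  inj := LinearMap.inl_injective
  sur := LinearMap.snd_surjective
  ex w h := ⟨w.1, Prod.ext rfl (by simpa using h.symm)⟩
  z v := rfl

lemma van_prod (h2 : (2 : R) = 0) {n : ℤ} (hV : Van P P' V n) (hW : Van P P' W n) : Van P P' (V × W) n :=
  se_prod.vanC h2 hV hW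

lemma se_sub (S : SubBi R V) : SE S.val S.mkQ where
  hι := S.val_op
  hπ := S.mkQ_op
  inj := S.val_inj
  sur := S.mkQ_surj
  ex w h := ⟨S.mk' w ((S.mkQ_eq_zero w).1 h), rfl⟩
  z v := (S.mkQ_eq_zero _).2 (S.val_mem v)

lemma δ_pt (Φ : Ch P (pt R) V) : δ P (pt R) V Φ = Φ ∘ₗ P.d := by
  rw [δ, show (pt R).d = 0 from rfl, tens_zero, LinearMap.zero_comp, add_zero]

lemma col_equiv (e : V ≃ₗ[R] W) {n : ℤ} (h : Van P (pt R) V n) : Van P (pt R) W n := by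
  have key : ∀ {V W : Type} [AddCommGroup V] [Module R V] [Module Rᵐᵒᵖ V] [SMulCommClass R Rᵐᵒᵖ V]
      [AddCommGroup W] [Module R W] [Module Rᵐᵒᵖ W] [SMulCommClass R Rᵐᵒᵖ W] (θ : V →ₗ[R] W) (n : ℤ)
      (Φ : Ch P (pt R) V), IsC P (pt R) V n Φ → IsC P (pt R) W n (mc θ Φ) := by
    intro V W _ _ _ _ _ _ _ _ θ n Φ h i j
    obtain ⟨x, y, -⟩ := h i j
    rw [mc_apply]
    exact ⟨fun e => by rw [x e, map_zero], by rw [← map_smul, y], one_smul _ _⟩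
  intro Φ hΦ
  obtain ⟨Ψ, hΨ, e'⟩ := h (mc e.symm.toLinearMap Φ) ⟨key _ _ _ hΦ.1, by
    rw [δ_pt, mc, LinearMap.comp_assoc, ← δ_pt, hΦ.2, LinearMap.comp_zero]⟩
  refine ⟨mc e.toLinearMap Ψ, key _ _ _ hΨ, ?_⟩
  rw [δ_pt, mc, LinearMap.comp_assoc, ← δ_pt, e']
  exact ch_ext fun i j => by simp

lemma diag_apply {I : Type} (w : I → V) (x : I →₀ R) (j : I) :
    Finsupp.linearCombination R (fun l => single l (w l)) x j = x j • w j := by
  classical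
  induction x using Finsupp.induction_linear with
  | zero => simp
  | add x y hx hy => simp [hx, hy, add_smul]
  | single i r =>
    by_cases h : i = j
    · subst h; simp
    · simp [h]

lemma δ_comp {P0 : Cx R} {g : Ch P P' V} (hg : δ P P' V g = 0) (h2 : (2 : R) = 0) (u : Ch P0 P R) :
    δ P0 P' V (g ∘ₗ u) = g ∘ₗ δ P0 P R u := by
  have : tens V P'.d ∘ₗ g = g ∘ₗ P.d := by
    have h := two h2 (g ∘ₗ P.d)
    rw [δ] at hg
    exact add_left_cancel (hg.trans h.symm)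
  rw [δ, δ, tens_self, LinearMap.comp_add, ← LinearMap.comp_assoc u, this]
  rfl
end ses

section
variable {k B : Type} [Field k] [Ring B] [Algebra k B] {m : ℕ} {X : BD k B m}
open TrivSqZeroExt
local notation "E" => DualNumber B

lemma σ_mul (q : k) (a b : E) : σ q (a * b) = σ q a * σ q b := by
  ext <;> simp [σ, smul_add]
lemma σ_inv {q : k} (hq : q ≠ 0) (a : E) : σ q⁻¹ (σ q a) = a := by
  ext <;> simp [σ, smul_smul, hq]
lemma σ_inv' {q : k} (hq : q ≠ 0) (a : E) : σ q (σ q⁻¹ a) = a := by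
  ext <;> simp [σ, smul_smul, hq]
lemma σ_inl (q : k) (b : B) : σ q (inl b : E) = inl b := by ext <;> simp [σ]
lemma σ_zero (q : k) : σ q (0 : E) = 0 := by ext <;> simp [σ]

lemma κ1_op (h : FStmt X) (a : E) : op a • κ1 X h = a • κ1 X h := by
  refine Prod.ext ((KK k B).val_inj ?_) (Prod.ext ?_ ?_)
  · ext1 x; simp [κ1, mul_assoc]
  · ext1 x; simp [κ1]
  · simp [κ1]

lemma κ2_op (h : FStmt X) {q : k} (hq : q ≠ 0) (a : E) : op a • κ2 X h q = σ q a • κ2 X h q := by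
  refine Prod.ext ((KK k B).val_inj ?_) (Prod.ext ?_ ?_)
  · ext1 x; simp [κ2, σL, σ_mul, σ_inv hq, mul_assoc]
  · simp [κ2]
  · ext1 x; simp [κ2, σL, σ_mul, σ_inv hq]

def jj (h : FStmt X) (q : k) : (E × E) →ₗ[E] DD k B :=
  LinearMap.toSpanSingleton E _ (κ1 X h) ∘ₗ LinearMap.fst E E E +
    LinearMap.toSpanSingleton E _ (κ2 X h q) ∘ₗ LinearMap.snd E E E

lemma jj_apply (h : FStmt X) (q : k) (a b : E) : jj h q (a, b) = a • κ1 X h + b • κ2 X h q := rfl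

lemma jj_inj (h : FStmt X) {q : k} (hq : q ≠ 0) : Function.Injective (jj h q) := by
  rw [injective_iff_map_eq_zero]
  rintro ⟨a, b⟩ e
  have e1 := congrArg (fun x : DD k B => Om.toL x.2.1 1) e
  have e2 := congrArg (fun x : DD k B => σ q (Om.toL x.2.2 1)) e
  simp [jj_apply, κ1, κ2, σL, σ_inv' hq, σ_zero] at e1 e2
  simp [e1, e2]

def N0 (h : FStmt X) {q : k} (hq : q ≠ 0) : SubBi E (DD k B) where
  N := LinearMap.range (jj h q)
  op_mem a x := by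
    rintro ⟨⟨b, c⟩, rfl⟩
    refine ⟨(b * a.unop, c * σ q a.unop), ?_⟩
    rw [jj_apply, jj_apply, smul_add, ← smul_comm b, ← smul_comm c, mul_smul, mul_smul, ← κ1_op,
      ← κ2_op h hq, op_unop]

variable (Y : PD X)

lemma ε_inl (i : Y.P.I) : ∃ b, Y.P.ε i = inl b := by
  obtain ⟨x, rfl⟩ := Y.e.surjective i
  rcases x with ⟨w, i⟩ | ⟨w, i⟩
  · exact ⟨_, Y.ε_l w i⟩
  · exact ⟨_, Y.ε_r w i⟩

lemma σ_ε (q : k) (i : Y.P.I) : σ q (Y.P.ε i) = Y.P.ε i := by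
  obtain ⟨b, e⟩ := ε_inl Y i
  rw [e, σ_inl]

lemma cj_apply (q : k) (u : Ch Y.P Y.P E) (i j : Y.P.I) :
    Y.cj q u (single i 1) j = q ^ (Y.wt j - Y.wt i) • σ q (u (single i 1) j) := by
  classical
  rw [PD.cj, Finsupp.linearCombination_single, one_smul, Finsupp.sum_apply, Finsupp.sum,
    Finset.sum_eq_single j, single_eq_same]
  · intro l _ hl; rw [single_eq_of_ne hl.symm]
  · intro hj; rw [notMem_support_iff.1 hj, σ_zero, smul_zero, single_zero]; rfl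

lemma wt_l (w : ℕ) (i : X.Qp.I) : Y.wt (Y.e (.inl (w, i))) = w := by simp [PD.wt]
lemma wt_r (w : ℕ) (i : X.Qm.I) : Y.wt (Y.e (.inr (w, i))) = -1 - w := by simp [PD.wt]

lemma cj_d {q : k} (hq : q ≠ 0) : Y.cj q Y.P.d = Y.P.d := by
  classical
  refine ch_ext fun i j => ?_
  rw [cj_apply]
  let T : (Y.P.I →₀ E) →+ E := ((q ^ (Y.wt j - Y.wt i)) • σL q).toAddMonoidHom.comp (Finsupp.applyAddHom j)
  have hT : ∀ x : Y.P.I →₀ E, T x = q ^ (Y.wt j - Y.wt i) • σ q (x j) := fun _ => rfl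
  have a1 : ∀ l (b : B), Y.wt l = Y.wt i → T (single l (inl b)) = (single l (inl b : E)) j := by
    intro l b hl
    rw [hT]
    by_cases c : l = j
    · subst c; rw [single_eq_same, hl, sub_self, zpow_zero, one_smul, σ_inl]
    · rw [single_eq_of_ne (Ne.symm c), σ_zero, smul_zero]
  have a2 : ∀ l (b : B), Y.wt l = Y.wt i - 1 → T (single l (inr b)) = (single l (inr b : E)) j := by
    intro l b hl
    rw [hT]
    by_cases c : l = j
    · subst c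
      rw [single_eq_same, hl, show Y.wt i - 1 - Y.wt i = -1 by ring]
      ext <;> simp [σ, smul_smul, hq]
    · rw [single_eq_of_ne (Ne.symm c), σ_zero, smul_zero]
  rw [← hT]
  obtain ⟨x, rfl⟩ := Y.e.surjective i
  rcases x with ⟨_ | w, i⟩ | ⟨w, i⟩
  · rw [Y.d_l0, map_add, map_finsuppSum, map_finsuppSum, Finsupp.add_apply, Finsupp.sum_apply,
      Finsupp.sum_apply]
    congr 1
    · exact Finsupp.sum_congr fun l _ => a1 _ _ (by rw [wt_l, wt_l])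
    · exact Finsupp.sum_congr fun l _ => a2 _ _ (by rw [wt_l, wt_r]; simp)
  · rw [Y.d_l, map_add, map_finsuppSum, Finsupp.add_apply, Finsupp.sum_apply]
    congr 1
    · exact Finsupp.sum_congr fun l _ => a1 _ _ (by rw [wt_l, wt_l])
    · exact a2 _ _ (by rw [wt_l, wt_l]; push_cast; ring)
  · rw [Y.d_r, map_add, map_finsuppSum, Finsupp.add_apply, Finsupp.sum_apply]
    congr 1
    · exact Finsupp.sum_congr fun l _ => a1 _ _ (by rw [wt_r, wt_r])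
    · exact a2 _ _ (by rw [wt_r, wt_r]; push_cast; ring)

lemma g1_apply (h : FStmt X) (x : Y.P.I →₀ E) (j : Y.P.I) : g1 Y h x j = x j • Y.P.ε j • κ1 X h :=
  diag_apply _ _ _
lemma g2_apply (h : FStmt X) (q : k) (x : Y.P.I →₀ E) (j : Y.P.I) :
    g2 Y h q x j = x j • (q ^ (-Y.wt j) • Y.P.ε j) • κ2 X h q := diag_apply _ _ _

lemma c1 (h : FStmt X) (n : ℤ) (u : Ch Y.P Y.P E) (hu : IsC Y.P Y.P E n u) :
    g1 Y h ∘ₗ u = tens (DD k B) u ∘ₗ g1 Y h := ch_ext fun i j => by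
  rw [LinearMap.comp_apply, g1_apply, LinearMap.comp_apply, g1, Finsupp.linearCombination_single, one_smul,
    tens_single, ← smul_comm (Y.P.ε i), κ1_op, smul_smul, smul_smul]
  congr 1
  exact (hu i j).2.2.trans (hu i j).2.1.symm

lemma c2 (h : FStmt X) {q : k} (hq : q ≠ 0) (n : ℤ) (u : Ch Y.P Y.P E) (hu : IsC Y.P Y.P E n u) :
    g2 Y h q ∘ₗ Y.cj q u = tens (DD k B) u ∘ₗ g2 Y h q := ch_ext fun i j => by
  rw [LinearMap.comp_apply, g2_apply, LinearMap.comp_apply, g2, Finsupp.linearCombination_single, one_smul,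
    tens_single, ← smul_comm (q ^ (-Y.wt i) • Y.P.ε i), κ2_op h hq, smul_smul, smul_smul, cj_apply]
  congr 1
  have e1 : u (single i 1) j * Y.P.ε j = u (single i 1) j := (hu i j).2.2
  have e2 : Y.P.ε i * u (single i 1) j = u (single i 1) j := (hu i j).2.1
  rw [smul_mul_smul_comm, smul_mul_assoc, ← zpow_add₀ hq, ← σ_ε Y q j, ← σ_mul, e1, ← σ_ε Y q i, ← σ_mul, e2]
  congr 2; ring

end

end Crest.Agent.H6.Tk.A
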