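import Crest.Agent.H6.TkG

/-! Row 186: assembly of the core. -/

set_option autoImplicit false
set_option linter.unusedSectionVars false

noncomputable section
namespace Crest.Agent.H6.Tk.A
open MulOpposite Finsupp

section
variable {k B : Type} [Field k] [CharP k 2] [Ring B] [Algebra k B] {m : ℕ} {X : BD k B m}
open TrivSqZeroExt
local notation "E" => DualNumber B

lemma two_eq (k R : Type) [Field k] [CharP k 2] [Ring R] [Algebra k R] : (2 : R) = 0 := by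
  have : (2 : k) = 0 := CharTwo.two_eq_zero
  rw [← map_ofNat (algebraMap k R) 2, this, map_zero]

variable (Y : PD X) (h : FStmt X) {q : k} (hq : q ≠ 0)

lemma isC_g1 : IsC Y.P Y.P (DD k B) 0 (g1 Y h) := fun i j => by
  classical
  rw [g1_apply]
  by_cases c : i = j
  · subst c
    rw [single_eq_same, one_smul]
    refine ⟨fun e => absurd (add_zero _).symm e, by rw [smul_smul, Y.P.idem], ?_⟩
    rw [← smul_comm, κ1_op, smul_smul, Y.P.idem]
  · rw [single_eq_of_ne (Ne.symm c)]; simp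

include hq in
lemma isC_g2 : IsC Y.P Y.P (DD k B) 0 (g2 Y h q) := fun i j => by
  classical
  rw [g2_apply]
  by_cases c : i = j
  · subst c
    rw [single_eq_same, one_smul]
    refine ⟨fun e => absurd (add_zero _).symm e, by rw [smul_smul, mul_smul_comm, Y.P.idem], ?_⟩
    rw [← smul_comm, κ2_op h hq, smul_smul, σ_ε, smul_mul_assoc, Y.P.idem]
  · rw [single_eq_of_ne (Ne.symm c)]; simp

lemma cy1 : Cy Y.P Y.P (DD k B) 0 (g1 Y h) :=
  ⟨isC_g1 Y h, by rw [δ, c1 Y h 1 _ Y.P.d_isM, two (two_eq k E)]⟩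

include hq in
lemma cy2 : Cy Y.P Y.P (DD k B) 0 (g2 Y h q) :=
  ⟨isC_g2 Y h hq, by
    have := c2 Y h hq 1 _ Y.P.d_isM
    rw [cj_d Y hq] at this
    rw [δ, this, two (two_eq k E)]⟩

lemma g_entry {P0 : Cx E} {n : ℤ} {u v : Ch P0 Y.P E} (hu : IsC P0 Y.P E n u) (hv : IsC P0 Y.P E n v)
    (i : P0.I) (j : Y.P.I) : (g1 Y h ∘ₗ u + g2 Y h q ∘ₗ v) (single i 1) j =
      jj h q (u (single i 1) j, q ^ (-Y.wt j) • v (single i 1) j) := by
  have e1 : u (single i 1) j * Y.P.ε j = u (single i 1) j := (hu i j).2.2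
  have e2 : v (single i 1) j * Y.P.ε j = v (single i 1) j := (hv i j).2.2
  rw [LinearMap.add_apply, Finsupp.add_apply, LinearMap.comp_apply, LinearMap.comp_apply, g1_apply, g2_apply,
    jj_apply, smul_smul, smul_smul, mul_smul_comm, e1, e2]

include hq in
lemma uniq {P0 : Cx E} (n : ℤ) (u v : Ch P0 Y.P E) (hu : IsC P0 Y.P E n u) (hv : IsC P0 Y.P E n v)
    (e : g1 Y h ∘ₗ u + g2 Y h q ∘ₗ v = 0) : u = 0 ∧ v = 0 := by
  have key : ∀ i j, (u (single i 1) j, q ^ (-Y.wt j) • v (single i 1) j) = 0 := fun i j =>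
    jj_inj h hq (by rw [← g_entry Y h hu hv, e, map_zero]; rfl)
  refine ⟨ch_ext fun i j => congrArg Prod.fst (key i j), ch_ext fun i j => ?_⟩
  have : q ^ (-Y.wt j) • v (single i 1) j = 0 := congrArg Prod.snd (key i j)
  exact (smul_eq_zero.1 this).resolve_left (zpow_ne_zero _ hq)

lemma ex {P0 : Cx E} (n : ℤ) (Φ : Ch P0 Y.P (DD k B)) (hΦ : IsC P0 Y.P (DD k B) n Φ)
    (e : mc (N0 h hq).mkQ Φ = 0) :
    ∃ u v, IsC P0 Y.P E n u ∧ IsC P0 Y.P E n v ∧ Φ = g1 Y h ∘ₗ u + g2 Y h q ∘ₗ v := by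
  classical
  have : ∀ i j, ∃ x, jj h q x = Φ (single i 1) j := fun i j =>
    ((N0 h hq).mkQ_eq_zero _).1 (by rw [← mc_apply, e]; rfl)
  choose x hx using this
  have x0 : ∀ i j, Φ (single i 1) j = 0 → x i j = 0 := fun i j c => jj_inj h hq (by rw [hx, c, map_zero])
  have xl : ∀ i j, P0.ε i • x i j = x i j := fun i j => jj_inj h hq (by rw [map_smul, hx, (hΦ i j).2.1])
  have xr : ∀ i j, ((x i j).1 * Y.P.ε j, (x i j).2 * Y.P.ε j) = x i j := fun i j => jj_inj h hq (by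
    rw [hx, ← (hΦ i j).2.2, ← hx]
    obtain ⟨a, b⟩ := x i j
    rw [jj_apply, jj_apply, smul_add, ← smul_comm a, ← smul_comm b, κ1_op, κ2_op h hq, σ_ε, mul_smul,
      mul_smul])
  let u : Ch P0 Y.P E := Finsupp.linearCombination E fun i =>
    Finsupp.onFinset (Φ (single i 1)).support (fun j => (x i j).1) fun j hj => by
      rw [mem_support_iff]; intro c; exact hj (by rw [x0 i j c]; rfl)
  let v : Ch P0 Y.P E := Finsupp.linearCombination E fun i =>
    Finsupp.onFinset (Φ (single i 1)).support (fun j => q ^ (Y.wt j) • (x i j).2) fun j hj => by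
      rw [mem_support_iff]; intro c; exact hj (by rw [x0 i j c]; simp)
  have ue : ∀ i j, u (single i 1) j = (x i j).1 := fun i j => by simp [u]
  have ve : ∀ i j, v (single i 1) j = q ^ (Y.wt j) • (x i j).2 := fun i j => by simp [v]
  have hu : IsC P0 Y.P E n u := fun i j => by
    rw [ue]
    exact ⟨fun c => by rw [x0 i j ((hΦ i j).1 c)]; rfl, congrArg Prod.fst (xl i j), congrArg Prod.fst (xr i j)⟩
  have hv : IsC P0 Y.P E n v := fun i j => by
    rw [ve]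
    refine ⟨fun c => by rw [x0 i j ((hΦ i j).1 c)]; simp, ?_, ?_⟩
    · have : P0.ε i * (x i j).2 = (x i j).2 := congrArg Prod.snd (xl i j)
      rw [smul_eq_mul, mul_smul_comm, this]
    · have : (x i j).2 * Y.P.ε j = (x i j).2 := congrArg Prod.snd (xr i j)
      rw [op_smul_eq_mul, smul_mul_assoc, this]
  refine ⟨u, v, hu, hv, ch_ext fun i j => ?_⟩
  rw [g_entry Y h hu hv, ue, ve, smul_smul, ← zpow_add₀ hq, neg_add_cancel, zpow_zero, one_smul, hx]

lemma θg {P0 : Cx E} {n : ℤ} {u v : Ch P0 Y.P E} (hu : IsC P0 Y.P E n u) (hv : IsC P0 Y.P E n v) :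
    mc (N0 h hq).mkQ (g1 Y h ∘ₗ u + g2 Y h q ∘ₗ v) = 0 := ch_ext fun i j => by
  rw [mc_apply, g_entry Y h hu hv]
  exact ((N0 h hq).mkQ_eq_zero _).2 ⟨_, rfl⟩

include hq in
lemma isC_g {P0 : Cx E} {n : ℤ} {u v : Ch P0 Y.P E} (hu : IsC P0 Y.P E n u) (hv : IsC P0 Y.P E n v) :
    IsC P0 Y.P (DD k B) n (g1 Y h ∘ₗ u + g2 Y h q ∘ₗ v) := fun i j => by
  rw [g_entry Y h hu hv]
  obtain ⟨a, b, c⟩ := hu i j
  obtain ⟨a', b', c'⟩ := hv i j
  refine ⟨fun e => by rw [a e, a' e, smul_zero]; exact map_zero _, ?_, ?_⟩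
  · rw [← map_smul, Prod.smul_mk, b, smul_comm, b']
  · rw [op_smul_eq_mul] at c c'
    rw [jj_apply, smul_add, ← smul_comm (u (single i 1) j), ← smul_comm (q ^ (-Y.wt j) • v (single i 1) j),
      κ1_op, κ2_op h hq, σ_ε, smul_smul, smul_smul, smul_mul_assoc, c, c']

lemma row_N (hr : Row Y.P E) : Row Y.P (N0 h hq).Sub := fun n Φ hΦ => by
  have h2 := two_eq k E
  have s := se_sub (N0 h hq)
  obtain ⟨u, v, hu, hv, e⟩ := ex Y h hq n _ (isC_mc s.hι hΦ.1) (s.mz Φ)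
  have e1 : g1 Y h ∘ₗ δ _ _ E u + g2 Y h q ∘ₗ δ _ _ E v = 0 := by
    rw [← δ_comp (cy1 Y h).2 h2, ← δ_comp (cy2 Y h hq).2 h2, ← δ_add, ← e, δ_mc s.hι, hΦ.2, mc_zero]
  obtain ⟨z1, z2⟩ := uniq Y h hq _ _ _ (isC_δ hu) (isC_δ hv) e1
  obtain ⟨u', hu', rfl⟩ := hr n u ⟨hu, z1⟩
  obtain ⟨v', hv', rfl⟩ := hr n v ⟨hv, z2⟩
  obtain ⟨Θ, hΘ, e2⟩ := s.lift (isC_g Y h hq hu' hv') (θg Y h hq hu' hv')
  refine ⟨Θ, hΘ, mc_inj s.inj ?_⟩
  rw [← δ_mc s.hι, e2, e, δ_add, δ_comp (cy1 Y h).2 h2, δ_comp (cy2 Y h hq).2 h2]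

lemma col_N (hc : Col Y.P E) : Col Y.P (N0 h hq).Sub := fun n => by
  let e : (E × E) ≃ₗ[E] (N0 h hq).Sub := LinearEquiv.ofInjective (jj h q) (jj_inj h hq)
  exact col_equiv e (van_prod (two_eq k E) (hc n) (hc n))

/-- `D → Om × Om × Om → Om / K` -/
lemma se_D : SE (LinearMap.prodMap (KK k B).val (LinearMap.id : (Om k E × Om k E) →ₗ[E] _))
    ((KK k B).mkQ ∘ₗ LinearMap.fst E (Om k E) (Om k E × Om k E)) where
  hι a x := rfl
  hπ a x := rfl
  inj := fun x y e => Prod.ext ((KK k B).val_inj (congrArg Prod.fst e)) (by simpa using congrArg Prod.snd e)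
  sur := (KK k B).mkQ_surj.comp LinearMap.fst_surjective
  ex w c := ⟨((KK k B).mk' w.1 (((KK k B).mkQ_eq_zero _).1 c), w.2), rfl⟩
  z v := ((KK k B).mkQ_eq_zero _).2 ((KK k B).val_mem v.1)

end

section
variable {k B : Type} [Field k] [CharP k 2] [Ring B] [Algebra k B] {X : BD k B 4}
local notation "E" => DualNumber B

def gd (Y : PD X) (h : FStmt X) {q : k} (hq : q ≠ 0) (hr : Row Y.P E) (hc : Col Y.P E)
    (hO : ∀ P P' : Cx E, Row P E ∨ Row P' E → ∀ n, Van P P' (Om k E) n)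
    (hne : ¬ Bd Y.P Y.P (DD k B) 0 (g1 Y h)) (hho : Bd Y.P Y.P (DD k B) 0 (g1 Y h + g2 Y h q))
    (hQr : Row Y.P (KK k B).Quo) (hQc : Col Y.P (KK k B).Quo) (hQ : Two k Y.P (KK k B).Quo 4) :
    GD k Y.P (Y.cj q) (DD k B) (N0 h hq).Quo where
  θ := (N0 h hq).mkQ
  θ_op := (N0 h hq).mkQ_op
  θ_surj := (N0 h hq).mkQ_surj
  g1 := g1 Y h
  g2 := g2 Y h q
  cy1 := cy1 Y h
  cy2 := cy2 Y h hq
  θ1 := ch_ext fun i j => by
    rw [mc_apply, g1_apply, smul_smul]
    exact ((N0 h hq).mkQ_eq_zero _).2 ⟨((single i (1 : E)) j * Y.P.ε j, 0), by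
      rw [jj_apply, zero_smul, add_zero]⟩
  θ2 := ch_ext fun i j => by
    rw [mc_apply, g2_apply, smul_smul]
    exact ((N0 h hq).mkQ_eq_zero _).2 ⟨(0, (single i (1 : E)) j * (q ^ (-Y.wt j) • Y.P.ε j)), by
      rw [jj_apply, zero_smul, zero_add]⟩
  c1 := c1 Y h
  c2 := c2 Y h hq
  ex := ex Y h hq
  uniq := uniq Y h hq
  hom := hho
  ne := hne
  van n h0 h2 h3 := by
    have t := two_eq k E
    have o := hO Y.P Y.P (.inl hr) n
    exact se_D.vanA t (van_prod t o (van_prod t o o)) (hQ.1 _ (by omega) (by push_cast; omega))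
  zero Φ hΦ := by
    have t := two_eq k E
    have o := hO Y.P Y.P (.inl hr) 0
    have o3 := van_prod t o (van_prod t o o)
    have s := se_D (k := k) (B := B)
    obtain ⟨ω, hω, hω'⟩ := hQ.2
    obtain ⟨Ψ, hΨ, e⟩ := o3 _ (cy_mc s.hι hΦ)
    obtain ⟨Ψ1, hΨ1, e1⟩ := o3 _ (cy_mc s.hι (cy1 Y h))
    obtain ⟨a, ha⟩ := hω' _ ⟨isC_mc s.hπ hΨ, by rw [δ_mc s.hπ, e, s.mz]⟩
    obtain ⟨a1, ha1⟩ := hω' _ ⟨isC_mc s.hπ hΨ1, by rw [δ_mc s.hπ, e1, s.mz]⟩
    have a0 : a1 ≠ 0 := by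
      rintro rfl
      rw [zero_smul, LinearMap.comp_zero, add_zero] at ha1
      exact hne (bd_of_conn t s.hι s.hπ s.inj s.sur s.ex hΨ1 e1 ha1)
    refine ⟨a1⁻¹ * a, bd_of_conn t s.hι s.hπ s.inj s.sur s.ex (isC_add hΨ (isC_sc (a1⁻¹ * a) hΨ1)) ?_ ?_⟩
    · rw [δ_add, δ_sc, e, e1, mc_add]; rfl
    · have := bd_add ha (bd_sc (a1⁻¹ * a) ha1)
      rw [LinearMap.add_comp, sc_sc, mul_inv_cancel_left₀ a0, add_add_add_comm, two t, add_zero] at this
      rw [mc_add]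
      exact this
  row n := by
    have t := two_eq k E
    have o := hO (pt E) Y.P (.inr hr) n
    exact (se_sub (N0 h hq)).vanB t (row_N Y h hq hr _)
      (se_D.vanA t (van_prod t o (van_prod t o o)) (hQr _))
  col n := by
    have t := two_eq k E
    have o := hO Y.P (pt E) (.inl hr) n
    exact (se_sub (N0 h hq)).vanB t (col_N Y h hq hc _)
      (se_D.vanA t (van_prod t o (van_prod t o o)) (hQc _))

lemma fin_F (h : FStmt X) {q : k} (hq : q ≠ 0) : Module.Finite E (N0 h hq).Quo := by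
  haveI := X.fd
  haveI : FiniteDimensional k E := inferInstanceAs (FiniteDimensional k (B × B))
  letI : Module k (Om k E) := inferInstanceAs (Module k (E →ₗ[k] E))
  haveI : Module.Finite k (Om k E) := inferInstanceAs (Module.Finite k (E →ₗ[k] E))
  haveI : IsScalarTower k E (Om k E) := ⟨fun c a φ => by
    ext1 x
    change Om.toL φ (x * (c • a)) = c • Om.toL φ (x * a)
    rw [mul_smul_comm, map_smul]⟩
  haveI : IsNoetherian E (Om k E) := isNoetherian_of_tower k inferInstance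
  haveI : Module.Finite E (KK k B).Sub := inferInstanceAs (Module.Finite E (KK k B).N)
  exact Module.Finite.of_surjective _ (N0 h hq).mkQ_surj

lemma central (h : FStmt X) {q : k} (hq : q ≠ 0) (c : k) (x : (N0 h hq).Quo) :
    op (algebraMap k E c) • x = algebraMap k E c • x := by
  obtain ⟨y, rfl⟩ := (N0 h hq).mkQ_surj x
  have o : ∀ φ : Om k E, op (algebraMap k E c) • φ = algebraMap k E c • φ := fun φ => by
    ext1 x
    rw [Om.op_apply, Om.smul_apply, unop_op, ← Algebra.commutes, ← Algebra.commutes, ← Algebra.smul_def,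
      ← Algebra.smul_def, map_smul]
  rw [← SubBi.mkQ_op, ← map_smul]
  congr 1
  exact Prod.ext ((KK k B).val_inj (o _)) (Prod.ext (o _) (o _))
end

theorem core (hC : CStmt) (hT : TensStmt) (h4 : FourStmt) (hP : PStmt) (hTw : TwStmt) (hG : GlueStmt)
    (hO : OmStmt) (hTr : TrStmt) (hHo : HoStmt) (hQR : QRStmt) (hQ : QStmt)
    (k : Type) [Field k] [CharP k 2] (q : k) (hq : q ≠ 0) (hq' : ∀ n : ℕ, 0 < n → q ^ n ≠ 1) : Core k := by
  obtain ⟨C, _, _, XC, π, hπ, hN, hxy⟩ := hC k q hq hq'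
  obtain ⟨X⟩ : Nonempty (BD k (TensorProduct k C C) 4) := hT k C C 2 2 XC XC
  obtain ⟨Y, hr, hc⟩ := hP k _ 4 X
  obtain ⟨h, hne⟩ := hTr k q hq _ 4 X
  haveI := X.fd
  haveI : FiniteDimensional k (DualNumber (TensorProduct k C C)) :=
    inferInstanceAs (FiniteDimensional k (TensorProduct k C C × TensorProduct k C C))
  obtain ⟨hQr, hQc⟩ := hQR k _ 4 X Y hr hc
  letI : Module k (N0 h hq).Quo := Module.compHom _ (algebraMap k (DualNumber (TensorProduct k C C)))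
  have sm : ∀ (c : k) (x : (N0 h hq).Quo), c • x = algebraMap k (DualNumber (TensorProduct k C C)) c • x :=
    fun _ _ => rfl
  haveI : IsScalarTower k (DualNumber (TensorProduct k C C)) (N0 h hq).Quo :=
    ⟨fun c a x => by rw [sm, Algebra.smul_def, mul_smul]⟩
  haveI : IsScalarTower k (DualNumber (TensorProduct k C C))ᵐᵒᵖ (N0 h hq).Quo :=
    ⟨fun c a x => by rw [sm, ← central, Algebra.smul_def, mul_smul]; rfl⟩
  haveI := fin_F h hq
  haveI : FiniteDimensional k (N0 h hq).Quo := Module.Finite.trans (DualNumber (TensorProduct k C C)) _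
  exact hG k _ Y.P (Y.cj q) _ _ (h4 k C π hπ hN hxy) hr hc (hTw k q hq hq' _ 4 X Y)
    (gd Y h hq hr hc (hO k _) (hne Y hr) (hHo k q hq _ 4 X h Y hr) hQr hQc (hQ k _ 4 (by norm_num) X Y hr hc))

end Crest.Agent.H6.Tk.A
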